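import Vale.Agent.P097.H845.RegD3
import Vale.Agent.P097.H456.Fct.F1

/-!
# P097, row RegD
-/

open Set Filter Topology
open Vale.Agent.P097.H202 Vale.Agent.P097.TA

namespace Vale.Agent.P097.H845

noncomputable section

open RD in
/-- local data of a table at a real point -/
theorem loc_of {h : ℝ → ℝ} {κ ρ Λ L : ℝ} {H HH lam Φ : ℂ → ℂ} {l φ : ℝ → ℝ}
    {r e : ℝ} {α p : ℂ → ℂ → ℂ} {J : ℂ → ℂ} (T : LD h κ ρ Λ L H HH lam Φ l φ)
    (ln : Lines κ Λ H Φ r e α p J) (s : ℝ) :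
    Loc Φ H ((Λ : ℂ) ^ 3) J (fun u => α u.1 u.2) (fun u => p u.1 u.2) s := by
  have hΛ : (Λ : ℂ) ≠ 0 := by exact_mod_cast T.Λ0.ne'
  have hs : (s : ℂ) ∈ Str ρ := by simpa [Str] using T.ρ0
  have hsρ : ∀ᶠ z in 𝓝 (s : ℂ), z ∈ Str ρ := (isOpen_Str ρ).mem_nhds hs
  have hmem : ((s : ℂ), (0 : ℂ)) ∈ WW 0 r e := H456.Fct.real_mem ln s 0
  have hmem' : ((s : ℂ), (0 : ℂ)) ∈ WW (1 / 2) r e := H456.Fct.real_mem ln s _
  have hev : ∀ᶠ u in 𝓝 ((s : ℂ), (0 : ℂ)), u ∈ WW 0 r e :=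
    (H456.Fct.isOpen_WW' 0 r e).mem_nhds hmem
  have hev' : ∀ᶠ u in 𝓝 ((s : ℂ), (0 : ℂ)), u ∈ WW (1 / 2) r e :=
    (H456.Fct.isOpen_WW' _ r e).mem_nhds hmem'
  have hΦκ : ∀ z ∈ Str ρ, Φ z ∈ Str κ := fun z hz => T.Φm' hz
  have haH : ∀ z ∈ Str κ, AnalyticAt ℂ H z := fun z hz =>
    T.dH.analyticAt ((isOpen_Str κ).mem_nhds hz)
  have haα : ∀ u ∈ WW 0 r e, AnalyticAt ℂ (fun u : ℂ × ℂ => α u.1 u.2) u := fun u hu =>
    H456.Fct.an_of_JD ln.jα hu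
  have hap : ∀ u ∈ WW 0 r e, AnalyticAt ℂ (fun u : ℂ × ℂ => p u.1 u.2) u := fun u hu =>
    H456.Fct.an_of_JD ln.jp hu
  refine ⟨pow_ne_zero 3 hΛ, ?_, ?_, haH _ (hΦκ _ hs), ?_, haα _ hmem, hap _ hmem, ?_, ?_, ?_, ?_, ?_⟩
  · exact T.dΦ'.analyticAt ((isOpen_Str ρ).mem_nhds hs)
  · rw [(T.dΦ _ hs).deriv]
    exact div_ne_zero hΛ (T.lam0 _ (hΦκ _ hs))
  · filter_upwards [hsρ] with z hz
    rw [← T.lam3 _ (hΦκ _ hz), (T.dΦ _ hz).deriv]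
    have := T.lam0 _ (hΦκ _ hz)
    field_simp
  · have h1 : ∀ᶠ z in 𝓝 (s : ℂ), |z.im| < r := by
      have h2 : IsOpen {z : ℂ | |z.im| < r} := isOpen_lt (by fun_prop) continuous_const
      exact h2.mem_nhds (by simpa using ln.hr)
    filter_upwards [h1] with z hz
    exact ln.αzero z hz
  · filter_upwards [hev] with u hu
    exact ln.αev u.1 u.2 hu
  · filter_upwards [hev'] with u hu
    have h1 := ln.sum u.1 u.2 hu
    unfold ps dl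
    exact h1
  · filter_upwards [hev'] with u hu
    have h1 := ln.diff u.1 u.2 hu
    unfold ps dl
    exact h1
  · filter_upwards [hev] with u hu
    rw [← ln.brk u.1 u.2 hu]
    unfold br dx de
    have e1 := (fderiv_fst (haα u hu)).deriv
    have e2 := (fderiv_snd (haα u hu)).deriv
    have e3 := (fderiv_fst (hap u hu)).deriv
    have e4 := (fderiv_snd (hap u hu)).deriv
    rw [← e1, ← e2, ← e3, ← e4]

/-- **Row RegD.** -/
theorem regD : SC.RegD := by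
  intro hA h κ ρ Λ L H HH lam Φ l φ r e α p J T ln s
  exact ⟨(loc_of T ln s).crv, (loc_of T ln s).sol hA⟩

end

end Vale.Agent.P097.H845
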