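import Vale.Agent.P097.H845.Rg6

/-!
# P097, row F5b: the closed word cannot be deformed with pairwise different displacements
-/

open Set Filter Topology
open Vale.Agent.P097.H456 Vale.Agent.P097.H202 Vale.Agent.P097.TA

namespace Vale.Agent.P097.H845.R

noncomputable section

attribute [local fun_prop] analyticAt_fst analyticAt_snd

variable {κ Λ : ℝ} {H Φ : ℂ → ℂ} {r e : ℝ} {α p : ℂ → ℂ → ℂ} {J : ℂ → ℂ} {N n : ℕ} {t1 : ℂ}
  {r1 : ℝ}

/-- the natural letters are glancing, without shift -/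
lemma nat_gl (nb : Fct.NBox H r e α p N n t1 r1) : ∀ j < n, ∃ D : ℂ × ℂ → ℂ,
    AnalyticOnNhd ℂ D (Fct.Box t1 r1) ∧ (∀ u ∈ Fct.Box t1 r1, D u ≠ 0) ∧
    ∀ u ∈ Fct.Box t1 r1, Fct.nat α N (j + 1) u - Fct.nat α N j u = 2 * u.2 ^ N * D u := by
  intro j hj
  have hN : N ≠ 0 := Nat.one_le_iff_ne_zero.1 nb.N1
  have h0 := Fct.mem_Box0 (t := t1) nb.pos
  rcases nb.sw.kind j hj with h | ⟨k, D, hD, hD0, hDu⟩
  · exfalso
    apply h _ h0
    rw [Fct.nat_zero nb.N1, Fct.nat_zero nb.N1, sub_self, zero_div, Complex.sin_zero]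
  · refine ⟨D, hD, hD0, fun u hu => ?_⟩
    have h1 := hDu _ h0
    rw [Fct.nat_zero nb.N1, Fct.nat_zero nb.N1] at h1
    simp only [zero_pow hN, mul_zero, zero_mul, add_zero, sub_self] at h1
    rw [hDu u hu, ← h1, zero_add]

lemma α_mem (nb : Fct.NBox H r e α p N n t1 r1) {t : ℂ} (ht : t ∈ Metric.ball t1 r1) :
    (t, (0 : ℂ)) ∈ WW 0 r e := by
  have hN : N ≠ 0 := Nat.one_le_iff_ne_zero.1 nb.N1
  have := nb.mem (t, 0) ⟨ht, Metric.mem_ball_self nb.pos⟩ 0 (Nat.zero_le _)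
  simpa [zero_pow hN] using this

lemma α_an (T : Fct.Ctx κ Λ H Φ r e α p J) (nb : Fct.NBox H r e α p N n t1 r1) {t : ℂ}
    (ht : t ∈ Metric.ball t1 r1) : AnalyticAt ℂ (fun x : ℂ × ℂ => α x.1 x.2) (t, 0) :=
  Fct.an_of_JD T.ln.jα (α_mem nb ht)

lemma α0_an (T : Fct.Ctx κ Λ H Φ r e α p J) (nb : Fct.NBox H r e α p N n t1 r1) {t : ℂ}
    (ht : t ∈ Metric.ball t1 r1) : AnalyticAt ℂ (fun t => α t 0) t :=
  AnalyticAt.comp (g := fun x : ℂ × ℂ => α x.1 x.2) (f := fun t : ℂ => (t, (0 : ℂ)))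
    (α_an T nb ht) (by fun_prop)

lemma α0_deriv (nb : Fct.NBox H r e α p N n t1 r1) (hn : 0 < n) {t : ℂ}
    (ht : t ∈ Metric.ball t1 r1) : deriv (fun t => α t 0) t ≠ 0 := by
  have h1 := nb.sw.vt 0 hn (t, 0) ⟨ht, Metric.mem_ball_self nb.pos⟩
  simp only [Fct.mid_zero nb.N1] at h1
  exact h1

lemma disp_an {G : ℂ × ℂ → ℂ} {z : ℂ} (h : AnalyticAt ℂ G (z, 0)) :
    AnalyticAt ℂ (Fct.disp G) z := by
  have h1 : AnalyticAt ℂ (fun y : ℂ × ℂ => fderiv ℂ G y (0, 1)) (z, 0) :=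
    ((ContinuousLinearMap.apply ℂ ℂ ((0 : ℂ), (1 : ℂ))).analyticAt _).comp h.fderiv
  have h2 : AnalyticAt ℂ (fun z : ℂ => fderiv ℂ G (z, 0) (0, 1)) z :=
    AnalyticAt.comp (g := fun y : ℂ × ℂ => fderiv ℂ G y (0, 1)) (f := fun z : ℂ => (z, (0 : ℂ))) h1
      (by fun_prop)
  refine h2.congr ?_
  filter_upwards [(tendsto_pair z).eventually h.eventually_analyticAt] with y hy
  have h3 : HasDerivAt (fun ε : ℂ => (y, ε)) ((0 : ℂ), (1 : ℂ)) 0 :=
    (hasDerivAt_const _ _).prodMk (hasDerivAt_id _)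
  have h4 : HasDerivAt (fun ε : ℂ => G (y, ε)) (fderiv ℂ G (y, 0) (0, 1)) 0 :=
    HasFDerivAt.comp_hasDerivAt (f := fun ε : ℂ => (y, ε)) (0 : ℂ)
      hy.differentiableAt.hasFDerivAt h3
  exact h4.deriv.symm

/-- derivative through `w = s ^ N` -/
lemma slope_pow (hN : N ≠ 0) {g D : ℂ → ℂ} {c : ℂ} (hg : HasDerivAt g c 0) (hg0 : g 0 = 0)
    (hD : ContinuousAt D 0) (h : ∀ᶠ s in 𝓝 (0 : ℂ), g (s ^ N) = 2 * s ^ N * D s) :
    D 0 = c / 2 := by
  have h1 := hasDerivAt_iff_tendsto_slope_zero.1 hg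
  simp only [zero_add, hg0, sub_zero, smul_eq_mul] at h1
  have h2 : Tendsto (fun s : ℂ => (s ^ N)⁻¹ * g (s ^ N)) (𝓝[≠] 0) (𝓝 c) :=
    h1.comp (tendsto_pow' hN)
  have h3 : Tendsto (fun s => 2 * D s) (𝓝[≠] (0 : ℂ)) (𝓝 (2 * D 0)) :=
    (hD.tendsto.const_mul 2).mono_left nhdsWithin_le_nhds
  have h4 : ∀ᶠ s in 𝓝[≠] (0 : ℂ), (s ^ N)⁻¹ * g (s ^ N) = 2 * D s := by
    rw [eventually_nhdsWithin_iff]
    filter_upwards [h] with s hs hs0
    have : s ^ N ≠ 0 := pow_ne_zero N hs0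
    rw [hs]
    field_simp
  have h5 := tendsto_nhds_unique_of_eventuallyEq h2 h3 h4
  rw [h5]
  ring

/-- first coefficient of the natural turning angles -/
lemma nat_D (T : Fct.Ctx κ Λ H Φ r e α p J) (nb : Fct.NBox H r e α p N n t1 r1) {t : ℂ}
    (ht : t ∈ Metric.ball t1 r1) {j : ℕ} {D : ℂ → ℂ} (hD : ContinuousAt D 0)
    (h : ∀ᶠ s in 𝓝 (0 : ℂ), Fct.nat α N (j + 1) (t, s) - Fct.nat α N j (t, s) =
      2 * s ^ N * D s) : D 0 = deriv (fun t => α t 0) t / 2 := by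
  have hN : N ≠ 0 := Nat.one_le_iff_ne_zero.1 nb.N1
  have hA := (α_an T nb ht).differentiableAt.hasFDerivAt
  set A := fderiv ℂ (fun x : ℂ × ℂ => α x.1 x.2) (t, 0) with hAdef
  have h1 : ∀ c : ℂ, HasDerivAt (fun w : ℂ => α (t + c * w) w) (A (c, 1)) 0 := by
    intro c
    have h2 : HasDerivAt (fun w : ℂ => (t + c * w, w)) (c, (1 : ℂ)) 0 := by
      refine HasDerivAt.prodMk ?_ (hasDerivAt_id _)
      simpa using ((hasDerivAt_id (0 : ℂ)).const_mul c).const_add t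
    have h5 : HasFDerivAt (fun x : ℂ × ℂ => α x.1 x.2) A (t + c * 0, 0) := by
      rw [mul_zero, add_zero]
      exact hA
    exact HasFDerivAt.comp_hasDerivAt (f := fun w : ℂ => (t + c * w, w)) (0 : ℂ) h5 h2
  have h3 : HasDerivAt (fun t => α t 0) (A (1, 0)) t := by
    have h4 : HasDerivAt (fun x : ℂ => (x, (0 : ℂ))) ((1 : ℂ), (0 : ℂ)) t :=
      (hasDerivAt_id _).prodMk (hasDerivAt_const _ _)
    exact hA.comp_hasDerivAt t h4
  rw [h3.deriv]
  refine slope_pow hN (g := fun w => α (t + ((j + 1 : ℕ) : ℂ) * w) w - α (t + (j : ℂ) * w) w)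
    ?_ ?_ hD ?_
  · refine ((h1 ((j + 1 : ℕ) : ℂ)).sub (h1 (j : ℂ))).congr_deriv ?_
    rw [← map_sub]
    congr 1
    ext
    · simp
    · simp
  · simp
  · filter_upwards [h] with s hs
    exact hs

/-- evenness -/
lemma α_even (T : Fct.Ctx κ Λ H Φ r e α p J) (nb : Fct.NBox H r e α p N n t1 r1) {t : ℂ}
    (ht : t ∈ Metric.ball t1 r1) : deriv (fun w => α t w) 0 = 0 := by
  have h1 : ∀ᶠ w in 𝓝 (0 : ℂ), (t, w) ∈ WW 0 r e :=
    (tendsto_pair' t 0).eventually ((Fct.isOpen_WW' 0 r e).mem_nhds (α_mem nb ht))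
  have h2 : (fun w => α t (-w)) =ᶠ[𝓝 (0 : ℂ)] fun w => α t w := by
    filter_upwards [h1] with w hw
    exact T.ln.αev t w hw
  have h3 := deriv_comp_neg (fun w => α t w) (0 : ℂ)
  rw [h2.deriv_eq, neg_zero] at h3
  linear_combination h3 / 2

lemma KK0 (kk : ℕ → ℤ) : KK kk 0 = 0 := by simp [KK]

end

end Vale.Agent.P097.H845.R

namespace Vale.Agent.P097.H845

open R

noncomputable section

attribute [local fun_prop] analyticAt_fst analyticAt_snd

/-- **Row F5b.** -/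
theorem f5b : Fct.F5b := by
  classical
  intro κ Λ H Φ r e α p J T N n M a q t1 r1 u2 G A Q G' A' Q' k nb st D D' cl hd
  have hN : N ≠ 0 := Nat.one_le_iff_ne_zero.1 nb.N1
  obtain ⟨i0, hi0, htv0⟩ := st.tv
  have hn : 0 < n := by omega
  have hpos := nb.pos
  have h00 : (0 : ℂ) ∈ Metric.ball (0 : ℂ) r1 := Metric.mem_ball_self hpos
  have hu21 : u2.1 ∈ Metric.ball (t1 : ℂ) r1 := D.mem.1
  have hu22 : u2.2 ∈ Metric.ball (0 : ℂ) r1 := D.mem.2
  -- the shifts of the second word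
  have hk : ∀ j, ∃ k : ℤ, j < n → ¬ Fct.Tv (Fct.Box t1 r1) (a j) (a (j + 1)) →
      ∃ D : ℂ × ℂ → ℂ, AnalyticOnNhd ℂ D (Fct.Box t1 r1) ∧ (∀ u ∈ Fct.Box t1 r1, D u ≠ 0) ∧
      ∀ u ∈ Fct.Box t1 r1, a (j + 1) u - a j u = 2 * Real.pi * k + 2 * u.2 ^ N * D u := by
    intro j
    by_cases h : j < n ∧ ¬ Fct.Tv (Fct.Box t1 r1) (a j) (a (j + 1))
    · rcases st.sw.kind j h.1 with h1 | ⟨k, hk⟩
      · exact absurd h1 h.2
      · exact ⟨k, fun _ _ => hk⟩
    · exact ⟨0, fun h1 h2 => absurd ⟨h1, h2⟩ h⟩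
  choose kk hkk using hk
  -- generic point
  have hgen : ∀ i < n, ∀ j < n, i ≠ j →
      ∀ᶠ t in 𝓝[≠] u2.1, Fct.disp (G i) (α t 0) ≠ Fct.disp (G j) (α t 0) := by
    intro i hi j hj hij
    have hda : ∀ i < n, ∀ t ∈ Metric.ball (t1 : ℂ) r1,
        AnalyticAt ℂ (fun t => Fct.disp (G i) (α t 0)) t := by
      intro i hi t ht
      refine AnalyticAt.comp (g := Fct.disp (G i)) (f := fun t => α t 0) (disp_an ?_) (α0_an T nb ht)
      have h1 := D.gA i hi (t, 0) ⟨ht, h00⟩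
      rwa [Fct.mid_zero nb.N1] at h1
    have hfa : AnalyticOnNhd ℂ (fun t => Fct.disp (G i) (α t 0) - Fct.disp (G j) (α t 0))
        (Metric.ball (t1 : ℂ) r1) := fun t ht => (hda i hi t ht).sub (hda j hj t ht)
    rcases (hfa _ hu21).eventually_eq_zero_or_eventually_ne_zero with h | h
    · exfalso
      have h1 := hfa.eqOn_zero_of_preconnected_of_eventuallyEq_zero
        (convex_ball _ _).isPreconnected hu21 h
      apply hd i hi j hj hij
      have ht1 : (t1 : ℂ) ∈ Metric.ball (t1 : ℂ) r1 := Metric.mem_ball_self hpos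
      have h2 : map (fun t => α t 0) (𝓝 (t1 : ℂ)) = 𝓝 (α t1 0) :=
        (α0_an T nb ht1).hasStrictDerivAt.map_nhds_eq (α0_deriv nb hn ht1)
      rw [← h2, eventually_map]
      filter_upwards [Metric.isOpen_ball.mem_nhds ht1] with t ht
      exact sub_eq_zero.1 (h1 ht)
    · filter_upwards [h] with t ht h2
      exact ht (sub_eq_zero.2 h2)
  have hgen' : ∀ᶠ t in 𝓝[≠] u2.1, ∀ i ∈ Finset.range n, ∀ j ∈ Finset.range n, i ≠ j →
      Fct.disp (G i) (α t 0) ≠ Fct.disp (G j) (α t 0) := by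
    refine (eventually_all_finset _).2 fun i hi => (eventually_all_finset _).2 fun j hj => ?_
    by_cases hij : i = j
    · exact Eventually.of_forall fun t h => absurd hij h
    · filter_upwards [hgen i (by simpa using hi) j (by simpa using hj) hij] with t ht _
      exact ht
  obtain ⟨t₀, c1, c2, c3, c4, c5⟩ := (hgen'.and (((Metric.isOpen_ball.eventually_mem hu21).filter_mono
    nhdsWithin_le_nhds).and (((gc_of nb.sw D fun _ => 0).filter_mono nhdsWithin_le_nhds).and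
    (((gc_of st.sw D' kk).filter_mono nhdsWithin_le_nhds).and
    (((base_tendsto u2).eventually cl.eventually_nhds).filter_mono
      nhdsWithin_le_nhds))))).exists
  have ht₀ : t₀ ∈ Metric.ball (t1 : ℂ) r1 := c2
  have hα0 : ∀ j, Fct.mid (Fct.nat α N j) (Fct.nat α N (j + 1)) (t₀, 0) = α t₀ 0 := fun j =>
    Fct.mid_zero nb.N1 _ _ _
  have W := word_of (gl := fun _ => True) (kk := fun _ => 0) hN nb.sw D.gA D.g0 hpos ht₀
    (fun j hj h => absurd trivial h) (fun j hj _ => by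
      obtain ⟨F, h1, h2, h3⟩ := nat_gl nb j hj
      refine ⟨F, h1, h2, fun u hu => ?_⟩
      rw [h3 u hu]
      simp)
  have W' := word_of (gl := fun j => ¬ Fct.Tv (Fct.Box t1 r1) (a j) (a (j + 1))) (kk := kk) hN
    st.sw D'.gA D'.g0 hpos ht₀ (fun j hj h => not_not.1 h) hkk
  rw [shG_zero] at W c3
  refine scale (a := fun w => α t₀ w) (p := fun w => p t₀ w) (s₂ := u2.2)
    (m₀ := 2 * Real.pi * k - 2 * Real.pi * KK kk n) (D₀ := deriv (fun t => α t 0) t₀ / 2)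
    hN Metric.isOpen_ball (convex_ball _ _).isPreconnected h00 hu22 W W' ?_
    (div_ne_zero (α0_deriv nb hn ht₀) two_ne_zero) ?_ ?_ ?_ ?_ (α_even T nb ht₀) ?_ ?_ ?_ ?_
    ⟨_, _, c3, c4, ?_⟩
  · intro j hj
    have h1 := D.g0 j hj (t₀, 0) ⟨ht₀, h00⟩
    have h2 := D.g0 0 hn (t₀, 0) ⟨ht₀, h00⟩
    rw [hα0] at h1 h2
    filter_upwards [h1, h2] with z k1 k2
    rw [k1, k2]
  · intro j hj
    obtain ⟨F, hF, hF0, hFu⟩ := nat_gl nb j hj
    have hFc : ContinuousAt (fun s => F (t₀, s)) 0 :=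
      ContinuousAt.comp (g := F) (f := fun s : ℂ => (t₀, s)) (hF _ ⟨ht₀, h00⟩).continuousAt
        (tendsto_pair' t₀ 0)
    have hev : ∀ᶠ s in 𝓝 (0 : ℂ), Fct.nat α N (j + 1) (t₀, s) - Fct.nat α N j (t₀, s) =
        2 * s ^ N * F (t₀, s) := by
      filter_upwards [Metric.isOpen_ball.mem_nhds h00] with s hs
      exact hFu (t₀, s) ⟨ht₀, hs⟩
    refine ⟨fun s => F (t₀, s), hFc, nat_D T nb ht₀ hFc hev, ?_⟩
    filter_upwards [hev] with s hs
    unfold hta shL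
    simp only [KK_zero, mul_zero, sub_zero]
    rw [hs]
    ring
  · exact AnalyticAt.comp (g := fun x : ℂ × ℂ => α x.1 x.2) (f := fun w : ℂ => (t₀, w))
      (α_an T nb ht₀) (by fun_prop)
  · exact AnalyticAt.comp (g := fun x : ℂ × ℂ => p x.1 x.2) (f := fun w : ℂ => (t₀, w))
      (Fct.an_of_JD T.ln.jp (α_mem nb ht₀)) (by fun_prop)
  · refine Eventually.of_forall fun s => ?_
    simp [shL, Fct.nat, R.KK]
  · filter_upwards [Metric.isOpen_ball.mem_nhds h00] with s hs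
    have h1 := st.a0 (t₀, s) ⟨ht₀, hs⟩
    have h2 := st.q0 (t₀, s) ⟨ht₀, hs⟩
    simp only [shL, KK0, mul_zero, sub_zero]
    rw [h1, h2]
  · filter_upwards [Metric.isOpen_ball.mem_nhds ht₀] with t ht
    have h1 := st.a0 (t, 0) ⟨ht, h00⟩
    have h2 := st.q0 (t, 0) ⟨ht, h00⟩
    simp only [shL, KK0, mul_zero, sub_zero]
    rw [h1, h2]
  · intro i hi j hj hij
    exact c1 i (by simpa using hi) j (by simpa using hj) hij
  · rw [Nat.count_eq_card_filter_range]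
    calc _ < (Finset.range n).card := by
          refine Finset.card_lt_card ⟨Finset.filter_subset _ _, fun h => ?_⟩
          have h1 := h (Finset.mem_range.2 hi0)
          exact (Finset.mem_filter.1 h1).2 htv0
      _ = n := Finset.card_range n
  · filter_upwards [(gm_tendsto N t₀ u2.2).eventually c5] with x hx
    unfold gm
    simp only [KK_zero, mul_zero, sub_zero]
    rw [hx.1, hx.2]
    ext
    · simp
      ring
    · simp

end

end Vale.Agent.P097.H845
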