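import Mathlib

/-!
# P097 (helper845): sums of square roots at the glancing scale

Linear relations between the functions `U ↦ √(U - b)` for large `U`: the coefficients of every
value `b` have sum zero (`sum_sqrt`).  Consequences: `∑ⱼ √(U - bⱼ)` with `K` different `bⱼ` is not
a combination of fewer than `K` square roots (`few_sqrt`), and `∑ⱼ √(U - bⱼ) = n √U` only if all
`bⱼ` are zero (`all_zero`).
-/

namespace Vale.Agent.P097.H845

open Filter Topology Finset

/-- a germ with `g² = 1 + x` satisfies `2 (1 + x) g' = g` -/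
theorem deriv_sqrt {g : ℂ → ℂ} (hg : AnalyticAt ℂ g 0)
    (hg2 : ∀ᶠ x in 𝓝 (0 : ℂ), g x ^ 2 = 1 + x) :
    ∀ᶠ x in 𝓝 (0 : ℂ), HasDerivAt g (g x / (2 * (1 + x))) x := by
  have h1 : ∀ᶠ x in 𝓝 (0 : ℂ), (1 : ℂ) + x ≠ 0 := by
    have : ContinuousAt (fun x : ℂ => 1 + x) 0 := by fun_prop
    exact this.eventually_ne (by simp)
  filter_upwards [hg.eventually_analyticAt, hg2.eventually_nhds, h1] with x hx h2 h3
  have h4 : HasDerivAt g (deriv g x) x := hx.differentiableAt.hasDerivAt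
  have h5 : HasDerivAt (fun y => g y ^ 2) (2 * g x * deriv g x) x := by
    have := h4.fun_pow 2
    simpa using this
  have h6 : HasDerivAt (fun y : ℂ => 1 + y) 1 x := by
    simpa using (hasDerivAt_id x).const_add 1
  have h7 : 2 * g x * deriv g x = 1 := h5.unique (h6.congr_of_eventuallyEq h2)
  have h8 := h2.self_of_nhds
  have h9 : deriv g x = g x / (2 * (1 + x)) := by
    rw [eq_div_iff (mul_ne_zero two_ne_zero h3)]
    linear_combination g x * h7 - 2 * deriv g x * h8
  rw [← h9]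
  exact h4

variable {ι : Type*}

/-- A relation between the germs `g (bⱼ x)` gives relations between all power sums. -/
theorem power_sums (s : Finset ι) (a b : ι → ℂ) {g : ℂ → ℂ} (hg : AnalyticAt ℂ g 0)
    (hg2 : ∀ᶠ x in 𝓝 (0 : ℂ), g x ^ 2 = 1 + x)
    (h : ∀ᶠ x in 𝓝 (0 : ℂ), ∑ j ∈ s, a j * g (b j * x) = 0) (k : ℕ) :
    ∑ j ∈ s, a j * b j ^ k = 0 := by
  have hlim : ∀ j, Tendsto (fun x : ℂ => b j * x) (𝓝 0) (𝓝 0) := by
    intro j
    have : Tendsto (fun x : ℂ => b j * x) (𝓝 0) (𝓝 (b j * 0)) := Continuous.tendsto (by fun_prop) 0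
    rwa [mul_zero] at this
  have key : ∀ k : ℕ, ∀ᶠ x in 𝓝 (0 : ℂ),
      ∑ j ∈ s, a j * b j ^ k * (g (b j * x) / (1 + b j * x) ^ k) = 0 := by
    intro k
    induction k with
    | zero => simpa using h
    | succ k ih =>
      have h1 : ∀ᶠ x in 𝓝 (0 : ℂ), ∀ j ∈ s, HasDerivAt g (g (b j * x) / (2 * (1 + b j * x)))
          (b j * x) := (eventually_all_finset s).2 fun j _ => (hlim j).eventually (deriv_sqrt hg hg2)
      have h2 : ∀ᶠ x in 𝓝 (0 : ℂ), ∀ j ∈ s, (1 : ℂ) + b j * x ≠ 0 :=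
        (eventually_all_finset s).2 fun j _ => by
          have : ContinuousAt (fun x : ℂ => 1 + b j * x) 0 := by fun_prop
          exact this.eventually_ne (by simp)
      filter_upwards [ih.eventually_nhds, h1, h2] with x hx h3 h4
      have h5 : HasDerivAt (fun x => ∑ j ∈ s, a j * b j ^ k * (g (b j * x) / (1 + b j * x) ^ k))
          (∑ j ∈ s, a j * b j ^ k * ((g (b j * x) / (2 * (1 + b j * x)) * b j *
            (1 + b j * x) ^ k - g (b j * x) * (k * (1 + b j * x) ^ (k - 1) * b j)) /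
              ((1 + b j * x) ^ k) ^ 2)) x := by
        refine HasDerivAt.fun_sum fun j hj => HasDerivAt.const_mul _ ?_
        have h6 : HasDerivAt (fun x : ℂ => b j * x) (b j) x := by
          simpa using (hasDerivAt_id x).const_mul (b j)
        have h7 : HasDerivAt (fun x : ℂ => (1 + b j * x) ^ k)
            (k * (1 + b j * x) ^ (k - 1) * b j) x := (h6.const_add 1).pow k
        exact (HasDerivAt.comp x (h3 j hj) h6).div h7 (pow_ne_zero _ (h4 j hj))
      have h6 := h5.unique ((hasDerivAt_const x (0 : ℂ)).congr_of_eventuallyEq hx)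
      have h7 : (∑ j ∈ s, a j * b j ^ k * ((g (b j * x) / (2 * (1 + b j * x)) * b j *
            (1 + b j * x) ^ k - g (b j * x) * (k * (1 + b j * x) ^ (k - 1) * b j)) /
              ((1 + b j * x) ^ k) ^ 2)) = (1 / 2 - k) *
          ∑ j ∈ s, a j * b j ^ (k + 1) * (g (b j * x) / (1 + b j * x) ^ (k + 1)) := by
        rw [Finset.mul_sum]
        refine Finset.sum_congr rfl fun j hj => ?_
        have h8 := h4 j hj
        rcases Nat.eq_zero_or_pos k with rfl | hk
        · field_simp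
          simp
          ring
        · obtain ⟨m, rfl⟩ : ∃ m, k = m + 1 := ⟨k - 1, by omega⟩
          rw [Nat.add_sub_cancel]
          field_simp
          ring
      rw [h7] at h6
      refine (mul_eq_zero.1 h6).resolve_left ?_
      intro h8
      have h9 : (2 * k : ℂ) = 1 := by linear_combination (-2) * h8
      have h10 : 2 * k = 1 := by exact_mod_cast h9
      omega
  have h1 := (key k).self_of_nhds
  simp only [mul_zero, add_zero, one_pow, div_one] at h1
  have hg0 : g 0 ≠ 0 := by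
    intro h0
    have := hg2.self_of_nhds
    rw [h0] at this
    simp at this
  rw [← Finset.sum_mul] at h1
  exact (mul_eq_zero.1 h1).resolve_right hg0

/-- Vandermonde: if all power sums vanish, the coefficients of every value vanish. -/
theorem collect [DecidableEq ι] (s : Finset ι) (a b : ι → ℂ)
    (h : ∀ k : ℕ, ∑ j ∈ s, a j * b j ^ k = 0) (c : ℂ) : ∑ j ∈ s with b j = c, a j = 0 := by
  classical
  have hP : ∀ P : Polynomial ℂ, ∑ j ∈ s, a j * P.eval (b j) = 0 := by
    intro P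
    have h1 : ∀ j, a j * P.eval (b j) = ∑ i ∈ range (P.natDegree + 1),
        P.coeff i * (a j * b j ^ i) := by
      intro j
      rw [Polynomial.eval_eq_sum_range, Finset.mul_sum]
      exact Finset.sum_congr rfl fun i _ => by ring
    simp only [h1]
    rw [Finset.sum_comm]
    refine Finset.sum_eq_zero fun i _ => ?_
    rw [← Finset.mul_sum, h i, mul_zero]
  set P : Polynomial ℂ := ∏ d ∈ (s.image b).erase c, (Polynomial.X - Polynomial.C d) with hPdef
  have h1 := hP P
  have h2 : ∑ j ∈ s, a j * P.eval (b j) = (∑ j ∈ s with b j = c, a j) * P.eval c := by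
    rw [Finset.sum_filter, Finset.sum_mul]
    refine Finset.sum_congr rfl fun j hj => ?_
    by_cases hjc : b j = c
    · rw [if_pos hjc, hjc]
    · rw [if_neg hjc, zero_mul]
      have h3 : P.eval (b j) = 0 := by
        rw [hPdef, Polynomial.eval_prod]
        refine Finset.prod_eq_zero (i := b j) ?_ (by simp)
        rw [Finset.mem_erase]
        exact ⟨hjc, Finset.mem_image_of_mem _ hj⟩
      rw [h3, mul_zero]
  rw [h2] at h1
  refine (mul_eq_zero.1 h1).resolve_right ?_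
  rw [hPdef, Polynomial.eval_prod]
  refine Finset.prod_ne_zero_iff.2 fun d hd => ?_
  rw [Finset.mem_erase] at hd
  simpa [sub_eq_zero] using Ne.symm hd.1

theorem analyticAt_sqrt_one_add : AnalyticAt ℂ (fun x : ℂ => (1 + x) ^ (1 / 2 : ℂ)) 0 := by
  refine AnalyticAt.cpow (by fun_prop) analyticAt_const ?_
  rw [add_zero]
  exact Complex.one_mem_slitPlane

theorem sqrt_one_add_sq (x : ℂ) : ((1 + x) ^ (1 / 2 : ℂ)) ^ 2 = 1 + x := by
  rw [← Complex.cpow_nat_mul]
  norm_num

/-- **Linear relations between square roots, germs at `0`.** -/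
theorem sum_sqrt_germ [DecidableEq ι] (s : Finset ι) (a b : ι → ℂ) {g : ℂ → ℂ}
    (hg : AnalyticAt ℂ g 0) (hg2 : ∀ᶠ x in 𝓝 (0 : ℂ), g x ^ 2 = 1 + x)
    (h : ∃ᶠ x in 𝓝[≠] (0 : ℂ), ∑ j ∈ s, a j * g (b j * x) = 0) (c : ℂ) :
    ∑ j ∈ s with b j = c, a j = 0 := by
  refine collect s a b (power_sums s a b hg hg2 ?_) c
  have h1 : AnalyticAt ℂ (fun x => ∑ j ∈ s, a j * g (b j * x)) 0 := by
    refine Finset.analyticAt_fun_sum _ fun j _ => analyticAt_const.mul ?_
    have h2 : AnalyticAt ℂ g (b j * 0) := by rwa [mul_zero]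
    exact AnalyticAt.fun_comp (g := g) (f := fun x => b j * x) h2 (by fun_prop)
  exact h1.frequently_zero_iff_eventually_zero.1 h

theorem mul_sqrt {U : ℝ} (hU : 0 < U) {z : ℂ} (hz : z ≠ 0) :
    ((U : ℂ) * z) ^ (1 / 2 : ℂ) = (U : ℂ) ^ (1 / 2 : ℂ) * z ^ (1 / 2 : ℂ) := by
  have hU0 : (U : ℂ) ≠ 0 := by exact_mod_cast hU.ne'
  rw [Complex.cpow_def_of_ne_zero (mul_ne_zero hU0 hz), Complex.cpow_def_of_ne_zero hU0,
    Complex.cpow_def_of_ne_zero hz, Complex.log_ofReal_mul hU hz, Complex.ofReal_log hU.le,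
    ← Complex.exp_add]
  ring_nf

/-- for large real `U` the principal branches satisfy `√(U - b) = √U √(1 - b / U)` -/
theorem sqrt_sub_eq (b : ℂ) : ∀ᶠ U : ℝ in atTop,
    ((U : ℂ) - b) ^ (1 / 2 : ℂ) = (U : ℂ) ^ (1 / 2 : ℂ) * (1 + (-b) * (U : ℂ)⁻¹) ^ (1 / 2 : ℂ) := by
  filter_upwards [eventually_gt_atTop ‖b‖] with U hU
  have hU1 : 0 < U := (norm_nonneg b).trans_lt hU
  have hU0 : (U : ℂ) ≠ 0 := by exact_mod_cast hU1.ne'
  have hz : (1 : ℂ) + (-b) * (U : ℂ)⁻¹ ≠ 0 := by
    intro h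
    have h1 : (U : ℂ) = b := by
      field_simp at h
      linear_combination h
    rw [← h1, Complex.norm_real, Real.norm_of_nonneg hU1.le] at hU
    exact lt_irrefl _ hU
  rw [← mul_sqrt hU1 hz]
  congr 1
  field_simp
  ring

/-- **Linear relations between square roots at infinity.** -/
theorem sum_sqrt [DecidableEq ι] (s : Finset ι) (a b : ι → ℂ)
    (h : ∃ᶠ U : ℝ in atTop, ∑ j ∈ s, a j * ((U : ℂ) - b j) ^ (1 / 2 : ℂ) = 0) (c : ℂ) :
    ∑ j ∈ s with b j = c, a j = 0 := by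
  have h1 : ∃ᶠ U : ℝ in atTop, ∑ j ∈ s, a j *
      (fun x : ℂ => (1 + x) ^ (1 / 2 : ℂ)) ((-b j) * (U : ℂ)⁻¹) = 0 := by
    have h2 : ∀ᶠ U : ℝ in atTop, ∀ j ∈ s, ((U : ℂ) - b j) ^ (1 / 2 : ℂ) =
        (U : ℂ) ^ (1 / 2 : ℂ) * (1 + (-b j) * (U : ℂ)⁻¹) ^ (1 / 2 : ℂ) :=
      (eventually_all_finset s).2 fun j _ => sqrt_sub_eq (b j)
    refine (h.and_eventually (h2.and (eventually_gt_atTop 0))).mono ?_
    rintro U ⟨h3, h4, h5⟩
    have h6 : ((U : ℂ) ^ (1 / 2 : ℂ)) ≠ 0 := by
      rw [Complex.cpow_def_of_ne_zero (by exact_mod_cast h5.ne')]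
      exact Complex.exp_ne_zero _
    have h7 : (U : ℂ) ^ (1 / 2 : ℂ) * ∑ j ∈ s, a j *
        (fun x : ℂ => (1 + x) ^ (1 / 2 : ℂ)) ((-b j) * (U : ℂ)⁻¹) = 0 := by
      rw [Finset.mul_sum, ← h3]
      refine Finset.sum_congr rfl fun j hj => ?_
      rw [h4 j hj]
      ring
    exact (mul_eq_zero.1 h7).resolve_left h6
  have h2 : Tendsto (fun U : ℝ => (U : ℂ)⁻¹) atTop (𝓝[≠] 0) := by
    refine tendsto_nhdsWithin_iff.2 ⟨?_, ?_⟩
    · have h3 : Tendsto (fun U : ℝ => ((U⁻¹ : ℝ) : ℂ)) atTop (𝓝 ((0 : ℝ) : ℂ)) :=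
        (Complex.continuous_ofReal.tendsto 0).comp tendsto_inv_atTop_zero
      simpa using h3
    · filter_upwards [eventually_gt_atTop 0] with U hU
      simpa using hU.ne'
  have h3 : ∃ᶠ x in 𝓝[≠] (0 : ℂ), ∑ j ∈ s, a j *
      (fun x : ℂ => (1 + x) ^ (1 / 2 : ℂ)) ((-b j) * x) = 0 := h2.frequently h1
  have h4 := sum_sqrt_germ s a (fun j => -b j) analyticAt_sqrt_one_add
    (Eventually.of_forall sqrt_one_add_sq) h3 (-c)
  simpa using h4

/-- **A sum of square roots with `K` different branch points is not a combination of fewer than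
`K` square roots.** -/
theorem few_sqrt {K I : ℕ} (hIK : I < K) {e : ℂ} (he : e ≠ 0) (b : Fin K → ℂ)
    (hb : Function.Injective b) (c β : Fin I → ℂ) :
    ¬ ∃ᶠ U : ℝ in atTop, ∑ j, e * ((U : ℂ) - b j) ^ (1 / 2 : ℂ) =
      ∑ i, c i * ((U : ℂ) - β i) ^ (1 / 2 : ℂ) := by
  intro h
  have h1 : ∃ᶠ U : ℝ in atTop, ∑ j : Fin K ⊕ Fin I, Sum.elim (fun _ => e) (fun i => -c i) j *
      ((U : ℂ) - Sum.elim b β j) ^ (1 / 2 : ℂ) = 0 := by
    refine h.mono fun U hU => ?_
    rw [Fintype.sum_sum_type]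
    simp only [Sum.elim_inl, Sum.elim_inr, hU, neg_mul, Finset.sum_neg_distrib, add_neg_cancel]
  have h2 : ∀ j : Fin K, ∃ i : Fin I, β i = b j := by
    intro j
    by_contra hne
    push Not at hne
    have h3 := sum_sqrt Finset.univ _ _ h1 (b j)
    have h4 : (Finset.univ.filter fun k : Fin K ⊕ Fin I => Sum.elim b β k = b j) = {Sum.inl j} := by
      ext k
      rcases k with k | k
      · simp [hb.eq_iff]
      · simp [hne k]
    rw [h4, Finset.sum_singleton] at h3
    exact he h3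
  choose f hf using h2
  have hf2 : Function.Injective f := fun i j hij => hb (by rw [← hf i, ← hf j, hij])
  have := Fintype.card_le_of_injective f hf2
  simp only [Fintype.card_fin] at this
  omega

/-- **Newton**: `∑ⱼ √(U - bⱼ) = n √U` for large `U` only if all `bⱼ` are zero. -/
theorem all_zero {n : ℕ} (b : Fin n → ℂ)
    (h : ∃ᶠ U : ℝ in atTop, ∑ j, ((U : ℂ) - b j) ^ (1 / 2 : ℂ) = n * (U : ℂ) ^ (1 / 2 : ℂ))
    (j : Fin n) : b j = 0 := by
  by_contra hne
  have h1 : ∃ᶠ U : ℝ in atTop, ∑ k : Fin n ⊕ Unit, Sum.elim (fun _ => (1 : ℂ)) (fun _ => -n) k *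
      ((U : ℂ) - Sum.elim b (fun _ => 0) k) ^ (1 / 2 : ℂ) = 0 := by
    refine h.mono fun U hU => ?_
    rw [Fintype.sum_sum_type]
    simp only [Sum.elim_inl, Sum.elim_inr, one_mul, hU, Finset.univ_unique, Finset.sum_singleton,
      sub_zero]
    ring
  have h3 := sum_sqrt Finset.univ _ _ h1 (b j)
  have h4 : (Finset.univ.filter fun k : Fin n ⊕ Unit => Sum.elim b (fun _ => 0) k = b j) =
      (Finset.univ.filter fun k : Fin n => b k = b j).map Function.Embedding.inl := by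
    ext k
    rcases k with k | k
    · simp
    · simp [Ne.symm hne]
  rw [h4, Finset.sum_map] at h3
  simp only [Function.Embedding.inl_apply, Sum.elim_inl, Finset.sum_const, nsmul_eq_mul,
    mul_one] at h3
  have h5 : (Finset.univ.filter fun k : Fin n => b k = b j).card = 0 := by exact_mod_cast h3
  rw [Finset.card_eq_zero] at h5
  have h6 : j ∈ (Finset.univ.filter fun k : Fin n => b k = b j) := by simp
  rw [h5] at h6
  exact absurd h6 (Finset.notMem_empty _)

end Vale.Agent.P097.H845
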