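import Mathlib

/-!
# P097 / row A5.T-LEAF, part A: the core (two variables, quantitative, no limits)

`ψ (x,k)` on `ball x ρ × ball κs (2h)` with `∂_k ψ` close to a constant `l0 ≠ 0`, without zeros for
`Im (k - κs) ≤ -h/8`; then the zero set does not come close to both `(x, κs + h)` and
`(x, κs - h)`.
-/

set_option linter.all false

open Complex Metric Set Filter Topology

namespace Vale.Agent.P097.H845

/-- one slice: the increment of a function with derivative close to `l0` -/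
theorem slice_incr {f : ℂ → ℂ} {c l0 : ℂ} {R : ℝ} (hf : DifferentiableOn ℂ f (ball c R))
    (hd : ∀ z ∈ ball c R, ‖deriv f z - l0‖ ≤ ‖l0‖ / 8) {a b : ℂ} (ha : a ∈ ball c R)
    (hb : b ∈ ball c R) : ‖f b - f a - l0 * (b - a)‖ ≤ ‖l0‖ / 8 * ‖b - a‖ := by
  have key := (convex_ball c R).norm_image_sub_le_of_norm_hasDerivWithin_le
    (f := fun z => f z - l0 * z) (f' := fun z => deriv f z - l0) (C := ‖l0‖ / 8)
    (fun z hz => by
      have h1 : HasDerivAt f (deriv f z) z :=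
        ((hf z hz).differentiableAt (isOpen_ball.mem_nhds hz)).hasDerivAt
      have h2 : HasDerivAt (fun z : ℂ => l0 * z) l0 z := by
        simpa using (hasDerivAt_id z).const_mul l0
      exact (h1.sub h2).hasDerivWithinAt)
    hd ha hb
  calc ‖f b - f a - l0 * (b - a)‖ = ‖(f b - l0 * b) - (f a - l0 * a)‖ := by ring_nf
    _ ≤ _ := key

/-- one slice: the value at the point `κs - i h/4` is not small -/
theorem slice_low {f : ℂ → ℂ} {c l0 : ℂ} {h : ℝ} (hh : 0 < h) (hl : l0 ≠ 0)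
    (hf : DifferentiableOn ℂ f (ball c (2 * h)))
    (hd : ∀ z ∈ ball c (2 * h), ‖deriv f z - l0‖ ≤ ‖l0‖ / 8)
    (hz : ∀ z ∈ ball c (2 * h), (z - c).im ≤ -h / 8 → f z ≠ 0) :
    ‖l0‖ * h / 20 ≤ ‖f (c - (h / 4 : ℝ) * I)‖ := by
  have hl0 : 0 < ‖l0‖ := norm_pos_iff.mpr hl
  set k0 : ℂ := c - (h / 4 : ℝ) * I with hk0
  have hk0c : ‖k0 - c‖ = h / 4 := by
    rw [hk0, sub_sub_cancel_left, norm_neg, norm_mul, norm_I, mul_one, norm_real,
      Real.norm_of_nonneg (by positivity)]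
  have hk0m : k0 ∈ ball c (2 * h) := by rw [mem_ball, dist_eq_norm, hk0c]; linarith
  have hsub : ∀ z, ‖z - k0‖ ≤ h / 8 → z ∈ ball c (2 * h) := by
    intro z hz
    rw [mem_ball, dist_eq_norm]
    have := norm_sub_le_norm_sub_add_norm_sub z k0 c
    rw [hk0c] at this; linarith
  by_contra hcon
  push Not at hcon
  have hcl : DiffContOnCl ℂ f (ball k0 (h / 8)) := by
    apply DifferentiableOn.diffContOnCl
    refine hf.mono ?_
    intro z hz
    have := closure_ball_subset_closedBall hz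
    rw [mem_closedBall, dist_eq_norm] at this
    exact hsub z this
  have hsph : ∀ z ∈ sphere k0 (h / 8), 7 * ‖l0‖ * h / 64 ≤ ‖f z - f k0‖ := by
    intro z hz
    rw [mem_sphere, dist_eq_norm] at hz
    have h1 := slice_incr hf hd hk0m (hsub z hz.le)
    have h2 : ‖l0 * (z - k0)‖ ≤ ‖f z - f k0‖ + ‖f z - f k0 - l0 * (z - k0)‖ := by
      have := norm_sub_le (f z - f k0) (f z - f k0 - l0 * (z - k0))
      simpa using this
    rw [norm_mul, hz] at h2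
    rw [hz] at h1
    nlinarith
  have hfreq : ∃ᶠ z in 𝓝 k0, f z ≠ f k0 := by
    rw [Metric.nhds_basis_ball.frequently_iff]
    intro ε hε
    set e := min (ε / 2) (h / 8) with he
    have he0 : 0 < e := by positivity
    refine ⟨k0 + e, ?_, ?_⟩
    · rw [mem_ball, dist_eq_norm, add_sub_cancel_left, norm_real, Real.norm_of_nonneg he0.le]
      calc e ≤ ε / 2 := min_le_left _ _
        _ < ε := by linarith
    · intro heq
      have h1 := slice_incr hf hd hk0m (hsub (k0 + e) (by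
        rw [add_sub_cancel_left, norm_real, Real.norm_of_nonneg he0.le]; exact min_le_right _ _))
      rw [heq, sub_self, zero_sub, norm_neg, norm_mul, add_sub_cancel_left, norm_real,
        Real.norm_of_nonneg he0.le] at h1
      have : 0 < ‖l0‖ * e := by positivity
      nlinarith
  have himg := hcl.ball_subset_image_closedBall (by positivity) hsph hfreq
  have h0 : (0 : ℂ) ∈ ball (f k0) (7 * ‖l0‖ * h / 64 / 2) := by
    rw [mem_ball, dist_eq_norm, zero_sub, norm_neg]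
    have : 0 < ‖l0‖ * h := by positivity
    linarith
  obtain ⟨z, hz1, hz2⟩ := himg h0
  rw [mem_closedBall, dist_eq_norm] at hz1
  refine hz z (hsub z hz1) ?_ hz2
  have h3 : (z - c).im = (z - k0).im + (k0 - c).im := by simp
  have h4 : (k0 - c).im = -(h / 4) := by
    rw [hk0, sub_sub_cancel_left]; simp
  have h5 := (abs_le.mp (abs_im_le_norm (z - k0))).2
  rw [h3, h4]; linarith

/-- **core of the leaf lemma** -/
theorem leaf_core {ψ : ℂ → ℂ → ℂ} {x κs l0 : ℂ} {ρ h : ℝ} (hρ : 0 < ρ) (hh : 0 < h) (hl : l0 ≠ 0)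
    (hk : ∀ X ∈ ball x ρ, DifferentiableOn ℂ (ψ X) (ball κs (2 * h)))
    (hX : DifferentiableOn ℂ (fun X => ψ X (κs - (h / 4 : ℝ) * I)) (ball x ρ))
    (hd : ∀ X ∈ ball x ρ, ∀ k ∈ ball κs (2 * h), ‖deriv (ψ X) k - l0‖ ≤ ‖l0‖ / 8)
    (hz : ∀ X ∈ ball x ρ, ∀ k ∈ ball κs (2 * h), (k - κs).im ≤ -h / 8 → ψ X k ≠ 0)
    {ε : ℝ} (hε1 : ε ≤ h / 4) (hε2 : ε ≤ ρ / 800) {X1 k1 X2 k2 : ℂ}
    (hX1 : ‖X1 - x‖ < ε) (hk1 : ‖k1 - (κs + h)‖ < ε) (hz1 : ψ X1 k1 = 0)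
    (hX2 : ‖X2 - x‖ < ε) (hk2 : ‖k2 - (κs - h)‖ < ε) (hz2 : ψ X2 k2 = 0) : False := by
  have hl0 : 0 < ‖l0‖ := norm_pos_iff.mpr hl
  have hε : 0 < ε := (norm_nonneg _).trans_lt hX1
  set k0 : ℂ := κs - (h / 4 : ℝ) * I with hk0
  have hk0c : ‖k0 - κs‖ = h / 4 := by
    rw [hk0, sub_sub_cancel_left, norm_neg, norm_mul, norm_I, mul_one, norm_real,
      Real.norm_of_nonneg (by positivity)]
  have hk0m : k0 ∈ ball κs (2 * h) := by rw [mem_ball, dist_eq_norm, hk0c]; linarith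
  have hlow : ∀ X ∈ ball x ρ, ‖l0‖ * h / 20 ≤ ‖ψ X k0‖ := fun X hXm =>
    slice_low hh hl (hk X hXm) (hd X hXm) (hz X hXm)
  -- the reciprocal
  set M : ℝ := 20 / (‖l0‖ * h) with hM
  have hM0 : 0 < M := by positivity
  have hne : ∀ X ∈ ball x ρ, ψ X k0 ≠ 0 := by
    intro X hXm h0
    have := hlow X hXm
    rw [h0, norm_zero] at this
    have : 0 < ‖l0‖ * h := by positivity
    linarith
  have hainv : DifferentiableOn ℂ (fun X => (ψ X k0)⁻¹) (ball x ρ) := hX.inv hne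
  have hab : ∀ X ∈ ball x ρ, ‖(ψ X k0)⁻¹‖ ≤ M := by
    intro X hXm
    rw [norm_inv, hM]
    have h1 := hlow X hXm
    have h2 : 0 < ‖l0‖ * h := by positivity
    rw [show (20 : ℝ) / (‖l0‖ * h) = (‖l0‖ * h / 20)⁻¹ by field_simp]
    exact inv_anti₀ (by positivity) h1
  have hder : ∀ X ∈ ball x (ρ / 2), ‖deriv (fun X => (ψ X k0)⁻¹) X‖ ≤ M / (ρ / 4) := by
    intro X hXm
    have hsub : closedBall X (ρ / 4) ⊆ ball x ρ := by
      intro y hy
      rw [mem_closedBall, dist_eq_norm] at hy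
      rw [mem_ball, dist_eq_norm] at hXm ⊢
      have := norm_sub_le_norm_sub_add_norm_sub y X x
      linarith
    refine Complex.norm_deriv_le_of_forall_mem_sphere_norm_le (by positivity) ?_ ?_
    · apply DifferentiableOn.diffContOnCl
      exact hainv.mono (closure_ball_subset_closedBall.trans hsub)
    · intro z hz
      exact hab z (hsub (sphere_subset_closedBall hz))
  have hX1m : X1 ∈ ball x (ρ / 2) := by rw [mem_ball, dist_eq_norm]; linarith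
  have hX2m : X2 ∈ ball x (ρ / 2) := by rw [mem_ball, dist_eq_norm]; linarith
  have hsub2 : ball x (ρ / 2) ⊆ ball x ρ := ball_subset_ball (by linarith)
  have hlip : ‖(ψ X1 k0)⁻¹ - (ψ X2 k0)⁻¹‖ ≤ M / (ρ / 4) * ‖X1 - X2‖ :=
    (convex_ball x (ρ / 2)).norm_image_sub_le_of_norm_deriv_le
      (f := fun X => (ψ X k0)⁻¹) (fun X hXm =>
        (hainv X (hsub2 hXm)).differentiableAt (isOpen_ball.mem_nhds (hsub2 hXm)))
      hder hX2m hX1m
  have hX12 : ‖X1 - X2‖ ≤ 2 * ε := by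
    have := norm_sub_le (X1 - x) (X2 - x)
    rw [sub_sub_sub_cancel_right] at this
    linarith
  -- the values at the two zeros
  have hk1m : k1 ∈ ball κs (2 * h) := by
    rw [mem_ball, dist_eq_norm]
    have h1 : ‖k1 - κs‖ ≤ ‖k1 - (κs + h)‖ + ‖(h : ℂ)‖ := by
      have := norm_add_le (k1 - (κs + h)) (h : ℂ)
      rwa [show k1 - (κs + h) + (h : ℂ) = k1 - κs by ring] at this
    rw [norm_real, Real.norm_of_nonneg hh.le] at h1
    linarith
  have hk2m : k2 ∈ ball κs (2 * h) := by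
    rw [mem_ball, dist_eq_norm]
    have h1 : ‖k2 - κs‖ ≤ ‖k2 - (κs - h)‖ + ‖(h : ℂ)‖ := by
      have := norm_sub_le (k2 - (κs - h)) (h : ℂ)
      rwa [show k2 - (κs - h) - (h : ℂ) = k2 - κs by ring] at this
    rw [norm_real, Real.norm_of_nonneg hh.le] at h1
    linarith
  have hn1 : ‖k1 - k0‖ ≤ 3 / 2 * h := by
    have h1 : ‖k1 - k0‖ ≤ ‖k1 - (κs + h)‖ + ‖(h : ℂ)‖ + ‖k0 - κs‖ := by
      have e1 := norm_add_le (k1 - (κs + h)) (h : ℂ)
      have e2 := norm_sub_le (k1 - (κs + h) + (h : ℂ)) (k0 - κs)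
      rw [show k1 - (κs + h) + (h : ℂ) - (k0 - κs) = k1 - k0 by ring] at e2
      linarith
    rw [norm_real, Real.norm_of_nonneg hh.le, hk0c] at h1
    linarith
  have hn2 : ‖k2 - k0‖ ≤ 3 / 2 * h := by
    have h1 : ‖k2 - k0‖ ≤ ‖k2 - (κs - h)‖ + ‖(h : ℂ)‖ + ‖k0 - κs‖ := by
      have e1 := norm_sub_le (k2 - (κs - h)) (h : ℂ)
      have e2 := norm_sub_le (k2 - (κs - h) - (h : ℂ)) (k0 - κs)
      rw [show k2 - (κs - h) - (h : ℂ) - (k0 - κs) = k2 - k0 by ring] at e2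
      linarith
    rw [norm_real, Real.norm_of_nonneg hh.le, hk0c] at h1
    linarith
  have i1 := slice_incr (hk X1 (hsub2 hX1m)) (hd X1 (hsub2 hX1m)) hk0m hk1m
  have i2 := slice_incr (hk X2 (hsub2 hX2m)) (hd X2 (hsub2 hX2m)) hk0m hk2m
  rw [hz1, zero_sub] at i1
  rw [hz2, zero_sub] at i2
  have hk12 : 3 / 2 * h ≤ ‖k1 - k2‖ := by
    have e1 : ‖(2 * h : ℂ)‖ ≤ ‖k1 - k2‖ + ‖k1 - (κs + h)‖ + ‖k2 - (κs - h)‖ := by
      have e2 := norm_sub_le (k1 - k2) (k1 - (κs + h))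
      have e3 := norm_add_le (k1 - k2 - (k1 - (κs + h))) (k2 - (κs - h))
      rw [show k1 - k2 - (k1 - (κs + h)) + (k2 - (κs - h)) = (2 * h : ℂ) by ring] at e3
      linarith
    rw [norm_mul, norm_real, Real.norm_of_nonneg hh.le, Complex.norm_ofNat] at e1
    linarith
  have hA12 : ‖l0‖ * h ≤ ‖ψ X1 k0 - ψ X2 k0‖ := by
    have e1 : ‖l0 * (k1 - k2)‖ ≤ ‖ψ X1 k0 - ψ X2 k0‖ + ‖-ψ X1 k0 - l0 * (k1 - k0)‖
        + ‖-ψ X2 k0 - l0 * (k2 - k0)‖ := by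
      have e2 := norm_add_le (ψ X1 k0 - ψ X2 k0) (-ψ X1 k0 - l0 * (k1 - k0))
      have e3 := norm_sub_le (ψ X1 k0 - ψ X2 k0 + (-ψ X1 k0 - l0 * (k1 - k0)))
        (-ψ X2 k0 - l0 * (k2 - k0))
      rw [show ψ X1 k0 - ψ X2 k0 + (-ψ X1 k0 - l0 * (k1 - k0)) - (-ψ X2 k0 - l0 * (k2 - k0))
        = -(l0 * (k1 - k2)) by ring, norm_neg] at e3
      linarith
    rw [norm_mul] at e1
    have e4 : ‖l0‖ / 8 * ‖k1 - k0‖ ≤ ‖l0‖ / 8 * (3 / 2 * h) :=
      mul_le_mul_of_nonneg_left hn1 (by positivity)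
    have e5 : ‖l0‖ / 8 * ‖k2 - k0‖ ≤ ‖l0‖ / 8 * (3 / 2 * h) :=
      mul_le_mul_of_nonneg_left hn2 (by positivity)
    have e6 : ‖l0‖ * (3 / 2 * h) ≤ ‖l0‖ * ‖k1 - k2‖ := mul_le_mul_of_nonneg_left hk12 hl0.le
    have : 0 < ‖l0‖ * h := by positivity
    linarith
  have hA1 : ‖ψ X1 k0‖ ≤ 2 * (‖l0‖ * h) := by
    have e1 := norm_add_le (-ψ X1 k0 - l0 * (k1 - k0)) (l0 * (k1 - k0))
    rw [show -ψ X1 k0 - l0 * (k1 - k0) + l0 * (k1 - k0) = -ψ X1 k0 by ring, norm_neg,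
      norm_mul] at e1
    have e4 : ‖l0‖ / 8 * ‖k1 - k0‖ ≤ ‖l0‖ / 8 * (3 / 2 * h) :=
      mul_le_mul_of_nonneg_left hn1 (by positivity)
    have e5 : ‖l0‖ * ‖k1 - k0‖ ≤ ‖l0‖ * (3 / 2 * h) :=
      mul_le_mul_of_nonneg_left hn1 (by positivity)
    have : 0 < ‖l0‖ * h := by positivity
    linarith
  have hA2 : ‖ψ X2 k0‖ ≤ 2 * (‖l0‖ * h) := by
    have e1 := norm_add_le (-ψ X2 k0 - l0 * (k2 - k0)) (l0 * (k2 - k0))
    rw [show -ψ X2 k0 - l0 * (k2 - k0) + l0 * (k2 - k0) = -ψ X2 k0 by ring, norm_neg,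
      norm_mul] at e1
    have e4 : ‖l0‖ / 8 * ‖k2 - k0‖ ≤ ‖l0‖ / 8 * (3 / 2 * h) :=
      mul_le_mul_of_nonneg_left hn2 (by positivity)
    have e5 : ‖l0‖ * ‖k2 - k0‖ ≤ ‖l0‖ * (3 / 2 * h) :=
      mul_le_mul_of_nonneg_left hn2 (by positivity)
    have : 0 < ‖l0‖ * h := by positivity
    linarith
  have n1 := hne X1 (hsub2 hX1m)
  have n2 := hne X2 (hsub2 hX2m)
  have hdiff : (ψ X1 k0)⁻¹ - (ψ X2 k0)⁻¹ = -(ψ X1 k0 - ψ X2 k0) / (ψ X1 k0 * ψ X2 k0) := by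
    field_simp; ring
  have hlow2 : 1 / (4 * (‖l0‖ * h)) ≤ ‖(ψ X1 k0)⁻¹ - (ψ X2 k0)⁻¹‖ := by
    rw [hdiff, norm_div, norm_neg, norm_mul]
    have p1 : 0 < ‖ψ X1 k0‖ := norm_pos_iff.mpr n1
    have p2 : 0 < ‖ψ X2 k0‖ := norm_pos_iff.mpr n2
    have p3 : 0 < ‖l0‖ * h := by positivity
    rw [div_le_div_iff₀ (by positivity) (by positivity)]
    have e1 : ‖ψ X1 k0‖ * ‖ψ X2 k0‖ ≤ (2 * (‖l0‖ * h)) * (2 * (‖l0‖ * h)) :=
      mul_le_mul hA1 hA2 p2.le (by positivity)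
    nlinarith
  have hfin : M / (ρ / 4) * ‖X1 - X2‖ ≤ M / (ρ / 4) * (2 * (ρ / 800)) :=
    mul_le_mul_of_nonneg_left (by linarith) (by positivity)
  have e7 : M / (ρ / 4) * (2 * (ρ / 800)) = 1 / (‖l0‖ * h) * (1 / 5) := by
    rw [hM]; field_simp; norm_num
  have p3 : 0 < ‖l0‖ * h := by positivity
  have e8 : 1 / (4 * (‖l0‖ * h)) = 1 / (‖l0‖ * h) * (1 / 4) := by field_simp
  rw [e7] at hfin
  rw [e8] at hlow2
  have p4 : 0 < 1 / (‖l0‖ * h) := by positivity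
  nlinarith

end Vale.Agent.P097.H845
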