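import Mathlib
import Vale.Agent.P097.H845.LeafA

/-!
# P097 / row A5.T-LEAF, part B: the leaf lemma for sequences, coordinates `(κ, w)`
-/

set_option linter.all false

open Complex Metric Set Filter Topology

namespace Vale.Agent.P097.H845

section general

variable {E : Type*} [NormedAddCommGroup E] [NormedSpace ℂ E]

/-- Cauchy estimate for the derivative on a ball of a normed space -/
theorem cauchy_fd {g : E → ℂ} {z : E} {r C : ℝ} (hr : 0 < r) (hg : DifferentiableOn ℂ g (ball z r))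
    (hC : ∀ y ∈ ball z r, ‖g y‖ ≤ C) : ‖fderiv ℂ g z‖ ≤ 2 * C / r := by
  have hC0 : 0 ≤ C := (norm_nonneg _).trans (hC z (mem_ball_self hr))
  refine ContinuousLinearMap.opNorm_le_bound _ (by positivity) ?_
  intro v
  by_cases hv : v = 0
  · simp [hv]
  have hv0 : 0 < ‖v‖ := norm_pos_iff.mpr hv
  set R : ℝ := r / 2 / ‖v‖ with hR
  have hR0 : 0 < R := by positivity
  have hmem : ∀ ζ ∈ closedBall (0 : ℂ) R, z + ζ • v ∈ ball z r := by
    intro ζ hζ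
    rw [mem_closedBall, dist_zero_right] at hζ
    rw [mem_ball, dist_eq_norm, add_sub_cancel_left, norm_smul]
    calc ‖ζ‖ * ‖v‖ ≤ R * ‖v‖ := by gcongr
      _ = r / 2 := by rw [hR]; field_simp
      _ < r := by linarith
  have hder : HasDerivAt (fun ζ : ℂ => g (z + ζ • v)) (fderiv ℂ g z v) 0 := by
    have h1 : HasFDerivAt g (fderiv ℂ g z) (z + (0 : ℂ) • v) := by
      rw [zero_smul, add_zero]
      exact ((hg z (mem_ball_self hr)).differentiableAt (isOpen_ball.mem_nhds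
        (mem_ball_self hr))).hasFDerivAt
    have h2 : HasDerivAt (fun ζ : ℂ => z + ζ • v) v 0 := by
      simpa using ((hasDerivAt_id (0 : ℂ)).smul_const v).const_add z
    exact h1.comp_hasDerivAt (0 : ℂ) h2
  have hdiff : DiffContOnCl ℂ (fun ζ : ℂ => g (z + ζ • v)) (ball 0 R) := by
    apply DifferentiableOn.diffContOnCl
    have : closure (ball (0 : ℂ) R) ⊆ closedBall 0 R := closure_ball_subset_closedBall
    refine (hg.comp (f := fun ζ : ℂ => z + ζ • v) (s := closedBall 0 R) ?_ hmem).mono this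
    exact (differentiableOn_const _).add (differentiableOn_id.smul_const v)
  have := Complex.norm_deriv_le_of_forall_mem_sphere_norm_le hR0 hdiff (C := C) (fun ζ hζ =>
    hC _ (hmem ζ (sphere_subset_closedBall hζ)))
  rw [hder.deriv] at this
  calc ‖fderiv ℂ g z v‖ ≤ C / R := this
    _ = 2 * C / r * ‖v‖ := by rw [hR]; field_simp

variable {ι : Type*} {l : Filter ι}

/-- locally uniform limits: joint convergence -/
theorem joint_tendsto {F : Type*} [PseudoMetricSpace F] {X : ι → E → F} {X0 : E → F} {Ω : Set E} (hΩ : IsOpen Ω)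
    (hX : TendstoLocallyUniformlyOn X X0 l Ω) {z : E} (hz : z ∈ Ω) (hc : ContinuousAt X0 z) :
    Tendsto (fun p : ι × E => X p.1 p.2) (l ×ˢ 𝓝 z) (𝓝 (X0 z)) := by
  rw [Metric.tendsto_nhds]
  intro ε hε
  have h1 := (Metric.tendstoLocallyUniformlyOn_iff.mp hX) (ε / 2) (by positivity) z hz
  obtain ⟨t, ht, hev⟩ := h1
  rw [hΩ.nhdsWithin_eq hz] at ht
  have h2 : ∀ᶠ y in 𝓝 z, dist (X0 y) (X0 z) < ε / 2 := Metric.tendsto_nhds.mp hc _ (by positivity)
  refine Filter.eventually_prod_iff.mpr ⟨_, hev, fun y => y ∈ t ∧ dist (X0 y) (X0 z) < ε / 2,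
    (Filter.Eventually.and ht h2), ?_⟩
  intro n hn y hy
  calc dist (X n y) (X0 z) ≤ dist (X n y) (X0 y) + dist (X0 y) (X0 z) := dist_triangle _ _ _
    _ < ε / 2 + ε / 2 := add_lt_add (by rw [dist_comm]; exact hn y hy.1) hy.2
    _ = ε := by ring

/-- locally uniform limits of holomorphic functions: joint convergence of the derivatives -/
theorem joint_fderiv [ProperSpace E] {X : ι → E → ℂ} {X0 : E → ℂ} {Ω : Set E} (hΩ : IsOpen Ω)
    (hX : TendstoLocallyUniformlyOn X X0 l Ω) (hXd : ∀ᶠ n in l, DifferentiableOn ℂ (X n) Ω)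
    (hX0 : DifferentiableOn ℂ X0 Ω) {z : E} (hz : z ∈ Ω) :
    Tendsto (fun p : ι × E => fderiv ℂ (X p.1) p.2) (l ×ˢ 𝓝 z) (𝓝 (fderiv ℂ X0 z)) := by
  rw [Metric.tendsto_nhds]
  intro ε hε
  obtain ⟨r', hr', hrΩ'⟩ := Metric.nhds_basis_closedBall.mem_iff.mp (hΩ.mem_nhds hz)
  set r := r' / 2 with hrdef
  have hr : 0 < r := by positivity
  have hrΩ : closedBall z (2 * r) ⊆ Ω := by rw [hrdef, mul_div_cancel₀ _ (by norm_num)]; exact hrΩ'
  have hKc : IsCompact (closedBall z (2 * r)) := isCompact_closedBall _ _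
  set η := ε * r / 8 with hη
  have hη0 : 0 < η := by positivity
  have hu : ∀ᶠ n in l, ∀ y ∈ closedBall z (2 * r), dist (X0 y) (X n y) < η := by
    have h1 := (tendstoLocallyUniformlyOn_iff_tendstoUniformlyOn_of_compact hKc).mp (hX.mono hrΩ)
    exact (Metric.tendstoUniformlyOn_iff.mp h1) η hη0
  have huc : UniformContinuousOn X0 (closedBall z (2 * r)) :=
    hKc.uniformContinuousOn_of_continuous (hX0.continuousOn.mono hrΩ)
  obtain ⟨δ, hδ, hδu⟩ := Metric.uniformContinuousOn_iff.mp huc η hη0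
  refine Filter.eventually_prod_iff.mpr ⟨_, hu.and hXd, fun x => x ∈ ball z (min δ r),
    Metric.ball_mem_nhds z (by positivity), ?_⟩
  rintro n ⟨hn, hnd⟩ x hx
  rw [mem_ball, dist_eq_norm] at hx
  have hxr : ‖x - z‖ < r := hx.trans_le (min_le_right _ _)
  have hxδ : ‖x - z‖ < δ := hx.trans_le (min_le_left _ _)
  have hmem : ∀ y ∈ ball z r, y + (x - z) ∈ closedBall z (2 * r) := by
    intro y hy
    rw [mem_ball, dist_eq_norm] at hy
    rw [mem_closedBall, dist_eq_norm]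
    have := norm_add_le (y - z) (x - z)
    rw [show y - z + (x - z) = y + (x - z) - z by abel] at this
    linarith
  have hmem' : ∀ y ∈ ball z r, y ∈ closedBall z (2 * r) := by
    intro y hy
    rw [mem_ball] at hy
    rw [mem_closedBall]; linarith
  have hxΩ : x ∈ Ω := by
    have := hrΩ (hmem z (mem_ball_self hr))
    rwa [add_sub_cancel] at this
  have hb : ∀ y ∈ ball z r, ‖X n (y + (x - z)) - X0 y‖ ≤ 2 * η := by
    intro y hy
    have e1 := hn _ (hmem y hy)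
    have e2 := hδu _ (hmem y hy) _ (hmem' y hy) (by
      rw [dist_eq_norm, add_sub_cancel_left]; exact hxδ)
    rw [dist_comm] at e1
    calc ‖X n (y + (x - z)) - X0 y‖ = dist (X n (y + (x - z))) (X0 y) := (dist_eq_norm _ _).symm
      _ ≤ dist (X n (y + (x - z))) (X0 (y + (x - z))) + dist (X0 (y + (x - z))) (X0 y) :=
        dist_triangle _ _ _
      _ ≤ 2 * η := by linarith
  have hshift : DifferentiableOn ℂ (fun y => X n (y + (x - z))) (ball z r) := by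
    refine hnd.comp (f := fun y => y + (x - z)) ?_ (fun y hy => hrΩ (hmem y hy))
    exact differentiableOn_id.add_const _
  have h0d : DifferentiableOn ℂ X0 (ball z r) := hX0.mono fun y hy => hrΩ (hmem' y hy)
  have hc := cauchy_fd hr (hshift.sub h0d) hb
  have e3 : HasFDerivAt (fun y => X n (y + (x - z))) (fderiv ℂ (X n) x) z := by
    have h1 : HasFDerivAt (X n) (fderiv ℂ (X n) x) (z + (x - z)) := by
      rw [add_sub_cancel]
      exact ((hnd x hxΩ).differentiableAt (hΩ.mem_nhds hxΩ)).hasFDerivAt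
    have h2 : HasFDerivAt (fun y : E => y + (x - z)) (ContinuousLinearMap.id ℂ E) z :=
      (hasFDerivAt_id z).add_const _
    have h3 := h1.comp z h2
    rw [ContinuousLinearMap.comp_id] at h3
    exact h3
  have e4 : HasFDerivAt X0 (fderiv ℂ X0 z) z :=
    ((hX0 z hz).differentiableAt (hΩ.mem_nhds hz)).hasFDerivAt
  have e5 : fderiv ℂ ((fun y => X n (y + (x - z))) - X0) z = fderiv ℂ (X n) x - fderiv ℂ X0 z :=
    (e3.sub e4).fderiv
  rw [e5] at hc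
  rw [dist_eq_norm]
  refine hc.trans_lt ?_
  rw [hη, show 2 * (2 * (ε * r / 8)) / r = ε / 2 by field_simp; ring]
  linarith

end general

/-- the 2 x 2 Jacobian -/
noncomputable def jac (X m : ℂ × ℂ → ℂ) (z : ℂ × ℂ) : ℂ :=
  fderiv ℂ X z (1, 0) * fderiv ℂ m z (0, 1) - fderiv ℂ X z (0, 1) * fderiv ℂ m z (1, 0)

/-- the linear map `(κ, w) ↦ (a κ + b w, κ)` for `b ≠ 0` -/
noncomputable def shear (a b : ℂ) (hb : b ≠ 0) : (ℂ × ℂ) ≃L[ℂ] (ℂ × ℂ) :=
  ContinuousLinearEquiv.equivOfInverse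
    ((a • ContinuousLinearMap.fst ℂ ℂ ℂ + b • ContinuousLinearMap.snd ℂ ℂ ℂ).prod
      (ContinuousLinearMap.fst ℂ ℂ ℂ))
    ((ContinuousLinearMap.snd ℂ ℂ ℂ).prod
      (b⁻¹ • (ContinuousLinearMap.fst ℂ ℂ ℂ - a • ContinuousLinearMap.snd ℂ ℂ ℂ)))
    (by
      rintro ⟨x, y⟩
      ext <;> simp
      field_simp)
    (by
      rintro ⟨x, y⟩
      ext <;> simp
      field_simp
      ring)

theorem shear_apply {a b : ℂ} (hb : b ≠ 0) (v : ℂ × ℂ) :
    shear a b hb v = (a * v.1 + b * v.2, v.1) := by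
  simp [shear]

theorem shear_symm_apply {a b : ℂ} (hb : b ≠ 0) (v : ℂ × ℂ) :
    (shear a b hb).symm v = (v.2, b⁻¹ * (v.1 - a * v.2)) := by
  simp [shear]

theorem fderiv_split {X : ℂ × ℂ → ℂ} {z v : ℂ × ℂ} :
    fderiv ℂ X z v = fderiv ℂ X z (1, 0) * v.1 + fderiv ℂ X z (0, 1) * v.2 := by
  have : v = v.1 • ((1 : ℂ), (0 : ℂ)) + v.2 • ((0 : ℂ), (1 : ℂ)) := by
    ext <;> simp
  conv_lhs => rw [this]
  rw [map_add, map_smul, map_smul, smul_eq_mul, smul_eq_mul]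
  ring

theorem hasFDerivAt_pair {X : ℂ × ℂ → ℂ} {z : ℂ × ℂ} (hX : DifferentiableAt ℂ X z)
    (hb : fderiv ℂ X z (0, 1) ≠ 0) :
    HasFDerivAt (fun p : ℂ × ℂ => (X p, p.1))
      (shear (fderiv ℂ X z (1, 0)) (fderiv ℂ X z (0, 1)) hb : ℂ × ℂ →L[ℂ] ℂ × ℂ) z := by
  have h1 : HasFDerivAt (fun p : ℂ × ℂ => (X p, p.1))
      ((fderiv ℂ X z).prod (ContinuousLinearMap.fst ℂ ℂ ℂ)) z :=
    hX.hasFDerivAt.prodMk hasFDerivAt_fst
  convert h1 using 1
  refine ContinuousLinearMap.ext fun v => ?_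
  have h2 : (shear (fderiv ℂ X z (1, 0)) (fderiv ℂ X z (0, 1)) hb) v = (fderiv ℂ X z v, v.1) := by
    rw [shear_apply, fderiv_split (v := v)]
  exact h2


/-- `(Y, κ)` is close to the linear map `shear` on a ball where the derivative of `Y` is close -/
theorem pair_approx {X0 Y : ℂ × ℂ → ℂ} {z0 : ℂ × ℂ} (hb : fderiv ℂ X0 z0 (0, 1) ≠ 0) {r : ℝ}
    {c : NNReal} (hY : ∀ z ∈ ball z0 r, DifferentiableAt ℂ Y z)
    (hd : ∀ z ∈ ball z0 r, ‖fderiv ℂ Y z - fderiv ℂ X0 z0‖ ≤ c) :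
    ApproximatesLinearOn (fun p : ℂ × ℂ => (Y p, p.1))
      (shear (fderiv ℂ X0 z0 (1, 0)) (fderiv ℂ X0 z0 (0, 1)) hb : ℂ × ℂ →L[ℂ] ℂ × ℂ)
      (ball z0 r) c := by
  intro y hy x hx
  have h1 := (convex_ball z0 r).norm_image_sub_le_of_norm_fderiv_le' hY hd hx hy
  have h2 : (shear (fderiv ℂ X0 z0 (1, 0)) (fderiv ℂ X0 z0 (0, 1)) hb) (y - x)
      = (fderiv ℂ X0 z0 (y - x), (y - x).1) := by
    rw [shear_apply, fderiv_split (v := y - x)]
  have h3 : ((Y y, y.1) : ℂ × ℂ) - (Y x, x.1)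
      - (shear (fderiv ℂ X0 z0 (1, 0)) (fderiv ℂ X0 z0 (0, 1)) hb : ℂ × ℂ →L[ℂ] ℂ × ℂ) (y - x)
      = (Y y - Y x - fderiv ℂ X0 z0 (y - x), 0) := by
    change ((Y y, y.1) : ℂ × ℂ) - (Y x, x.1)
      - (shear (fderiv ℂ X0 z0 (1, 0)) (fderiv ℂ X0 z0 (0, 1)) hb) (y - x) = _
    rw [h2]
    ext <;> simp
  rw [h3]
  simpa [Prod.norm_def] using h1

/-- **leaf lemma**, coordinates `(κ, w)` (`z.1 = κ`) -/
theorem leafK {ι : Type*} {l : Filter ι} [NeBot l] {Ω : Set (ℂ × ℂ)} (hΩ : IsOpen Ω)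
    {z0 : ℂ × ℂ} (hz0 : z0 ∈ Ω) (h0 : z0.1.im = 0) {X m χ : ι → ℂ × ℂ → ℂ} {X0 χ0 : ℂ × ℂ → ℂ}
    {J : ι → ℂ} (hX : ∀ᶠ n in l, DifferentiableOn ℂ (X n) Ω)
    (hm : ∀ᶠ n in l, DifferentiableOn ℂ (m n) Ω) (hX0 : DifferentiableOn ℂ X0 Ω)
    (hXl : TendstoLocallyUniformlyOn X X0 l Ω) (hJ : ∀ᶠ n in l, J n ≠ 0)
    (hχl : TendstoLocallyUniformlyOn χ χ0 l Ω) (hχc : ContinuousAt χ0 z0) (hχ0 : χ0 z0 ≠ 0)
    (hjac : ∀ᶠ n in l, ∀ z ∈ Ω, jac (X n) (m n) z = J n * χ n z)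
    (htr : fderiv ℂ X0 z0 (0, 1) ≠ 0)
    (hfree : ∀ K ⊆ Ω, IsCompact K → (∀ z ∈ K, z.1.im < 0) → ∀ᶠ n in l, ∀ z ∈ K, m n z ≠ 0)
    (htouch : ∀ z ∈ Ω, z.1.im = 0 → ∀ ε > 0, ∀ᶠ n in l, ∃ z' ∈ ball z ε, m n z' = 0) : False := by
  classical
  set a0 := fderiv ℂ X0 z0 (1, 0) with ha0
  set b0 := fderiv ℂ X0 z0 (0, 1) with hb0
  set A := shear a0 b0 htr with hA
  have hsubs : Subsingleton (ℂ × ℂ) ∨ True := Or.inr trivial
  set N : ℝ := ‖(A.symm : ℂ × ℂ →L[ℂ] ℂ × ℂ)‖ with hN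
  have hN0 : 0 < N := by
    rcases ContinuousLinearEquiv.subsingleton_or_norm_symm_pos A with h | h
    · exfalso
      have := congrArg Prod.fst (h.elim ((0 : ℂ), (0 : ℂ)) (1, 0))
      simp at this
    · exact h
  set l0 : ℂ := -χ0 z0 / b0 with hl0
  have hl0' : l0 ≠ 0 := div_ne_zero (neg_ne_zero.mpr hχ0) htr
  have hl0n : 0 < ‖l0‖ := norm_pos_iff.mpr hl0'
  -- joint limits
  have jF := joint_fderiv hΩ hXl hX hX0 hz0
  have jχ := joint_tendsto hΩ hχl hz0 hχc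
  have ja : Tendsto (fun p : ι × (ℂ × ℂ) => fderiv ℂ (X p.1) p.2 (1, 0)) (l ×ˢ 𝓝 z0) (𝓝 a0) :=
    ((ContinuousLinearMap.apply ℂ ℂ ((1 : ℂ), (0 : ℂ))).continuous.tendsto _).comp jF
  have jb : Tendsto (fun p : ι × (ℂ × ℂ) => fderiv ℂ (X p.1) p.2 (0, 1)) (l ×ˢ 𝓝 z0) (𝓝 b0) :=
    ((ContinuousLinearMap.apply ℂ ℂ ((0 : ℂ), (1 : ℂ))).continuous.tendsto _).comp jF
  have jl : Tendsto (fun p : ι × (ℂ × ℂ) => -χ p.1 p.2 / fderiv ℂ (X p.1) p.2 (0, 1))
      (l ×ˢ 𝓝 z0) (𝓝 l0) := jχ.neg.div jb htr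
  -- the good radius
  set c : ℝ := 1 / (2 * N) with hc
  have hc0 : 0 < c := by positivity
  have e1 : ∀ᶠ p : ι × (ℂ × ℂ) in l ×ˢ 𝓝 z0,
      ‖fderiv ℂ (X p.1) p.2 - fderiv ℂ X0 z0‖ < c ∧ fderiv ℂ (X p.1) p.2 (0, 1) ≠ 0 ∧
      ‖-χ p.1 p.2 / fderiv ℂ (X p.1) p.2 (0, 1) - l0‖ < ‖l0‖ / 8 := by
    have h1 := (Metric.tendsto_nhds.mp jF) c hc0
    have h2 := jb.eventually_ne htr
    have h3 := (Metric.tendsto_nhds.mp jl) (‖l0‖ / 8) (by positivity)
    filter_upwards [h1, h2, h3] with p p1 p2 p3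
    rw [dist_eq_norm] at p1 p3
    exact ⟨p1, p2, p3⟩
  obtain ⟨pa, hpa, pb, hpb, hp⟩ := Filter.eventually_prod_iff.mp e1
  -- derivative of `X0` near `z0`
  have jF0 : Tendsto (fun z => fderiv ℂ X0 z) (𝓝 z0) (𝓝 (fderiv ℂ X0 z0)) := by
    have h1 : TendstoLocallyUniformlyOn (fun _ : ι => X0) X0 l Ω := by
      rw [Metric.tendstoLocallyUniformlyOn_iff]
      intro ε hε x hx
      exact ⟨univ, univ_mem, Eventually.of_forall fun n y _ => by simpa using hε⟩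
    have h2 := joint_fderiv hΩ h1 (Eventually.of_forall fun _ => hX0) hX0 hz0
    have h3 : Tendsto (fun z => fderiv ℂ X0 z) (map Prod.snd (l ×ˢ 𝓝 z0)) (𝓝 (fderiv ℂ X0 z0)) :=
      tendsto_map'_iff.mpr h2
    rwa [map_snd_prod] at h3
  have hpc : ∀ᶠ z in 𝓝 z0, ‖fderiv ℂ X0 z - fderiv ℂ X0 z0‖ < c := by
    have := (Metric.tendsto_nhds.mp jF0) c hc0
    filter_upwards [this] with z hz
    rwa [dist_eq_norm] at hz
  obtain ⟨r, hr, hrU⟩ := Metric.nhds_basis_closedBall.mem_iff.mp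
    (Filter.inter_mem (Filter.inter_mem hpb hpc) (hΩ.mem_nhds hz0))
  have hrpb : ∀ z ∈ ball z0 r, pb z := fun z hz => (hrU (ball_subset_closedBall hz)).1.1
  have hrpc : ∀ z ∈ ball z0 r, ‖fderiv ℂ X0 z - fderiv ℂ X0 z0‖ < c :=
    fun z hz => (hrU (ball_subset_closedBall hz)).1.2
  have hrΩ : closedBall z0 r ⊆ Ω := fun z hz => (hrU hz).2
  have hrΩ' : ball z0 r ⊆ Ω := ball_subset_closedBall.trans hrΩ
  set cN : NNReal := ⟨c, hc0.le⟩ with hcN
  have hcNN : Subsingleton (ℂ × ℂ) ∨ cN < ‖(A.symm : ℂ × ℂ →L[ℂ] ℂ × ℂ)‖₊⁻¹ := by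
    right
    rw [← NNReal.coe_lt_coe]
    change c < N⁻¹
    rw [hc, ← one_div]
    exact one_div_lt_one_div_of_lt hN0 (by linarith)
  have hval : (((‖(A.symm : ℂ × ℂ →L[ℂ] ℂ × ℂ)‖₊⁻¹ : NNReal) : ℝ) - (cN : ℝ)) = c := by
    rw [NNReal.coe_inv]
    change N⁻¹ - c = c
    rw [hc]; field_simp; norm_num
  set τ : ℝ := c * (r / 2) / 4 with hτ
  have hτ0 : 0 < τ := by positivity
  set h : ℝ := τ / 2 with hh
  have hh0 : 0 < h := by positivity
  set ε : ℝ := min (h / 4) (τ / 800) with hε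
  have hε0 : 0 < ε := by positivity
  -- `X0`
  have hf0 : ApproximatesLinearOn (fun p : ℂ × ℂ => (X0 p, p.1)) (A : ℂ × ℂ →L[ℂ] ℂ × ℂ)
      (ball z0 r) cN := pair_approx (Y := X0) (c := cN) htr
    (fun z hz => (hX0 z (hrΩ' hz)).differentiableAt (hΩ.mem_nhds (hrΩ' hz)))
    (fun z hz => (hrpc z hz).le)
  have hhalf : closedBall z0 (r / 2) ⊆ ball z0 r := closedBall_subset_ball (by linarith)
  have hpt : ∀ s : ℝ, |s| = h → ∃ z ∈ ball z0 r, X0 z = X0 z0 ∧ z.1 = z0.1 + s := by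
    intro s hs
    have h1 := hf0.closedBall_subset_target hcNN isOpen_ball (b := z0) (ε := r / 2)
      (by positivity) hhalf
    rw [hval] at h1
    have h2 : ((X0 z0, z0.1 + s) : ℂ × ℂ) ∈ closedBall ((X0 z0, z0.1) : ℂ × ℂ) (c * (r / 2)) := by
      rw [mem_closedBall, dist_eq_norm]
      simp only [Prod.mk_sub_mk, sub_self, add_sub_cancel_left, Prod.norm_def, norm_zero,
        norm_real, Real.norm_eq_abs, hs]
      rw [max_eq_right hh0.le, hh, hτ]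
      have : 0 < c * (r / 2) := by positivity
      linarith
    obtain ⟨z, hz1, hz2⟩ := h1 h2
    simp only [Prod.mk.injEq] at hz2
    exact ⟨z, hz1, hz2.1, hz2.2⟩
  obtain ⟨zp, hzp, hzpX, hzpk⟩ := hpt h (abs_of_pos hh0)
  obtain ⟨zm, hzm, hzmX, hzmk⟩ := hpt (-h) (by rw [abs_neg, abs_of_pos hh0])
  -- zeros near zp, zm
  have hnear : ∀ z ∈ ball z0 r, z.1.im = 0 → ∀ᶠ n in l, ∃ z' ∈ ball z0 r, m n z' = 0 ∧
      ‖X n z' - X0 z‖ < ε ∧ ‖z'.1 - z.1‖ < ε := by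
    intro z hz him
    have hcz : ContinuousAt X0 z :=
      (hX0 z (hrΩ' hz)).continuousWithinAt.continuousAt (hΩ.mem_nhds (hrΩ' hz))
    have h1 := (Metric.tendsto_nhds.mp (joint_tendsto hΩ hXl (hrΩ' hz) hcz)) ε hε0
    obtain ⟨qa, hqa, qb, hqb, hq⟩ := Filter.eventually_prod_iff.mp h1
    obtain ⟨δ, hδ, hδU⟩ := Metric.mem_nhds_iff.mp
      (Filter.inter_mem hqb (isOpen_ball.mem_nhds hz))
    filter_upwards [hqa, htouch z (hrΩ' hz) him (min δ ε) (by positivity)] with n hn hn2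
    obtain ⟨z', hz', hm0⟩ := hn2
    have hz1 : z' ∈ ball z δ := ball_subset_ball (min_le_left _ _) hz'
    have hz2 : z' ∈ ball z ε := ball_subset_ball (min_le_right _ _) hz'
    refine ⟨z', (hδU hz1).2, hm0, ?_, ?_⟩
    · have := hq hn (hδU hz1).1
      simpa [dist_eq_norm] using this
    · rw [mem_ball, dist_eq_norm] at hz2
      exact (norm_fst_le (z' - z)).trans_lt hz2
  have himp : zp.1.im = 0 := by rw [hzpk]; simp [h0]
  have himm : zm.1.im = 0 := by rw [hzmk]; simp [h0]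
  have hfr := hfree (closedBall z0 r ∩ {z | z.1.im ≤ -h / 8})
    (inter_subset_left.trans hrΩ)
    ((isCompact_closedBall z0 r).inter_right
      (isClosed_le (Complex.continuous_im.comp continuous_fst) continuous_const))
    (fun z hz => by
      have : z.1.im ≤ -h / 8 := hz.2
      have h8 : 0 < h / 8 := by positivity
      linarith)
  have hXz0 : ∀ᶠ n in l, ‖X n z0 - X0 z0‖ < τ := by
    have := (Metric.tendstoLocallyUniformlyOn_iff.mp hXl) τ hτ0 z0 hz0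
    obtain ⟨t, ht, hev⟩ := this
    filter_upwards [hev] with n hn
    have := hn z0 (mem_of_mem_nhdsWithin hz0 ht)
    rwa [dist_comm, dist_eq_norm] at this
  obtain ⟨n, hn1, hn2, hn3, hn4, hn5, hn6, hn7, hn8, hn9⟩ :=
    (hpa.and (hX.and (hm.and (hJ.and (hjac.and (hfr.and (hXz0.and
      ((hnear zp hzp himp).and (hnear zm hzm himm))))))))).exists
  -- the chart
  have hDX : ∀ z ∈ ball z0 r, DifferentiableAt ℂ (X n) z := fun z hz =>
    (hn2 z (hrΩ' hz)).differentiableAt (hΩ.mem_nhds (hrΩ' hz))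
  have hDm : ∀ z ∈ ball z0 r, DifferentiableAt ℂ (m n) z := fun z hz =>
    (hn3 z (hrΩ' hz)).differentiableAt (hΩ.mem_nhds (hrΩ' hz))
  have hfn : ApproximatesLinearOn (fun p : ℂ × ℂ => (X n p, p.1)) (A : ℂ × ℂ →L[ℂ] ℂ × ℂ)
      (ball z0 r) cN := pair_approx (Y := X n) (c := cN) htr hDX
    (fun z hz => (hp hn1 (hrpb z hz)).1.le)
  set F := hfn.toOpenPartialHomeomorph _ _ hcNN isOpen_ball with hF
  have htgt : ∀ X' k, ‖X' - X0 z0‖ < τ → ‖k - z0.1‖ < τ → ((X', k) : ℂ × ℂ) ∈ F.target := by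
    intro X' k hX' hk
    have h1 := hfn.closedBall_subset_target hcNN isOpen_ball (b := z0) (ε := r / 2)
      (by positivity) hhalf
    rw [hval] at h1
    refine h1 ?_
    rw [mem_closedBall, dist_eq_norm, Prod.mk_sub_mk, Prod.norm_def]
    have h4τ : c * (r / 2) = 4 * τ := by rw [hτ]; ring
    rw [h4τ]
    refine max_le ?_ (by linarith)
    have := norm_sub_le (X' - X0 z0) (X n z0 - X0 z0)
    rw [sub_sub_sub_cancel_right] at this
    linarith
  have hFs : ∀ q ∈ F.target, F.symm q ∈ ball z0 r ∧ X n (F.symm q) = q.1 ∧ (F.symm q).1 = q.2 := by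
    intro q hq
    have h1 : F.symm q ∈ F.source := F.map_target hq
    have h2 : F (F.symm q) = q := F.right_inv hq
    have h3 : F (F.symm q) = (X n (F.symm q), (F.symm q).1) := rfl
    rw [h3] at h2
    exact ⟨h1, congrArg Prod.fst h2, congrArg Prod.snd h2⟩
  have hFd : ∀ q (hq : q ∈ F.target), ∃ hb : fderiv ℂ (X n) (F.symm q) (0, 1) ≠ 0,
      HasFDerivAt F.symm ((shear (fderiv ℂ (X n) (F.symm q) (1, 0))
        (fderiv ℂ (X n) (F.symm q) (0, 1)) hb).symm : ℂ × ℂ →L[ℂ] ℂ × ℂ) q := by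
    intro q hq
    have h1 := hFs q hq
    have hb := (hp hn1 (hrpb _ h1.1)).2.1
    refine ⟨hb, F.hasFDerivAt_symm hq ?_⟩
    exact hasFDerivAt_pair (hDX _ h1.1) hb
  set ψ : ℂ → ℂ → ℂ := fun X' k => m n (F.symm (X', k)) / J n with hψ
  have hψd : ∀ q ∈ F.target, HasFDerivAt (fun q : ℂ × ℂ => m n (F.symm q) / J n)
      ((J n)⁻¹ • (fderiv ℂ (m n) (F.symm q)).comp (fderiv ℂ F.symm q)) q := by
    intro q hq
    obtain ⟨hb, h2⟩ := hFd q hq
    have h3 := ((hDm _ (hFs q hq).1).hasFDerivAt.comp q h2.differentiableAt.hasFDerivAt).const_smul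
      ((J n)⁻¹)
    refine h3.congr_of_eventuallyEq (Eventually.of_forall fun y => ?_)
    simp [div_eq_inv_mul]
  have hslk : ∀ X' k, ‖X' - X0 z0‖ < τ → ‖k - z0.1‖ < τ →
      HasDerivAt (ψ X') (-χ n (F.symm (X', k)) / fderiv ℂ (X n) (F.symm (X', k)) (0, 1)) k := by
    intro X' k hX' hk
    have hq := htgt X' k hX' hk
    obtain ⟨hb, h2⟩ := hFd _ hq
    have h3 := (hDm _ (hFs _ hq).1).hasFDerivAt.comp (X', k) h2
    have h4 : HasDerivAt (fun k : ℂ => ((X', k) : ℂ × ℂ)) (0, 1) k :=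
      (hasDerivAt_const k X').prodMk (hasDerivAt_id k)
    have h5 : HasDerivAt (ψ X') ((fderiv ℂ (m n) (F.symm (X', k)))
        ((shear (fderiv ℂ (X n) (F.symm (X', k)) (1, 0))
        (fderiv ℂ (X n) (F.symm (X', k)) (0, 1)) hb).symm (0, 1)) / J n) k :=
      (h3.comp_hasDerivAt k h4).div_const (J n)
    have h6 := hn5 _ (hrΩ' (hFs _ hq).1)
    rw [shear_symm_apply, fderiv_split (v := _)] at h5
    simp only at h5
    rw [jac] at h6
    have h7 : (fderiv ℂ (m n) (F.symm (X', k)) (1, 0) * 1 + fderiv ℂ (m n) (F.symm (X', k)) (0, 1) *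
        ((fderiv ℂ (X n) (F.symm (X', k)) (0, 1))⁻¹ *
          (0 - fderiv ℂ (X n) (F.symm (X', k)) (1, 0) * 1))) / J n
        = -χ n (F.symm (X', k)) / fderiv ℂ (X n) (F.symm (X', k)) (0, 1) := by
      field_simp
      linear_combination (-1 : ℂ) * h6
    rw [h7] at h5
    exact h5
  have h2h : 2 * h = τ := by rw [hh]; ring
  have hk0 : ‖z0.1 - (h / 4 : ℝ) * I - z0.1‖ < τ := by
    rw [sub_sub_cancel_left, norm_neg, norm_mul, norm_I, mul_one, norm_real,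
      Real.norm_of_nonneg (by positivity)]
    linarith
  have hψz : ∀ z ∈ ball z0 r, m n z = 0 → ψ (X n z) z.1 = 0 := by
    intro z hz hmz
    have h1 : F.symm (F z) = z := F.left_inv hz
    have h2 : F z = (X n z, z.1) := rfl
    rw [h2] at h1
    change m n (F.symm (X n z, z.1)) / J n = 0
    rw [h1, hmz, zero_div]
  obtain ⟨zp', hzp1, hzp2, hzp3, hzp4⟩ := hn8
  obtain ⟨zm', hzm1, hzm2, hzm3, hzm4⟩ := hn9
  refine leaf_core (ψ := ψ) (x := X0 z0) (κs := z0.1) (l0 := l0) (ρ := τ) (h := h) hτ0 hh0 hl0'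
    ?_ ?_ ?_ ?_ (ε := ε) (min_le_left _ _) (min_le_right _ _) (X1 := X n zp') (k1 := zp'.1)
    (X2 := X n zm') (k2 := zm'.1) ?_ ?_ (hψz _ hzp1 hzp2) ?_ ?_ (hψz _ hzm1 hzm2)
  · intro X' hX' k hk
    rw [mem_ball, dist_eq_norm] at hX' hk
    rw [h2h] at hk
    exact (hslk X' k hX' hk).differentiableAt.differentiableWithinAt
  · intro X' hX'
    rw [mem_ball, dist_eq_norm] at hX'
    have h1 := hψd _ (htgt X' _ hX' hk0)
    have h4 : HasDerivAt (fun X' : ℂ => ((X', z0.1 - (h / 4 : ℝ) * I) : ℂ × ℂ)) (1, 0) X' :=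
      (hasDerivAt_id X').prodMk (hasDerivAt_const X' _)
    exact (h1.comp_hasDerivAt X' h4).differentiableAt.differentiableWithinAt
  · intro X' hX' k hk
    rw [mem_ball, dist_eq_norm] at hX' hk
    rw [h2h] at hk
    rw [(hslk X' k hX' hk).deriv]
    exact (hp hn1 (hrpb _ (hFs _ (htgt X' k hX' hk)).1)).2.2.le
  · intro X' hX' k hk him h00
    rw [mem_ball, dist_eq_norm] at hX' hk
    rw [h2h] at hk
    have h1 := hFs _ (htgt X' k hX' hk)
    have h2 : m n (F.symm (X', k)) = 0 := by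
      have : m n (F.symm (X', k)) / J n = 0 := h00
      rcases div_eq_zero_iff.mp this with h | h
      · exact h
      · exact absurd h hn4
    refine hn6 _ ⟨ball_subset_closedBall h1.1, ?_⟩ h2
    change (F.symm (X', k)).1.im ≤ -h / 8
    rw [h1.2.2]
    rw [sub_im, h0, sub_zero] at him
    exact him
  · rw [← hzpX]; exact hzp3
  · have : (z0.1 + h : ℂ) = zp.1 := hzpk.symm
    rw [this]; exact hzp4
  · rw [← hzmX]; exact hzm3
  · have : (z0.1 - h : ℂ) = zm.1 := by rw [hzmk]; push_cast; ring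
    rw [this]; exact hzm4

/-- `(κ, w) ↦ (κ + σ w, w)` -/
noncomputable def lin (σ : ℂ) : ℂ × ℂ →L[ℂ] ℂ × ℂ :=
  (ContinuousLinearMap.fst ℂ ℂ ℂ + σ • ContinuousLinearMap.snd ℂ ℂ ℂ).prod
    (ContinuousLinearMap.snd ℂ ℂ ℂ)

theorem lin_apply (σ : ℂ) (v : ℂ × ℂ) : lin σ v = (v.1 + σ * v.2, v.2) := by
  simp [lin]

theorem lin_lin (σ : ℂ) (v : ℂ × ℂ) : lin σ (lin (-σ) v) = v := by
  simp [lin_apply]

theorem fderiv_lin {σ : ℂ} {X : ℂ × ℂ → ℂ} {z : ℂ × ℂ} (hX : DifferentiableAt ℂ X (lin σ z))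
    (v : ℂ × ℂ) : fderiv ℂ (fun p => X (lin σ p)) z v = fderiv ℂ X (lin σ z) (lin σ v) := by
  have h := hX.hasFDerivAt.comp z (lin σ).hasFDerivAt
  rw [show (fun p => X (lin σ p)) = X ∘ (lin σ) from rfl, h.fderiv]
  rfl

theorem jac_lin {σ : ℂ} {X m : ℂ × ℂ → ℂ} {z : ℂ × ℂ} (hX : DifferentiableAt ℂ X (lin σ z))
    (hm : DifferentiableAt ℂ m (lin σ z)) :
    jac (fun p => X (lin σ p)) (fun p => m (lin σ p)) z = jac X m (lin σ z) := by
  unfold jac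
  rw [fderiv_lin hX, fderiv_lin hX, fderiv_lin hm, fderiv_lin hm]
  simp only [lin_apply]
  rw [fderiv_split (X := X) (v := (0 + σ * 1, 1)), fderiv_split (X := m) (v := (0 + σ * 1, 1))]
  simp only [mul_zero, add_zero]
  ring

/-- **LEAF LEMMA** (row A5.T-LEAF), original coordinates `z = (t, w)`, `κ z = t - σ w`, `σ` real
(any complex `σ` is allowed). -/
theorem leaf {ι : Type*} {l : Filter ι} [NeBot l] {Ω : Set (ℂ × ℂ)} (hΩ : IsOpen Ω) {σ : ℂ}
    {z0 : ℂ × ℂ} (hz0 : z0 ∈ Ω) (h0 : (z0.1 - σ * z0.2).im = 0)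
    {X m χ : ι → ℂ × ℂ → ℂ} {X0 χ0 : ℂ × ℂ → ℂ} {J : ι → ℂ}
    (hX : ∀ᶠ n in l, DifferentiableOn ℂ (X n) Ω) (hm : ∀ᶠ n in l, DifferentiableOn ℂ (m n) Ω)
    (hX0 : DifferentiableOn ℂ X0 Ω) (hXl : TendstoLocallyUniformlyOn X X0 l Ω)
    (hJ : ∀ᶠ n in l, J n ≠ 0) (hχl : TendstoLocallyUniformlyOn χ χ0 l Ω)
    (hχc : ContinuousAt χ0 z0) (hχ0 : χ0 z0 ≠ 0)
    (hjac : ∀ᶠ n in l, ∀ z ∈ Ω, jac (X n) (m n) z = J n * χ n z)
    (htr : fderiv ℂ X0 z0 (1, 0) * σ + fderiv ℂ X0 z0 (0, 1) ≠ 0)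
    (hfree : ∀ K ⊆ Ω, IsCompact K → (∀ z ∈ K, (z.1 - σ * z.2).im < 0) →
      ∀ᶠ n in l, ∀ z ∈ K, m n z ≠ 0)
    (htouch : ∀ z ∈ Ω, (z.1 - σ * z.2).im = 0 → ∀ ε > 0, ∀ᶠ n in l, ∃ z' ∈ ball z ε, m n z' = 0) :
    False := by
  set L := lin σ with hL
  have hLc : Continuous L := L.continuous
  have hi : ∀ z, L (lin (-σ) z) = z := lin_lin σ
  have hi2 : ∀ z, lin (-σ) (L z) = z := by
    intro z
    have := lin_lin (-σ) z
    rwa [neg_neg] at this
  have hk : ∀ z, (lin (-σ) z).1 = z.1 - σ * z.2 := by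
    intro z; rw [lin_apply]; ring
  have hkL : ∀ p : ℂ × ℂ, (L p).1 - σ * (L p).2 = p.1 := by
    intro p; rw [hL, lin_apply]; ring
  set Ω' : Set (ℂ × ℂ) := L ⁻¹' Ω with hΩ'
  have hmaps : MapsTo L Ω' Ω := fun z hz => hz
  set p0 := lin (-σ) z0 with hp0
  have hp0m : p0 ∈ Ω' := by change L p0 ∈ Ω; rw [hp0, hi]; exact hz0
  have hLp0 : L p0 = z0 := hi z0
  have hdiff : ∀ {Y : ℂ × ℂ → ℂ}, DifferentiableOn ℂ Y Ω →
      DifferentiableOn ℂ (fun p => Y (L p)) Ω' := fun hY =>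
    hY.comp L.differentiable.differentiableOn hmaps
  refine leafK (l := l) (Ω := Ω') (hΩ.preimage hLc) (z0 := p0) hp0m (by rw [hp0, hk]; exact h0)
    (X := fun n p => X n (L p)) (m := fun n p => m n (L p)) (χ := fun n p => χ n (L p))
    (X0 := fun p => X0 (L p)) (χ0 := fun p => χ0 (L p)) (J := J)
    (hX.mono fun n h => hdiff h) (hm.mono fun n h => hdiff h) (hdiff hX0)
    (hXl.comp L hmaps hLc.continuousOn) hJ (hχl.comp L hmaps hLc.continuousOn)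
    (ContinuousAt.comp (by rw [hLp0]; exact hχc) hLc.continuousAt)
    (by rw [hLp0]; exact hχ0) ?_ ?_ ?_ ?_
  · filter_upwards [hX, hm, hjac] with n h1 h2 h3 z hz
    rw [hL, jac_lin ((h1 _ hz).differentiableAt (hΩ.mem_nhds hz))
      ((h2 _ hz).differentiableAt (hΩ.mem_nhds hz))]
    exact h3 _ hz
  · rw [hL, fderiv_lin (by
      rw [← hL, hLp0]; exact (hX0 z0 hz0).differentiableAt (hΩ.mem_nhds hz0)), ← hL, hLp0, hL,
      lin_apply]
    simp only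
    rw [fderiv_split (v := _)]
    simpa using htr
  · intro K hK hKc hKim
    have h1 := hfree (L '' K) (by rintro _ ⟨z, hz, rfl⟩; exact hK hz) (hKc.image hLc)
      (by rintro _ ⟨z, hz, rfl⟩; rw [hkL]; exact hKim z hz)
    filter_upwards [h1] with n hn z hz
    exact hn _ ⟨z, hz, rfl⟩
  · intro z hz him ε hε
    -- `lin (-σ)` is continuous at `L z`
    have hcont : ContinuousAt (lin (-σ)) (L z) := (lin (-σ)).continuous.continuousAt
    obtain ⟨δ, hδ, hδb⟩ := Metric.continuousAt_iff.mp hcont ε hε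
    have h1 := htouch (L z) hz (by rw [hkL]; exact him) δ hδ
    filter_upwards [h1] with n hn
    obtain ⟨z', hz', hm0⟩ := hn
    refine ⟨lin (-σ) z', ?_, ?_⟩
    · have := hδb hz'
      rwa [hi2] at this
    · change m n (L (lin (-σ) z')) = 0
      rw [hi]; exact hm0

end Vale.Agent.P097.H845
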