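import Mathlib
import Vale.Agent.P097.H845.LeafB
import Vale.Agent.P097.H100.Ent

/-!
# P097 / row A5.T9: the slow pick world is impossible (624 #15067 (9)), abstract form

Straight coordinates `z = (κ, w)`; `D = Wc s' = {0 < Im w, Im κ < s' Im w}`.
-/

set_option linter.all false

open Complex Metric Set Filter Topology

namespace Vale.Agent.P097.H845

open Vale.Agent.P097.H100

theorem mem_Wc {s' : ℝ} {z : ℂ × ℂ} : z ∈ Wc s' ↔ 0 < z.2.im ∧ z.1.im < s' * z.2.im := Iff.rfl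

/-- slice in `κ` -/
theorem diff_k {s' : ℝ} {X : ℂ × ℂ → ℂ} (hX : DifferentiableOn ℂ X (Wc s')) {w : ℂ}
    (hw : 0 < w.im) : DifferentiableOn ℂ (fun k => X (k, w)) {k | k.im < s' * w.im} := by
  refine hX.comp (f := fun k : ℂ => (k, w)) ?_ (fun k hk => ⟨hw, hk⟩)
  exact (differentiable_id.prodMk (differentiable_const _)).differentiableOn

/-- slice in `w` -/
theorem diff_w {s' : ℝ} {X : ℂ × ℂ → ℂ} (hX : DifferentiableOn ℂ X (Wc s')) (k : ℂ) :
    DifferentiableOn ℂ (fun w => X (k, w)) {w | 0 < w.im ∧ k.im < s' * w.im} := by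
  refine hX.comp (f := fun w : ℂ => (k, w)) ?_ (fun w hw => hw)
  exact ((differentiable_const _).prodMk differentiable_id).differentiableOn

theorem open_wd (s' : ℝ) (k : ℂ) : IsOpen {w : ℂ | 0 < w.im ∧ k.im < s' * w.im} := by
  have := isOpen_wdom (s := s') (σ := 0) k
  simpa using this

theorem convex_wd (s' : ℝ) (k : ℂ) : Convex ℝ {w : ℂ | 0 < w.im ∧ k.im < s' * w.im} := by
  have := convex_wdom (s := s') (σ := 0) k
  simpa using this

/-- a holomorphic function on `Wc s'` which vanishes on the part `|Re w| < Im w / 2` of `Σ`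
vanishes -/
theorem zero_of_sigma {s' : ℝ} (hs : 0 < s') {G : ℂ × ℂ → ℂ} (hG : DifferentiableOn ℂ G (Wc s'))
    (h0 : ∀ z : ℂ × ℂ, z.1.im = 0 → 0 < z.2.im → |z.2.re| < z.2.im / 2 → G z = 0) :
    ∀ z ∈ Wc s', G z = 0 := by
  -- first: all kappa, w in the sector
  have h1 : ∀ k w : ℂ, 0 < w.im → |w.re| < w.im / 2 → k.im < s' * w.im → G (k, w) = 0 := by
    intro k w hw hre hk
    have hd := diff_k hG hw
    have ho := isOpen_imlt (s' * w.im)
    have ha := hd.analyticOnNhd ho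
    have hfr : ∃ᶠ z in 𝓝[≠] (0 : ℂ), G (z, w) = 0 := by
      have ht : Tendsto (fun n : ℕ => (((1 : ℝ) / ((n : ℝ) + 1) : ℝ) : ℂ)) atTop (𝓝[≠] (0 : ℂ)) := by
        refine tendsto_nhdsWithin_iff.2 ⟨?_, Eventually.of_forall fun n => ?_⟩
        · have := tendsto_one_div_add_atTop_nhds_zero_nat (𝕜 := ℝ)
          have h2 := (Complex.continuous_ofReal.tendsto 0).comp this
          simpa [Function.comp_def] using h2
        · have h3 : ((1 : ℝ) / ((n : ℝ) + 1)) ≠ 0 := by positivity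
          exact fun h => h3 (Complex.ofReal_eq_zero.mp h)
      refine ht.frequently (Frequently.of_forall fun n => ?_)
      exact h0 _ (by simp only [ofReal_im]) hw hre
    have := ha.eqOn_zero_of_preconnected_of_frequently_eq_zero (convex_imlt _).isPreconnected
      (show (0 : ℂ) ∈ {k : ℂ | k.im < s' * w.im} by
        change (0 : ℂ).im < s' * w.im
        rw [zero_im]; positivity) hfr
    exact this hk
  rintro ⟨k, w⟩ ⟨hw, hk⟩
  simp only at hw hk
  have ha := (diff_w hG k).analyticOnNhd (open_wd s' k)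
  set T : ℝ := (|k.im| + 1) / s' with hT
  have hT0 : 0 < T := by positivity
  have hTk : k.im < s' * T := by
    rw [hT]; field_simp; linarith [le_abs_self k.im]
  have hmem : ((T : ℂ) * I) ∈ {w : ℂ | 0 < w.im ∧ k.im < s' * w.im} := by
    simp [hT0, hTk]
  have hev : ∀ᶠ z in 𝓝 ((T : ℂ) * I), G (k, z) = 0 := by
    have hop : IsOpen {z : ℂ | 0 < z.im ∧ |z.re| < z.im / 2 ∧ k.im < s' * z.im} := by
      refine (isOpen_lt continuous_const continuous_im).inter
        ((isOpen_lt (continuous_re.abs) (continuous_im.div_const 2)).inter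
        (isOpen_lt continuous_const (continuous_const.mul continuous_im)))
    have hm : ((T : ℂ) * I) ∈ {z : ℂ | 0 < z.im ∧ |z.re| < z.im / 2 ∧ k.im < s' * z.im} := by
      simp [hT0, hTk]
    filter_upwards [hop.mem_nhds hm] with z hz
    exact h1 k z hz.1 hz.2.1 hz.2.2
  have := ha.eqOn_zero_of_preconnected_of_eventuallyEq_zero (convex_wd s' k).isPreconnected hmem hev
  exact this ⟨hw, hk⟩

theorem closedBall_sub_wc {s' : ℝ} {z : ℂ × ℂ} (hz : z ∈ Wc s') :
    ∃ δ > 0, closedBall z δ ⊆ Wc s' :=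
  Metric.nhds_basis_closedBall.mem_iff.mp ((isOpen_Wc s').mem_nhds hz)

/-- **row A5.T9** -/
theorem tan_slow {ι : Type*} {l : Filter ι} [NeBot l] {s' : ℝ} (hs : 0 < s')
    {X m χ : ι → ℂ × ℂ → ℂ} {X' M' χ0 : ℂ × ℂ → ℂ} {cX cm ε J : ι → ℂ}
    (hε : ∀ᶠ n in l, ε n ≠ 0) (hJ : ∀ᶠ n in l, J n ≠ 0)
    (hd : ∀ K ⊆ Wc s', IsCompact K → ∀ᶠ n in l, ∀ z ∈ K, DifferentiableAt ℂ (X n) z ∧
      DifferentiableAt ℂ (m n) z ∧ jac (X n) (m n) z = J n * χ n z)
    (hχl : TendstoLocallyUniformlyOn χ χ0 l (Wc s')) (hχc : ContinuousOn χ0 (Wc s'))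
    (hχ0 : ∀ z ∈ Wc s', χ0 z ≠ 0)
    (hX' : DifferentiableOn ℂ X' (Wc s')) (hM' : DifferentiableOn ℂ M' (Wc s'))
    (hXl : TendstoLocallyUniformlyOn (fun n z => (X n z - cX n) / ε n) X' l (Wc s'))
    (hml : TendstoLocallyUniformlyOn (fun n z => (m n z - cm n) / ε n) M' l (Wc s'))
    (hnc : ∃ z ∈ Wc s', fderiv ℂ X' z ≠ 0 ∨ fderiv ℂ M' z ≠ 0)
    (hfree : ∀ K : Set (ℂ × ℂ), IsCompact K → (∀ z ∈ K, z.1.im < 0 ∧ 0 < z.2.im) →
      ∀ᶠ n in l, ∀ z ∈ K, m n z ≠ 0)
    (htouch : ∀ z : ℂ × ℂ, z.1.im = 0 → 0 < z.2.im → |z.2.re| ≤ z.2.im / 2 → ∀ δ > 0,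
      ∀ᶠ n in l, ∃ z' ∈ ball z δ, m n z' = 0)
    {θ : ℝ} (hθ : θ < 1)
    (hg : ∀ s'' < s', ∀ M : ℝ, ∃ A : ℝ, ∀ z ∈ Wc s', z.1.im ≤ s'' * z.2.im → ‖z‖ ≤ M * z.2.im →
      ‖X' z‖ ≤ A * (1 + ‖z‖) ^ θ) : False := by
  classical
  -- pass to an ultrafilter
  obtain ⟨𝒰, h𝒰⟩ : ∃ 𝒰 : Ultrafilter ι, (𝒰 : Filter ι) ≤ l := ⟨Ultrafilter.of l, Ultrafilter.of_le l⟩
  have mono : ∀ {f : ι → ℂ × ℂ → ℂ} {g : ℂ × ℂ → ℂ}, TendstoLocallyUniformlyOn f g l (Wc s') →
      TendstoLocallyUniformlyOn f g 𝒰 (Wc s') := by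
    intro f g h u hu x hx
    obtain ⟨t, ht, hev⟩ := h u hu x hx
    exact ⟨t, ht, hev.filter_mono h𝒰⟩
  have hSig : ∀ z : ℂ × ℂ, z.1.im = 0 → 0 < z.2.im → z ∈ Wc s' := by
    intro z h1 h2
    exact ⟨h2, by rw [h1]; positivity⟩
  -- step 1: `cm n / ε n` is bounded along the ultrafilter
  have hbdd : ∃ R : ℝ, ∀ᶠ n in (𝒰 : Filter ι), ‖cm n / ε n‖ ≤ R := by
    by_contra hcon
    push Not at hcon
    have hz1 : ((0 : ℂ), I).1.im = 0 := by simp
    have hz2 : 0 < ((0 : ℂ), I).2.im := by simp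
    have hz3 : |((0 : ℂ), I).2.re| ≤ ((0 : ℂ), I).2.im / 2 := by simp
    have hz := hSig _ hz1 hz2
    have hcM : ContinuousAt M' ((0 : ℂ), I) :=
      (hM' _ hz).continuousWithinAt.continuousAt ((isOpen_Wc s').mem_nhds hz)
    have hj := joint_tendsto (isOpen_Wc s') (mono hml) hz hcM
    obtain ⟨pa, hpa, pb, hpb, hp⟩ := Filter.eventually_prod_iff.mp
      ((Metric.tendsto_nhds.mp hj) 1 one_pos)
    obtain ⟨δ, hδ, hδb⟩ := Metric.mem_nhds_iff.mp hpb
    have hR := hcon (‖M' ((0 : ℂ), I)‖ + 1)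
    have hR' : ∀ᶠ n in (𝒰 : Filter ι), ‖M' ((0 : ℂ), I)‖ + 1 < ‖cm n / ε n‖ := hR
    obtain ⟨n, h1, h2, h3, h4⟩ := (hpa.and ((hR').and (((htouch _ hz1 hz2 hz3 δ hδ).filter_mono
      h𝒰).and (hε.filter_mono h𝒰)))).exists
    obtain ⟨z', hz', hm0⟩ := h3
    have h5 := hp h1 (hδb hz')
    simp only at h5
    rw [hm0, zero_sub, dist_eq_norm] at h5
    have h6 : ‖cm n / ε n‖ ≤ ‖-cm n / ε n - M' ((0 : ℂ), I)‖ + ‖M' ((0 : ℂ), I)‖ := by
      have := norm_add_le (-cm n / ε n - M' ((0 : ℂ), I)) (M' ((0 : ℂ), I))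
      rw [sub_add_cancel, neg_div, norm_neg] at this
      rwa [neg_div]
    linarith
  obtain ⟨R, hR⟩ := hbdd
  -- limit of `cm n / ε n`
  obtain ⟨c, -, hc⟩ : ∃ c ∈ closedBall (0 : ℂ) R,
      Tendsto (fun n => cm n / ε n) 𝒰 (𝓝 c) := by
    have h1 : (𝒰.map (fun n => cm n / ε n) : Filter ℂ) ≤ 𝓟 (closedBall 0 R) := by
      rw [le_principal_iff]
      have h2 : ∀ᶠ n in (𝒰 : Filter ι), cm n / ε n ∈ closedBall (0 : ℂ) R := by
        filter_upwards [hR] with n hn
        rw [mem_closedBall, dist_zero_right]; exact hn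
      exact h2
    obtain ⟨c, hc1, hc2⟩ := (isCompact_closedBall (0 : ℂ) R).ultrafilter_le_nhds
      (𝒰.map (fun n => cm n / ε n)) h1
    exact ⟨c, hc1, hc2⟩
  -- step 2: `c + M' = 0`
  have hM0 : ∀ z ∈ Wc s', c + M' z = 0 := by
    refine zero_of_sigma hs ((differentiableOn_const c).add hM') ?_
    intro z hz1 hz2 hz3
    have hz := hSig z hz1 hz2
    have hcM : ContinuousAt M' z :=
      (hM' _ hz).continuousWithinAt.continuousAt ((isOpen_Wc s').mem_nhds hz)
    have hj := joint_tendsto (isOpen_Wc s') (mono hml) hz hcM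
    have hj2 : Tendsto (fun p : ι × (ℂ × ℂ) => cm p.1 / ε p.1 + (m p.1 p.2 - cm p.1) / ε p.1)
        ((𝒰 : Filter ι) ×ˢ 𝓝 z) (𝓝 (c + M' z)) := (hc.comp tendsto_fst).add hj
    by_contra hne
    have hpos : 0 < ‖c + M' z‖ := norm_pos_iff.mpr hne
    obtain ⟨pa, hpa, pb, hpb, hp⟩ := Filter.eventually_prod_iff.mp
      ((Metric.tendsto_nhds.mp hj2) _ hpos)
    obtain ⟨δ, hδ, hδb⟩ := Metric.mem_nhds_iff.mp hpb
    obtain ⟨n, h1, h2, h3⟩ := (hpa.and (((htouch _ hz1 hz2 hz3.le δ hδ).filter_mono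
      h𝒰).and (hε.filter_mono h𝒰))).exists
    obtain ⟨z', hz', hm0⟩ := h2
    have h5 := hp h1 (hδb hz')
    simp only at h5
    rw [hm0, zero_sub, neg_div, add_neg_cancel, dist_eq_norm, zero_sub, norm_neg] at h5
    exact lt_irrefl _ h5
  have hM1 : ∀ z ∈ Wc s', fderiv ℂ M' z = 0 := by
    intro z hz
    have h1 : M' =ᶠ[𝓝 z] fun _ => -c := by
      filter_upwards [(isOpen_Wc s').mem_nhds hz] with y hy
      have := hM0 y hy
      linear_combination this
    rw [h1.fderiv_eq]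
    exact fderiv_const_apply _
  obtain ⟨z1, hz1, hz1'⟩ := hnc
  have hX1 : fderiv ℂ X' z1 ≠ 0 := hz1'.resolve_right (fun h => h (hM1 z1 hz1))
  -- step 3: on the sector part of `Σ` the derivative in `w` vanishes (leaf lemma)
  have hsec : ∀ z : ℂ × ℂ, z.1.im = 0 → 0 < z.2.im → |z.2.re| < z.2.im / 2 →
      fderiv ℂ X' z (0, 1) = 0 := by
    intro z0 h1 h2 h3
    by_contra htr
    have hz0 := hSig z0 h1 h2
    have hop : IsOpen {z : ℂ × ℂ | 0 < z.2.im ∧ |z.2.re| < z.2.im / 2} := by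
      have e1 : Continuous fun z : ℂ × ℂ => z.2.im := continuous_im.comp continuous_snd
      have e2 : Continuous fun z : ℂ × ℂ => z.2.re := continuous_re.comp continuous_snd
      exact (isOpen_lt continuous_const e1).inter (isOpen_lt e2.abs (e1.div_const 2))
    obtain ⟨δ, hδ, hδW⟩ := Metric.nhds_basis_closedBall.mem_iff.mp
      (((isOpen_Wc s').inter hop).mem_nhds ⟨hz0, h2, h3⟩)
    have hdK := hd (closedBall z0 δ) (fun z hz => (hδW hz).1) (isCompact_closedBall _ _)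
    have hball : ball z0 δ ⊆ Wc s' := fun z hz => (hδW (ball_subset_closedBall hz)).1
    refine leafK (l := l) (Ω := ball z0 δ) isOpen_ball (z0 := z0) (mem_ball_self hδ) h1
      (X := fun n z => (X n z - cX n) / ε n) (m := m) (χ := χ) (X0 := X') (χ0 := χ0)
      (J := fun n => J n / ε n) ?_ ?_ (hX'.mono hball) (hXl.mono hball) ?_ (hχl.mono hball)
      ((hχc z0 hz0).continuousAt ((isOpen_Wc s').mem_nhds hz0)) (hχ0 z0 hz0) ?_ htr ?_ ?_
    · filter_upwards [hdK] with n hn z hz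
      have e1 := (hn z (ball_subset_closedBall hz)).1.sub_const (cX n)
      have e2 : DifferentiableAt ℂ (fun y => (X n y - cX n) * (ε n)⁻¹) z := e1.mul_const _
      exact (e2.congr_of_eventuallyEq (Eventually.of_forall fun y => by
        simp only [div_eq_mul_inv])).differentiableWithinAt
    · filter_upwards [hdK] with n hn z hz
      exact ((hn z (ball_subset_closedBall hz)).2.1).differentiableWithinAt
    · filter_upwards [hJ, hε] with n e1 e2
      exact div_ne_zero e1 e2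
    · filter_upwards [hdK] with n hn z hz
      obtain ⟨e1, e2, e3⟩ := hn z (ball_subset_closedBall hz)
      have e4 : fderiv ℂ (fun z => (X n z - cX n) / ε n) z = (ε n)⁻¹ • fderiv ℂ (X n) z := by
        have h := (e1.hasFDerivAt.sub_const (cX n)).const_mul ((ε n)⁻¹)
        have h' : (fun z => (X n z - cX n) / ε n) = fun z => (ε n)⁻¹ * (X n z - cX n) := by
          funext y; rw [div_eq_inv_mul]
        rw [h', h.fderiv]
      unfold jac at e3 ⊢
      rw [e4]
      simp only [ContinuousLinearMap.smul_apply, smul_eq_mul]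
      rw [show J n / ε n * χ n z = (ε n)⁻¹ * (J n * χ n z) by rw [div_eq_inv_mul]; ring, ← e3]
      ring
    · intro K hK hKc hKim
      exact hfree K hKc fun z hz => ⟨hKim z hz, (hδW (ball_subset_closedBall (hK hz))).2.1⟩
    · intro z hz him ε' hε'
      have := (hδW (ball_subset_closedBall hz)).2
      exact htouch z him this.1 this.2.le ε' hε'
  -- step 4: on all of `Σ`
  have hall : ∀ z ∈ Wc s', (z.1 - ((0 : ℝ) : ℂ) * z.2).im = 0 →
      fderiv ℂ X' z ((((0 : ℝ) : ℂ)), 1) = 0 := by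
    rintro ⟨k, w⟩ hz him
    simp only [ofReal_zero, zero_mul, sub_zero] at him
    rw [ofReal_zero]
    have hU : IsOpen {w : ℂ | 0 < w.im} := isOpen_lt continuous_const continuous_im
    have hconn : IsPreconnected {w : ℂ | 0 < w.im} := (convex_halfSpace_im_gt 0).isPreconnected
    have hdw : DifferentiableOn ℂ (fun w => X' (k, w)) {w : ℂ | 0 < w.im} := by
      refine (diff_w hX' k).mono fun w hw => ⟨hw, ?_⟩
      rw [him]; exact mul_pos hs hw
    have hder : ∀ w ∈ {w : ℂ | 0 < w.im}, deriv (fun w => X' (k, w)) w = fderiv ℂ X' (k, w) (0, 1) := by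
      intro w hw
      have h1 : (k, w) ∈ Wc s' := hSig _ him hw
      have h2 : HasFDerivAt X' (fderiv ℂ X' (k, w)) (k, w) :=
        ((hX' _ h1).differentiableAt ((isOpen_Wc s').mem_nhds h1)).hasFDerivAt
      have h3 : HasDerivAt (fun w : ℂ => ((k, w) : ℂ × ℂ)) (0, 1) w :=
        (hasDerivAt_const w k).prodMk (hasDerivAt_id w)
      exact (h2.comp_hasDerivAt w h3).deriv
    have han : AnalyticOnNhd ℂ (deriv (fun w => X' (k, w))) {w : ℂ | 0 < w.im} :=
      (hdw.analyticOnNhd hU).deriv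
    have hop : IsOpen {w : ℂ | 0 < w.im ∧ |w.re| < w.im / 2} :=
      (isOpen_lt continuous_const continuous_im).inter
        (isOpen_lt continuous_re.abs (continuous_im.div_const 2))
    have hI : I ∈ {w : ℂ | 0 < w.im ∧ |w.re| < w.im / 2} := by simp
    have hev : deriv (fun w => X' (k, w)) =ᶠ[𝓝 I] 0 := by
      filter_upwards [hop.mem_nhds hI] with w hw
      rw [hder w hw.1]
      exact hsec (k, w) him hw.1 hw.2
    have h6 := han.eqOn_zero_of_preconnected_of_eventuallyEq_zero hconn (by simp : I ∈ {w : ℂ | 0 < w.im}) hev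
    have h7 := h6 (show w ∈ {w : ℂ | 0 < w.im} from hz.1)
    rw [hder w hz.1] at h7
    exact h7
  obtain ⟨y, hy⟩ := wide_const (σ := 0) (s := s') hs hX' hall hθ hg
  have h8 : X' =ᶠ[𝓝 z1] fun _ => y := by
    filter_upwards [(isOpen_Wc s').mem_nhds hz1] with z hz
    exact hy z hz
  apply hX1
  rw [h8.fderiv_eq]
  exact fderiv_const_apply _

end Vale.Agent.P097.H845
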