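import Mathlib
import Vale.Agent.P097.H845.T9

/-!
# P097 / row A5.T9 on a general convex cone domain

Straight coordinates `z = (κ, w)`. Instances of the domain: `Wc s'` and the non tangential cone
`Cp c0 s'`.
-/

set_option linter.all false

open Complex Metric Set Filter Topology

namespace Vale.Agent.P097.H845

open Vale.Agent.P097.H100

/-- convex domains in `(κ, w)` over which the last steps of (T) work -/
structure CD (D : Set (ℂ × ℂ)) (Y : ℝ) : Prop where
  op : IsOpen D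
  cv : Convex ℝ D
  pos : ∀ z ∈ D, 0 < z.2.im
  up : ∀ (k : ℂ) (y : ℝ), Y * (1 + ‖k‖) ≤ y → (k, (y : ℂ) * I) ∈ D
  sec : ∀ w : ℂ, 0 < w.im → |w.re| < w.im / 2 → ((0 : ℂ), w) ∈ D

/-- the non tangential cone of record windows -/
def Cp (c0 s' : ℝ) : Set (ℂ × ℂ) := {z | c0 * ‖z‖ < z.2.im ∧ c0 * ‖z‖ < s' * z.2.im - z.1.im}

theorem convex_lt_lin {c0 : ℝ} (hc : 0 ≤ c0) (f : ℂ × ℂ → ℝ)
    (hf : ∀ (a b : ℝ) (x y : ℂ × ℂ), f (a • x + b • y) = a * f x + b * f y) :
    Convex ℝ {z : ℂ × ℂ | c0 * ‖z‖ < f z} := by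
  intro x hx y hy a b ha hb hab
  simp only [mem_ofPred_eq] at hx hy ⊢
  rw [hf]
  have h1 : ‖a • x + b • y‖ ≤ a * ‖x‖ + b * ‖y‖ := by
    calc ‖a • x + b • y‖ ≤ ‖a • x‖ + ‖b • y‖ := norm_add_le _ _
      _ = a * ‖x‖ + b * ‖y‖ := by
        rw [norm_smul, norm_smul, Real.norm_of_nonneg ha, Real.norm_of_nonneg hb]
  have h2 : c0 * ‖a • x + b • y‖ ≤ a * (c0 * ‖x‖) + b * (c0 * ‖y‖) := by
    calc c0 * ‖a • x + b • y‖ ≤ c0 * (a * ‖x‖ + b * ‖y‖) := mul_le_mul_of_nonneg_left h1 hc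
      _ = _ := by ring
  rcases eq_or_lt_of_le ha with h | h
  · subst h
    have hb1 : b = 1 := by linarith
    subst hb1
    linarith
  · have h3 : a * (c0 * ‖x‖) < a * f x := mul_lt_mul_of_pos_left hx h
    have h4 : b * (c0 * ‖y‖) ≤ b * f y := mul_le_mul_of_nonneg_left hy.le hb
    linarith

theorem cd_cp {c0 s' : ℝ} (hc : 0 < c0) (hs : 0 < s') (h1 : 2 * c0 ≤ 1) (h2 : 2 * c0 ≤ s') :
    CD (Cp c0 s') (2 + 2 / s') where
  op := by
    have e1 : Continuous fun z : ℂ × ℂ => c0 * ‖z‖ := continuous_const.mul continuous_norm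
    have e2 : Continuous fun z : ℂ × ℂ => z.2.im := continuous_im.comp continuous_snd
    have e3 : Continuous fun z : ℂ × ℂ => s' * z.2.im - z.1.im :=
      (continuous_const.mul e2).sub (continuous_im.comp continuous_fst)
    exact (isOpen_lt e1 e2).inter (isOpen_lt e1 e3)
  cv := by
    refine (convex_lt_lin hc.le (fun z => z.2.im) ?_).inter
      (convex_lt_lin hc.le (fun z => s' * z.2.im - z.1.im) ?_)
    · intro a b x y; simp
    · intro a b x y; simp; ring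
  pos := fun z hz => lt_of_le_of_lt (by positivity) hz.1
  up := by
    intro k y hy
    have hk : 0 ≤ ‖k‖ := norm_nonneg k
    have hd : 0 < 2 / s' := by positivity
    have hy2 : 2 * (1 + ‖k‖) ≤ y := by nlinarith
    have hy3 : 2 / s' * (1 + ‖k‖) ≤ y := by nlinarith
    have hy0 : 0 < y := by linarith
    have hy4 : 2 * (1 + ‖k‖) ≤ s' * y := by
      have := mul_le_mul_of_nonneg_left hy3 hs.le
      rw [← mul_assoc, mul_div_cancel₀ _ hs.ne'] at this
      exact this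
    have hn : ‖((k, (y : ℂ) * I) : ℂ × ℂ)‖ = y := by
      rw [Prod.norm_def]
      simp only [norm_mul, norm_real, norm_I, mul_one, Real.norm_of_nonneg hy0.le]
      exact max_eq_right (by linarith)
    have hki : k.im ≤ ‖k‖ := (le_abs_self _).trans (abs_im_le_norm k)
    constructor
    · rw [hn]
      simp only [mul_im, ofReal_re, I_im, mul_one, ofReal_im, I_re, mul_zero, add_zero]
      nlinarith
    · rw [hn]
      simp only [mul_im, ofReal_re, I_im, mul_one, ofReal_im, I_re, mul_zero, add_zero]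
      nlinarith
  sec := by
    intro w hw hre
    have hn : ‖(((0 : ℂ), w) : ℂ × ℂ)‖ = ‖w‖ := by
      rw [Prod.norm_def]; simp
    have hwn : ‖w‖ < 3 / 2 * w.im := by
      have := Complex.norm_le_abs_re_add_abs_im w
      rw [abs_of_pos hw] at this
      linarith
    constructor
    · rw [hn]; simp only; nlinarith
    · rw [hn]; simp only [zero_im, sub_zero]; nlinarith

theorem cd_wc {s' : ℝ} (hs : 0 < s') : CD (Wc s') (1 + 1 / s') where
  op := isOpen_Wc s'
  cv := by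
    intro x hx y hy a b ha hb hab
    obtain ⟨x1, x2⟩ := hx
    obtain ⟨y1, y2⟩ := hy
    have e1 : (a • x + b • y).2.im = a * x.2.im + b * y.2.im := by simp
    have e2 : (a • x + b • y).1.im = a * x.1.im + b * y.1.im := by simp
    rcases eq_or_lt_of_le ha with h | h
    · subst h
      have hb1 : b = 1 := by linarith
      subst hb1
      constructor
      · rw [e1]; linarith
      · rw [e1, e2]; linarith
    · constructor
      · rw [e1]
        have := mul_pos h x1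
        have := mul_nonneg hb y1.le
        linarith
      · rw [e1, e2]
        have h3 := mul_lt_mul_of_pos_left x2 h
        have h4 := mul_le_mul_of_nonneg_left y2.le hb
        nlinarith
  pos := fun z hz => hz.1
  up := by
    intro k y hy
    have hk : 0 ≤ ‖k‖ := norm_nonneg k
    have hd : 0 < 1 / s' := by positivity
    have hy2 : 1 + ‖k‖ ≤ y := by nlinarith
    have hy3 : 1 / s' * (1 + ‖k‖) ≤ y := by nlinarith
    have hy0 : 0 < y := by linarith
    have hy4 : 1 + ‖k‖ ≤ s' * y := by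
      have := mul_le_mul_of_nonneg_left hy3 hs.le
      rw [← mul_assoc, mul_div_cancel₀ _ hs.ne', one_mul] at this
      exact this
    have hki : k.im ≤ ‖k‖ := (le_abs_self _).trans (abs_im_le_norm k)
    constructor
    · simpa using hy0
    · simp only [mul_im, ofReal_re, I_im, mul_one, ofReal_im, I_re, mul_zero, add_zero]
      linarith
  sec := fun w hw hre => ⟨hw, by simpa using mul_pos hs hw⟩

namespace CD

variable {D : Set (ℂ × ℂ)} {Y : ℝ}

/-- slices in `κ` -/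
theorem slice_k (h : CD D Y) (w : ℂ) : IsOpen {k : ℂ | (k, w) ∈ D} ∧ Convex ℝ {k : ℂ | (k, w) ∈ D} := by
  constructor
  · exact h.op.preimage (continuous_id.prodMk continuous_const)
  · intro x hx y hy a b ha hb hab
    have h1 := h.cv hx hy ha hb hab
    have h2 : a • ((x, w) : ℂ × ℂ) + b • ((y, w) : ℂ × ℂ) = (a • x + b • y, w) := by
      ext
      · simp
      · simp only [Prod.smul_mk, Prod.mk_add_mk]
        rw [← add_smul, hab, one_smul]
    rw [h2] at h1
    exact h1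

/-- slices in `w` -/
theorem slice_w (h : CD D Y) (k : ℂ) : IsOpen {w : ℂ | (k, w) ∈ D} ∧ Convex ℝ {w : ℂ | (k, w) ∈ D} := by
  constructor
  · exact h.op.preimage (continuous_const.prodMk continuous_id)
  · intro x hx y hy a b ha hb hab
    have h1 := h.cv hx hy ha hb hab
    have h2 : a • ((k, x) : ℂ × ℂ) + b • ((k, y) : ℂ × ℂ) = (k, a • x + b • y) := by
      ext
      · simp only [Prod.smul_mk, Prod.mk_add_mk]
        rw [← add_smul, hab, one_smul]
      · simp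
    rw [h2] at h1
    exact h1

theorem diff_k (h : CD D Y) {X : ℂ × ℂ → ℂ} (hX : DifferentiableOn ℂ X D) (w : ℂ) :
    DifferentiableOn ℂ (fun k => X (k, w)) {k | (k, w) ∈ D} := by
  refine hX.comp (f := fun k : ℂ => (k, w)) ?_ (fun k hk => hk)
  exact (differentiable_id.prodMk (differentiable_const _)).differentiableOn

theorem diff_w (h : CD D Y) {X : ℂ × ℂ → ℂ} (hX : DifferentiableOn ℂ X D) (k : ℂ) :
    DifferentiableOn ℂ (fun w => X (k, w)) {w | (k, w) ∈ D} := by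
  refine hX.comp (f := fun w : ℂ => (k, w)) ?_ (fun w hw => hw)
  exact ((differentiable_const _).prodMk differentiable_id).differentiableOn

theorem topPt (h : CD D Y) (k : ℂ) : ∃ y : ℝ, 0 < y ∧ (k, (y : ℂ) * I) ∈ D :=
  ⟨max 1 (Y * (1 + ‖k‖)), lt_of_lt_of_le one_pos (le_max_left _ _), h.up k _ (le_max_right _ _)⟩

/-- a function vanishing on an open part of the slice over the sector vanishes on the whole fibre -/
theorem zero_fibre (h : CD D Y) {G : ℂ × ℂ → ℂ} (hG : DifferentiableOn ℂ G D) {k : ℂ}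
    (h0 : ∀ w : ℂ, (k, w) ∈ D → |w.re| < w.im / 2 → G (k, w) = 0) :
    ∀ w, (k, w) ∈ D → G (k, w) = 0 := by
  intro w hw
  obtain ⟨y, hy0, hy⟩ := h.topPt k
  obtain ⟨ho, hcv⟩ := h.slice_w k
  have ha := (h.diff_w hG k).analyticOnNhd ho
  have hop : IsOpen {z : ℂ | (k, z) ∈ D ∧ |z.re| < z.im / 2} :=
    ho.inter (isOpen_lt continuous_re.abs (continuous_im.div_const 2))
  have hm : ((y : ℂ) * I) ∈ {z : ℂ | (k, z) ∈ D ∧ |z.re| < z.im / 2} := by
    refine ⟨hy, ?_⟩
    simp [hy0]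
  have hev : ∀ᶠ z in 𝓝 ((y : ℂ) * I), G (k, z) = 0 := by
    filter_upwards [hop.mem_nhds hm] with z hz
    exact h0 z hz.1 hz.2
  exact ha.eqOn_zero_of_preconnected_of_eventuallyEq_zero hcv.isPreconnected hy hev hw

/-- zero on the sector part of `Σ` ==> zero -/
theorem zero_of_sigma (h : CD D Y) {G : ℂ × ℂ → ℂ} (hG : DifferentiableOn ℂ G D)
    (h0 : ∀ z ∈ D, z.1.im = 0 → |z.2.re| < z.2.im / 2 → G z = 0) : ∀ z ∈ D, G z = 0 := by
  rintro ⟨k, w⟩ hz
  refine h.zero_fibre hG (k := k) ?_ w hz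
  intro w hw hre
  have hwp : 0 < w.im := h.pos _ hw
  obtain ⟨ho, hcv⟩ := h.slice_k w
  have ha := (h.diff_k hG w).analyticOnNhd ho
  have h00 : (0 : ℂ) ∈ {k : ℂ | (k, w) ∈ D} := h.sec w hwp hre
  have hfr : ∃ᶠ z in 𝓝[≠] (0 : ℂ), G (z, w) = 0 := by
    have ht : Tendsto (fun n : ℕ => (((1 : ℝ) / ((n : ℝ) + 1) : ℝ) : ℂ)) atTop (𝓝[≠] (0 : ℂ)) := by
      refine tendsto_nhdsWithin_iff.2 ⟨?_, Eventually.of_forall fun n => ?_⟩
      · have := tendsto_one_div_add_atTop_nhds_zero_nat (𝕜 := ℝ)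
        have h2 := (Complex.continuous_ofReal.tendsto 0).comp this
        simpa [Function.comp_def] using h2
      · have h3 : ((1 : ℝ) / ((n : ℝ) + 1)) ≠ 0 := by positivity
        exact fun h => h3 (Complex.ofReal_eq_zero.mp h)
    have hev : ∀ᶠ z in 𝓝[≠] (0 : ℂ), (z, w) ∈ D :=
      mem_nhdsWithin_of_mem_nhds (ho.mem_nhds h00)
    refine ht.frequently (Eventually.frequently ?_)
    filter_upwards [ht.eventually hev] with n hn
    exact h0 _ hn (by simp only [ofReal_im]) hre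
  exact ha.eqOn_zero_of_preconnected_of_frequently_eq_zero hcv.isPreconnected h00 hfr hw

/-- no dependence on `w` ==> an entire function of `κ`, and growth along one curve ==> constant -/
theorem entire_of (h : CD D Y) {X : ℂ × ℂ → ℂ} (hX : DifferentiableOn ℂ X D)
    (h0 : ∀ z ∈ D, fderiv ℂ X z (0, 1) = 0) :
    ∃ y : ℂ → ℂ, Differentiable ℂ y ∧ ∀ z ∈ D, X z = y z.1 := by
  have hind : ∀ k w w' : ℂ, (k, w) ∈ D → (k, w') ∈ D → X (k, w) = X (k, w') := by
    intro k w w' hw hw'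
    obtain ⟨ho, hcv⟩ := h.slice_w k
    refine ho.is_const_of_deriv_eq_zero hcv.isPreconnected (h.diff_w hX k) ?_ hw hw'
    intro v hv
    have h2 : HasFDerivAt X (fderiv ℂ X (k, v)) (k, v) :=
      ((hX _ hv).differentiableAt (h.op.mem_nhds hv)).hasFDerivAt
    have h3 : HasDerivAt (fun w : ℂ => ((k, w) : ℂ × ℂ)) (0, 1) v :=
      (hasDerivAt_const v k).prodMk (hasDerivAt_id v)
    have h4 := (h2.comp_hasDerivAt v h3).deriv
    rw [h0 _ hv] at h4
    exact h4
  choose Yk hYk0 hYk using h.topPt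
  refine ⟨fun k => X (k, (Yk k : ℂ) * I), ?_, ?_⟩
  · intro k
    have hm := hYk k
    have hev : ∀ᶠ q in 𝓝 k, (q, (Yk k : ℂ) * I) ∈ D := by
      have hc : ContinuousAt (fun q : ℂ => ((q, (Yk k : ℂ) * I) : ℂ × ℂ)) k := by fun_prop
      exact hc.preimage_mem_nhds (h.op.mem_nhds hm)
    have h1 : (fun q => X (q, (Yk q : ℂ) * I)) =ᶠ[𝓝 k] fun q => X (q, (Yk k : ℂ) * I) := by
      filter_upwards [hev] with q hq
      exact hind q _ _ (hYk q) hq
    refine DifferentiableAt.congr_of_eventuallyEq ?_ h1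
    exact ((h.diff_k hX _) k hm).differentiableAt ((h.slice_k _).1.mem_nhds hm)
  · rintro ⟨k, w⟩ hz
    exact hind k _ _ hz (hYk k)

theorem hasDerivAt_w (h : CD D Y) {X : ℂ × ℂ → ℂ} (hX : DifferentiableOn ℂ X D) {k w : ℂ}
    (hw : (k, w) ∈ D) : HasDerivAt (fun w => X (k, w)) (fderiv ℂ X (k, w) (0, 1)) w := by
  have h2 : HasFDerivAt X (fderiv ℂ X (k, w)) (k, w) :=
    ((hX _ hw).differentiableAt (h.op.mem_nhds hw)).hasFDerivAt
  have h3 : HasDerivAt (fun w : ℂ => ((k, w) : ℂ × ℂ)) (0, 1) w :=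
    (hasDerivAt_const w k).prodMk (hasDerivAt_id w)
  exact h2.comp_hasDerivAt w h3

/-- the derivative in `w` vanishes on the sector part of `Σ` ==> everywhere -/
theorem dw_zero (h : CD D Y) {X : ℂ × ℂ → ℂ} (hX : DifferentiableOn ℂ X D)
    (h0 : ∀ z ∈ D, z.1.im = 0 → |z.2.re| < z.2.im / 2 → fderiv ℂ X z (0, 1) = 0) :
    ∀ z ∈ D, fderiv ℂ X z (0, 1) = 0 := by
  -- fibrewise propagation
  have hfib : ∀ k : ℂ, (∀ w : ℂ, (k, w) ∈ D → |w.re| < w.im / 2 → fderiv ℂ X (k, w) (0, 1) = 0) →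
      ∀ w : ℂ, (k, w) ∈ D → fderiv ℂ X (k, w) (0, 1) = 0 := by
    intro k hk w hw
    obtain ⟨y, hy0, hy⟩ := h.topPt k
    obtain ⟨ho, hcv⟩ := h.slice_w k
    have ha := ((h.diff_w hX k).analyticOnNhd ho).deriv
    have hop : IsOpen {z : ℂ | (k, z) ∈ D ∧ |z.re| < z.im / 2} :=
      ho.inter (isOpen_lt continuous_re.abs (continuous_im.div_const 2))
    have hm : ((y : ℂ) * I) ∈ {z : ℂ | (k, z) ∈ D ∧ |z.re| < z.im / 2} := by
      refine ⟨hy, ?_⟩
      simp [hy0]
    have hev : deriv (fun w => X (k, w)) =ᶠ[𝓝 ((y : ℂ) * I)] 0 := by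
      filter_upwards [hop.mem_nhds hm] with z hz
      rw [(h.hasDerivAt_w hX hz.1).deriv]
      exact hk z hz.1 hz.2
    have h6 := ha.eqOn_zero_of_preconnected_of_eventuallyEq_zero hcv.isPreconnected hy hev
    have h7 := h6 (show w ∈ {w : ℂ | (k, w) ∈ D} from hw)
    rw [(h.hasDerivAt_w hX hw).deriv] at h7
    exact h7
  -- for real `κ` the function is constant in `w`
  have hreal : ∀ k : ℂ, k.im = 0 → ∀ w w' : ℂ, (k, w) ∈ D → (k, w') ∈ D → X (k, w) = X (k, w') := by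
    intro k hk w w' hw hw'
    have hz := hfib k (fun v hv hre => h0 _ hv hk hre)
    obtain ⟨ho, hcv⟩ := h.slice_w k
    refine ho.is_const_of_deriv_eq_zero hcv.isPreconnected (h.diff_w hX k) ?_ hw hw'
    intro v hv
    rw [(h.hasDerivAt_w hX hv).deriv]
    exact hz v hv
  -- for all `κ` and `w`, `w'` in the sector
  have hsec : ∀ k w w' : ℂ, (k, w) ∈ D → (k, w') ∈ D → |w.re| < w.im / 2 → |w'.re| < w'.im / 2 →
      X (k, w) = X (k, w') := by
    intro k w w' hw hw' hre hre'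
    obtain ⟨ho, hcv⟩ := h.slice_k w
    obtain ⟨ho', hcv'⟩ := h.slice_k w'
    have hO : IsOpen ({k : ℂ | (k, w) ∈ D} ∩ {k : ℂ | (k, w') ∈ D}) := ho.inter ho'
    have hC : Convex ℝ ({k : ℂ | (k, w) ∈ D} ∩ {k : ℂ | (k, w') ∈ D}) := hcv.inter hcv'
    have hd : DifferentiableOn ℂ (fun k => X (k, w) - X (k, w'))
        ({k : ℂ | (k, w) ∈ D} ∩ {k : ℂ | (k, w') ∈ D}) :=
      ((h.diff_k hX w).mono inter_subset_left).sub ((h.diff_k hX w').mono inter_subset_right)
    have ha := hd.analyticOnNhd hO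
    have h00 : (0 : ℂ) ∈ {k : ℂ | (k, w) ∈ D} ∩ {k : ℂ | (k, w') ∈ D} :=
      ⟨h.sec w (h.pos _ hw) hre, h.sec w' (h.pos _ hw') hre'⟩
    have hfr : ∃ᶠ z in 𝓝[≠] (0 : ℂ), X (z, w) - X (z, w') = 0 := by
      have ht : Tendsto (fun n : ℕ => (((1 : ℝ) / ((n : ℝ) + 1) : ℝ) : ℂ)) atTop (𝓝[≠] (0 : ℂ)) := by
        refine tendsto_nhdsWithin_iff.2 ⟨?_, Eventually.of_forall fun n => ?_⟩
        · have := tendsto_one_div_add_atTop_nhds_zero_nat (𝕜 := ℝ)
          have h2 := (Complex.continuous_ofReal.tendsto 0).comp this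
          simpa [Function.comp_def] using h2
        · have h3 : ((1 : ℝ) / ((n : ℝ) + 1)) ≠ 0 := by positivity
          exact fun h => h3 (Complex.ofReal_eq_zero.mp h)
      have hev : ∀ᶠ z in 𝓝[≠] (0 : ℂ), z ∈ {k : ℂ | (k, w) ∈ D} ∩ {k : ℂ | (k, w') ∈ D} :=
        mem_nhdsWithin_of_mem_nhds (hO.mem_nhds h00)
      refine ht.frequently (Eventually.frequently ?_)
      filter_upwards [ht.eventually hev] with n hn
      rw [hreal _ (by simp only [ofReal_im]) _ _ hn.1 hn.2, sub_self]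
    have := ha.eqOn_zero_of_preconnected_of_frequently_eq_zero hC.isPreconnected h00 hfr ⟨hw, hw'⟩
    exact sub_eq_zero.mp this
  rintro ⟨k, w⟩ hz
  refine hfib k ?_ w hz
  intro v hv hre
  obtain ⟨ho, hcv⟩ := h.slice_w k
  have hop : IsOpen {z : ℂ | (k, z) ∈ D ∧ |z.re| < z.im / 2} :=
    ho.inter (isOpen_lt continuous_re.abs (continuous_im.div_const 2))
  have h1 : (fun w => X (k, w)) =ᶠ[𝓝 v] fun _ => X (k, v) := by
    filter_upwards [hop.mem_nhds ⟨hv, hre⟩] with z hz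
    exact hsec k z v hz.1 hv hz.2 hre
  have h2 := (h.hasDerivAt_w hX hv).deriv
  rw [h1.deriv_eq] at h2
  rw [← h2]
  exact deriv_const _ _

end CD

/-- **row A5.T9**, general domain -/
theorem tan_slow_gen {ι : Type*} {l : Filter ι} [NeBot l] {D : Set (ℂ × ℂ)} {Y : ℝ} (hD : CD D Y)
    {X m χ : ι → ℂ × ℂ → ℂ} {X' M' χ0 : ℂ × ℂ → ℂ} {cX cm ε J : ι → ℂ}
    (hε : ∀ᶠ n in l, ε n ≠ 0) (hJ : ∀ᶠ n in l, J n ≠ 0)
    (hd : ∀ K ⊆ D, IsCompact K → ∀ᶠ n in l, ∀ z ∈ K, DifferentiableAt ℂ (X n) z ∧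
      DifferentiableAt ℂ (m n) z ∧ jac (X n) (m n) z = J n * χ n z)
    (hχl : TendstoLocallyUniformlyOn χ χ0 l D) (hχc : ContinuousOn χ0 D)
    (hχ0 : ∀ z ∈ D, χ0 z ≠ 0)
    (hX' : DifferentiableOn ℂ X' D) (hM' : DifferentiableOn ℂ M' D)
    (hXl : TendstoLocallyUniformlyOn (fun n z => (X n z - cX n) / ε n) X' l D)
    (hml : TendstoLocallyUniformlyOn (fun n z => (m n z - cm n) / ε n) M' l D)
    (hnc : ∃ z ∈ D, fderiv ℂ X' z ≠ 0 ∨ fderiv ℂ M' z ≠ 0)
    (hfree : ∀ K ⊆ D, IsCompact K → (∀ z ∈ K, z.1.im < 0) → ∀ᶠ n in l, ∀ z ∈ K, m n z ≠ 0)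
    (htouch : ∀ z ∈ D, z.1.im = 0 → |z.2.re| < z.2.im / 2 → ∀ δ > 0,
      ∀ᶠ n in l, ∃ z' ∈ ball z δ, m n z' = 0)
    {A θ : ℝ} (hθ : θ < 1)
    (hg : ∀ k : ℂ, ‖X' (k, ((Y * (1 + ‖k‖) : ℝ) : ℂ) * I)‖ ≤ A * (1 + ‖k‖) ^ θ) : False := by
  classical
  -- pass to an ultrafilter
  obtain ⟨𝒰, h𝒰⟩ : ∃ 𝒰 : Ultrafilter ι, (𝒰 : Filter ι) ≤ l := ⟨Ultrafilter.of l, Ultrafilter.of_le l⟩
  have mono : ∀ {f : ι → ℂ × ℂ → ℂ} {g : ℂ × ℂ → ℂ}, TendstoLocallyUniformlyOn f g l D →
      TendstoLocallyUniformlyOn f g 𝒰 D := by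
    intro f g h u hu x hx
    obtain ⟨t, ht, hev⟩ := h u hu x hx
    exact ⟨t, ht, hev.filter_mono h𝒰⟩
  have hI0 : ((0 : ℂ), I) ∈ D := hD.sec I (by simp) (by simp)
  -- step 1: `cm n / ε n` is bounded along the ultrafilter
  have hbdd : ∃ R : ℝ, ∀ᶠ n in (𝒰 : Filter ι), ‖cm n / ε n‖ ≤ R := by
    by_contra hcon
    push Not at hcon
    have hz1 : ((0 : ℂ), I).1.im = 0 := by simp
    have hz3 : |((0 : ℂ), I).2.re| < ((0 : ℂ), I).2.im / 2 := by simp
    have hz := hI0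
    have hcM : ContinuousAt M' ((0 : ℂ), I) :=
      (hM' _ hz).continuousWithinAt.continuousAt (hD.op.mem_nhds hz)
    have hj := joint_tendsto hD.op (mono hml) hz hcM
    obtain ⟨pa, hpa, pb, hpb, hp⟩ := Filter.eventually_prod_iff.mp
      ((Metric.tendsto_nhds.mp hj) 1 one_pos)
    obtain ⟨δ, hδ, hδb⟩ := Metric.mem_nhds_iff.mp hpb
    have hR := hcon (‖M' ((0 : ℂ), I)‖ + 1)
    have hR' : ∀ᶠ n in (𝒰 : Filter ι), ‖M' ((0 : ℂ), I)‖ + 1 < ‖cm n / ε n‖ := hR
    obtain ⟨n, h1, h2, h3, h4⟩ := (hpa.and ((hR').and (((htouch _ hz hz1 hz3 δ hδ).filter_mono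
      h𝒰).and (hε.filter_mono h𝒰)))).exists
    obtain ⟨z', hz', hm0⟩ := h3
    have h5 := hp h1 (hδb hz')
    simp only at h5
    rw [hm0, zero_sub, dist_eq_norm] at h5
    have h6 : ‖cm n / ε n‖ ≤ ‖-cm n / ε n - M' ((0 : ℂ), I)‖ + ‖M' ((0 : ℂ), I)‖ := by
      have := norm_add_le (-cm n / ε n - M' ((0 : ℂ), I)) (M' ((0 : ℂ), I))
      rw [sub_add_cancel, neg_div, norm_neg] at this
      rwa [neg_div]
    linarith
  obtain ⟨R, hR⟩ := hbdd
  -- limit of `cm n / ε n`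
  obtain ⟨c, -, hc⟩ : ∃ c ∈ closedBall (0 : ℂ) R,
      Tendsto (fun n => cm n / ε n) 𝒰 (𝓝 c) := by
    have h1 : (𝒰.map (fun n => cm n / ε n) : Filter ℂ) ≤ 𝓟 (closedBall 0 R) := by
      rw [le_principal_iff]
      have h2 : ∀ᶠ n in (𝒰 : Filter ι), cm n / ε n ∈ closedBall (0 : ℂ) R := by
        filter_upwards [hR] with n hn
        rw [mem_closedBall, dist_zero_right]; exact hn
      exact h2
    obtain ⟨c, hc1, hc2⟩ := (isCompact_closedBall (0 : ℂ) R).ultrafilter_le_nhds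
      (𝒰.map (fun n => cm n / ε n)) h1
    exact ⟨c, hc1, hc2⟩
  -- step 2: `c + M' = 0`
  have hM0 : ∀ z ∈ D, c + M' z = 0 := by
    refine hD.zero_of_sigma ((differentiableOn_const c).add hM') ?_
    intro z hz hz1 hz3
    have hcM : ContinuousAt M' z :=
      (hM' _ hz).continuousWithinAt.continuousAt (hD.op.mem_nhds hz)
    have hj := joint_tendsto hD.op (mono hml) hz hcM
    have hj2 : Tendsto (fun p : ι × (ℂ × ℂ) => cm p.1 / ε p.1 + (m p.1 p.2 - cm p.1) / ε p.1)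
        ((𝒰 : Filter ι) ×ˢ 𝓝 z) (𝓝 (c + M' z)) := (hc.comp tendsto_fst).add hj
    by_contra hne
    have hpos : 0 < ‖c + M' z‖ := norm_pos_iff.mpr hne
    obtain ⟨pa, hpa, pb, hpb, hp⟩ := Filter.eventually_prod_iff.mp
      ((Metric.tendsto_nhds.mp hj2) _ hpos)
    obtain ⟨δ, hδ, hδb⟩ := Metric.mem_nhds_iff.mp hpb
    obtain ⟨n, h1, h2, h3⟩ := (hpa.and (((htouch _ hz hz1 hz3 δ hδ).filter_mono
      h𝒰).and (hε.filter_mono h𝒰))).exists
    obtain ⟨z', hz', hm0⟩ := h2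
    have h5 := hp h1 (hδb hz')
    simp only at h5
    rw [hm0, zero_sub, neg_div, add_neg_cancel, dist_eq_norm, zero_sub, norm_neg] at h5
    exact lt_irrefl _ h5
  have hM1 : ∀ z ∈ D, fderiv ℂ M' z = 0 := by
    intro z hz
    have h1 : M' =ᶠ[𝓝 z] fun _ => -c := by
      filter_upwards [hD.op.mem_nhds hz] with y hy
      have := hM0 y hy
      linear_combination this
    rw [h1.fderiv_eq]
    exact fderiv_const_apply _
  obtain ⟨z1, hz1, hz1'⟩ := hnc
  have hX1 : fderiv ℂ X' z1 ≠ 0 := hz1'.resolve_right (fun h => h (hM1 z1 hz1))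
  -- step 3: on the sector part of `Sigma` the derivative in `w` vanishes (leaf lemma)
  have hsec : ∀ z ∈ D, z.1.im = 0 → |z.2.re| < z.2.im / 2 → fderiv ℂ X' z (0, 1) = 0 := by
    intro z0 hz0 h1 h3
    by_contra htr
    have hop : IsOpen {z : ℂ × ℂ | |z.2.re| < z.2.im / 2} := by
      have e1 : Continuous fun z : ℂ × ℂ => z.2.im := continuous_im.comp continuous_snd
      have e2 : Continuous fun z : ℂ × ℂ => z.2.re := continuous_re.comp continuous_snd
      exact isOpen_lt e2.abs (e1.div_const 2)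
    obtain ⟨δ, hδ, hδW⟩ := Metric.nhds_basis_closedBall.mem_iff.mp
      ((hD.op.inter hop).mem_nhds ⟨hz0, h3⟩)
    have hdK := hd (closedBall z0 δ) (fun z hz => (hδW hz).1) (isCompact_closedBall _ _)
    have hball : ball z0 δ ⊆ D := fun z hz => (hδW (ball_subset_closedBall hz)).1
    refine leafK (l := l) (Ω := ball z0 δ) isOpen_ball (z0 := z0) (mem_ball_self hδ) h1
      (X := fun n z => (X n z - cX n) / ε n) (m := m) (χ := χ) (X0 := X') (χ0 := χ0)
      (J := fun n => J n / ε n) ?_ ?_ (hX'.mono hball) (hXl.mono hball) ?_ (hχl.mono hball)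
      ((hχc z0 hz0).continuousAt (hD.op.mem_nhds hz0)) (hχ0 z0 hz0) ?_ htr ?_ ?_
    · filter_upwards [hdK] with n hn z hz
      have e1 := (hn z (ball_subset_closedBall hz)).1.sub_const (cX n)
      have e2 : DifferentiableAt ℂ (fun y => (X n y - cX n) * (ε n)⁻¹) z := e1.mul_const _
      exact (e2.congr_of_eventuallyEq (Eventually.of_forall fun y => by
        simp only [div_eq_mul_inv])).differentiableWithinAt
    · filter_upwards [hdK] with n hn z hz
      exact ((hn z (ball_subset_closedBall hz)).2.1).differentiableWithinAt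
    · filter_upwards [hJ, hε] with n e1 e2
      exact div_ne_zero e1 e2
    · filter_upwards [hdK] with n hn z hz
      obtain ⟨e1, e2, e3⟩ := hn z (ball_subset_closedBall hz)
      have e4 : fderiv ℂ (fun z => (X n z - cX n) / ε n) z = (ε n)⁻¹ • fderiv ℂ (X n) z := by
        have h := (e1.hasFDerivAt.sub_const (cX n)).const_mul ((ε n)⁻¹)
        have h' : (fun z => (X n z - cX n) / ε n) = fun z => (ε n)⁻¹ * (X n z - cX n) := by
          funext y; rw [div_eq_inv_mul]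
        rw [h', h.fderiv]
      unfold jac at e3 ⊢
      rw [e4]
      simp only [ContinuousLinearMap.smul_apply, smul_eq_mul]
      rw [show J n / ε n * χ n z = (ε n)⁻¹ * (J n * χ n z) by rw [div_eq_inv_mul]; ring, ← e3]
      ring
    · intro K hK hKc hKim
      exact hfree K (hK.trans hball) hKc hKim
    · intro z hz him ε' hε'
      exact htouch z (hball hz) him (hδW (ball_subset_closedBall hz)).2 ε' hε'
  -- step 4: no dependence on `w`
  have hall : ∀ z ∈ D, fderiv ℂ X' z (0, 1) = 0 := hD.dw_zero hX' hsec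
  obtain ⟨y, hy, hyX⟩ := hD.entire_of hX' hall
  have hyg : ∀ k, ‖y k‖ ≤ A * (1 + ‖k‖) ^ θ := by
    intro k
    have h1 := hyX _ (hD.up k _ le_rfl)
    simp only at h1
    rw [← h1]
    exact hg k
  obtain ⟨c1, hc1⟩ := entire_sublinear hy hθ hyg
  have h8 : X' =ᶠ[𝓝 z1] fun _ => c1 := by
    filter_upwards [hD.op.mem_nhds hz1] with z hz
    rw [hyX z hz, hc1]
  apply hX1
  rw [h8.fderiv_eq]
  exact fderiv_const_apply _

end Vale.Agent.P097.H845
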