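import Mathlib
import Vale.Agent.P097.H845.T9g

/-!
# P097 / row A5.T9: the form with growth only for `1 ≤ Im w`
-/

set_option linter.all false

open Complex Metric Set Filter Topology

namespace Vale.Agent.P097.H845

open Vale.Agent.P097.H100

/-- growth on inner cones at sizes at least one gives growth along the curve used by `tan_slow_gen` -/
theorem growth_curve {s' θ : ℝ} (hs : 0 < s') {X : ℂ × ℂ → ℂ}
    (hg : ∀ s'' < s', ∀ M : ℝ, ∃ A : ℝ, ∀ z ∈ Wc s', 1 ≤ z.2.im → z.1.im ≤ s'' * z.2.im →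
      ‖z‖ ≤ M * z.2.im → ‖X z‖ ≤ A * (1 + ‖z‖) ^ θ) :
    ∃ A : ℝ, ∀ k : ℂ, ‖X (k, (((1 + 1 / s') * (1 + ‖k‖) : ℝ) : ℂ) * I)‖ ≤ A * (1 + ‖k‖) ^ θ := by
  obtain ⟨A, hA⟩ := hg (s' / (1 + s')) (by
    rw [div_lt_iff₀ (by linarith)]; nlinarith) 1
  set Y : ℝ := 1 + 1 / s' with hY
  have hd : 0 < 1 / s' := by positivity
  have hY1 : 1 ≤ Y := by linarith
  refine ⟨|A| * max 1 ((1 + Y) ^ θ), fun k => ?_⟩
  have hk : 0 ≤ ‖k‖ := norm_nonneg k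
  set y : ℝ := Y * (1 + ‖k‖) with hy
  have hy1 : 1 + ‖k‖ ≤ y := by nlinarith
  have hy0 : 0 < y := by linarith
  have hD := (cd_wc hs).up k y le_rfl
  have him : (((y : ℂ)) * I).im = y := by simp
  have hn : ‖((k, (y : ℂ) * I) : ℂ × ℂ)‖ = y := by
    rw [Prod.norm_def]
    simp only [norm_mul, norm_real, norm_I, mul_one, Real.norm_of_nonneg hy0.le]
    exact max_eq_right (by linarith)
  have hs2 : s' / (1 + s') * Y = 1 := by
    rw [hY]; field_simp; ring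
  have h2 : k.im ≤ s' / (1 + s') * y := by
    have e : s' / (1 + s') * y = 1 + ‖k‖ := by rw [hy, ← mul_assoc, hs2, one_mul]
    have := (le_abs_self k.im).trans (abs_im_le_norm k)
    rw [e]; linarith
  have h1 := hA (k, (y : ℂ) * I) hD (by simp only [him]; linarith) (by simp only [him]; exact h2)
    (by simp only [him]; rw [hn, one_mul])
  rw [hn] at h1
  have hb : (1 + y) ^ θ ≤ max 1 ((1 + Y) ^ θ) * (1 + ‖k‖) ^ θ := by
    have hp : 0 < (1 + ‖k‖) ^ θ := Real.rpow_pos_of_pos (by linarith) _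
    rcases le_total 0 θ with h0 | h0
    · have e1 : 1 + y ≤ (1 + Y) * (1 + ‖k‖) := by nlinarith
      calc (1 + y) ^ θ ≤ ((1 + Y) * (1 + ‖k‖)) ^ θ :=
            Real.rpow_le_rpow (by linarith) e1 h0
        _ = (1 + Y) ^ θ * (1 + ‖k‖) ^ θ := Real.mul_rpow (by linarith) (by linarith)
        _ ≤ _ := mul_le_mul_of_nonneg_right (le_max_right _ _) hp.le
    · calc (1 + y) ^ θ ≤ (1 + ‖k‖) ^ θ :=
            Real.rpow_le_rpow_of_nonpos (by linarith) (by linarith) h0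
        _ = 1 * (1 + ‖k‖) ^ θ := (one_mul _).symm
        _ ≤ _ := mul_le_mul_of_nonneg_right (le_max_left _ _) hp.le
  calc ‖X (k, (y : ℂ) * I)‖ ≤ A * (1 + y) ^ θ := h1
    _ ≤ |A| * (1 + y) ^ θ := mul_le_mul_of_nonneg_right (le_abs_self _)
        (Real.rpow_nonneg (by linarith) _)
    _ ≤ |A| * (max 1 ((1 + Y) ^ θ) * (1 + ‖k‖) ^ θ) := mul_le_mul_of_nonneg_left hb (abs_nonneg _)
    _ = _ := by ring

/-- `tan_slow` on the wide cone with growth required only where `1 ≤ Im w` -/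
theorem tan_slow1 {ι : Type*} {l : Filter ι} [NeBot l] {s' : ℝ} (hs : 0 < s')
    {X m χ : ι → ℂ × ℂ → ℂ} {X' M' χ0 : ℂ × ℂ → ℂ} {cX cm ε J : ι → ℂ}
    (hε : ∀ᶠ n in l, ε n ≠ 0) (hJ : ∀ᶠ n in l, J n ≠ 0)
    (hd : ∀ K ⊆ Wc s', IsCompact K → ∀ᶠ n in l, ∀ z ∈ K, DifferentiableAt ℂ (X n) z ∧
      DifferentiableAt ℂ (m n) z ∧ jac (X n) (m n) z = J n * χ n z)
    (hχl : TendstoLocallyUniformlyOn χ χ0 l (Wc s')) (hχc : ContinuousOn χ0 (Wc s'))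
    (hχ0 : ∀ z ∈ Wc s', χ0 z ≠ 0)
    (hX' : DifferentiableOn ℂ X' (Wc s')) (hM' : DifferentiableOn ℂ M' (Wc s'))
    (hXl : TendstoLocallyUniformlyOn (fun n z => (X n z - cX n) / ε n) X' l (Wc s'))
    (hml : TendstoLocallyUniformlyOn (fun n z => (m n z - cm n) / ε n) M' l (Wc s'))
    (hnc : ∃ z ∈ Wc s', fderiv ℂ X' z ≠ 0 ∨ fderiv ℂ M' z ≠ 0)
    (hfree : ∀ K ⊆ Wc s', IsCompact K → (∀ z ∈ K, z.1.im < 0) → ∀ᶠ n in l, ∀ z ∈ K, m n z ≠ 0)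
    (htouch : ∀ z ∈ Wc s', z.1.im = 0 → |z.2.re| < z.2.im / 2 → ∀ δ > 0,
      ∀ᶠ n in l, ∃ z' ∈ ball z δ, m n z' = 0)
    {θ : ℝ} (hθ : θ < 1)
    (hg : ∀ s'' < s', ∀ M : ℝ, ∃ A : ℝ, ∀ z ∈ Wc s', 1 ≤ z.2.im → z.1.im ≤ s'' * z.2.im →
      ‖z‖ ≤ M * z.2.im → ‖X' z‖ ≤ A * (1 + ‖z‖) ^ θ) : False := by
  obtain ⟨A, hA⟩ := growth_curve hs hg
  exact tan_slow_gen (cd_wc hs) hε hJ hd hχl hχc hχ0 hX' hM' hXl hml hnc hfree htouch hθ hA

end Vale.Agent.P097.H845
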