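import Mathlib

/-!
# P097: superposition operators, parametric division, scalar implicit functions
-/

open Set Filter Topology

namespace Vale.Agent.P097.H845

noncomputable section

variable {E F : Type*} [NormedAddCommGroup E] [NormedSpace ℂ E]
  [NormedAddCommGroup F] [NormedSpace ℂ F]

/-- pointwise action of a continuous multilinear map on continuous functions on `[0,1]` -/
def ptw {n : ℕ} (g : E [×n]→L[ℂ] F) : C(unitInterval, E) [×n]→L[ℂ] C(unitInterval, F) :=
  MultilinearMap.mkContinuous
    { toFun := fun u => ⟨fun s => g (fun i => u i s), by fun_prop⟩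
      map_update_add' := by
        intro _ u i x y
        ext s
        have h : ∀ z : C(unitInterval, E), (fun j => (Function.update u i z j) s) =
            Function.update (fun j => u j s) i (z s) := by
          intro z
          funext j
          exact Function.apply_update (fun _ (v : C(unitInterval, E)) => v s) u i z j
        simp only [ContinuousMap.coe_mk, ContinuousMap.add_apply, h, ContinuousMultilinearMap.map_update_add]
      map_update_smul' := by
        intro _ u i c x
        ext s
        have h : ∀ z : C(unitInterval, E), (fun j => (Function.update u i z j) s) =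
            Function.update (fun j => u j s) i (z s) := by
          intro z
          funext j
          exact Function.apply_update (fun _ (v : C(unitInterval, E)) => v s) u i z j
        simp only [ContinuousMap.coe_mk, ContinuousMap.smul_apply, h, ContinuousMultilinearMap.map_update_smul] }
    ‖g‖ (by
      intro u
      rw [ContinuousMap.norm_le _ (mul_nonneg (norm_nonneg _)
        (Finset.prod_nonneg fun _ _ => norm_nonneg _))]
      intro s
      refine (g.le_opNorm _).trans (mul_le_mul_of_nonneg_left ?_ (norm_nonneg _))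
      exact Finset.prod_le_prod (fun _ _ => norm_nonneg _)
        (fun i _ => ContinuousMap.norm_coe_le_norm (u i) s))

lemma ptw_apply {n : ℕ} (g : E [×n]→L[ℂ] F) (u : Fin n → C(unitInterval, E))
    (s : unitInterval) : ptw g u s = g (fun i => u i s) := rfl

lemma norm_ptw_le {n : ℕ} (g : E [×n]→L[ℂ] F) : ‖ptw g‖ ≤ ‖g‖ :=
  MultilinearMap.mkContinuous_norm_le _ (norm_nonneg _) _

/-- the series of the superposition operator -/
def supSeries (p : FormalMultilinearSeries ℂ E F) :
    FormalMultilinearSeries ℂ C(unitInterval, E) C(unitInterval, F) := fun n => ptw (p n)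

lemma radius_le (p : FormalMultilinearSeries ℂ E F) : p.radius ≤ (supSeries p).radius := by
  refine ENNReal.le_of_forall_nnreal_lt fun r hr => ?_
  obtain ⟨C, _, hC⟩ := p.norm_mul_pow_le_of_lt_radius hr
  refine (supSeries p).le_radius_of_bound C fun n => ?_
  exact (mul_le_mul_of_nonneg_right (norm_ptw_le _) (by positivity)).trans (hC n)

/-- the superposition operator of an analytic function is analytic -/
theorem exists_sup [CompleteSpace F] {f : E → F} {x : E} (hf : AnalyticAt ℂ f x) :
    ∃ (G : C(unitInterval, E) → C(unitInterval, F)) (ρ : ℝ), 0 < ρ ∧ AnalyticAt ℂ G 0 ∧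
      ∀ u : C(unitInterval, E), ‖u‖ < ρ → ∀ s, G u s = f (x + u s) := by
  obtain ⟨p, r, hp⟩ := hf
  have hr := hp.r_pos
  have hrad : 0 < (supSeries p).radius := (hr.trans_le hp.r_le).trans_le (radius_le p)
  have hG := (supSeries p).hasFPowerSeriesOnBall hrad
  obtain ⟨ρ, hρ0, hρ⟩ := ENNReal.lt_iff_exists_nnreal_btwn.1 hr
  have hρ0' : (0 : ℝ) < ρ := by exact_mod_cast hρ0
  refine ⟨(supSeries p).sum, ρ, hρ0', hG.analyticAt, ?_⟩
  intro u hu s
  have hu' : u ∈ Metric.eball (0 : C(unitInterval, E)) (supSeries p).radius := by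
    rw [mem_eball_zero_iff]
    refine lt_of_lt_of_le ?_ ((hρ.le.trans hp.r_le).trans (radius_le p))
    rw [enorm_eq_nnnorm]
    exact_mod_cast hu
  have h1 := hG.hasSum hu'
  rw [zero_add] at h1
  have h2 := (ContinuousMap.evalCLM ℂ s).hasSum h1
  have hs : u s ∈ Metric.eball (0 : E) r := by
    rw [mem_eball_zero_iff]
    refine lt_of_le_of_lt ?_ hρ
    rw [enorm_eq_nnnorm]
    exact_mod_cast (ContinuousMap.norm_coe_le_norm u s).trans hu.le
  have h3 := hp.hasSum hs
  exact h2.unique h3

/-- constants -/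
def constL : E →L[ℂ] C(unitInterval, E) :=
  LinearMap.mkContinuous
    { toFun := fun v => ContinuousMap.const _ v
      map_add' := fun _ _ => rfl
      map_smul' := fun _ _ => rfl } 1 (by
      intro v
      rw [ContinuousMap.norm_le _ (by positivity)]
      intro s
      change ‖v‖ ≤ _
      rw [one_mul])

lemma constL_apply (v : E) (s : unitInterval) : constL v s = v := rfl

/-- extension of a continuous function on `[0,1]` to the line -/
def ext (u : C(unitInterval, E)) (t : ℝ) : E := u (projIcc 0 1 zero_le_one t)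

omit [NormedSpace ℂ E] in
lemma ext_cont (u : C(unitInterval, E)) : Continuous (ext u) :=
  u.continuous.comp continuous_projIcc

omit [NormedSpace ℂ E] in
lemma ext_apply (u : C(unitInterval, E)) {t : ℝ} (ht : t ∈ Icc (0 : ℝ) 1) :
    ext u t = u ⟨t, ht⟩ := by
  unfold ext
  rw [projIcc_of_mem]

/-- primitive -/
def prim : C(unitInterval, E) →L[ℂ] C(unitInterval, E) :=
  LinearMap.mkContinuous
    { toFun := fun u => ⟨fun s => ∫ t in (0 : ℝ)..s, ext u t,
        (intervalIntegral.continuous_primitive
          (fun a b => (ext_cont u).intervalIntegrable a b) 0).comp continuous_subtype_val⟩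
      map_add' := by
        intro u v
        ext s
        change ∫ t in (0 : ℝ)..s, (ext u t + ext v t) = _
        rw [intervalIntegral.integral_add ((ext_cont u).intervalIntegrable _ _)
          ((ext_cont v).intervalIntegrable _ _)]
        rfl
      map_smul' := by
        intro c u
        ext s
        change ∫ t in (0 : ℝ)..s, c • (ext u t) = _
        rw [intervalIntegral.integral_smul]
        rfl } 1 (by
      intro u
      rw [ContinuousMap.norm_le _ (by positivity)]
      intro s
      have h := intervalIntegral.norm_integral_le_of_norm_le_const (a := (0 : ℝ)) (b := s)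
        (f := ext u) (C := ‖u‖) (fun t _ => ContinuousMap.norm_coe_le_norm u _)
      refine h.trans ?_
      have hs0 := s.2.1
      have hs1 := s.2.2
      rw [one_mul, sub_zero, abs_of_nonneg hs0]
      exact mul_le_of_le_one_right (norm_nonneg _) hs1)

lemma prim_apply (u : C(unitInterval, E)) (s : unitInterval) :
    prim u s = ∫ t in (0 : ℝ)..s, ext u t := rfl

/-- the path `s ↦ (s w, e)` -/
def seg : ℂ × E →L[ℂ] C(unitInterval, ℂ × E) :=
  LinearMap.mkContinuous
    { toFun := fun x => ⟨fun s => (((s : ℝ) : ℂ) * x.1, x.2), by fun_prop⟩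
      map_add' := by
        intro x y
        ext s
        · simp [mul_add]
        · simp
      map_smul' := by
        intro c x
        ext s
        · simp; ring
        · simp } 1 (by
      intro x
      rw [ContinuousMap.norm_le _ (by positivity)]
      intro s
      change ‖(((s : ℝ) : ℂ) * x.1, x.2)‖ ≤ _
      rw [Prod.norm_def, one_mul, Prod.norm_def]
      refine max_le_max ?_ le_rfl
      simp only [norm_mul, Complex.norm_real]
      rw [Real.norm_of_nonneg s.2.1]
      exact mul_le_of_le_one_left (norm_nonneg _) s.2.2)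

lemma seg_apply (x : ℂ × E) (s : unitInterval) : seg x s = (((s : ℝ) : ℂ) * x.1, x.2) := rfl

lemma norm_seg_le (x : ℂ × E) : ‖seg x‖ ≤ ‖x‖ := by
  rw [ContinuousMap.norm_le _ (norm_nonneg _)]
  intro s
  rw [seg_apply, Prod.norm_def, Prod.norm_def]
  refine max_le_max ?_ le_rfl
  simp only [norm_mul, Complex.norm_real]
  rw [Real.norm_of_nonneg s.2.1]
  exact mul_le_of_le_one_left (norm_nonneg _) s.2.2

/-- **Parametric division lemma.** -/
theorem exists_div [CompleteSpace F] {f : ℂ × E → F} {e₀ : E} (hf : AnalyticAt ℂ f (0, e₀)) :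
    ∃ q : ℂ × E → F, AnalyticAt ℂ q (0, e₀) ∧
      (∀ᶠ x in 𝓝 ((0 : ℂ), e₀), f x = f (0, x.2) + x.1 • q x) ∧
      ∀ᶠ e in 𝓝 e₀, q (0, e) = fderiv ℂ f (0, e) (1, 0) := by
  have hg : AnalyticAt ℂ (fun x => fderiv ℂ f x (1, 0)) (0, e₀) :=
    ((ContinuousLinearMap.apply ℂ F ((1 : ℂ), (0 : E))).analyticAt _).comp hf.fderiv
  obtain ⟨G, ρ, hρ, hG, hGf⟩ := exists_sup hg
  obtain ⟨ε, hε, hfa⟩ := Metric.eventually_nhds_iff_ball.1 hf.eventually_analyticAt
  let q : ℂ × E → F := fun x => prim (G (seg (x - ((0 : ℂ), e₀)))) 1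
  have hq : AnalyticAt ℂ q (0, e₀) := by
    have h1 : AnalyticAt ℂ (fun x : ℂ × E => seg (x - ((0 : ℂ), e₀))) ((0 : ℂ), e₀) :=
      AnalyticAt.comp (g := fun v : ℂ × E => seg v) (f := fun x : ℂ × E => x - ((0 : ℂ), e₀))
        (ContinuousLinearMap.analyticAt (𝕜 := ℂ) (E := ℂ × E) (F := C(unitInterval, ℂ × E)) seg _)
        (analyticAt_id.sub analyticAt_const)
    have h2 : AnalyticAt ℂ (fun x : ℂ × E => G (seg (x - ((0 : ℂ), e₀)))) ((0 : ℂ), e₀) := by
      refine AnalyticAt.comp (g := G) ?_ h1
      simpa using hG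
    have h3 : AnalyticAt ℂ (fun x : ℂ × E => prim (G (seg (x - ((0 : ℂ), e₀))))) ((0 : ℂ), e₀) :=
      AnalyticAt.comp (g := fun u : C(unitInterval, F) => prim u)
        (ContinuousLinearMap.analyticAt (𝕜 := ℂ) (E := C(unitInterval, F))
          (F := C(unitInterval, F)) prim _) h2
    exact AnalyticAt.comp (g := fun u : C(unitInterval, F) =>
        (ContinuousMap.evalCLM ℂ (1 : unitInterval) : C(unitInterval, F) →L[ℂ] F) u)
      (ContinuousLinearMap.analyticAt (𝕜 := ℂ) (E := C(unitInterval, F)) (F := F)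
        (ContinuousMap.evalCLM ℂ (1 : unitInterval)) _) h3
  have hval : ∀ x ∈ Metric.ball ((0 : ℂ), e₀) ρ, q x =
      ∫ s in (0 : ℝ)..1, fderiv ℂ f ((s : ℂ) * x.1, x.2) (1, 0) := by
    intro x hx
    have hn : ‖seg (x - ((0 : ℂ), e₀))‖ < ρ := by
      refine lt_of_le_of_lt ?_ (mem_ball_iff_norm.1 hx)
      exact norm_seg_le _
    change prim _ _ = _
    rw [prim_apply]
    apply intervalIntegral.integral_congr
    intro s hs
    rw [show ((1 : unitInterval) : ℝ) = 1 from rfl, uIcc_of_le zero_le_one] at hs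
    rw [ext_apply _ hs, hGf _ hn, seg_apply]
    congr 2
    ext
    · simp
    · simp
  refine ⟨q, hq, ?_, ?_⟩
  · have hr : 0 < min ε ρ := lt_min hε hρ
    filter_upwards [Metric.ball_mem_nhds ((0 : ℂ), e₀) hr] with x hx
    have hxε : x ∈ Metric.ball ((0 : ℂ), e₀) ε := Metric.ball_subset_ball (min_le_left _ _) hx
    have hxρ : x ∈ Metric.ball ((0 : ℂ), e₀) ρ := Metric.ball_subset_ball (min_le_right _ _) hx
    have hseg : ∀ s ∈ Icc (0 : ℝ) 1, ((s : ℂ) * x.1, x.2) ∈ Metric.ball ((0 : ℂ), e₀) ε := by
      intro s hs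
      rw [Metric.mem_ball, Prod.dist_eq] at *
      simp only [dist_zero_right] at *
      refine max_lt ?_ ((le_max_right _ _).trans_lt hxε)
      rw [norm_mul, Complex.norm_real, Real.norm_of_nonneg hs.1]
      exact (mul_le_of_le_one_left (norm_nonneg _) hs.2).trans_lt ((le_max_left _ _).trans_lt hxε)
    have hd : ∀ s ∈ uIcc (0 : ℝ) 1, HasDerivAt (fun s : ℝ => f ((s : ℂ) * x.1, x.2))
        (x.1 • fderiv ℂ f ((s : ℂ) * x.1, x.2) (1, 0)) s := by
      intro s hs
      rw [uIcc_of_le zero_le_one] at hs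
      have h1 := (hfa _ (hseg s hs)).differentiableAt.hasFDerivAt
      have h2 : HasDerivAt (fun s : ℝ => ((s : ℂ) * x.1, x.2)) ((x.1, 0) : ℂ × E) s := by
        refine HasDerivAt.prodMk ?_ (hasDerivAt_const _ _)
        simpa using (HasDerivAt.ofReal_comp (hasDerivAt_id s)).mul_const x.1
      have h3 := (h1.restrictScalars ℝ).comp_hasDerivAt s h2
      have h4 : x.1 • fderiv ℂ f ((s : ℂ) * x.1, x.2) (1, 0) =
          (fderiv ℂ f ((s : ℂ) * x.1, x.2)).restrictScalars ℝ (x.1, 0) := by
        rw [ContinuousLinearMap.coe_restrictScalars', ← ContinuousLinearMap.map_smul]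
        simp
      rw [h4]
      exact h3
    have hc : ContinuousOn (fun s : ℝ => x.1 • fderiv ℂ f ((s : ℂ) * x.1, x.2) (1, 0))
        (uIcc (0 : ℝ) 1) := by
      rw [uIcc_of_le zero_le_one]
      intro s hs
      have h1 : ContinuousAt (fun y => fderiv ℂ f y (1, 0)) ((s : ℂ) * x.1, x.2) :=
        ((hfa _ (hseg s hs)).fderiv.continuousAt).clm_apply continuousAt_const
      have h2 : ContinuousAt (fun s : ℝ => ((s : ℂ) * x.1, x.2)) s := by fun_prop
      exact ((ContinuousAt.comp (g := fun y => fderiv ℂ f y (1, 0))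
        (f := fun s : ℝ => ((s : ℂ) * x.1, x.2)) h1 h2).const_smul x.1).continuousWithinAt
    have key := intervalIntegral.integral_eq_sub_of_hasDerivAt hd hc.intervalIntegrable
    rw [intervalIntegral.integral_smul, ← hval x hxρ] at key
    simp only [Complex.ofReal_one, one_mul, Complex.ofReal_zero, zero_mul] at key
    rw [key]
    abel
  · filter_upwards [Metric.ball_mem_nhds e₀ hρ] with e he
    rw [hval]
    · simp
    · rw [Metric.mem_ball, Prod.dist_eq]
      simp only [dist_self]
      exact max_lt hρ he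

/-- **Scalar implicit function theorem**, analytic version with uniqueness. -/
theorem exists_implicit [CompleteSpace E] {f : E × ℂ → ℂ} {e₀ : E} {d₀ : ℂ}
    (hf : AnalyticAt ℂ f (e₀, d₀)) (h0 : f (e₀, d₀) = 0)
    (h1 : fderiv ℂ f (e₀, d₀) (0, 1) ≠ 0) :
    ∃ η : E → ℂ, AnalyticAt ℂ η e₀ ∧ η e₀ = d₀ ∧ (∀ᶠ e in 𝓝 e₀, f (e, η e) = 0) ∧
      ∀ᶠ x in 𝓝 (e₀, d₀), f x = 0 → x.2 = η x.1 := by
  have cd : ContDiffAt ℂ (⊤ : WithTop ℕ∞) f (e₀, d₀) := hf.contDiffAt
  have hinv : (fderiv ℂ f (e₀, d₀) ∘L .inr ℂ E ℂ).IsInvertible := by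
    have h2 : fderiv ℂ f (e₀, d₀) ∘L .inr ℂ E ℂ =
        ContinuousLinearMap.toSpanSingleton ℂ (fderiv ℂ f (e₀, d₀) (0, 1)) := by
      ext
      simp
    rw [h2]
    refine ⟨ContinuousLinearEquiv.unitsEquivAut ℂ (Units.mk0 _ h1), ?_⟩
    ext
    simp
  refine ⟨cd.implicitFunction (by simp) hinv,
    (cd.contDiffAt_implicitFunction _ _).analyticAt, cd.implicitFunction_apply_self _ _, ?_, ?_⟩
  · have := cd.eventually_apply_implicitFunction (by simp) hinv
    rwa [h0] at this
  · have := cd.eventually_apply_eq_iff_implicitFunction (by simp) hinv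
    rw [h0] at this
    filter_upwards [this] with x hx hx0
    exact (hx.1 hx0).symm

end

end Vale.Agent.P097.H845
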