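import Vale.Agent.P097.H845.Div

/-!
# P097: one letter, regular and glancing
-/

open Set Filter Topology

namespace Vale.Agent.P097.H845

noncomputable section

attribute [local fun_prop] analyticAt_fst analyticAt_snd

variable {E : Type*} [NormedAddCommGroup E] [NormedSpace ℂ E]

/-- derivative in the first variable -/
def dpsi (H : ℂ × ℂ → ℂ) (x : ℂ × ℂ) : ℂ := deriv (fun y => H (y, x.2)) x.1

/-- the incoming support number -/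
def FF (H : ℂ × ℂ → ℂ) (a d ε : ℂ) : ℂ :=
  H (a + d, ε) * Complex.cos d - dpsi H (a + d, ε) * Complex.sin d

/-- radius of curvature -/
def rho (H : ℂ × ℂ → ℂ) (x : ℂ × ℂ) : ℂ := H x + dpsi (dpsi H) x

/-- the reflection law between two lines (normal angle, support number) -/
def RL (H : ℂ × ℂ → ℂ) (ε : ℂ) (l l' : ℂ × ℂ) : Prop :=
  l.2 = H ((l.1 + l'.1) / 2, ε) * Complex.cos ((l'.1 - l.1) / 2) -
      dpsi H ((l.1 + l'.1) / 2, ε) * Complex.sin ((l'.1 - l.1) / 2) ∧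
  l'.2 = H ((l.1 + l'.1) / 2, ε) * Complex.cos ((l'.1 - l.1) / 2) +
      dpsi H ((l.1 + l'.1) / 2, ε) * Complex.sin ((l'.1 - l.1) / 2)

lemma RL_iff (H : ℂ × ℂ → ℂ) (ε : ℂ) (l l' : ℂ × ℂ) :
    RL H ε l l' ↔ l.2 = FF H l.1 ((l'.1 - l.1) / 2) ε ∧ l'.2 = FF H l'.1 (-((l'.1 - l.1) / 2)) ε := by
  have h1 : l.1 + (l'.1 - l.1) / 2 = (l.1 + l'.1) / 2 := by ring
  have h2 : l'.1 + -((l'.1 - l.1) / 2) = (l.1 + l'.1) / 2 := by ring
  simp only [RL, FF, h1, h2, Complex.cos_neg, Complex.sin_neg, mul_neg, sub_neg_eq_add]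

lemma RL_of (H : ℂ × ℂ → ℂ) (ε a p d : ℂ) (h : p = FF H a d ε) :
    RL H ε (a, p) (a + 2 * d, FF H (a + 2 * d) (-d) ε) := by
  rw [RL_iff]
  have h1 : (a + 2 * d - a) / 2 = d := by ring
  simp only [h1]
  exact ⟨h, trivial⟩

lemma dpsi_eq {H : ℂ × ℂ → ℂ} {x : ℂ × ℂ} (hH : AnalyticAt ℂ H x) :
    dpsi H x = fderiv ℂ H x (1, 0) := by
  have h1 : HasFDerivAt H (fderiv ℂ H x) (x.1, x.2) := hH.differentiableAt.hasFDerivAt
  have h2 : HasDerivAt (fun y : ℂ => (y, x.2)) ((1 : ℂ), (0 : ℂ)) x.1 :=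
    (hasDerivAt_id _).prodMk (hasDerivAt_const _ _)
  exact (h1.comp_hasDerivAt x.1 h2).deriv

lemma dpsi_analytic {H : ℂ × ℂ → ℂ} {x : ℂ × ℂ} (hH : AnalyticAt ℂ H x) :
    AnalyticAt ℂ (dpsi H) x := by
  have h1 : AnalyticAt ℂ (fun y => fderiv ℂ H y (1, 0)) x :=
    ((ContinuousLinearMap.apply ℂ ℂ ((1 : ℂ), (0 : ℂ))).analyticAt _).comp hH.fderiv
  refine h1.congr ?_
  filter_upwards [hH.eventually_analyticAt] with y hy
  exact (dpsi_eq hy).symm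

lemma rho_analytic {H : ℂ × ℂ → ℂ} {x : ℂ × ℂ} (hH : AnalyticAt ℂ H x) :
    AnalyticAt ℂ (rho H) x := hH.add (dpsi_analytic (dpsi_analytic hH))

lemma hasDerivAt_dpsi {H : ℂ × ℂ → ℂ} {a ε : ℂ} (hH : AnalyticAt ℂ H (a, ε)) :
    HasDerivAt (fun y => H (y, ε)) (dpsi H (a, ε)) a := by
  have h1 : HasFDerivAt H (fderiv ℂ H (a, ε)) (a, ε) := hH.differentiableAt.hasFDerivAt
  have h2 : HasDerivAt (fun y : ℂ => (y, ε)) ((1 : ℂ), (0 : ℂ)) a :=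
    (hasDerivAt_id _).prodMk (hasDerivAt_const _ _)
  rw [dpsi_eq hH]
  exact h1.comp_hasDerivAt a h2

lemma FF_analytic {H : ℂ × ℂ → ℂ} {A D e : E → ℂ} {x : E} (hA : AnalyticAt ℂ A x)
    (hD : AnalyticAt ℂ D x) (he : AnalyticAt ℂ e x) (hH : AnalyticAt ℂ H (A x + D x, e x)) :
    AnalyticAt ℂ (fun y => FF H (A y) (D y) (e y)) x := by
  have h1 : AnalyticAt ℂ (fun y => (A y + D y, e y)) x := (hA.add hD).prod he
  have h2 : AnalyticAt ℂ (fun y => H (A y + D y, e y)) x :=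
    AnalyticAt.comp (g := H) (f := fun y => (A y + D y, e y)) hH h1
  have h3 : AnalyticAt ℂ (fun y => dpsi H (A y + D y, e y)) x :=
    AnalyticAt.comp (g := dpsi H) (f := fun y => (A y + D y, e y)) (dpsi_analytic hH) h1
  have h4 : AnalyticAt ℂ (fun y => Complex.cos (D y)) x :=
    AnalyticAt.comp (g := Complex.cos) Complex.analyticAt_cos hD
  have h5 : AnalyticAt ℂ (fun y => Complex.sin (D y)) x :=
    AnalyticAt.comp (g := Complex.sin) Complex.analyticAt_sin hD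
  exact (h2.mul h4).sub (h3.mul h5)

lemma hasDerivAt_FF {H : ℂ × ℂ → ℂ} {a d ε : ℂ} (hH : AnalyticAt ℂ H (a + d, ε)) :
    HasDerivAt (fun d => FF H a d ε) (-(rho H (a + d, ε) * Complex.sin d)) d := by
  have h1 : HasDerivAt (fun d => H (a + d, ε)) (dpsi H (a + d, ε)) d := by
    have := (hasDerivAt_dpsi hH).comp_const_add a d
    exact this
  have h2 : HasDerivAt (fun d => dpsi H (a + d, ε)) (dpsi (dpsi H) (a + d, ε)) d :=
    (hasDerivAt_dpsi (dpsi_analytic hH)).comp_const_add a d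
  have h3 := (h1.mul (Complex.hasDerivAt_cos d)).sub (h2.mul (Complex.hasDerivAt_sin d))
  refine h3.congr_deriv ?_
  unfold rho
  ring

/-- regular letter: existence and uniqueness of the reflected line -/
theorem reg_letter {H : ℂ × ℂ → ℂ} {l₀ l₁ : ℂ × ℂ} (hH : AnalyticAt ℂ H ((l₀.1 + l₁.1) / 2, 0))
    (hR : RL H 0 l₀ l₁) (hρ : rho H ((l₀.1 + l₁.1) / 2, 0) ≠ 0)
    (hs : Complex.sin ((l₁.1 - l₀.1) / 2) ≠ 0) :
    ∃ G : (ℂ × ℂ) × ℂ → ℂ × ℂ, AnalyticAt ℂ G (l₀, 0) ∧ G (l₀, 0) = l₁ ∧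
      (∀ᶠ x in 𝓝 ((l₀, 0) : (ℂ × ℂ) × ℂ), RL H x.2 x.1 (G x)) ∧
      ∀ᶠ y in 𝓝 (((l₀, 0), l₁) : ((ℂ × ℂ) × ℂ) × (ℂ × ℂ)), RL H y.1.2 y.1.1 y.2 → y.2 = G y.1 := by
  set d₀ : ℂ := (l₁.1 - l₀.1) / 2 with hd₀
  have hm : l₀.1 + d₀ = (l₀.1 + l₁.1) / 2 := by rw [hd₀]; ring
  have hm' : l₁.1 + -d₀ = (l₀.1 + l₁.1) / 2 := by rw [hd₀]; ring
  rw [← hm] at hH hρ
  let f : ((ℂ × ℂ) × ℂ) × ℂ → ℂ := fun x => FF H x.1.1.1 x.2 x.1.2 - x.1.1.2
  have hf : AnalyticAt ℂ f ((l₀, 0), d₀) := by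
    refine (FF_analytic (E := ((ℂ × ℂ) × ℂ) × ℂ) (A := fun x => x.1.1.1) (D := fun x => x.2)
      (e := fun x => x.1.2) ?_ ?_ ?_ hH).sub ?_ <;> fun_prop
  have hR' := (RL_iff H 0 l₀ l₁).1 hR
  have hf0 : f ((l₀, 0), d₀) = 0 := by
    simp only [f]
    rw [hR'.1]
    exact sub_self _
  have hf1 : fderiv ℂ f ((l₀, 0), d₀) (0, 1) ≠ 0 := by
    have h1 : HasFDerivAt f (fderiv ℂ f ((l₀, 0), d₀)) ((l₀, 0), d₀) :=
      hf.differentiableAt.hasFDerivAt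
    have h2 : HasDerivAt (fun d : ℂ => ((l₀, (0 : ℂ)), d)) ((0 : (ℂ × ℂ) × ℂ), (1 : ℂ)) d₀ :=
      (hasDerivAt_const _ _).prodMk (hasDerivAt_id _)
    have h3 := h1.comp_hasDerivAt d₀ h2
    have h4 : HasDerivAt (fun d : ℂ => FF H l₀.1 d 0 - l₀.2)
        (-(rho H (l₀.1 + d₀, 0) * Complex.sin d₀)) d₀ := (hasDerivAt_FF hH).sub_const _
    have h5 : fderiv ℂ f ((l₀, 0), d₀) (0, 1) = -(rho H (l₀.1 + d₀, 0) * Complex.sin d₀) :=
      h3.unique h4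
    rw [h5]
    exact neg_ne_zero.2 (mul_ne_zero hρ hs)
  obtain ⟨η, hηa, hη0, hη, hηu⟩ := exists_implicit hf hf0 hf1
  refine ⟨fun x => (x.1.1 + 2 * η x, FF H (x.1.1 + 2 * η x) (-η x) x.2), ?_, ?_, ?_, ?_⟩
  · have h1 : AnalyticAt ℂ (fun x : (ℂ × ℂ) × ℂ => x.1.1 + 2 * η x) (l₀, 0) :=
      AnalyticAt.add (by fun_prop) (analyticAt_const.mul hηa)
    refine h1.prod (FF_analytic h1 hηa.neg (by fun_prop) ?_)
    have h2 : l₀.1 + 2 * η (l₀, 0) + -η (l₀, 0) = l₀.1 + d₀ := by rw [hη0]; ring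
    rw [h2]
    exact hH
  · have h1 : l₀.1 + 2 * d₀ = l₁.1 := by rw [hd₀]; ring
    simp only [hη0, h1]
    exact Prod.ext rfl hR'.2.symm
  · filter_upwards [hη] with x hx
    have h1 : x.1.2 = FF H x.1.1 (η x) x.2 := (sub_eq_zero.1 hx).symm
    exact RL_of H x.2 x.1.1 x.1.2 (η x) h1
  · have hc : Tendsto (fun y : ((ℂ × ℂ) × ℂ) × (ℂ × ℂ) => (y.1, (y.2.1 - y.1.1.1) / 2))
        (𝓝 ((l₀, 0), l₁)) (𝓝 ((l₀, 0), d₀)) := by
      have : Continuous (fun y : ((ℂ × ℂ) × ℂ) × (ℂ × ℂ) => (y.1, (y.2.1 - y.1.1.1) / 2)) := by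
        fun_prop
      exact this.tendsto _
    filter_upwards [hc.eventually hηu] with y hy hRy
    have h1 := (RL_iff _ _ _ _).1 hRy
    have h2 : (y.2.1 - y.1.1.1) / 2 = η y.1 := by
      apply hy
      simp only [f]
      rw [← h1.1, sub_self]
    have h3 : y.2.1 = y.1.1.1 + 2 * η y.1 := by rw [← h2]; ring
    refine Prod.ext h3 ?_
    rw [h1.2, h2]
    simp only [h3]

end

end Vale.Agent.P097.H845
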