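import Vale.Agent.P097.H845.Gl1

/-!
# P097: the glancing letter in scaled coordinates
-/

open Set Filter Topology

namespace Vale.Agent.P097.H845

noncomputable section

attribute [local fun_prop] analyticAt_fst analyticAt_snd

/-- derivative in the deformation parameter at `0` -/
def deps (H : ℂ × ℂ → ℂ) (X : ℂ) : ℂ := deriv (fun ε => H (X, ε)) 0

lemma FF_zero (H : ℂ × ℂ → ℂ) (X ε : ℂ) : FF H X 0 ε = H (X, ε) := by
  simp [FF]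

lemma exists_Q {H : ℂ × ℂ → ℂ} {a₀ : ℂ} (hH : AnalyticAt ℂ H (a₀, 0)) :
    ∃ Q : ℂ × (ℂ × ℂ) → ℂ, AnalyticAt ℂ Q (0, (a₀, 0)) ∧
      (∀ᶠ x : ℂ × (ℂ × ℂ) in 𝓝 (0, (a₀, 0)),
        FF H x.2.1 x.2.2 x.1 = FF H x.2.1 x.2.2 0 + x.1 * Q x) ∧
      ∀ᶠ X in 𝓝 a₀, Q (0, (X, 0)) = deps H X := by
  have hf : AnalyticAt ℂ (fun x : ℂ × (ℂ × ℂ) => FF H x.2.1 x.2.2 x.1) (0, (a₀, 0)) := by
    refine FF_analytic (by fun_prop) (by fun_prop) (by fun_prop) ?_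
    simpa using hH
  obtain ⟨Q, hQ, hQ1, hQ2⟩ := exists_div hf
  refine ⟨Q, hQ, ?_, ?_⟩
  · filter_upwards [hQ1] with x hx
    simpa [smul_eq_mul] using hx
  · have hc : Tendsto (fun X : ℂ => (X, (0 : ℂ))) (𝓝 a₀) (𝓝 (a₀, 0)) := by
      have : Continuous fun X : ℂ => (X, (0 : ℂ)) := by fun_prop
      exact this.tendsto _
    have hc' : Tendsto (fun X : ℂ => ((0 : ℂ), (X, (0 : ℂ)))) (𝓝 a₀) (𝓝 (0, (a₀, 0))) := by
      have : Continuous fun X : ℂ => ((0 : ℂ), (X, (0 : ℂ))) := by fun_prop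
      exact this.tendsto _
    filter_upwards [hc.eventually hQ2, hc'.eventually hf.eventually_analyticAt] with X h1 h2
    rw [h1]
    have h3 := h2.differentiableAt.hasFDerivAt
    have h4 : HasDerivAt (fun ε : ℂ => (ε, (X, (0 : ℂ)))) ((1 : ℂ), ((0 : ℂ), (0 : ℂ))) 0 :=
      (hasDerivAt_id _).prodMk (hasDerivAt_const _ _)
    have h5 := h3.comp_hasDerivAt (0 : ℂ) h4
    have h6 : (fun x : ℂ × (ℂ × ℂ) => FF H x.2.1 x.2.2 x.1) ∘ (fun ε : ℂ => (ε, (X, (0 : ℂ)))) =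
        fun ε => H (X, ε) := by
      funext ε
      simp [FF_zero]
    rw [h6] at h5
    exact h5.deriv.symm

lemma exists_R {H : ℂ × ℂ → ℂ} {a₀ : ℂ} (hH : AnalyticAt ℂ H (a₀, 0)) :
    ∃ R : ℂ × ℂ → ℂ, AnalyticAt ℂ R (0, a₀) ∧
      (∀ᶠ x : ℂ × ℂ in 𝓝 (0, a₀), FF H x.2 x.1 0 = H (x.2, 0) + x.1 ^ 2 * R x) ∧
      ∀ᶠ X in 𝓝 a₀, R (0, X) = -rho H (X, 0) / 2 := by
  have hf : AnalyticAt ℂ (fun x : ℂ × ℂ => FF H x.2 x.1 0) (0, a₀) := by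
    refine FF_analytic (by fun_prop) (by fun_prop) (by fun_prop) ?_
    simpa using hH
  obtain ⟨q, hq, hq1, hq2⟩ := exists_div hf
  obtain ⟨R, hR, hR1, -⟩ := exists_div hq
  have hHe : ∀ᶠ X in 𝓝 a₀, AnalyticAt ℂ H (X, 0) := by
    have hc : Tendsto (fun X : ℂ => (X, (0 : ℂ))) (𝓝 a₀) (𝓝 (a₀, 0)) := by
      have : Continuous fun X : ℂ => (X, (0 : ℂ)) := by fun_prop
      exact this.tendsto _
    exact hc.eventually hH.eventually_analyticAt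
  have hc' : Tendsto (fun X : ℂ => ((0 : ℂ), X)) (𝓝 a₀) (𝓝 (0, a₀)) := by
    have : Continuous fun X : ℂ => ((0 : ℂ), X) := by fun_prop
    exact this.tendsto _
  have hq0 : ∀ᶠ X in 𝓝 a₀, q (0, X) = 0 := by
    filter_upwards [hq2, hHe, hc'.eventually hf.eventually_analyticAt] with X h1 h2 h3
    rw [h1]
    have h4 : HasDerivAt (fun d : ℂ => (d, X)) ((1 : ℂ), (0 : ℂ)) 0 :=
      (hasDerivAt_id _).prodMk (hasDerivAt_const _ _)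
    have h5 := h3.differentiableAt.hasFDerivAt.comp_hasDerivAt (0 : ℂ) h4
    have h6 : HasDerivAt (fun d => FF H X d 0) (-(rho H (X + 0, 0) * Complex.sin 0)) 0 :=
      hasDerivAt_FF (by rwa [add_zero])
    have h7 := HasDerivAt.unique h5 h6
    rw [h7]
    simp
  have hsnd : Tendsto (fun x : ℂ × ℂ => x.2) (𝓝 (0, a₀)) (𝓝 a₀) := continuous_snd.tendsto _
  have hmain : ∀ᶠ x : ℂ × ℂ in 𝓝 (0, a₀), FF H x.2 x.1 0 = H (x.2, 0) + x.1 ^ 2 * R x := by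
    filter_upwards [hq1, hR1, hsnd.eventually hq0] with x h1 h2 h3
    simp only [smul_eq_mul, FF_zero] at h1 h2
    rw [h3] at h2
    rw [h1, h2]
    ring
  refine ⟨R, hR, hmain, ?_⟩
  filter_upwards [hHe, hc'.eventually hmain.eventually_nhds,
    hc'.eventually hR.eventually_analyticAt] with X h1 h2 h3
  have hcd : Tendsto (fun d : ℂ => (d, X)) (𝓝 0) (𝓝 (0, X)) := by
    have : Continuous fun d : ℂ => (d, X) := by fun_prop
    exact this.tendsto _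
  set r : ℂ → ℂ := fun d => R (d, X) with hr
  have hra : AnalyticAt ℂ r 0 :=
    AnalyticAt.comp (g := R) (f := fun d : ℂ => (d, X)) h3 (by fun_prop)
  -- first derivative, two ways
  have k1 : ∀ᶠ d in 𝓝 (0 : ℂ), HasDerivAt (fun d => FF H X d 0)
      (-(rho H (X + d, 0) * Complex.sin d)) d := by
    have hc2 : Tendsto (fun d : ℂ => (X + d, (0 : ℂ))) (𝓝 0) (𝓝 (X, 0)) := by
      have : Continuous fun d : ℂ => (X + d, (0 : ℂ)) := by fun_prop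
      simpa using this.tendsto 0
    filter_upwards [hc2.eventually h1.eventually_analyticAt] with d hd
    exact hasDerivAt_FF hd
  have k2 : ∀ᶠ d in 𝓝 (0 : ℂ), HasDerivAt (fun d => FF H X d 0)
      (2 * d * r d + d ^ 2 * deriv r d) d := by
    filter_upwards [(hcd.eventually h2).eventually_nhds, hra.eventually_analyticAt] with d hd hd2
    have h4 : HasDerivAt (fun d : ℂ => H (X, 0) + d ^ 2 * r d)
        (2 * d * r d + d ^ 2 * deriv r d) d := by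
      have := ((hasDerivAt_pow 2 d).mul hd2.differentiableAt.hasDerivAt).const_add (H (X, 0))
      simpa using this
    exact h4.congr_of_eventuallyEq hd
  have k3 : (fun d : ℂ => -(rho H (X + d, 0) * Complex.sin d)) =ᶠ[𝓝 0]
      fun d => 2 * d * r d + d ^ 2 * deriv r d := by
    filter_upwards [k1, k2] with d h5 h6
    exact h5.unique h6
  have k4 : HasDerivAt (fun d : ℂ => -(rho H (X + d, 0) * Complex.sin d)) (-rho H (X, 0)) 0 := by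
    have h5 : AnalyticAt ℂ (fun d : ℂ => rho H (X + d, 0)) 0 := by
      refine AnalyticAt.comp (g := rho H) (f := fun d : ℂ => (X + d, (0 : ℂ))) ?_ (by fun_prop)
      simpa using rho_analytic h1
    have h6 := (h5.differentiableAt.hasDerivAt.mul (Complex.hasDerivAt_sin 0)).neg
    refine h6.congr_deriv ?_
    simp
  have k5 : HasDerivAt (fun d : ℂ => 2 * d * r d + d ^ 2 * deriv r d) (2 * r 0) 0 := by
    have h5 := (((hasDerivAt_id (0 : ℂ)).const_mul 2).mul hra.differentiableAt.hasDerivAt).add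
      ((hasDerivAt_pow 2 (0 : ℂ)).mul hra.deriv.differentiableAt.hasDerivAt)
    refine h5.congr_deriv ?_
    simp
  have k6 := k4.unique (k5.congr_of_eventuallyEq k3)
  change r 0 = _
  rw [k6]
  ring

/-- the scaled equation of one letter; arguments `(w, X, D, e)` -/
theorem exists_GQ {H : ℂ × ℂ → ℂ} {a₀ : ℂ} (hH : AnalyticAt ℂ H (a₀, 0)) :
    ∃ G : ℂ × ℂ × ℂ × ℂ → ℂ, ∀ D₁ e₁ : ℂ, AnalyticAt ℂ G (0, a₀, D₁, e₁) ∧
      (∀ᶠ x : ℂ × ℂ × ℂ × ℂ in 𝓝 (0, a₀, D₁, e₁),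
        H (x.2.1, 0) - FF H x.2.1 (x.1 * x.2.2.1) (x.2.2.2 * x.1 ^ 2) = x.1 ^ 2 * G x) ∧
      ∀ᶠ y : ℂ × ℂ × ℂ in 𝓝 (a₀, D₁, e₁),
        G (0, y) = rho H (y.1, 0) / 2 * y.2.1 ^ 2 - y.2.2 * deps H y.1 := by
  obtain ⟨Q, hQ, hQ1, hQ2⟩ := exists_Q hH
  obtain ⟨R, hR, hR1, hR2⟩ := exists_R hH
  refine ⟨fun x => -(x.2.2.1 ^ 2 * R (x.1 * x.2.2.1, x.2.1)) -
    x.2.2.2 * Q (x.2.2.2 * x.1 ^ 2, (x.2.1, x.1 * x.2.2.1)), fun D₁ e₁ => ⟨?_, ?_, ?_⟩⟩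
  · have h1 : AnalyticAt ℂ (fun x : ℂ × ℂ × ℂ × ℂ => R (x.1 * x.2.2.1, x.2.1)) (0, a₀, D₁, e₁) := by
      refine AnalyticAt.comp (g := R) (f := fun x : ℂ × ℂ × ℂ × ℂ => (x.1 * x.2.2.1, x.2.1)) ?_
        (by fun_prop)
      simpa using hR
    have h2 : AnalyticAt ℂ (fun x : ℂ × ℂ × ℂ × ℂ =>
        Q (x.2.2.2 * x.1 ^ 2, (x.2.1, x.1 * x.2.2.1))) (0, a₀, D₁, e₁) := by
      refine AnalyticAt.comp (g := Q)
        (f := fun x : ℂ × ℂ × ℂ × ℂ => (x.2.2.2 * x.1 ^ 2, (x.2.1, x.1 * x.2.2.1))) ?_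
        (by fun_prop)
      simpa using hQ
    have h3 : AnalyticAt ℂ (fun x : ℂ × ℂ × ℂ × ℂ => x.2.2.1 ^ 2) (0, a₀, D₁, e₁) := by fun_prop
    have h4 : AnalyticAt ℂ (fun x : ℂ × ℂ × ℂ × ℂ => x.2.2.2) (0, a₀, D₁, e₁) := by fun_prop
    exact (h3.mul h1).neg.sub (h4.mul h2)
  · have c1 : Tendsto (fun x : ℂ × ℂ × ℂ × ℂ => (x.1 * x.2.2.1, x.2.1)) (𝓝 (0, a₀, D₁, e₁))
        (𝓝 (0, a₀)) := by
      have : Continuous fun x : ℂ × ℂ × ℂ × ℂ => (x.1 * x.2.2.1, x.2.1) := by fun_prop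
      simpa using this.tendsto (0, a₀, D₁, e₁)
    have c2 : Tendsto (fun x : ℂ × ℂ × ℂ × ℂ => (x.2.2.2 * x.1 ^ 2, (x.2.1, x.1 * x.2.2.1)))
        (𝓝 (0, a₀, D₁, e₁)) (𝓝 (0, (a₀, 0))) := by
      have : Continuous fun x : ℂ × ℂ × ℂ × ℂ =>
        (x.2.2.2 * x.1 ^ 2, (x.2.1, x.1 * x.2.2.1)) := by fun_prop
      simpa using this.tendsto (0, a₀, D₁, e₁)
    filter_upwards [c1.eventually hR1, c2.eventually hQ1] with x h1 h2
    rw [h2, h1]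
    ring
  · have c1 : Tendsto (fun y : ℂ × ℂ × ℂ => y.1) (𝓝 (a₀, D₁, e₁)) (𝓝 a₀) :=
      continuous_fst.tendsto _
    filter_upwards [c1.eventually hR2, c1.eventually hQ2] with y h1 h2
    simp only [zero_mul, mul_zero, ne_eq, OfNat.ofNat_ne_zero, not_false_eq_true, zero_pow]
    rw [h1, h2]
    ring

/-- **Glancing letter, scaled.** Arguments `(w, e, X, U)`; the incoming line is
`(X, h X - w² U)`, the deformation parameter is `ε = e w²`. -/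
theorem gl_letter {H : ℂ × ℂ → ℂ} {a₀ D₀ U₀ : ℂ} (hH : AnalyticAt ℂ H (a₀, 0))
    (hρ : rho H (a₀, 0) ≠ 0) (hD₀ : D₀ ≠ 0) (hU : rho H (a₀, 0) / 2 * D₀ ^ 2 = U₀) :
    ∃ D U' : ℂ × ℂ × ℂ × ℂ → ℂ, AnalyticAt ℂ D (0, 0, a₀, U₀) ∧
      AnalyticAt ℂ U' (0, 0, a₀, U₀) ∧ D (0, 0, a₀, U₀) = D₀ ∧
      (∀ᶠ x : ℂ × ℂ × ℂ × ℂ in 𝓝 (0, 0, a₀, U₀),
        RL H (x.2.1 * x.1 ^ 2) (x.2.2.1, H (x.2.2.1, 0) - x.1 ^ 2 * x.2.2.2)
          (x.2.2.1 + 2 * (x.1 * D x), H (x.2.2.1 + 2 * (x.1 * D x), 0) - x.1 ^ 2 * U' x)) ∧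
      (∀ᶠ y : ℂ × ℂ × ℂ in 𝓝 (0, a₀, U₀),
        rho H (y.2.1, 0) / 2 * D (0, y) ^ 2 = y.2.2 + y.1 * deps H y.2.1 ∧
          U' (0, y) = y.2.2) ∧
      ∀ᶠ z : (ℂ × ℂ × ℂ × ℂ) × ℂ in 𝓝 ((0, 0, a₀, U₀), D₀), z.1.1 ≠ 0 →
        H (z.1.2.2.1, 0) - z.1.1 ^ 2 * z.1.2.2.2 =
          FF H z.1.2.2.1 (z.1.1 * z.2) (z.1.2.1 * z.1.1 ^ 2) → z.2 = D z.1 := by
  obtain ⟨G, hG⟩ := exists_GQ hH
  let f : (ℂ × ℂ × ℂ × ℂ) × ℂ → ℂ := fun z => G (z.1.1, z.1.2.2.1, z.2, z.1.2.1) - z.1.2.2.2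
  have hc : Continuous fun z : (ℂ × ℂ × ℂ × ℂ) × ℂ => (z.1.1, z.1.2.2.1, z.2, z.1.2.1) := by
    fun_prop
  have hf : AnalyticAt ℂ f ((0, 0, a₀, U₀), D₀) := by
    refine AnalyticAt.sub ?_ (by fun_prop)
    exact AnalyticAt.comp (g := G)
      (f := fun z : (ℂ × ℂ × ℂ × ℂ) × ℂ => (z.1.1, z.1.2.2.1, z.2, z.1.2.1)) (hG D₀ 0).1
      (by fun_prop)
  have hf0 : f ((0, 0, a₀, U₀), D₀) = 0 := by
    simp only [f]
    rw [(hG D₀ 0).2.2.self_of_nhds]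
    simp only [zero_mul, sub_zero]
    rw [hU, sub_self]
  have hf1 : fderiv ℂ f ((0, 0, a₀, U₀), D₀) (0, 1) ≠ 0 := by
    have h1 : HasFDerivAt f (fderiv ℂ f ((0, 0, a₀, U₀), D₀)) ((0, 0, a₀, U₀), D₀) :=
      hf.differentiableAt.hasFDerivAt
    have h2 : HasDerivAt (fun d : ℂ => (((0 : ℂ), (0 : ℂ), a₀, U₀), d))
        ((0 : ℂ × ℂ × ℂ × ℂ), (1 : ℂ)) D₀ := (hasDerivAt_const _ _).prodMk (hasDerivAt_id _)
    have h3 := h1.comp_hasDerivAt D₀ h2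
    have hc2 : Tendsto (fun d : ℂ => (a₀, d, (0 : ℂ))) (𝓝 D₀) (𝓝 (a₀, D₀, 0)) := by
      have : Continuous fun d : ℂ => (a₀, d, (0 : ℂ)) := by fun_prop
      exact this.tendsto _
    have h4 : (f ∘ fun d : ℂ => (((0 : ℂ), (0 : ℂ), a₀, U₀), d)) =ᶠ[𝓝 D₀]
        fun d => rho H (a₀, 0) / 2 * d ^ 2 - U₀ := by
      filter_upwards [hc2.eventually (hG D₀ 0).2.2] with d hd
      simp only [Function.comp_apply, f]
      rw [hd]
      simp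
    have h5 : HasDerivAt (fun d : ℂ => rho H (a₀, 0) / 2 * d ^ 2 - U₀) (rho H (a₀, 0) * D₀) D₀ := by
      have := ((hasDerivAt_pow 2 D₀).const_mul (rho H (a₀, 0) / 2)).sub_const U₀
      refine this.congr_deriv ?_
      simp
      ring
    have h6 := h3.unique (h5.congr_of_eventuallyEq h4)
    rw [h6]
    exact mul_ne_zero hρ hD₀
  obtain ⟨η, hηa, hη0, hη, hηu⟩ := exists_implicit hf hf0 hf1
  have hX' : AnalyticAt ℂ (fun x : ℂ × ℂ × ℂ × ℂ => x.2.2.1 + 2 * (x.1 * η x)) (0, 0, a₀, U₀) := by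
    have h1 : AnalyticAt ℂ (fun x : ℂ × ℂ × ℂ × ℂ => x.1) (0, 0, a₀, U₀) := by fun_prop
    have h2 : AnalyticAt ℂ (fun x : ℂ × ℂ × ℂ × ℂ => x.2.2.1) (0, 0, a₀, U₀) := by fun_prop
    exact h2.add (analyticAt_const.mul (h1.mul hηa))
  have hmap : AnalyticAt ℂ (fun x : ℂ × ℂ × ℂ × ℂ =>
      (x.1, x.2.2.1 + 2 * (x.1 * η x), -η x, x.2.1)) (0, 0, a₀, U₀) := by
    have h1 : AnalyticAt ℂ (fun x : ℂ × ℂ × ℂ × ℂ => x.1) (0, 0, a₀, U₀) := by fun_prop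
    have h2 : AnalyticAt ℂ (fun x : ℂ × ℂ × ℂ × ℂ => x.2.1) (0, 0, a₀, U₀) := by fun_prop
    exact h1.prod (hX'.prod (hηa.neg.prod h2))
  have hval : ((0 : ℂ), a₀ + 2 * (0 * η (0, 0, a₀, U₀)), -η (0, 0, a₀, U₀), (0 : ℂ)) =
      (0, a₀, -D₀, 0) := by
    rw [hη0]
    simp
  have hmapt : Tendsto (fun x : ℂ × ℂ × ℂ × ℂ =>
      (x.1, x.2.2.1 + 2 * (x.1 * η x), -η x, x.2.1)) (𝓝 (0, 0, a₀, U₀)) (𝓝 (0, a₀, -D₀, 0)) := by
    have := hmap.continuousAt.tendsto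
    simp only at this
    rwa [hval] at this
  refine ⟨η, fun x => G (x.1, x.2.2.1 + 2 * (x.1 * η x), -η x, x.2.1), hηa, ?_, hη0, ?_, ?_, ?_⟩
  · refine AnalyticAt.comp (g := G) (f := fun x : ℂ × ℂ × ℂ × ℂ =>
      (x.1, x.2.2.1 + 2 * (x.1 * η x), -η x, x.2.1)) ?_ hmap
    simp only
    rw [hval]
    exact (hG _ _).1
  · have ht : Tendsto (fun x : ℂ × ℂ × ℂ × ℂ => (x.1, x.2.2.1, η x, x.2.1))
        (𝓝 (0, 0, a₀, U₀)) (𝓝 (0, a₀, D₀, 0)) := by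
      have h1 : ContinuousAt (fun x : ℂ × ℂ × ℂ × ℂ => (x.1, x.2.2.1, η x, x.2.1))
          (0, 0, a₀, U₀) := by
        have := hηa.continuousAt
        fun_prop
      have := h1.tendsto
      simp only at this
      rwa [hη0] at this
    filter_upwards [hη, ht.eventually (hG D₀ 0).2.1, hmapt.eventually (hG (-D₀) 0).2.1]
      with x h1 h2 h3
    simp only [f] at h1
    have h4 : H (x.2.2.1, 0) - x.1 ^ 2 * x.2.2.2 =
        FF H x.2.2.1 (x.1 * η x) (x.2.1 * x.1 ^ 2) := by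
      rw [← sub_eq_zero.1 h1, ← h2]
      ring
    have h5 := RL_of H (x.2.1 * x.1 ^ 2) x.2.2.1 _ (x.1 * η x) h4
    have h6 : FF H (x.2.2.1 + 2 * (x.1 * η x)) (-(x.1 * η x)) (x.2.1 * x.1 ^ 2) =
        H (x.2.2.1 + 2 * (x.1 * η x), 0) - x.1 ^ 2 *
          G (x.1, x.2.2.1 + 2 * (x.1 * η x), -η x, x.2.1) := by
      rw [← h3, mul_neg]
      ring
    rw [h6] at h5
    exact h5
  · have c0 : Tendsto (fun y : ℂ × ℂ × ℂ => ((0 : ℂ), y)) (𝓝 (0, a₀, U₀))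
        (𝓝 (0, 0, a₀, U₀)) := by
      have : Continuous fun y : ℂ × ℂ × ℂ => ((0 : ℂ), y) := by fun_prop
      exact this.tendsto _
    have hη' : ContinuousAt (fun y : ℂ × ℂ × ℂ => η (0, y)) (0, a₀, U₀) :=
      ContinuousAt.comp (g := η) hηa.continuousAt (by fun_prop)
    have c1 : Tendsto (fun y : ℂ × ℂ × ℂ => (y.2.1, η (0, y), y.1)) (𝓝 (0, a₀, U₀))
        (𝓝 (a₀, D₀, 0)) := by
      have h1 : ContinuousAt (fun y : ℂ × ℂ × ℂ => (y.2.1, η (0, y), y.1)) (0, a₀, U₀) := by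
        fun_prop
      have := h1.tendsto
      simp only at this
      rwa [hη0] at this
    have c2 : Tendsto (fun y : ℂ × ℂ × ℂ => (y.2.1, -η (0, y), y.1)) (𝓝 (0, a₀, U₀))
        (𝓝 (a₀, -D₀, 0)) := by
      have h1 : ContinuousAt (fun y : ℂ × ℂ × ℂ => (y.2.1, -η (0, y), y.1)) (0, a₀, U₀) := by
        fun_prop
      have := h1.tendsto
      simp only at this
      rwa [hη0] at this
    filter_upwards [c0.eventually hη, c1.eventually (hG D₀ 0).2.2,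
      c2.eventually (hG (-D₀) 0).2.2] with y h1 h2 h3
    simp only [f] at h1 h2 h3
    rw [h2] at h1
    have h4 := sub_eq_zero.1 h1
    refine ⟨by linear_combination h4, ?_⟩
    simp only [zero_mul, mul_zero, add_zero]
    rw [h3, ← h4]
    ring
  · have ht : Tendsto (fun z : (ℂ × ℂ × ℂ × ℂ) × ℂ => (z.1.1, z.1.2.2.1, z.2, z.1.2.1))
        (𝓝 ((0, 0, a₀, U₀), D₀)) (𝓝 (0, a₀, D₀, 0)) := hc.tendsto _
    filter_upwards [hηu, ht.eventually (hG D₀ 0).2.1] with z h1 h2 hz h3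
    apply h1
    simp only [f]
    rw [← h3] at h2
    have h4 : z.1.1 ^ 2 ≠ 0 := pow_ne_zero 2 hz
    have h5 : z.1.1 ^ 2 * (G (z.1.1, z.1.2.2.1, z.2, z.1.2.1) - z.1.2.2.2) = 0 := by
      linear_combination -h2
    exact (mul_eq_zero.1 h5).resolve_left h4

end

end Vale.Agent.P097.H845
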