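import Vale.Agent.P097.H845.Gl2

/-!
# P097: scaled states, glancing step and renormalisation
-/

open Set Filter Topology

namespace Vale.Agent.P097.H845

noncomputable section

attribute [local fun_prop] analyticAt_fst analyticAt_snd

/-- division of a germ of one variable -/
lemma exists_nat {f : ℂ → ℂ} (hf : AnalyticAt ℂ f 0) (h0 : f 0 = 0) :
    ∃ D : ℂ → ℂ, AnalyticAt ℂ D 0 ∧ D 0 = deriv f 0 ∧ ∀ w, f w = w * D w := by
  obtain ⟨p, hp⟩ := hf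
  refine ⟨dslope f 0, ⟨_, hp.has_fpower_series_dslope_fslope⟩, dslope_same f 0, fun w => ?_⟩
  have := sub_smul_dslope f 0 w
  rw [h0, sub_zero, sub_zero, smul_eq_mul] at this
  exact this.symm

/-- **Glancing step.** -/
theorem glance {H : ℂ × ℂ → ℂ} {a₀ D₀ : ℂ} (hH : AnalyticAt ℂ H (a₀, 0))
    (hρ : rho H (a₀, 0) ≠ 0) (hD₀ : D₀ ≠ 0) {X U : ℂ × ℂ → ℂ} (hX : AnalyticAt ℂ X (0, 0))
    (hU : AnalyticAt ℂ U (0, 0)) (hX0 : ∀ᶠ e in 𝓝 (0 : ℂ), X (0, e) = a₀)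
    (hU0 : rho H (a₀, 0) / 2 * D₀ ^ 2 = U (0, 0)) :
    ∃ D U' : ℂ × ℂ → ℂ, AnalyticAt ℂ D (0, 0) ∧ AnalyticAt ℂ U' (0, 0) ∧ D (0, 0) = D₀ ∧
      (∀ᶠ x : ℂ × ℂ in 𝓝 (0, 0), RL H (x.2 * x.1 ^ 2) (X x, H (X x, 0) - x.1 ^ 2 * U x)
        (X x + 2 * (x.1 * D x), H (X x + 2 * (x.1 * D x), 0) - x.1 ^ 2 * U' x)) ∧
      (∀ᶠ e in 𝓝 (0 : ℂ), rho H (a₀, 0) / 2 * D (0, e) ^ 2 = U (0, e) + e * deps H a₀ ∧
        U' (0, e) = U (0, e)) ∧
      ∀ Dn : ℂ → ℂ, AnalyticAt ℂ Dn 0 → Dn 0 = D₀ →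
        (∀ᶠ w in 𝓝 (0 : ℂ), H (X (w, 0), 0) - w ^ 2 * U (w, 0) =
          FF H (X (w, 0)) (w * Dn w) 0) → ∀ᶠ w in 𝓝 (0 : ℂ), Dn w = D (w, 0) := by
  have hX00 : X (0, 0) = a₀ := hX0.self_of_nhds
  obtain ⟨D, U', hD, hU', hD0, h1, h2, h3⟩ := gl_letter hH hρ hD₀ hU0
  have hm : AnalyticAt ℂ (fun x : ℂ × ℂ => (x.1, x.2, X x, U x)) (0, 0) := by
    have a1 : AnalyticAt ℂ (fun x : ℂ × ℂ => x.1) (0, 0) := by fun_prop
    have a2 : AnalyticAt ℂ (fun x : ℂ × ℂ => x.2) (0, 0) := by fun_prop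
    exact a1.prod (a2.prod (hX.prod hU))
  have hmt : Tendsto (fun x : ℂ × ℂ => (x.1, x.2, X x, U x)) (𝓝 (0, 0))
      (𝓝 (0, 0, a₀, U (0, 0))) := by
    have := hm.continuousAt.tendsto
    rwa [hX00] at this
  have hDa : AnalyticAt ℂ (fun x : ℂ × ℂ => D (x.1, x.2, X x, U x)) (0, 0) := by
    refine AnalyticAt.comp (g := D) (f := fun x : ℂ × ℂ => (x.1, x.2, X x, U x)) ?_ hm
    rw [hX00]
    exact hD
  have hUa : AnalyticAt ℂ (fun x : ℂ × ℂ => U' (x.1, x.2, X x, U x)) (0, 0) := by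
    refine AnalyticAt.comp (g := U') (f := fun x : ℂ × ℂ => (x.1, x.2, X x, U x)) ?_ hm
    rw [hX00]
    exact hU'
  refine ⟨fun x => D (x.1, x.2, X x, U x), fun x => U' (x.1, x.2, X x, U x), hDa, hUa, ?_, ?_, ?_,
    ?_⟩
  · simp only [hX00]
    exact hD0
  · exact hmt.eventually h1
  · have hc : Tendsto (fun e : ℂ => ((0 : ℂ), e)) (𝓝 0) (𝓝 (0, 0)) := by
      have : Continuous fun e : ℂ => ((0 : ℂ), e) := by fun_prop
      exact this.tendsto _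
    have hUc : ContinuousAt (fun e : ℂ => U (0, e)) 0 :=
      ContinuousAt.comp (g := U) (f := fun e : ℂ => ((0 : ℂ), e)) hU.continuousAt hc
    have ht : Tendsto (fun e : ℂ => (e, a₀, U (0, e))) (𝓝 0) (𝓝 (0, a₀, U (0, 0))) := by
      have : ContinuousAt (fun e : ℂ => (e, a₀, U (0, e))) 0 := by fun_prop
      exact this.tendsto
    filter_upwards [hX0, ht.eventually h2] with e k1 k2
    rw [k1]
    exact k2
  · intro Dn hDn hDn0 hn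
    have hc : Tendsto (fun w : ℂ => (w, (0 : ℂ))) (𝓝 0) (𝓝 (0, 0)) := by
      have : Continuous fun w : ℂ => (w, (0 : ℂ)) := by fun_prop
      exact this.tendsto _
    have hUc : ContinuousAt (fun w : ℂ => U (w, 0)) 0 :=
      ContinuousAt.comp (g := U) (f := fun w : ℂ => (w, (0 : ℂ))) hU.continuousAt hc
    have hXc : ContinuousAt (fun w : ℂ => X (w, 0)) 0 :=
      ContinuousAt.comp (g := X) (f := fun w : ℂ => (w, (0 : ℂ))) hX.continuousAt hc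
    have hDc := hDn.continuousAt
    have ht : Tendsto (fun w : ℂ => ((w, (0 : ℂ), X (w, 0), U (w, 0)), Dn w)) (𝓝 0)
        (𝓝 ((0, 0, a₀, U (0, 0)), D₀)) := by
      have : ContinuousAt (fun w : ℂ => ((w, (0 : ℂ), X (w, 0), U (w, 0)), Dn w)) 0 := by fun_prop
      have := this.tendsto
      rwa [hX00, hDn0] at this
    have h4 : ∀ᶠ w in 𝓝[≠] (0 : ℂ), Dn w = D (w, 0, X (w, 0), U (w, 0)) := by
      rw [eventually_nhdsWithin_iff]
      filter_upwards [ht.eventually h3, hn] with w k1 k2 hw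
      apply k1 hw
      simp only [zero_mul]
      exact k2
    have h5 : AnalyticAt ℂ (fun w : ℂ => D (w, 0, X (w, 0), U (w, 0))) 0 :=
      AnalyticAt.comp (g := fun x : ℂ × ℂ => D (x.1, x.2, X x, U x))
        (f := fun w : ℂ => (w, (0 : ℂ))) hDa (by fun_prop)
    exact (hDn.frequently_eq_iff_eventually_eq h5).1 h4.frequently

/-- **Renormalisation** at the start of a cluster. -/
theorem renorm {k k' : ℂ → ℂ} {Ψ : (ℂ × ℂ) × ℂ → ℂ × ℂ} {X U : ℂ × ℂ → ℂ} {a₀ μ ν t₀ : ℂ}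
    {c : ℂ → ℂ} {uj : ℂ × ℂ → ℂ × ℂ} (hk : AnalyticAt ℂ k a₀)
    (hΨ : AnalyticAt ℂ Ψ ((a₀, k a₀), 0)) (hX : AnalyticAt ℂ X (0, 0))
    (hU : AnalyticAt ℂ U (0, 0)) (hX0 : ∀ᶠ e in 𝓝 (0 : ℂ), X (0, e) = a₀)
    (hU0 : ∀ᶠ e in 𝓝 (0 : ℂ), U (0, e) = μ + ν * e) (hc : AnalyticAt ℂ c t₀) (hc0 : c t₀ = a₀)
    (hc' : deriv c t₀ ≠ 0) (hcu : ∀ᶠ t in 𝓝 t₀, Ψ ((c t, k (c t)), 0) = uj (t, 0))
    (hk' : AnalyticAt ℂ k' (uj (t₀, 0)).1)
    (htan : ∀ᶠ t in 𝓝 t₀, (uj (t, 0)).2 = k' (uj (t, 0)).1) :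
    ∃ (X₁ U₁ : ℂ × ℂ → ℂ) (μ₁ ν₁ A : ℂ), AnalyticAt ℂ X₁ (0, 0) ∧ AnalyticAt ℂ U₁ (0, 0) ∧
      (∀ᶠ e in 𝓝 (0 : ℂ), X₁ (0, e) = (uj (t₀, 0)).1) ∧
      (∀ᶠ e in 𝓝 (0 : ℂ), U₁ (0, e) = μ₁ + ν₁ * e) ∧
      (∀ᶠ x : ℂ × ℂ in 𝓝 (0, 0), Ψ ((X x, k (X x) - x.1 ^ 2 * U x), x.2 * x.1 ^ 2) =
        (X₁ x, k' (X₁ x) - x.1 ^ 2 * U₁ x)) ∧
      ∀ᶠ e in 𝓝 (0 : ℂ), deriv (fun w => X₁ (w, e)) 0 = A * deriv (fun w => X (w, e)) 0 := by
  have hX00 : X (0, 0) = a₀ := hX0.self_of_nhds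
  have hbase : Ψ ((a₀, k a₀), 0) = uj (t₀, 0) := by
    have := hcu.self_of_nhds
    rwa [hc0] at this
  have hΨ1 : AnalyticAt ℂ (fun y => (Ψ y).1) ((a₀, k a₀), 0) :=
    AnalyticAt.comp (g := fun z : ℂ × ℂ => z.1) analyticAt_fst hΨ
  have hΨ2 : AnalyticAt ℂ (fun y => (Ψ y).2) ((a₀, k a₀), 0) :=
    AnalyticAt.comp (g := fun z : ℂ × ℂ => z.2) analyticAt_snd hΨ
  have hφ : AnalyticAt ℂ (fun y => k' (Ψ y).1 - (Ψ y).2) ((a₀, k a₀), 0) := by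
    refine (AnalyticAt.comp (g := k') (f := fun y => (Ψ y).1) ?_ hΨ1).sub hΨ2
    rw [hbase]
    exact hk'
  -- the family
  let m : ℂ × ℂ × ℂ × ℂ → (ℂ × ℂ) × ℂ := fun y =>
    ((y.2.1, k y.2.1 - y.1 * y.2.2.1), y.2.2.2 * y.1)
  have hma : ∀ U₁ e₁ : ℂ, AnalyticAt ℂ m (0, a₀, U₁, e₁) := by
    intro U₁ e₁
    have a1 : AnalyticAt ℂ (fun y : ℂ × ℂ × ℂ × ℂ => k y.2.1) (0, a₀, U₁, e₁) :=
      AnalyticAt.comp (g := k) (f := fun y : ℂ × ℂ × ℂ × ℂ => y.2.1) hk (by fun_prop)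
    have a2 : AnalyticAt ℂ (fun y : ℂ × ℂ × ℂ × ℂ => y.2.1) (0, a₀, U₁, e₁) := by fun_prop
    have a3 : AnalyticAt ℂ (fun y : ℂ × ℂ × ℂ × ℂ => y.1 * y.2.2.1) (0, a₀, U₁, e₁) := by fun_prop
    have a4 : AnalyticAt ℂ (fun y : ℂ × ℂ × ℂ × ℂ => y.2.2.2 * y.1) (0, a₀, U₁, e₁) := by fun_prop
    exact (a2.prod (a1.sub a3)).prod a4
  have hm0 : ∀ U₁ e₁ : ℂ, m (0, a₀, U₁, e₁) = ((a₀, k a₀), 0) := by
    intro U₁ e₁
    simp [m]
  have hmt : Tendsto m (𝓝 (0, a₀, U (0, 0), 0)) (𝓝 ((a₀, k a₀), 0)) := by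
    have := (hma (U (0, 0)) 0).continuousAt.tendsto
    rwa [hm0] at this
  have hf : AnalyticAt ℂ (fun y => k' (Ψ (m y)).1 - (Ψ (m y)).2) (0, a₀, U (0, 0), 0) := by
    refine AnalyticAt.comp (g := fun y => k' (Ψ y).1 - (Ψ y).2) (f := m) ?_ (hma _ _)
    rw [hm0]
    exact hφ
  obtain ⟨q, hq, hq1, hq2⟩ := exists_div hf
  -- the curve condition
  have hcurve : ∀ᶠ x in 𝓝 a₀, k' (Ψ ((x, k x), 0)).1 - (Ψ ((x, k x), 0)).2 = 0 := by
    have h1 : map c (𝓝 t₀) = 𝓝 a₀ := by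
      rw [← hc0]
      exact hc.hasStrictDerivAt.map_nhds_eq hc'
    rw [← h1, eventually_map]
    filter_upwards [hcu, htan] with t k1 k2
    rw [k1, k2, sub_self]
  have hq3 : ∀ᶠ y : ℂ × ℂ × ℂ × ℂ in 𝓝 (0, a₀, U (0, 0), 0),
      k' (Ψ (m y)).1 - (Ψ (m y)).2 = y.1 * q y := by
    have h1 : Tendsto (fun y : ℂ × ℂ × ℂ × ℂ => y.2.1) (𝓝 (0, a₀, U (0, 0), 0)) (𝓝 a₀) := by
      have : Continuous fun y : ℂ × ℂ × ℂ × ℂ => y.2.1 := by fun_prop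
      exact this.tendsto _
    filter_upwards [hq1, h1.eventually hcurve] with y k1 k2
    rw [k1]
    simp only [m, zero_mul, sub_zero, mul_zero, smul_eq_mul]
    rw [k2, zero_add]
  -- substitution
  have hs : AnalyticAt ℂ (fun x : ℂ × ℂ => (x.1 ^ 2, X x, U x, x.2)) (0, 0) := by
    have a1 : AnalyticAt ℂ (fun x : ℂ × ℂ => x.1 ^ 2) (0, 0) := by fun_prop
    have a2 : AnalyticAt ℂ (fun x : ℂ × ℂ => x.2) (0, 0) := by fun_prop
    exact a1.prod (hX.prod (hU.prod a2))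
  have hs0 : ((0 : ℂ) ^ 2, X (0, 0), U (0, 0), (0 : ℂ)) = (0, a₀, U (0, 0), 0) := by
    rw [hX00]
    simp
  have hst : Tendsto (fun x : ℂ × ℂ => (x.1 ^ 2, X x, U x, x.2)) (𝓝 (0, 0))
      (𝓝 (0, a₀, U (0, 0), 0)) := by
    have := hs.continuousAt.tendsto
    simp only at this
    rwa [hs0] at this
  have hms : AnalyticAt ℂ (fun x : ℂ × ℂ => m (x.1 ^ 2, X x, U x, x.2)) (0, 0) := by
    refine AnalyticAt.comp (g := m) (f := fun x : ℂ × ℂ => (x.1 ^ 2, X x, U x, x.2)) ?_ hs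
    simp only
    rw [hs0]
    exact hma _ _
  have hce : Tendsto (fun e : ℂ => ((0 : ℂ), e)) (𝓝 0) (𝓝 (0, 0)) := by
    have : Continuous fun e : ℂ => ((0 : ℂ), e) := by fun_prop
    exact this.tendsto _
  -- the two functions of `(p, ε)`
  set Fp : ℂ × ℂ → ℂ := fun z => k' (Ψ ((a₀, z.1), z.2)).1 - (Ψ ((a₀, z.1), z.2)).2 with hFp
  have hFpa : AnalyticAt ℂ Fp (k a₀, 0) :=
    AnalyticAt.comp (g := fun y => k' (Ψ y).1 - (Ψ y).2)
      (f := fun z : ℂ × ℂ => (((a₀, z.1), z.2) : (ℂ × ℂ) × ℂ)) hφ (by fun_prop)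
  set L := fderiv ℂ Fp (k a₀, 0) with hL
  refine ⟨fun x => (Ψ (m (x.1 ^ 2, X x, U x, x.2))).1, fun x => q (x.1 ^ 2, X x, U x, x.2),
    -μ * L (1, 0), L (0, 1) - ν * L (1, 0),
    fderiv ℂ (fun y => (Ψ y).1) ((a₀, k a₀), 0) ((1, deriv k a₀), 0), ?_, ?_, ?_, ?_, ?_, ?_⟩
  · refine AnalyticAt.comp (g := fun y => (Ψ y).1)
      (f := fun x : ℂ × ℂ => m (x.1 ^ 2, X x, U x, x.2)) ?_ hms
    simp only
    rw [hs0, hm0]
    exact hΨ1
  · refine AnalyticAt.comp (g := q) (f := fun x : ℂ × ℂ => (x.1 ^ 2, X x, U x, x.2)) ?_ hs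
    simp only
    rw [hs0]
    exact hq
  · filter_upwards [hX0] with e he
    simp only [m]
    rw [he]
    simp only [ne_eq, OfNat.ofNat_ne_zero, not_false_eq_true, zero_pow, zero_mul, sub_zero,
      mul_zero]
    rw [hbase]
  · have h1 : Tendsto (fun e : ℂ => (a₀, U (0, e), e)) (𝓝 0) (𝓝 (a₀, U (0, 0), 0)) := by
      have hUc : ContinuousAt (fun e : ℂ => U (0, e)) 0 :=
        ContinuousAt.comp (g := U) (f := fun e : ℂ => ((0 : ℂ), e)) hU.continuousAt hce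
      have : ContinuousAt (fun e : ℂ => (a₀, U (0, e), e)) 0 := by fun_prop
      exact this.tendsto
    have h2 : Tendsto (fun e : ℂ => ((0 : ℂ), a₀, U (0, e), e)) (𝓝 0)
        (𝓝 (0, a₀, U (0, 0), 0)) := by
      have hUc : ContinuousAt (fun e : ℂ => U (0, e)) 0 :=
        ContinuousAt.comp (g := U) (f := fun e : ℂ => ((0 : ℂ), e)) hU.continuousAt hce
      have : ContinuousAt (fun e : ℂ => ((0 : ℂ), a₀, U (0, e), e)) 0 := by fun_prop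
      exact this.tendsto
    filter_upwards [hX0, hU0, h1.eventually hq2, h2.eventually hf.eventually_analyticAt]
      with e k1 k2 k3 k4
    simp only [ne_eq, OfNat.ofNat_ne_zero, not_false_eq_true, zero_pow]
    rw [k1, k3]
    -- derivative along `s`
    have h5 : HasDerivAt (fun s : ℂ => (s, a₀, U (0, e), e))
        ((1 : ℂ), (0 : ℂ), (0 : ℂ), (0 : ℂ)) 0 :=
      (hasDerivAt_id _).prodMk ((hasDerivAt_const _ _).prodMk
        ((hasDerivAt_const _ _).prodMk (hasDerivAt_const _ _)))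
    have h6 := k4.differentiableAt.hasFDerivAt.comp_hasDerivAt (0 : ℂ) h5
    have h7 : HasDerivAt (fun s : ℂ => (k a₀ - s * U (0, e), e * s)) (-U (0, e), e) 0 := by
      refine HasDerivAt.prodMk ?_ ?_
      · simpa using ((hasDerivAt_id (0 : ℂ)).mul_const (U (0, e))).const_sub (k a₀)
      · simpa using (hasDerivAt_id (0 : ℂ)).const_mul e
    have h8 : HasFDerivAt Fp L ((k a₀ - 0 * U (0, e), e * 0)) := by
      simp only [zero_mul, sub_zero, mul_zero]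
      exact hFpa.differentiableAt.hasFDerivAt
    have h9 := h8.comp_hasDerivAt (0 : ℂ) h7
    have h10 := h6.unique h9
    change fderiv ℂ (fun y => k' (Ψ (m y)).1 - (Ψ (m y)).2) (0, a₀, U (0, e), e) (1, 0) = _
    have h11 : ((1 : ℂ), (0 : ℂ × ℂ × ℂ)) = (1, 0, 0, 0) := rfl
    rw [h11, h10]
    have h12 : ((-U (0, e), e) : ℂ × ℂ) = (-U (0, e)) • ((1 : ℂ), (0 : ℂ)) +
        e • ((0 : ℂ), (1 : ℂ)) := by
      ext <;> simp
    rw [h12, map_add, map_smul, map_smul, k2, smul_eq_mul, smul_eq_mul]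
    ring
  · filter_upwards [hst.eventually hq3] with x hx
    have h1 : m (x.1 ^ 2, X x, U x, x.2) = ((X x, k (X x) - x.1 ^ 2 * U x), x.2 * x.1 ^ 2) := rfl
    rw [h1] at hx
    refine Prod.ext ?_ ?_
    · rw [h1]
    · simp only
      rw [h1, ← hx]
      ring
  · filter_upwards [hX0, hce.eventually hX.eventually_analyticAt,
      hce.eventually hU.eventually_analyticAt] with e k1 k2 k3
    have a1 : HasDerivAt (fun w : ℂ => (w, e)) ((1 : ℂ), (0 : ℂ)) 0 :=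
      (hasDerivAt_id _).prodMk (hasDerivAt_const _ _)
    have a2 : HasDerivAt (fun w => X (w, e)) (deriv (fun w => X (w, e)) 0) 0 :=
      (k2.differentiableAt.hasFDerivAt.comp_hasDerivAt (0 : ℂ) a1).differentiableAt.hasDerivAt
    have a3 : HasDerivAt (fun w => U (w, e)) (deriv (fun w => U (w, e)) 0) 0 :=
      (k3.differentiableAt.hasFDerivAt.comp_hasDerivAt (0 : ℂ) a1).differentiableAt.hasDerivAt
    have a4 : HasDerivAt (fun w => k (X (w, e)))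
        (deriv k a₀ * deriv (fun w => X (w, e)) 0) 0 := by
      refine HasDerivAt.comp (h₂ := k) (h := fun w => X (w, e)) 0 ?_ a2
      rw [k1]
      exact hk.differentiableAt.hasDerivAt
    have a5 : HasDerivAt (fun w : ℂ => ((X (w, e), k (X (w, e)) - w ^ 2 * U (w, e)), e * w ^ 2))
        ((deriv (fun w => X (w, e)) 0, deriv k a₀ * deriv (fun w => X (w, e)) 0), 0) 0 := by
      refine HasDerivAt.prodMk (HasDerivAt.prodMk a2 ?_) ?_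
      · refine (a4.sub ((hasDerivAt_pow 2 (0 : ℂ)).mul a3)).congr_deriv ?_
        simp
      · refine ((hasDerivAt_pow 2 (0 : ℂ)).const_mul e).congr_deriv ?_
        simp
    have a6 : HasFDerivAt (fun y => (Ψ y).1) (fderiv ℂ (fun y => (Ψ y).1) ((a₀, k a₀), 0))
        ((X (0, e), k (X (0, e)) - 0 ^ 2 * U (0, e)), e * 0 ^ 2) := by
      have : (((X (0, e), k (X (0, e)) - 0 ^ 2 * U (0, e)), e * 0 ^ 2) : (ℂ × ℂ) × ℂ) =
          ((a₀, k a₀), 0) := by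
        rw [k1]
        simp
      rw [this]
      exact hΨ1.differentiableAt.hasFDerivAt
    have a7 := a6.comp_hasDerivAt (0 : ℂ) a5
    have a8 := a7.deriv
    change deriv ((fun y => (Ψ y).1) ∘
      fun w : ℂ => ((X (w, e), k (X (w, e)) - w ^ 2 * U (w, e)), e * w ^ 2)) 0 = _
    rw [a8]
    have a9 : (((deriv (fun w => X (w, e)) 0, deriv k a₀ * deriv (fun w => X (w, e)) 0), 0) :
        (ℂ × ℂ) × ℂ) = (deriv (fun w => X (w, e)) 0) • ((1, deriv k a₀), 0) := by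
      ext <;> simp [mul_comm]
    rw [a9, map_smul, smul_eq_mul, mul_comm]

end

end Vale.Agent.P097.H845
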