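import Vale.Agent.P097.H845.Gl4

/-!
# P097: the states of a deformed chain at `w = 0`
-/

open Set Filter Topology

namespace Vale.Agent.P097.H845

noncomputable section

attribute [local fun_prop] analyticAt_fst analyticAt_snd

variable {t₀ : ℂ} {Ω : Set ℂ} {n : ℕ} {H : ℕ → ℂ × ℂ → ℂ} {u : ℕ → ℂ × ℂ → ℂ × ℂ}
  {gl : ℕ → Prop} {w₀ w₁ : ℂ} {V V' : ℕ → ℂ × ℂ → ℂ × ℂ}

/-- the state of a chain in a transversal block after a cluster -/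
structure St (t₀ a₀ μ ν : ℂ) (uj v : ℂ × ℂ → ℂ × ℂ) (N : ℕ) (k : ℂ → ℂ)
    (Ψ : (ℂ × ℂ) × ℂ → ℂ × ℂ) (X U : ℂ × ℂ → ℂ) (c : ℂ → ℂ) : Prop where
  hk : AnalyticAt ℂ k a₀
  hΨ : AnalyticAt ℂ Ψ ((a₀, k a₀), 0)
  hX : AnalyticAt ℂ X (0, 0)
  hU : AnalyticAt ℂ U (0, 0)
  X0 : ∀ᶠ e in 𝓝 (0 : ℂ), X (0, e) = a₀
  U0 : ∀ᶠ e in 𝓝 (0 : ℂ), U (0, e) = μ + ν * e
  hv : ∀ᶠ x : ℂ × ℂ in 𝓝 (0, 0), v x = Ψ ((X x, k (X x) - x.1 ^ 2 * U x), x.2 * x.1 ^ 2)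
  hc : AnalyticAt ℂ c t₀
  c0 : c t₀ = a₀
  c' : deriv c t₀ ≠ 0
  hcu : ∀ᶠ t in 𝓝 t₀, Ψ ((c t, k (c t)), 0) = uj (t, 0)
  sq : SqS N fun e => deriv (fun w => X (w, e)) 0

lemma St.base {a₀ μ ν : ℂ} {uj v : ℂ × ℂ → ℂ × ℂ} {N : ℕ} {k : ℂ → ℂ}
    {Ψ : (ℂ × ℂ) × ℂ → ℂ × ℂ} {X U : ℂ × ℂ → ℂ} {c : ℂ → ℂ}
    (h : St t₀ a₀ μ ν uj v N k Ψ X U c) : Ψ ((a₀, k a₀), 0) = uj (t₀, 0) := by
  have := h.hcu.self_of_nhds
  rwa [h.c0] at this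

lemma tendsto_e : Tendsto (fun e : ℂ => ((0 : ℂ), e)) (𝓝 0) (𝓝 (0, 0)) := by
  have : Continuous fun e : ℂ => ((0 : ℂ), e) := by fun_prop
  exact this.tendsto _

lemma hasDerivAt_w {X : ℂ × ℂ → ℂ} {w e : ℂ} (h : AnalyticAt ℂ X (w, e)) :
    HasDerivAt (fun w => X (w, e)) (deriv (fun w => X (w, e)) w) w := by
  have a1 : HasDerivAt (fun w : ℂ => (w, e)) ((1 : ℂ), (0 : ℂ)) w :=
    (hasDerivAt_id _).prodMk (hasDerivAt_const _ _)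
  exact (h.differentiableAt.hasFDerivAt.comp_hasDerivAt w a1).differentiableAt.hasDerivAt

/-- first order of the normal angle after a block -/
lemma St.deriv_fst {a₀ μ ν : ℂ} {uj v : ℂ × ℂ → ℂ × ℂ} {N : ℕ} {k : ℂ → ℂ}
    {Ψ : (ℂ × ℂ) × ℂ → ℂ × ℂ} {X U : ℂ × ℂ → ℂ} {c : ℂ → ℂ}
    (h : St t₀ a₀ μ ν uj v N k Ψ X U c) : SqS N fun e => deriv (fun w => (v (w, e)).1) 0 := by
  have hΨ1 : AnalyticAt ℂ (fun y => (Ψ y).1) ((a₀, k a₀), 0) :=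
    AnalyticAt.comp (g := fun z : ℂ × ℂ => z.1) analyticAt_fst h.hΨ
  refine h.sq.smul (fderiv ℂ (fun y => (Ψ y).1) ((a₀, k a₀), 0) ((1, deriv k a₀), 0)) ?_
  filter_upwards [h.X0, tendsto_e.eventually h.hX.eventually_analyticAt,
    tendsto_e.eventually h.hU.eventually_analyticAt, tendsto_e.eventually h.hv.eventually_nhds]
    with e k1 k2 k3 k4
  have a2 := hasDerivAt_w k2
  have a3 := hasDerivAt_w k3
  have a4 : HasDerivAt (fun w => k (X (w, e))) (deriv k a₀ * deriv (fun w => X (w, e)) 0) 0 := by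
    refine HasDerivAt.comp (h₂ := k) (h := fun w => X (w, e)) 0 ?_ a2
    rw [k1]
    exact h.hk.differentiableAt.hasDerivAt
  have a5 : HasDerivAt (fun w : ℂ => ((X (w, e), k (X (w, e)) - w ^ 2 * U (w, e)), e * w ^ 2))
      ((deriv (fun w => X (w, e)) 0, deriv k a₀ * deriv (fun w => X (w, e)) 0), 0) 0 := by
    refine HasDerivAt.prodMk (HasDerivAt.prodMk a2 ?_) ?_
    · refine (a4.sub ((hasDerivAt_pow 2 (0 : ℂ)).mul a3)).congr_deriv ?_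
      simp
    · refine ((hasDerivAt_pow 2 (0 : ℂ)).const_mul e).congr_deriv ?_
      simp
  have a6 : HasFDerivAt (fun y => (Ψ y).1) (fderiv ℂ (fun y => (Ψ y).1) ((a₀, k a₀), 0))
      ((X (0, e), k (X (0, e)) - 0 ^ 2 * U (0, e)), e * 0 ^ 2) := by
    have : (((X (0, e), k (X (0, e)) - 0 ^ 2 * U (0, e)), e * 0 ^ 2) : (ℂ × ℂ) × ℂ) =
        ((a₀, k a₀), 0) := by
      rw [k1]
      simp
    rw [this]
    exact hΨ1.differentiableAt.hasFDerivAt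
  have a7 := a6.comp_hasDerivAt (0 : ℂ) a5
  have hw : Tendsto (fun w : ℂ => (w, e)) (𝓝 0) (𝓝 (0, e)) := by
    have : Continuous fun w : ℂ => (w, e) := by fun_prop
    exact this.tendsto _
  have a8 : (fun w => (v (w, e)).1) =ᶠ[𝓝 0] (fun y => (Ψ y).1) ∘
      fun w : ℂ => ((X (w, e), k (X (w, e)) - w ^ 2 * U (w, e)), e * w ^ 2) := by
    filter_upwards [hw.eventually k4] with w hw'
    simp only [Function.comp_apply]
    rw [hw']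
  rw [a8.deriv_eq, a7.deriv]
  have a9 : (((deriv (fun w => X (w, e)) 0, deriv k a₀ * deriv (fun w => X (w, e)) 0), 0) :
      (ℂ × ℂ) × ℂ) = (deriv (fun w => X (w, e)) 0) • ((1, deriv k a₀), 0) := by
    ext <;> simp [mul_comm]
  rw [a9, map_smul, smul_eq_mul, mul_comm]

/-- transversal step -/
theorem St.trans (W : Word t₀ Ω n H u gl) (hΩ : (0 : ℂ) ∈ Ω) {j : ℕ} (hj : j < n) (hg : ¬ gl j)
    (hV : GC t₀ H u j 0 V) {a₀ μ ν : ℂ} {N : ℕ} {k : ℂ → ℂ} {Ψ : (ℂ × ℂ) × ℂ → ℂ × ℂ}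
    {X U : ℂ × ℂ → ℂ} {c : ℂ → ℂ} (h : St t₀ a₀ μ ν (u j) (V j) N k Ψ X U c) :
    ∃ v, GC t₀ H u (j + 1) 0 (Function.update V (j + 1) v) ∧
      ∃ Ψ', St t₀ a₀ μ ν (u (j + 1)) v N k Ψ' X U c := by
  obtain ⟨G, hG, hGn, hGC⟩ := hV.reg W hΩ hj (W.tr j hj hg)
  refine ⟨_, hGC, fun y => G (Ψ y, y.2), h.hk, ?_, h.hX, h.hU, h.X0, h.U0, ?_, h.hc, h.c0, h.c',
    ?_, h.sq⟩
  · refine AnalyticAt.comp (g := G) (f := fun y : (ℂ × ℂ) × ℂ => (Ψ y, y.2)) ?_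
      (h.hΨ.prod (by fun_prop))
    simp only
    rw [h.base]
    exact hG
  · filter_upwards [h.hv] with x hx
    rw [hx]
  · have h1 : Tendsto (fun t : ℂ => (t, (0 : ℂ))) (𝓝 t₀) (𝓝 (t₀, 0)) := tendsto_pair t₀
    filter_upwards [h.hcu, h1.eventually hGn] with t k1 k2
    rw [k1, k2]

/-- the constant `U (0, 0)` from the natural chain -/
lemma nat_U {h : ℂ × ℂ → ℂ} {a₁ : ℂ} (hh : AnalyticAt ℂ h (a₁, 0)) {X U Dn : ℂ → ℂ}
    (hX : ContinuousAt X 0) (hU : ContinuousAt U 0) (hD : ContinuousAt Dn 0) (hX0 : X 0 = a₁)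
    (hn : ∀ᶠ w in 𝓝 (0 : ℂ), h (X w, 0) - w ^ 2 * U w = FF h (X w) (w * Dn w) 0) :
    rho h (a₁, 0) / 2 * Dn 0 ^ 2 = U 0 := by
  obtain ⟨G, hG⟩ := exists_GQ hh
  obtain ⟨g1, g2, g3⟩ := hG (Dn 0) 0
  have ht : Tendsto (fun w : ℂ => (w, X w, Dn w, (0 : ℂ))) (𝓝 0) (𝓝 (0, a₁, Dn 0, 0)) := by
    have : ContinuousAt (fun w : ℂ => (w, X w, Dn w, (0 : ℂ))) 0 := by fun_prop
    have := this.tendsto
    rwa [hX0] at this
  have h1 : ∀ᶠ w in 𝓝[≠] (0 : ℂ), U w = G (w, X w, Dn w, 0) := by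
    rw [eventually_nhdsWithin_iff]
    filter_upwards [ht.eventually g2, hn] with w k1 k2 hw
    simp only [zero_mul] at k1
    rw [← k2] at k1
    have hw2 : w ^ 2 ≠ 0 := pow_ne_zero 2 hw
    have h5 : w ^ 2 * (U w - G (w, X w, Dn w, 0)) = 0 := by linear_combination k1
    exact sub_eq_zero.1 ((mul_eq_zero.1 h5).resolve_left hw2)
  have h2 : Tendsto (fun w => G (w, X w, Dn w, 0)) (𝓝 0) (𝓝 (G (0, a₁, Dn 0, 0))) :=
    g1.continuousAt.tendsto.comp ht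
  have h3 := tendsto_nhds_unique_of_eventuallyEq (hU.tendsto.mono_left nhdsWithin_le_nhds)
    (h2.mono_left nhdsWithin_le_nhds) h1
  rw [h3, g3.self_of_nhds]
  ring

lemma RL_second {h : ℂ × ℂ → ℂ} {ε : ℂ} {l l' l'' : ℂ × ℂ} (h1 : RL h ε l l') (h2 : RL h ε l l'')
    (h3 : l'.1 = l''.1) : l' = l'' := by
  refine Prod.ext h3 ?_
  rw [h1.2, h2.2, h3]

/-- The glancing letter applied to a scaled line. -/
theorem glance_line {h : ℂ × ℂ → ℂ} {uj uj' : ℂ → ℂ × ℂ} {X U : ℂ × ℂ → ℂ} {a₁ : ℂ}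
    (hh : AnalyticAt ℂ h (a₁, 0)) (hρ : rho h (a₁, 0) ≠ 0) (hX : AnalyticAt ℂ X (0, 0))
    (hU : AnalyticAt ℂ U (0, 0)) (hX0 : ∀ᶠ e in 𝓝 (0 : ℂ), X (0, e) = a₁)
    (ha : AnalyticAt ℂ (fun w => hta (uj w) (uj' w)) 0) (ha0 : hta (uj 0) (uj' 0) = 0)
    (hD₀ : deriv (fun w => hta (uj w) (uj' w)) 0 ≠ 0)
    (hu : ∀ᶠ w in 𝓝 (0 : ℂ), uj w = (X (w, 0), h (X (w, 0), 0) - w ^ 2 * U (w, 0)))
    (hr : ∀ᶠ w in 𝓝 (0 : ℂ), RL h 0 (uj w) (uj' w)) :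
    ∃ D U' : ℂ × ℂ → ℂ, AnalyticAt ℂ D (0, 0) ∧ AnalyticAt ℂ U' (0, 0) ∧
      D (0, 0) = deriv (fun w => hta (uj w) (uj' w)) 0 ∧
      (∀ᶠ x : ℂ × ℂ in 𝓝 (0, 0), RL h (x.2 * x.1 ^ 2) (X x, h (X x, 0) - x.1 ^ 2 * U x)
        (X x + 2 * (x.1 * D x), h (X x + 2 * (x.1 * D x), 0) - x.1 ^ 2 * U' x)) ∧
      (∀ᶠ e in 𝓝 (0 : ℂ), rho h (a₁, 0) / 2 * D (0, e) ^ 2 = U (0, e) + e * deps h a₁ ∧
        U' (0, e) = U (0, e)) ∧
      ∀ᶠ w in 𝓝 (0 : ℂ), (X (w, 0) + 2 * (w * D (w, 0)),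
        h (X (w, 0) + 2 * (w * D (w, 0)), 0) - w ^ 2 * U' (w, 0)) = uj' w := by
  have hX00 : X (0, 0) = a₁ := hX0.self_of_nhds
  obtain ⟨Dn, hDn, hDn0, hDnw⟩ := exists_nat ha ha0
  have hp := tendsto_pair 0
  have cX : ContinuousAt (fun w : ℂ => X (w, 0)) 0 :=
    ContinuousAt.comp (g := X) (f := fun w : ℂ => (w, (0 : ℂ))) hX.continuousAt hp
  have cU : ContinuousAt (fun w : ℂ => U (w, 0)) 0 :=
    ContinuousAt.comp (g := U) (f := fun w : ℂ => (w, (0 : ℂ))) hU.continuousAt hp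
  have hn : ∀ᶠ w in 𝓝 (0 : ℂ), h (X (w, 0), 0) - w ^ 2 * U (w, 0) =
      FF h (X (w, 0)) (w * Dn w) 0 := by
    filter_upwards [hu, hr] with w k1 k2
    have k3 := ((RL_iff _ _ _ _).1 k2).1
    have k4 := hDnw w
    unfold hta at k4
    rw [k4, k1] at k3
    exact k3
  have hU0 := nat_U hh cX cU hDn.continuousAt hX00 hn
  rw [hDn0] at hU0
  obtain ⟨D, U', hD, hU', hD0, h1, h2, h3⟩ := glance hh hρ hD₀ hX hU hX0 hU0
  refine ⟨D, U', hD, hU', hD0, h1, h2, ?_⟩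
  filter_upwards [h3 Dn hDn hDn0 hn, hp.eventually h1, hu, hr] with w k1 k2 k3 k4
  simp only [zero_mul] at k2
  rw [← k3] at k2
  refine RL_second k2 k4 ?_
  have k5 := hDnw w
  unfold hta at k5
  simp only
  rw [← k1, ← k5, k3]
  simp only
  ring

/-- glancing step -/
theorem St.glan (W : Word t₀ Ω n H u gl) (hΩ : (0 : ℂ) ∈ Ω) {j : ℕ} (hj : j < n) (hg : gl j)
    (hV : GC t₀ H u j 0 V) {a₀ μ ν : ℂ} {N : ℕ} {k : ℂ → ℂ} {Ψ : (ℂ × ℂ) × ℂ → ℂ × ℂ}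
    {X U : ℂ × ℂ → ℂ} {c : ℂ → ℂ} (h : St t₀ a₀ μ ν (u j) (V j) N k Ψ X U c) :
    ∃ v, GC t₀ H u (j + 1) 0 (Function.update V (j + 1) v) ∧
      ∃ a₁ μ₁ ν₁ k₁ Ψ₁ X₁ U₁ c₁, St t₀ a₁ μ₁ ν₁ (u (j + 1)) v (N + 1) k₁ Ψ₁ X₁ U₁ c₁ := by
  have g0 := W.g0 j hj hg
  have g0' : (u (j + 1) (t₀, 0)).1 = (u j (t₀, 0)).1 := g0.self_of_nhds
  have hvtx : vtx (u j (t₀, 0)) (u (j + 1) (t₀, 0)) = (u j (t₀, 0)).1 := by
    unfold vtx
    rw [g0']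
    ring
  have hH := W.hH 0 hΩ j hj
  have hρ := W.hρ 0 hΩ j hj
  rw [hvtx] at hH hρ
  have hpt : Tendsto (fun t : ℂ => (t, (0 : ℂ))) (𝓝 t₀) (𝓝 (t₀, 0)) := tendsto_pair t₀
  have hpw : Tendsto (fun w : ℂ => (t₀, w)) (𝓝 0) (𝓝 (t₀, 0)) := tendsto_pair' t₀ 0
  have hrl := W.rl 0 hΩ j hj
  have htan : ∀ᶠ t in 𝓝 t₀, (u j (t, 0)).2 = H j ((u j (t, 0)).1, 0) ∧
      (u (j + 1) (t, 0)).2 = H j ((u (j + 1) (t, 0)).1, 0) := by
    filter_upwards [hpt.eventually hrl, g0] with t k1 k2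
    have h1 : ((u j (t, 0)).1 + (u (j + 1) (t, 0)).1) / 2 = (u j (t, 0)).1 := by
      rw [k2]
      ring
    have h2 : ((u (j + 1) (t, 0)).1 - (u j (t, 0)).1) / 2 = 0 := by
      rw [k2]
      ring
    have k3 := k1.1
    have k4 := k1.2
    rw [h1, h2] at k3 k4
    simp only [Complex.cos_zero, mul_one, Complex.sin_zero, mul_zero, sub_zero, add_zero] at k3 k4
    exact ⟨k3, by rw [k4, k2]⟩
  have hk1 : AnalyticAt ℂ (fun a : ℂ => H j (a, 0)) (u j (t₀, 0)).1 :=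
    AnalyticAt.comp (g := H j) (f := fun a : ℂ => (a, (0 : ℂ))) hH (by fun_prop)
  obtain ⟨X₁, U₁, μ₁, ν₁, A, hX₁, hU₁, hX₁0, hU₁0, hV₁, hA⟩ :=
    renorm (k' := fun a => H j (a, 0)) h.hk h.hΨ h.hX h.hU h.X0 h.U0 h.hc h.c0 h.c' h.hcu hk1
      (htan.mono fun t ht => ht.1)
  have hVj : ∀ᶠ x : ℂ × ℂ in 𝓝 (0, 0), V j x = (X₁ x, H j (X₁ x, 0) - x.1 ^ 2 * U₁ x) := by
    filter_upwards [h.hv, hV₁] with x k1 k2
    rw [k1, k2]
  have hu : ∀ᶠ w in 𝓝 (0 : ℂ), u j (t₀, w) =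
      (X₁ (w, 0), H j (X₁ (w, 0), 0) - w ^ 2 * U₁ (w, 0)) := by
    filter_upwards [(tendsto_pair 0).eventually hVj, hV.nat j le_rfl] with w k1 k2
    rw [← k2, k1]
  have an0 : AnalyticAt ℂ (fun w => u j (t₀, w)) 0 :=
    AnalyticAt.comp (g := u j) (f := fun w : ℂ => (t₀, w)) (W.an 0 hΩ j hj.le) (by fun_prop)
  have an1 : AnalyticAt ℂ (fun w => u (j + 1) (t₀, w)) 0 :=
    AnalyticAt.comp (g := u (j + 1)) (f := fun w : ℂ => (t₀, w)) (W.an 0 hΩ (j + 1) hj)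
      (by fun_prop)
  have ha : AnalyticAt ℂ (fun w => hta (u j (t₀, w)) (u (j + 1) (t₀, w))) 0 := by
    have b0 : AnalyticAt ℂ (fun w => (u j (t₀, w)).1) 0 :=
      AnalyticAt.comp (g := fun z : ℂ × ℂ => z.1) analyticAt_fst an0
    have b1 : AnalyticAt ℂ (fun w => (u (j + 1) (t₀, w)).1) 0 :=
      AnalyticAt.comp (g := fun z : ℂ × ℂ => z.1) analyticAt_fst an1
    exact (b1.sub b0).div analyticAt_const two_ne_zero
  have ha0 : hta (u j (t₀, 0)) (u (j + 1) (t₀, 0)) = 0 := by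
    unfold hta
    rw [g0', sub_self, zero_div]
  obtain ⟨D, U', hD, hU', hD0, h1, h2, h3⟩ := glance_line (uj := fun w => u j (t₀, w))
    (uj' := fun w => u (j + 1) (t₀, w)) hH hρ hX₁ hU₁ hX₁0 ha ha0 (W.g1 j hj hg) hu
    (hpw.eventually hrl)
  have hXn : AnalyticAt ℂ (fun x : ℂ × ℂ => X₁ x + 2 * (x.1 * D x)) (0, 0) := by
    have a1 : AnalyticAt ℂ (fun x : ℂ × ℂ => x.1) (0, 0) := by fun_prop
    exact hX₁.add (analyticAt_const.mul (a1.mul hD))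
  have hX₁00 : X₁ (0, 0) = (u j (t₀, 0)).1 := hX₁0.self_of_nhds
  refine ⟨fun x => (X₁ x + 2 * (x.1 * D x), H j (X₁ x + 2 * (x.1 * D x), 0) - x.1 ^ 2 * U' x),
    hV.step ?_ ?_ h3, (u j (t₀, 0)).1, μ₁, ν₁, fun a => H j (a, 0), fun y => y.1,
    fun x => X₁ x + 2 * (x.1 * D x), U', fun t => (u (j + 1) (t, 0)).1, ?_⟩
  · have a2 : AnalyticAt ℂ (fun x : ℂ × ℂ => x.1 ^ 2) (0, 0) := by fun_prop
    refine hXn.prod (AnalyticAt.sub ?_ (a2.mul hU'))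
    refine AnalyticAt.comp (g := fun a : ℂ => H j (a, 0))
      (f := fun x : ℂ × ℂ => X₁ x + 2 * (x.1 * D x)) ?_ hXn
    simp only [zero_mul, mul_zero, add_zero]
    rw [hX₁00]
    exact hk1
  · filter_upwards [h1, hVj] with x k1 k2
    rw [k2]
    exact k1
  · refine ⟨hk1, by fun_prop, hXn, hU', ?_, ?_, Eventually.of_forall fun x => rfl, ?_, g0', ?_, ?_,
      ?_⟩
    · filter_upwards [hX₁0] with e he
      rw [zero_mul, mul_zero, add_zero, he]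
    · filter_upwards [h2, hU₁0] with e k1 k2
      rw [k1.2, k2]
    · have an2 : AnalyticAt ℂ (fun t => u (j + 1) (t, 0)) t₀ :=
        AnalyticAt.comp (g := u (j + 1)) (f := fun t : ℂ => (t, (0 : ℂ))) (W.an 0 hΩ (j + 1) hj)
          (by fun_prop)
      exact AnalyticAt.comp (g := fun z : ℂ × ℂ => z.1) analyticAt_fst an2
    · have : (fun t => (u (j + 1) (t, 0)).1) =ᶠ[𝓝 t₀] fun t => (u j (t, 0)).1 := g0
      rw [this.deriv_eq]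
      exact W.g2 j hj hg
    · filter_upwards [htan] with t ht
      exact Prod.ext rfl ht.2.symm
    · have hρ2 : rho (H j) ((u j (t₀, 0)).1, 0) / 2 ≠ 0 := div_ne_zero hρ two_ne_zero
      refine (h.sq.smul A hA).add (D₁ := fun e => D (0, e))
        (a₁ := μ₁ / (rho (H j) ((u j (t₀, 0)).1, 0) / 2))
        (b₁ := (ν₁ + deps (H j) (u j (t₀, 0)).1) / (rho (H j) ((u j (t₀, 0)).1, 0) / 2))
        (c₁ := 2) ?_ ?_ ?_ ?_
      · exact AnalyticAt.comp (g := D) (f := fun e : ℂ => ((0 : ℂ), e)) hD (by fun_prop)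
      · rw [hD0]
        exact W.g1 j hj hg
      · filter_upwards [h2, hU₁0] with e k1 k2
        have k3 := k1.1
        rw [k2] at k3
        field_simp
        field_simp at k3
        linear_combination k3
      · filter_upwards [tendsto_e.eventually hX₁.eventually_analyticAt,
          tendsto_e.eventually hD.eventually_analyticAt] with e k1 k2
        have b1 := hasDerivAt_w k1
        have b2 := hasDerivAt_w k2
        have b3 := b1.add (((hasDerivAt_id (0 : ℂ)).mul b2).const_mul 2)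
        have b4 : deriv (fun w => X₁ (w, e) + 2 * (w * D (w, e))) 0 =
            deriv (fun w => X₁ (w, e)) 0 + 2 * D (0, e) := by
          refine HasDerivAt.deriv (b3.congr_deriv ?_)
          simp
        exact b4

end

end Vale.Agent.P097.H845
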