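import Vale.Agent.P097.H845.Gl5

/-!
# P097: comparison of the natural word with another word at the glancing scale
-/

open Set Filter Topology

namespace Vale.Agent.P097.H845

noncomputable section

attribute [local fun_prop] analyticAt_fst analyticAt_snd

variable {t₀ : ℂ} {Ω : Set ℂ} {n : ℕ} {H : ℕ → ℂ × ℂ → ℂ} {u : ℕ → ℂ × ℂ → ℂ × ℂ}
  {gl : ℕ → Prop} {w₀ w₁ : ℂ} {V V' : ℕ → ℂ × ℂ → ℂ × ℂ}

/-- a germ with affine square -/
lemma sqrt_unique {D g : ℂ → ℂ} {a b : ℂ} (hD : AnalyticAt ℂ D 0) (hD0 : D 0 ≠ 0)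
    (h : ∀ᶠ e in 𝓝 (0 : ℂ), D e ^ 2 = a + b * e) (hg : AnalyticAt ℂ g 0) (hg0 : g 0 = 1)
    (hg2 : ∀ᶠ x in 𝓝 (0 : ℂ), g x ^ 2 = 1 + x) :
    ∀ᶠ e in 𝓝 (0 : ℂ), D e = D 0 * g (b / D 0 ^ 2 * e) := by
  have ha : D 0 ^ 2 = a := by
    have := h.self_of_nhds
    rwa [mul_zero, add_zero] at this
  have ht : Tendsto (fun e : ℂ => b / D 0 ^ 2 * e) (𝓝 0) (𝓝 0) := by
    have : Tendsto (fun e : ℂ => b / D 0 ^ 2 * e) (𝓝 0) (𝓝 (b / D 0 ^ 2 * 0)) :=
      Continuous.tendsto (by fun_prop) 0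
    rwa [mul_zero] at this
  have hga : AnalyticAt ℂ (fun e => g (b / D 0 ^ 2 * e)) 0 := by
    refine AnalyticAt.comp (g := g) (f := fun e => b / D 0 ^ 2 * e) ?_ (by fun_prop)
    simp only [mul_zero]
    exact hg
  have h1 : ContinuousAt (fun e => D e + D 0 * g (b / D 0 ^ 2 * e)) 0 :=
    hD.continuousAt.add (continuousAt_const.mul hga.continuousAt)
  have h2 : ∀ᶠ e in 𝓝 (0 : ℂ), D e + D 0 * g (b / D 0 ^ 2 * e) ≠ 0 := by
    refine h1.eventually_ne ?_
    simp only [mul_zero, hg0, mul_one]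
    intro h3
    exact hD0 (by linear_combination h3 / 2)
  filter_upwards [h, h2, ht.eventually hg2] with e k1 k2 k3
  have k4 : (D e - D 0 * g (b / D 0 ^ 2 * e)) * (D e + D 0 * g (b / D 0 ^ 2 * e)) = 0 := by
    have : (D e - D 0 * g (b / D 0 ^ 2 * e)) * (D e + D 0 * g (b / D 0 ^ 2 * e)) =
        D e ^ 2 - D 0 ^ 2 * g (b / D 0 ^ 2 * e) ^ 2 := by ring
    rw [this, k1, k3, ← ha]
    field_simp
    ring
  exact sub_eq_zero.1 ((mul_eq_zero.1 k4).resolve_right k2)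

/-- fewer than `n` square roots do not add up to `n` different ones -/
theorem sqs_contra {N n : ℕ} (hN : N < n) {f : ℂ → ℂ} (hf : SqS N f) {D : Fin n → ℂ → ℂ}
    {κ β D₀ : ℂ} {g : Fin n → ℂ} (hκ : κ ≠ 0) (hD₀ : D₀ ≠ 0) (hD : ∀ i, AnalyticAt ℂ (D i) 0)
    (hD0 : ∀ i, D i 0 = D₀) (hD2 : ∀ i, ∀ᶠ e in 𝓝 (0 : ℂ), κ * D i e ^ 2 = β + e * g i)
    (hg : Function.Injective g) (hs : ∀ᶠ e in 𝓝 (0 : ℂ), f e = ∑ i, 2 * D i e) : False := by
  obtain ⟨D', a, b, c, h1, h2⟩ := hf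
  set r : ℂ → ℂ := fun x => (1 + x) ^ (1 / 2 : ℂ) with hr
  have hra : AnalyticAt ℂ r 0 := analyticAt_sqrt_one_add
  have hr2 : ∀ᶠ x in 𝓝 (0 : ℂ), r x ^ 2 = 1 + x := Eventually.of_forall sqrt_one_add_sq
  have hr0 : r 0 = 1 := by simp [hr]
  have e1 : ∀ i, ∀ᶠ e in 𝓝 (0 : ℂ), D i e = D₀ * r (g i / κ / D₀ ^ 2 * e) := by
    intro i
    have k1 : ∀ᶠ e in 𝓝 (0 : ℂ), D i e ^ 2 = β / κ + g i / κ * e := by
      filter_upwards [hD2 i] with e he
      field_simp
      linear_combination he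
    have k2 := sqrt_unique (hD i) (by rw [hD0 i]; exact hD₀) k1 hra hr0 hr2
    rwa [hD0 i] at k2
  have e2 : ∀ i, ∀ᶠ e in 𝓝 (0 : ℂ), D' i e = D' i 0 * r (b i / D' i 0 ^ 2 * e) := fun i =>
    sqrt_unique (h1 i).1 (h1 i).2.1 (h1 i).2.2 hra hr0 hr2
  have key : ∀ᶠ e in 𝓝 (0 : ℂ), ∑ j : Fin n ⊕ Fin N,
      Sum.elim (fun _ => 2 * D₀) (fun i => -(c i * D' i 0)) j *
      r (Sum.elim (fun i => g i / κ / D₀ ^ 2) (fun i => b i / D' i 0 ^ 2) j * e) = 0 := by
    filter_upwards [h2, hs, eventually_all.2 e1, eventually_all.2 e2] with e k1 k2 k3 k4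
    rw [Fintype.sum_sum_type]
    simp only [Sum.elim_inl, Sum.elim_inr]
    have k5 : ∑ i, 2 * D₀ * r (g i / κ / D₀ ^ 2 * e) = ∑ i, 2 * D i e :=
      Finset.sum_congr rfl fun i _ => by rw [k3 i]; ring
    have k6 : ∑ i, -(c i * D' i 0) * r (b i / D' i 0 ^ 2 * e) = -∑ i, c i * D' i e := by
      rw [← Finset.sum_neg_distrib]
      refine Finset.sum_congr rfl fun i _ => ?_
      rw [k4 i]
      ring
    rw [k5, k6, ← k2, ← k1]
    ring
  have hb : Function.Injective fun i : Fin n => g i / κ / D₀ ^ 2 := by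
    intro i j hij
    apply hg
    simp only at hij
    have hD2' : D₀ ^ 2 ≠ 0 := pow_ne_zero 2 hD₀
    field_simp at hij
    exact hij
  have hex : ∀ j : Fin n, ∃ i : Fin N, b i / D' i 0 ^ 2 = g j / κ / D₀ ^ 2 := by
    intro j
    by_contra hne
    push Not at hne
    have k1 := sum_sqrt_germ Finset.univ _ _ hra hr2
      (key.filter_mono nhdsWithin_le_nhds).frequently (g j / κ / D₀ ^ 2)
    have k2 : (Finset.univ.filter fun k : Fin n ⊕ Fin N =>
        Sum.elim (fun i => g i / κ / D₀ ^ 2) (fun i => b i / D' i 0 ^ 2) k =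
          g j / κ / D₀ ^ 2) = {Sum.inl j} := by
      ext k
      simp only [Finset.mem_filter, Finset.mem_univ, true_and, Finset.mem_singleton]
      rcases k with k | k
      · simp only [Sum.elim_inl, Sum.inl.injEq]
        exact ⟨fun h => hb h, fun h => by rw [h]⟩
      · simp only [Sum.elim_inr, reduceCtorEq, iff_false]
        exact hne k
    rw [k2, Finset.sum_singleton, Sum.elim_inl] at k1
    exact hD₀ (by linear_combination k1 / 2)
  choose φ hφ using hex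
  have hφi : Function.Injective φ := by
    intro i j hij
    apply hb
    simp only
    rw [← hφ i, ← hφ j, hij]
  have := Fintype.card_le_of_injective φ hφi
  simp only [Fintype.card_fin] at this
  omega

lemma rho_congr {h h' : ℂ × ℂ → ℂ} {a : ℂ} (hh : ∀ᶠ y in 𝓝 a, h (y, 0) = h' (y, 0)) :
    rho h (a, 0) = rho h' (a, 0) := by
  have h1 : (fun y => h (y, 0)) =ᶠ[𝓝 a] fun y => h' (y, 0) := hh
  have h2 : (fun y => dpsi h (y, 0)) =ᶠ[𝓝 a] fun y => dpsi h' (y, 0) := h1.deriv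
  have h3 : dpsi (dpsi h) (a, 0) = dpsi (dpsi h') (a, 0) := h2.deriv_eq
  unfold rho
  rw [h3, hh.self_of_nhds]

/-- the first line in scaled form -/
lemma Word.init (W : Word t₀ Ω n H u fun _ => True) (hΩ : (0 : ℂ) ∈ Ω) (hn : 0 < n) :
    ∃ Un : ℂ → ℂ, AnalyticAt ℂ Un 0 ∧
      Un 0 = rho (H 0) ((u 0 (t₀, 0)).1, 0) / 2 *
        deriv (fun w => hta (u 0 (t₀, w)) (u 1 (t₀, w))) 0 ^ 2 ∧
      ∀ᶠ w in 𝓝 (0 : ℂ), u 0 (t₀, w) =
        ((u 0 (t₀, w)).1, H 0 ((u 0 (t₀, w)).1, 0) - w ^ 2 * Un w) := by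
  have g0' : (u 1 (t₀, 0)).1 = (u 0 (t₀, 0)).1 := (W.g0 0 hn trivial).self_of_nhds
  have hvtx : vtx (u 0 (t₀, 0)) (u 1 (t₀, 0)) = (u 0 (t₀, 0)).1 := by
    unfold vtx
    rw [g0']
    ring
  have hH := W.hH 0 hΩ 0 hn
  rw [zero_add, hvtx] at hH
  have an0 : AnalyticAt ℂ (fun w => u 0 (t₀, w)) 0 :=
    AnalyticAt.comp (g := u 0) (f := fun w : ℂ => (t₀, w)) (W.an 0 hΩ 0 hn.le) (by fun_prop)
  have an1 : AnalyticAt ℂ (fun w => u 1 (t₀, w)) 0 :=
    AnalyticAt.comp (g := u 1) (f := fun w : ℂ => (t₀, w)) (W.an 0 hΩ 1 hn) (by fun_prop)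
  have b0 : AnalyticAt ℂ (fun w => (u 0 (t₀, w)).1) 0 :=
    AnalyticAt.comp (g := fun z : ℂ × ℂ => z.1) analyticAt_fst an0
  have b1 : AnalyticAt ℂ (fun w => (u 1 (t₀, w)).1) 0 :=
    AnalyticAt.comp (g := fun z : ℂ × ℂ => z.1) analyticAt_fst an1
  have ha : AnalyticAt ℂ (fun w => hta (u 0 (t₀, w)) (u 1 (t₀, w))) 0 :=
    (b1.sub b0).div analyticAt_const two_ne_zero
  have ha0 : hta (u 0 (t₀, 0)) (u 1 (t₀, 0)) = 0 := by
    unfold hta
    rw [g0', sub_self, zero_div]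
  obtain ⟨Dn, hDn, hDn0, hDnw⟩ := exists_nat ha ha0
  obtain ⟨G, hG⟩ := exists_GQ hH
  obtain ⟨G1, G2, G3⟩ := hG (Dn 0) 0
  have hm : AnalyticAt ℂ (fun w : ℂ => (w, (u 0 (t₀, w)).1, Dn w, (0 : ℂ))) 0 :=
    analyticAt_id.prod (b0.prod (hDn.prod analyticAt_const))
  have hmt := hm.continuousAt.tendsto
  refine ⟨fun w => G (w, (u 0 (t₀, w)).1, Dn w, 0),
    AnalyticAt.comp (g := G) (f := fun w : ℂ => (w, (u 0 (t₀, w)).1, Dn w, (0 : ℂ))) G1 hm, ?_, ?_⟩
  · change G (0, (u 0 (t₀, 0)).1, Dn 0, 0) = _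
    rw [G3.self_of_nhds, hDn0]
    ring
  · filter_upwards [hmt.eventually G2, (tendsto_pair' t₀ 0).eventually (W.rl 0 hΩ 0 hn)]
      with w k1 k2
    refine Prod.ext rfl ?_
    have k3 := ((RL_iff _ _ _ _).1 k2).1
    have k4 := hDnw w
    unfold hta at k4
    rw [zero_add, k4] at k3
    simp only [zero_mul] at k1
    rw [← k3] at k1
    simp only
    linear_combination -k1

/-- the natural word at the glancing scale -/
theorem Word.natural (W : Word t₀ Ω n H u fun _ => True) (hΩ : (0 : ℂ) ∈ Ω) (hn : 0 < n)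
    (hh : ∀ j < n, ∀ᶠ a in 𝓝 (u 0 (t₀, 0)).1, H j (a, 0) = H 0 (a, 0)) {D₀ : ℂ}
    (hD : ∀ j < n, deriv (fun w => hta (u j (t₀, w)) (u (j + 1) (t₀, w))) 0 = D₀)
    (hev : deriv (fun w => (u 0 (t₀, w)).1) 0 = 0) :
    ∃ V, GC t₀ H u n 0 V ∧ ∃ D : Fin n → ℂ → ℂ, (∀ i, AnalyticAt ℂ (D i) 0) ∧
      (∀ i, D i 0 = D₀) ∧
      (∀ i : Fin n, ∀ᶠ e in 𝓝 (0 : ℂ), rho (H 0) ((u 0 (t₀, 0)).1, 0) / 2 * D i e ^ 2 =
        rho (H 0) ((u 0 (t₀, 0)).1, 0) / 2 * D₀ ^ 2 + e * deps (H i) (u 0 (t₀, 0)).1) ∧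
      ∀ᶠ e in 𝓝 (0 : ℂ), deriv (fun w => (V n (w, e)).1) 0 = ∑ i, 2 * D i e := by
  set a₀ : ℂ := (u 0 (t₀, 0)).1 with ha₀
  have hu0 : ∀ j ≤ n, (u j (t₀, 0)).1 = a₀ := by
    intro j
    induction j with
    | zero => intro _; rfl
    | succ j ih =>
      intro hj
      rw [(W.g0 j hj trivial).self_of_nhds]
      exact ih (by omega)
  have key : ∀ j ≤ n, ∃ V, GC t₀ H u j 0 V ∧ ∃ (X U : ℂ × ℂ → ℂ) (D : Fin j → ℂ → ℂ),
      AnalyticAt ℂ X (0, 0) ∧ AnalyticAt ℂ U (0, 0) ∧ (∀ᶠ e in 𝓝 (0 : ℂ), X (0, e) = a₀) ∧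
      (∀ᶠ e in 𝓝 (0 : ℂ), U (0, e) = rho (H 0) (a₀, 0) / 2 * D₀ ^ 2) ∧
      (∀ᶠ x : ℂ × ℂ in 𝓝 (0, 0), V j x = (X x, H 0 (X x, 0) - x.1 ^ 2 * U x)) ∧
      (∀ i, AnalyticAt ℂ (D i) 0) ∧ (∀ i, D i 0 = D₀) ∧
      (∀ i : Fin j, ∀ᶠ e in 𝓝 (0 : ℂ), rho (H 0) (a₀, 0) / 2 * D i e ^ 2 =
        rho (H 0) (a₀, 0) / 2 * D₀ ^ 2 + e * deps (H i) a₀) ∧
      ∀ᶠ e in 𝓝 (0 : ℂ), deriv (fun w => X (w, e)) 0 = ∑ i, 2 * D i e := by
    intro j
    induction j with
    | zero =>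
      intro _
      obtain ⟨Un, hUn, hUn0, hUnw⟩ := W.init hΩ hn
      have an0 : AnalyticAt ℂ (fun x : ℂ × ℂ => u 0 (t₀, x.1)) (0, 0) :=
        AnalyticAt.comp (g := u 0) (f := fun x : ℂ × ℂ => (t₀, x.1)) (W.an 0 hΩ 0 hn.le)
          (by fun_prop)
      have hfst : Tendsto (fun x : ℂ × ℂ => x.1) (𝓝 (0, 0)) (𝓝 0) := continuous_fst.tendsto _
      refine ⟨fun _ x => u 0 (t₀, x.1), ⟨fun j hj => an0, Eventually.of_forall fun _ => rfl,
        fun j hj => absurd hj (Nat.not_lt_zero _), fun j hj => ?_⟩,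
        fun x => (u 0 (t₀, x.1)).1, fun x => Un x.1, fun i => i.elim0,
        AnalyticAt.comp (g := fun z : ℂ × ℂ => z.1) analyticAt_fst an0,
        AnalyticAt.comp (g := Un) (f := fun x : ℂ × ℂ => x.1) hUn (by fun_prop),
        Eventually.of_forall fun _ => rfl, Eventually.of_forall fun _ => ?_, ?_,
        fun i => i.elim0, fun i => i.elim0, fun i => i.elim0, Eventually.of_forall fun _ => ?_⟩
      · obtain rfl : j = 0 := by omega
        exact Eventually.of_forall fun _ => rfl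
      · simp only
        rw [hUn0, hD 0 hn]
      · exact hfst.eventually hUnw
      · simp only [Finset.univ_eq_empty, Finset.sum_empty]
        exact hev
    | succ j ih =>
      intro hj
      obtain ⟨V, hV, X, U, D, hX, hU, hX0, hU0, hVj, hDa, hD0, hD2, hXd⟩ := ih (by omega)
      have hj' : j < n := hj
      have hX00 : X (0, 0) = a₀ := hX0.self_of_nhds
      have g0' : (u (j + 1) (t₀, 0)).1 = (u j (t₀, 0)).1 := (W.g0 j hj' trivial).self_of_nhds
      have hvtx : vtx (u j (t₀, 0)) (u (j + 1) (t₀, 0)) = a₀ := by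
        unfold vtx
        rw [g0', hu0 j hj'.le]
        ring
      have hH := W.hH 0 hΩ j hj'
      have hρ := W.hρ 0 hΩ j hj'
      rw [hvtx] at hH hρ
      have hρ0 : rho (H j) (a₀, 0) = rho (H 0) (a₀, 0) := rho_congr (hh j hj')
      have hVj' : ∀ᶠ x : ℂ × ℂ in 𝓝 (0, 0), V j x = (X x, H j (X x, 0) - x.1 ^ 2 * U x) := by
        have h1 : Tendsto X (𝓝 (0, 0)) (𝓝 a₀) := by
          have := hX.continuousAt.tendsto
          rwa [hX00] at this
        filter_upwards [hVj, h1.eventually (hh j hj')] with x k1 k2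
        rw [k1, k2]
      have hu : ∀ᶠ w in 𝓝 (0 : ℂ), u j (t₀, w) =
          (X (w, 0), H j (X (w, 0), 0) - w ^ 2 * U (w, 0)) := by
        filter_upwards [(tendsto_pair 0).eventually hVj', hV.nat j le_rfl] with w k1 k2
        rw [← k2, k1]
      have an0 : AnalyticAt ℂ (fun w => u j (t₀, w)) 0 :=
        AnalyticAt.comp (g := u j) (f := fun w : ℂ => (t₀, w)) (W.an 0 hΩ j hj'.le)
          (by fun_prop)
      have an1 : AnalyticAt ℂ (fun w => u (j + 1) (t₀, w)) 0 :=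
        AnalyticAt.comp (g := u (j + 1)) (f := fun w : ℂ => (t₀, w)) (W.an 0 hΩ (j + 1) hj)
          (by fun_prop)
      have ha : AnalyticAt ℂ (fun w => hta (u j (t₀, w)) (u (j + 1) (t₀, w))) 0 := by
        have b0 : AnalyticAt ℂ (fun w => (u j (t₀, w)).1) 0 :=
          AnalyticAt.comp (g := fun z : ℂ × ℂ => z.1) analyticAt_fst an0
        have b1 : AnalyticAt ℂ (fun w => (u (j + 1) (t₀, w)).1) 0 :=
          AnalyticAt.comp (g := fun z : ℂ × ℂ => z.1) analyticAt_fst an1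
        exact (b1.sub b0).div analyticAt_const two_ne_zero
      have hta0 : hta (u j (t₀, 0)) (u (j + 1) (t₀, 0)) = 0 := by
        unfold hta
        rw [g0', sub_self, zero_div]
      obtain ⟨D', U', hD', hU', hD'0, h1, h2, h3⟩ := glance_line (uj := fun w => u j (t₀, w))
        (uj' := fun w => u (j + 1) (t₀, w)) hH hρ hX hU hX0 ha hta0 (W.g1 j hj' trivial) hu
        ((tendsto_pair' t₀ 0).eventually (W.rl 0 hΩ j hj'))
      rw [hD j hj'] at hD'0
      have hXn : AnalyticAt ℂ (fun x : ℂ × ℂ => X x + 2 * (x.1 * D' x)) (0, 0) := by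
        have a1 : AnalyticAt ℂ (fun x : ℂ × ℂ => x.1) (0, 0) := by fun_prop
        exact hX.add (analyticAt_const.mul (a1.mul hD'))
      have hXn0 : Tendsto (fun x : ℂ × ℂ => X x + 2 * (x.1 * D' x)) (𝓝 (0, 0)) (𝓝 a₀) := by
        have := hXn.continuousAt.tendsto
        simp only [zero_mul, mul_zero, add_zero] at this
        rwa [hX00] at this
      have hk1 : AnalyticAt ℂ (fun a : ℂ => H j (a, 0)) a₀ :=
        AnalyticAt.comp (g := H j) (f := fun a : ℂ => (a, (0 : ℂ))) hH (by fun_prop)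
      refine ⟨_, hV.step (v := fun x => (X x + 2 * (x.1 * D' x),
        H j (X x + 2 * (x.1 * D' x), 0) - x.1 ^ 2 * U' x)) ?_ ?_ h3,
        fun x => X x + 2 * (x.1 * D' x), U', Fin.snoc D fun e => D' (0, e), hXn, hU', ?_, ?_, ?_,
        ?_, ?_, ?_, ?_⟩
      · have a2 : AnalyticAt ℂ (fun x : ℂ × ℂ => x.1 ^ 2) (0, 0) := by fun_prop
        refine hXn.prod (AnalyticAt.sub ?_ (a2.mul hU'))
        refine AnalyticAt.comp (g := fun a : ℂ => H j (a, 0))
          (f := fun x : ℂ × ℂ => X x + 2 * (x.1 * D' x)) ?_ hXn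
        simp only [zero_mul, mul_zero, add_zero]
        rw [hX00]
        exact hk1
      · filter_upwards [h1, hVj'] with x k1 k2
        rw [k2]
        exact k1
      · filter_upwards [hX0] with e he
        rw [zero_mul, mul_zero, add_zero, he]
      · filter_upwards [h2, hU0] with e k1 k2
        rw [k1.2, k2]
      · filter_upwards [hXn0.eventually (hh j hj')] with x k1
        rw [Function.update_self, k1]
      · intro i
        refine Fin.lastCases ?_ ?_ i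
        · simp only [Fin.snoc_last]
          exact AnalyticAt.comp (g := D') (f := fun e : ℂ => ((0 : ℂ), e)) hD' (by fun_prop)
        · intro i
          simp only [Fin.snoc_castSucc]
          exact hDa i
      · intro i
        refine Fin.lastCases ?_ ?_ i
        · simp only [Fin.snoc_last]
          exact hD'0
        · intro i
          simp only [Fin.snoc_castSucc]
          exact hD0 i
      · intro i
        refine Fin.lastCases ?_ ?_ i
        · simp only [Fin.snoc_last, Fin.val_last]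
          filter_upwards [h2, hU0] with e k1 k2
          rw [← hρ0, k1.1, k2, hρ0]
        · intro i
          simp only [Fin.snoc_castSucc, Fin.val_castSucc]
          exact hD2 i
      · filter_upwards [hXd, tendsto_e.eventually hX.eventually_analyticAt,
          tendsto_e.eventually hD'.eventually_analyticAt] with e k0 k1 k2
        have b1 := hasDerivAt_w k1
        have b2 := hasDerivAt_w k2
        have b3 := b1.add (((hasDerivAt_id (0 : ℂ)).mul b2).const_mul 2)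
        have b4 : deriv (fun w => X (w, e) + 2 * (w * D' (w, e))) 0 =
            deriv (fun w => X (w, e)) 0 + 2 * D' (0, e) := by
          refine HasDerivAt.deriv (b3.congr_deriv ?_)
          simp
        rw [b4, k0, Fin.sum_univ_castSucc]
        simp only [Fin.snoc_last, Fin.snoc_castSucc]
  obtain ⟨V, hV, X, U, D, hX, hU, hX0, hU0, hVj, hDa, hD0, hD2, hXd⟩ := key n le_rfl
  refine ⟨V, hV, D, hDa, hD0, hD2, ?_⟩
  filter_upwards [hXd, tendsto_e.eventually hVj.eventually_nhds] with e k1 k2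
  have hw : Tendsto (fun w : ℂ => (w, e)) (𝓝 0) (𝓝 (0, e)) := by
    have : Continuous fun w : ℂ => (w, e) := by fun_prop
    exact this.tendsto _
  have a8 : (fun w => (V n (w, e)).1) =ᶠ[𝓝 0] fun w => X (w, e) := by
    filter_upwards [hw.eventually k2] with w hw'
    rw [hw']
  rw [a8.deriv_eq, k1]

end

end Vale.Agent.P097.H845
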