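import Vale.Agent.P097.H845.Gl6

/-!
# P097, row F5b: a deformed natural word is not a word with fewer glancing letters
-/

open Set Filter Topology

namespace Vale.Agent.P097.H845

noncomputable section

attribute [local fun_prop] analyticAt_fst analyticAt_snd

variable {t₀ : ℂ} {Ω : Set ℂ} {n m : ℕ} {H H' : ℕ → ℂ × ℂ → ℂ} {u u' : ℕ → ℂ × ℂ → ℂ × ℂ}
  {gl gl' : ℕ → Prop} {w₀ w₁ : ℂ} {V V' : ℕ → ℂ × ℂ → ℂ × ℂ}

/-- the second word at the glancing scale -/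
theorem Word.star [DecidablePred gl'] (W : Word t₀ Ω n H u fun _ => True)
    (W' : Word t₀ Ω m H' u' gl') (hΩ : (0 : ℂ) ∈ Ω) (hn : 0 < n)
    (h00 : ∀ᶠ w in 𝓝 (0 : ℂ), u' 0 (t₀, w) = u 0 (t₀, w))
    (h0t : ∀ᶠ t in 𝓝 t₀, u' 0 (t, 0) = u 0 (t, 0))
    (hev : deriv (fun w => (u 0 (t₀, w)).1) 0 = 0) :
    ∃ V', GC t₀ H' u' m 0 V' ∧
      SqS (Nat.count gl' m) fun e => deriv (fun w => (V' m (w, e)).1) 0 := by
  have key : ∀ j ≤ m, ∃ V', GC t₀ H' u' j 0 V' ∧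
      ∃ a₀ μ ν k Ψ X U c, St t₀ a₀ μ ν (u' j) (V' j) (Nat.count gl' j) k Ψ X U c := by
    intro j
    induction j with
    | zero =>
      intro _
      obtain ⟨Un, hUn, hUn0, hUnw⟩ := W.init hΩ hn
      have g0 := W.g0 0 hn trivial
      have g0' : (u 1 (t₀, 0)).1 = (u 0 (t₀, 0)).1 := g0.self_of_nhds
      have hvtx : vtx (u 0 (t₀, 0)) (u 1 (t₀, 0)) = (u 0 (t₀, 0)).1 := by
        unfold vtx
        rw [g0']
        ring
      have hH := W.hH 0 hΩ 0 hn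
      rw [zero_add, hvtx] at hH
      have an0 : AnalyticAt ℂ (fun x : ℂ × ℂ => u 0 (t₀, x.1)) (0, 0) :=
        AnalyticAt.comp (g := u 0) (f := fun x : ℂ × ℂ => (t₀, x.1)) (W.an 0 hΩ 0 hn.le)
          (by fun_prop)
      have an0' : AnalyticAt ℂ (fun x : ℂ × ℂ => u' 0 (t₀, x.1)) (0, 0) :=
        AnalyticAt.comp (g := u' 0) (f := fun x : ℂ × ℂ => (t₀, x.1))
          (W'.an 0 hΩ 0 (Nat.zero_le _)) (by fun_prop)
      have ant : AnalyticAt ℂ (fun t : ℂ => u 0 (t, 0)) t₀ :=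
        AnalyticAt.comp (g := u 0) (f := fun t : ℂ => (t, (0 : ℂ))) (W.an 0 hΩ 0 hn.le)
          (by fun_prop)
      have hfst : Tendsto (fun x : ℂ × ℂ => x.1) (𝓝 (0, 0)) (𝓝 0) := continuous_fst.tendsto _
      refine ⟨fun _ x => u' 0 (t₀, x.1), ⟨fun j hj => an0', Eventually.of_forall fun _ => rfl,
        fun j hj => absurd hj (Nat.not_lt_zero _), fun j hj => ?_⟩,
        (u 0 (t₀, 0)).1, Un 0, 0, fun a => H 0 (a, 0), fun y => y.1,
        fun x => (u 0 (t₀, x.1)).1, fun x => Un x.1, fun t => (u 0 (t, 0)).1, ?_⟩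
      · obtain rfl : j = 0 := by omega
        exact Eventually.of_forall fun _ => rfl
      · refine ⟨AnalyticAt.comp (g := H 0) (f := fun a : ℂ => (a, (0 : ℂ))) hH (by fun_prop),
          by fun_prop, AnalyticAt.comp (g := fun z : ℂ × ℂ => z.1) analyticAt_fst an0,
          AnalyticAt.comp (g := Un) (f := fun x : ℂ × ℂ => x.1) hUn (by fun_prop),
          Eventually.of_forall fun _ => rfl, Eventually.of_forall fun _ => ?_, ?_,
          AnalyticAt.comp (g := fun z : ℂ × ℂ => z.1) analyticAt_fst ant, rfl,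
          W.g2 0 hn trivial, ?_, ?_⟩
        · simp
        · filter_upwards [hfst.eventually hUnw, hfst.eventually h00] with x k1 k2
          rw [k2]
          exact k1
        · filter_upwards [h0t, (tendsto_pair t₀).eventually (W.rl 0 hΩ 0 hn), g0] with t k1 k2 k3
          rw [zero_add] at k2 k3
          have h1 : ((u 0 (t, 0)).1 + (u 1 (t, 0)).1) / 2 = (u 0 (t, 0)).1 := by
            rw [k3]
            ring
          have h2 : ((u 1 (t, 0)).1 - (u 0 (t, 0)).1) / 2 = 0 := by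
            rw [k3]
            ring
          have k4 := k2.1
          rw [h1, h2] at k4
          simp only [Complex.cos_zero, mul_one, Complex.sin_zero, mul_zero, sub_zero] at k4
          rw [k1]
          exact Prod.ext rfl k4.symm
        · refine ⟨fun i => i.elim0, fun i => i.elim0, fun i => i.elim0, fun i => i.elim0,
            fun i => i.elim0, Eventually.of_forall fun _ => ?_⟩
          exact hev
    | succ j ih =>
      intro hj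
      obtain ⟨V', hV', a₀, μ, ν, k, Ψ, X, U, c, hS⟩ := ih (by omega)
      by_cases hg : gl' j
      · obtain ⟨v, hv, a₁, μ₁, ν₁, k₁, Ψ₁, X₁, U₁, c₁, hS₁⟩ := hS.glan W' hΩ hj hg hV'
        refine ⟨_, hv, a₁, μ₁, ν₁, k₁, Ψ₁, X₁, U₁, c₁, ?_⟩
        rw [Function.update_self, Nat.count_succ, if_pos hg]
        exact hS₁
      · obtain ⟨v, hv, Ψ₁, hS₁⟩ := hS.trans W' hΩ hj hg hV'
        refine ⟨_, hv, a₀, μ, ν, k, Ψ₁, X, U, c, ?_⟩
        rw [Function.update_self, Nat.count_succ, if_neg hg, add_zero]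
        exact hS₁
  obtain ⟨V', hV', a₀, μ, ν, k, Ψ, X, U, c, hS⟩ := key m le_rfl
  exact ⟨V', hV', hS.deriv_fst⟩

/-- **Continuation of the coincidence of two words** from `w₂` to `0`. -/
theorem cont_words {f : (ℕ → ℂ × ℂ → ℂ × ℂ) → (ℕ → ℂ × ℂ → ℂ × ℂ) → ℂ × ℂ → ℂ × ℂ} {m₀ : ℂ}
    (hΩo : IsOpen Ω) (hΩc : IsPreconnected Ω) (h0 : (0 : ℂ) ∈ Ω) {w₂ : ℂ} (h2 : w₂ ∈ Ω)
    (W : Word t₀ Ω n H u gl) (W' : Word t₀ Ω m H' u' gl')
    (hf : f = fun V V' x => V' m x - (V n x + (m₀, 0)))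
    (hV : GC t₀ H u n 0 V) (hV' : GC t₀ H' u' m 0 V')
    (hw : ∃ V V', GC t₀ H u n w₂ V ∧ GC t₀ H' u' m w₂ V' ∧ ∀ᶠ x in 𝓝 (w₂, 0), f V V' x = 0) :
    ∀ᶠ x in 𝓝 ((0 : ℂ), (0 : ℂ)), f V V' x = 0 := by
  have han : ∀ (w : ℂ) V V', GC t₀ H u n w V → GC t₀ H' u' m w V' →
      AnalyticAt ℂ (f V V') (w, 0) := by
    intro w V V' h h'
    rw [hf]
    exact (h'.an m le_rfl).sub ((h.an n le_rfl).add analyticAt_const)
  let T : Set ℂ := {w | w ∈ Ω ∧ ∃ V V', GC t₀ H u n w V ∧ GC t₀ H' u' m w V' ∧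
    ∀ᶠ x in 𝓝 (w, (0 : ℂ)), f V V' x = 0}
  let F : Set ℂ := {w | w ∈ Ω ∧ ∃ V V', GC t₀ H u n w V ∧ GC t₀ H' u' m w V' ∧
    ¬ ∀ᶠ x in 𝓝 (w, (0 : ℂ)), f V V' x = 0}
  have hT : IsOpen T := by
    rw [isOpen_iff_mem_nhds]
    rintro w ⟨hwΩ, V, V', h, h', hx⟩
    filter_upwards [hΩo.mem_nhds hwΩ, h.near, h'.near,
      (tendsto_pair w).eventually hx.eventually_nhds] with w₁ k1 k2 k3 k4
    exact ⟨k1, V, V', k2, k3, k4⟩
  have hF : IsOpen F := by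
    rw [isOpen_iff_mem_nhds]
    rintro w ⟨hwΩ, V, V', h, h', hx⟩
    obtain ⟨ε, hε, hb⟩ := Metric.eventually_nhds_iff_ball.1 (han w V V' h h').eventually_analyticAt
    filter_upwards [hΩo.mem_nhds hwΩ, h.near, h'.near,
      (tendsto_pair w).eventually (Metric.ball_mem_nhds (w, (0 : ℂ)) hε)] with w₁ k1 k2 k3 k4
    refine ⟨k1, V, V', k2, k3, fun k5 => hx ?_⟩
    have h3 : AnalyticOnNhd ℂ (f V V') (Metric.ball (w, (0 : ℂ)) ε) := fun y hy => hb y hy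
    have h4 := h3.eqOn_zero_of_preconnected_of_eventuallyEq_zero
      (convex_ball _ _).isPreconnected k4 k5
    filter_upwards [Metric.ball_mem_nhds (w, (0 : ℂ)) hε] with y hy
    exact h4 hy
  have hne : ∀ w ∈ T ∩ F, w = 0 := by
    rintro w ⟨⟨hwΩ, V, V', h, h', hx⟩, _, V₁, V₁', h₁, h₁', hx₁⟩
    by_contra hw0
    apply hx₁
    filter_upwards [hx, (h.unique W hwΩ hw0 h₁) n le_rfl, (h'.unique W' hwΩ hw0 h₁') m le_rfl]
      with x k1 k2 k3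
    rw [hf] at k1 ⊢
    simp only at k1 ⊢
    rw [← k2, ← k3]
    exact k1
  have hdis : T ∩ F = ∅ := by
    rw [Set.eq_empty_iff_forall_notMem]
    intro w hw
    have h1 := hne w hw
    subst h1
    have h3 : T ∩ F ∈ 𝓝 (0 : ℂ) := (hT.inter hF).mem_nhds hw
    obtain ⟨ε, hε, hb⟩ := Metric.mem_nhds_iff.1 h3
    have h4 : ((ε / 2 : ℝ) : ℂ) ∈ Metric.ball (0 : ℂ) ε := by
      rw [mem_ball_zero_iff, Complex.norm_real, Real.norm_of_nonneg (by positivity)]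
      linarith
    have h5 := hne _ (hb h4)
    have h6 : (ε / 2 : ℝ) ≠ 0 := by positivity
    exact h6 (by exact_mod_cast h5)
  have hcov : Ω ⊆ T ∪ F := by
    intro w hwΩ
    have hex : ∃ V V', GC t₀ H u n w V ∧ GC t₀ H' u' m w V' := by
      by_cases hw0 : w = 0
      · subst hw0
        exact ⟨V, V', hV, hV'⟩
      · obtain ⟨V₁, h1⟩ := GC.exists_reg W hwΩ hw0
        obtain ⟨V₁', h1'⟩ := GC.exists_reg W' hwΩ hw0
        exact ⟨V₁, V₁', h1, h1'⟩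
    obtain ⟨V₁, V₁', h1, h1'⟩ := hex
    by_cases hx : ∀ᶠ x in 𝓝 (w, (0 : ℂ)), f V₁ V₁' x = 0
    · exact Or.inl ⟨hwΩ, V₁, V₁', h1, h1', hx⟩
    · exact Or.inr ⟨hwΩ, V₁, V₁', h1, h1', hx⟩
  have hsub : Ω ⊆ T := by
    refine hΩc.subset_left_of_subset_union hT hF ?_ hcov ⟨w₂, h2, h2, ?_⟩
    · exact Set.disjoint_iff_inter_eq_empty.2 hdis
    · exact hw
  by_contra hcon
  have : (0 : ℂ) ∈ T ∩ F := ⟨hsub h0, h0, V, V', hV, hV', hcon⟩
  rw [hdis] at this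
  exact this

/-- **Row F5b.** -/
theorem scale_word [DecidablePred gl'] {m₀ w₂ D₀ : ℂ} (hΩo : IsOpen Ω) (hΩc : IsPreconnected Ω)
    (h0 : (0 : ℂ) ∈ Ω) (h2 : w₂ ∈ Ω) (h2' : w₂ ≠ 0)
    (W : Word t₀ Ω n H u fun _ => True) (W' : Word t₀ Ω m H' u' gl')
    (hh : ∀ j < n, ∀ᶠ a in 𝓝 (u 0 (t₀, 0)).1, H j (a, 0) = H 0 (a, 0))
    (hD : ∀ j < n, deriv (fun w => hta (u j (t₀, w)) (u (j + 1) (t₀, w))) 0 = D₀)
    (h00 : ∀ w ∈ Ω, u' 0 (t₀, w) = u 0 (t₀, w))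
    (h0t : ∀ᶠ t in 𝓝 t₀, u' 0 (t, 0) = u 0 (t, 0))
    (hev : deriv (fun w => (u 0 (t₀, w)).1) 0 = 0)
    (hg : ∀ i < n, ∀ j < n, i ≠ j → deps (H i) (u 0 (t₀, 0)).1 ≠ deps (H j) (u 0 (t₀, 0)).1)
    (hN : Nat.count gl' m < n)
    (hcl : ∀ᶠ v : ℂ × (Fin (n + 1) → ℂ × ℂ) × (Fin (m + 1) → ℂ × ℂ) in
      𝓝 ((0 : ℂ), (fun k : Fin (n + 1) => u k (t₀, w₂)), (fun k : Fin (m + 1) => u' k (t₀, w₂))),
      (∀ j : Fin n, RL (H j) v.1 (v.2.1 j.castSucc) (v.2.1 j.succ)) →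
      (∀ j : Fin m, RL (H' j) v.1 (v.2.2 j.castSucc) (v.2.2 j.succ)) →
      v.2.1 0 = v.2.2 0 → v.2.2 (Fin.last m) = v.2.1 (Fin.last n) + (m₀, 0)) : False := by
  have hn : 0 < n := by omega
  obtain ⟨V, hV, D, hDa, hD0, hD2, hVd⟩ := W.natural h0 hn hh hD hev
  obtain ⟨V', hV', hVd'⟩ := W.star W' h0 hn
    (eventually_of_mem (hΩo.mem_nhds h0) h00) h0t hev
  have hw : ∃ V V', GC t₀ H u n w₂ V ∧ GC t₀ H' u' m w₂ V' ∧
      ∀ᶠ x in 𝓝 (w₂, (0 : ℂ)), V' m x - (V n x + (m₀, 0)) = 0 := by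
    obtain ⟨V₁, h1⟩ := GC.exists_reg W h2 h2'
    obtain ⟨V₁', h1'⟩ := GC.exists_reg W' h2 h2'
    refine ⟨V₁, V₁', h1, h1', ?_⟩
    have ht : Tendsto (fun x : ℂ × ℂ => (x.2 * x.1 ^ 2, (fun k : Fin (n + 1) => V₁ k x),
        (fun k : Fin (m + 1) => V₁' k x))) (𝓝 (w₂, 0))
        (𝓝 ((0 : ℂ), (fun k : Fin (n + 1) => u k (t₀, w₂)),
          (fun k : Fin (m + 1) => u' k (t₀, w₂)))) := by
      refine Tendsto.prodMk_nhds ?_ (Tendsto.prodMk_nhds ?_ ?_)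
      · have : Continuous fun x : ℂ × ℂ => x.2 * x.1 ^ 2 := by fun_prop
        have := this.tendsto (w₂, 0)
        simpa using this
      · rw [tendsto_pi_nhds]
        intro k
        have k1 := (h1.an k (Nat.lt_succ_iff.1 k.2)).continuousAt.tendsto
        rwa [(h1.nat k (Nat.lt_succ_iff.1 k.2)).self_of_nhds] at k1
      · rw [tendsto_pi_nhds]
        intro k
        have k1 := (h1'.an k (Nat.lt_succ_iff.1 k.2)).continuousAt.tendsto
        rwa [(h1'.nat k (Nat.lt_succ_iff.1 k.2)).self_of_nhds] at k1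
    have hr1 : ∀ᶠ x : ℂ × ℂ in 𝓝 (w₂, 0), ∀ j : Fin n,
        RL (H j) (x.2 * x.1 ^ 2) (V₁ j x) (V₁ (j + 1) x) :=
      eventually_all.2 fun j => h1.rl j j.2
    have hr2 : ∀ᶠ x : ℂ × ℂ in 𝓝 (w₂, 0), ∀ j : Fin m,
        RL (H' j) (x.2 * x.1 ^ 2) (V₁' j x) (V₁' (j + 1) x) :=
      eventually_all.2 fun j => h1'.rl j j.2
    have hfst : Tendsto (fun x : ℂ × ℂ => x.1) (𝓝 (w₂, 0)) (𝓝 w₂) := continuous_fst.tendsto _
    filter_upwards [ht.eventually hcl, hr1, hr2, h1.v0, h1'.v0,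
      hfst.eventually (hΩo.mem_nhds h2)] with x k1 k2 k3 k4 k5 k6
    have k7 := k1 (fun j => by simpa using k2 j) (fun j => by simpa using k3 j) (by
      simp only [Fin.val_zero]
      rw [k4, k5, h00 _ k6])
    simp only [Fin.val_last] at k7
    rw [k7, sub_self]
  have hcont := cont_words (m₀ := m₀) hΩo hΩc h0 h2 W W' rfl hV hV' hw
  refine sqs_contra hN hVd' (κ := rho (H 0) ((u 0 (t₀, 0)).1, 0) / 2) (D₀ := D₀) ?_ ?_ hDa hD0 hD2
    ?_ ?_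
  · have h3 := W.hρ 0 h0 0 hn
    have g0' : (u 1 (t₀, 0)).1 = (u 0 (t₀, 0)).1 := (W.g0 0 hn trivial).self_of_nhds
    have hvtx : vtx (u 0 (t₀, 0)) (u 1 (t₀, 0)) = (u 0 (t₀, 0)).1 := by
      unfold vtx
      rw [g0']
      ring
    rw [zero_add, hvtx] at h3
    exact div_ne_zero h3 two_ne_zero
  · rw [← hD 0 hn]
    exact W.g1 0 hn trivial
  · intro i j hij
    by_contra hne
    exact hg i i.2 j j.2 (fun h => hne (Fin.ext h)) hij
  · filter_upwards [hVd, tendsto_e.eventually hcont.eventually_nhds] with e k1 k2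
    rw [← k1]
    have hw' : Tendsto (fun w : ℂ => (w, e)) (𝓝 0) (𝓝 (0, e)) := by
      have : Continuous fun w : ℂ => (w, e) := by fun_prop
      exact this.tendsto _
    have h3 : (fun w => (V' m (w, e)).1) =ᶠ[𝓝 0] fun w => (V n (w, e)).1 + m₀ := by
      filter_upwards [hw'.eventually k2] with w k3
      rw [sub_eq_zero.1 k3]
      rfl
    rw [h3.deriv_eq, deriv_add_const]

end

end Vale.Agent.P097.H845
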