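import Vale.Agent.P097.H845.Sqrt

/-!
# P097 (helper845): the glancing scale, mirrors `Y = κ X² / 2 + h`

A line `Y = m X + c` reflected in the parabola `Y = κ X²/2 + h` at the scale `X ~ √ε`, `Y ~ ε`:
the new slope is `m' = 2 κ X - m` where `X` is the second intersection (`forward` branch).  In the
coordinates `(m, U)`, `U = m² + 2 κ c`, the reflection is `(m, U) ↦ (m + 2 √(U - 2 κ h), U)`.
-/

namespace Vale.Agent.P097.H845

open Filter Topology Finset

/-- **The reflection in the parabola model.** Let the line `Y = m X + c` meet the mirror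
`Y = κ X² / 2 + h` at `X`, and let `m' = 2 κ X - m` be the slope of the reflected line through the
same point, `Y = m' X + c'`.  Then `U = m² + 2 κ c` is preserved and
`(m' - m)² = 4 (U - 2 κ h)`. -/
theorem refl_parab {κ h m c X m' c' : ℂ} (h1 : m * X + c = κ * X ^ 2 / 2 + h)
    (h2 : m' = 2 * κ * X - m) (h3 : m' * X + c' = m * X + c) :
    m' ^ 2 + 2 * κ * c' = m ^ 2 + 2 * κ * c ∧ (m' - m) ^ 2 = 4 * (m ^ 2 + 2 * κ * c - 2 * κ * h) := by
  subst h2
  have hc : c' = m * X + c - (2 * κ * X - m) * X := by linear_combination h3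
  subst hc
  constructor
  · ring
  · linear_combination (-8 * κ) * h1

/-- the reflection in the parabola with parameter `h`, forward branch -/
noncomputable def refl (κ h : ℂ) (p : ℂ × ℂ) : ℂ × ℂ :=
  (p.1 + 2 * (p.2 - 2 * κ * h) ^ (1 / 2 : ℂ), p.2)

/-- composition of reflections in the parabolas `h₀, …, h_{K-1}` -/
noncomputable def reflL (κ : ℂ) : List ℂ → ℂ × ℂ → ℂ × ℂ
  | [], p => p
  | h :: l, p => reflL κ l (refl κ h p)

theorem reflL_eq (κ : ℂ) (l : List ℂ) (p : ℂ × ℂ) :
    reflL κ l p = (p.1 + 2 * (l.map fun h => (p.2 - 2 * κ * h) ^ (1 / 2 : ℂ)).sum, p.2) := by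
  induction l generalizing p with
  | nil => simp [reflL]
  | cons h l ih =>
    rw [reflL, ih]
    simp only [refl, List.map_cons, List.sum_cons]
    refine Prod.ext ?_ rfl
    simp only
    ring

/-- Natural word against star word at the glancing scale: with `K` different `hⱼ` the composition
of the `K` reflections is not given by fewer than `K` square roots. -/
theorem glancing {κ : ℂ} (hκ : κ ≠ 0) {K I : ℕ} (hIK : I < K) (h : Fin K → ℂ)
    (hh : Function.Injective h) (c β : Fin I → ℂ) :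
    ¬ ∃ᶠ U : ℝ in atTop, (reflL κ (List.ofFn h) (0, (U : ℂ))).1 =
      ∑ i, c i * ((U : ℂ) - β i) ^ (1 / 2 : ℂ) := by
  have h1 : ∀ U : ℝ, (reflL κ (List.ofFn h) (0, (U : ℂ))).1 =
      ∑ j, 2 * ((U : ℂ) - 2 * κ * h j) ^ (1 / 2 : ℂ) := by
    intro U
    rw [reflL_eq, List.map_ofFn, List.sum_ofFn, Finset.mul_sum]
    simp
  simp only [h1]
  refine few_sqrt hIK two_ne_zero (fun j => 2 * κ * h j) (fun i j hij => hh ?_) c β
  exact mul_left_cancel₀ (mul_ne_zero two_ne_zero hκ) hij

/-- All deformations vanish: if the composition of the `n` deformed reflections is the undeformed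
one, then all `hⱼ` are zero. -/
theorem glancing_zero {κ : ℂ} (hκ : κ ≠ 0) {n : ℕ} (h : Fin n → ℂ)
    (heq : ∃ᶠ U : ℝ in atTop, (reflL κ (List.ofFn h) (0, (U : ℂ))).1 =
      (reflL κ (List.replicate n 0) (0, (U : ℂ))).1) (j : Fin n) : h j = 0 := by
  have h1 : ∃ᶠ U : ℝ in atTop, ∑ j, ((U : ℂ) - 2 * κ * h j) ^ (1 / 2 : ℂ) =
      n * (U : ℂ) ^ (1 / 2 : ℂ) := by
    refine heq.mono fun U hU => ?_
    rw [reflL_eq, reflL_eq, List.map_ofFn, List.sum_ofFn, List.map_replicate,
      List.sum_replicate] at hU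
    simp only [zero_add, mul_zero, sub_zero, Function.comp_apply, nsmul_eq_mul] at hU
    exact mul_left_cancel₀ two_ne_zero hU
  have h2 := all_zero _ h1 j
  exact (mul_eq_zero.1 h2).resolve_left (mul_ne_zero two_ne_zero hκ)

end Vale.Agent.P097.H845
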