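import Vale.Agent.P097.H845.Gl4
import Vale.Agent.P097.H128.Sector.Defs
import Vale.Agent.P097.H128.NZ.Chord

/-!
# P097, row RegD: label, phase and lines near a real point, local form
-/

open Set Filter Topology

namespace Vale.Agent.P097.H845.RD

noncomputable section

attribute [local fun_prop] analyticAt_fst analyticAt_snd

/-- normal angle of the vertex -/
def ps (α : ℂ × ℂ → ℂ) (u : ℂ × ℂ) : ℂ := (α (u.1 + u.2 / 2, u.2) + α (u.1 - u.2 / 2, u.2)) / 2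

/-- half turning angle -/
def dl (α : ℂ × ℂ → ℂ) (u : ℂ × ℂ) : ℂ := (α (u.1 + u.2 / 2, u.2) - α (u.1 - u.2 / 2, u.2)) / 2

/-- local data -/
structure Loc (Φ H : ℂ → ℂ) (c : ℂ) (J : ℂ → ℂ) (α p : ℂ × ℂ → ℂ) (s : ℂ) : Prop where
  c0 : c ≠ 0
  aΦ : AnalyticAt ℂ Φ s
  Φ0 : deriv Φ s ≠ 0
  aH : AnalyticAt ℂ H (Φ s)
  rho : ∀ᶠ z in 𝓝 s, (H (Φ z) + deriv (deriv H) (Φ z)) * deriv Φ z ^ 3 = c
  aα : AnalyticAt ℂ α (s, 0)
  ap : AnalyticAt ℂ p (s, 0)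
  α0 : ∀ᶠ t in 𝓝 s, α (t, 0) = Φ t
  αev : ∀ᶠ u in 𝓝 ((s, 0) : ℂ × ℂ), α (u.1, -u.2) = α u
  sum : ∀ᶠ u in 𝓝 ((s, 0) : ℂ × ℂ), p (u.1 + u.2 / 2, u.2) + p (u.1 - u.2 / 2, u.2) =
    2 * H (ps α u) * Complex.cos (dl α u)
  dif : ∀ᶠ u in 𝓝 ((s, 0) : ℂ × ℂ), p (u.1 + u.2 / 2, u.2) - p (u.1 - u.2 / 2, u.2) =
    2 * deriv H (ps α u) * Complex.sin (dl α u)
  brk : ∀ᶠ u in 𝓝 ((s, 0) : ℂ × ℂ), fderiv ℂ α u (1, 0) * fderiv ℂ p u (0, 1) -
    fderiv ℂ α u (0, 1) * fderiv ℂ p u (1, 0) = J u.2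

variable {Φ H : ℂ → ℂ} {c : ℂ} {J : ℂ → ℂ} {α p : ℂ × ℂ → ℂ} {s : ℂ}

lemma an_plus {f : ℂ × ℂ → ℂ} {t w : ℂ} (h : AnalyticAt ℂ f (t + w / 2, w)) :
    AnalyticAt ℂ (fun u : ℂ × ℂ => f (u.1 + u.2 / 2, u.2)) (t, w) := by
  refine AnalyticAt.comp (g := f) (f := fun u : ℂ × ℂ => (u.1 + u.2 / 2, u.2)) h ?_
  have a1 : AnalyticAt ℂ (fun u : ℂ × ℂ => u.1) (t, w) := analyticAt_fst
  have a2 : AnalyticAt ℂ (fun u : ℂ × ℂ => u.2) (t, w) := analyticAt_snd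
  exact (a1.add (a2.div analyticAt_const two_ne_zero)).prod a2

lemma an_minus {f : ℂ × ℂ → ℂ} {t w : ℂ} (h : AnalyticAt ℂ f (t - w / 2, w)) :
    AnalyticAt ℂ (fun u : ℂ × ℂ => f (u.1 - u.2 / 2, u.2)) (t, w) := by
  refine AnalyticAt.comp (g := f) (f := fun u : ℂ × ℂ => (u.1 - u.2 / 2, u.2)) h ?_
  have a1 : AnalyticAt ℂ (fun u : ℂ × ℂ => u.1) (t, w) := analyticAt_fst
  have a2 : AnalyticAt ℂ (fun u : ℂ × ℂ => u.2) (t, w) := analyticAt_snd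
  exact (a1.sub (a2.div analyticAt_const two_ne_zero)).prod a2

lemma ps_an (h : AnalyticAt ℂ α (s, 0)) : AnalyticAt ℂ (ps α) (s, 0) := by
  have h1 : AnalyticAt ℂ α (s + 0 / 2, 0) := by simpa using h
  have h2 : AnalyticAt ℂ α (s - 0 / 2, 0) := by simpa using h
  exact ((an_plus h1).add (an_minus h2)).div analyticAt_const two_ne_zero

lemma dl_an (h : AnalyticAt ℂ α (s, 0)) : AnalyticAt ℂ (dl α) (s, 0) := by
  have h1 : AnalyticAt ℂ α (s + 0 / 2, 0) := by simpa using h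
  have h2 : AnalyticAt ℂ α (s - 0 / 2, 0) := by simpa using h
  exact ((an_plus h1).sub (an_minus h2)).div analyticAt_const two_ne_zero

lemma ps_zero (t : ℂ) : ps α (t, 0) = α (t, 0) := by
  simp [ps]

lemma dl_zero (t : ℂ) : dl α (t, 0) = 0 := by
  simp [dl]

/-- derivative in the last variable -/
lemma fderiv_last {E : Type*} [NormedAddCommGroup E] [NormedSpace ℂ E] {f : E × ℂ → ℂ} {e₀ : E}
    {d₀ : ℂ} (hf : AnalyticAt ℂ f (e₀, d₀)) :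
    HasDerivAt (fun t => f (e₀, t)) (fderiv ℂ f (e₀, d₀) (0, 1)) d₀ := by
  have h1 : HasDerivAt (fun t : ℂ => (e₀, t)) ((0 : E), (1 : ℂ)) d₀ :=
    (hasDerivAt_const _ _).prodMk (hasDerivAt_id _)
  exact HasFDerivAt.comp_hasDerivAt (f := fun t : ℂ => (e₀, t)) d₀
    hf.differentiableAt.hasFDerivAt h1

lemma fderiv_fst {f : ℂ × ℂ → ℂ} {u : ℂ × ℂ} (hf : AnalyticAt ℂ f u) :
    HasDerivAt (fun t => f (t, u.2)) (fderiv ℂ f u (1, 0)) u.1 := by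
  have h1 : HasDerivAt (fun t : ℂ => (t, u.2)) ((1 : ℂ), (0 : ℂ)) u.1 :=
    (hasDerivAt_id _).prodMk (hasDerivAt_const _ _)
  exact HasFDerivAt.comp_hasDerivAt (f := fun t : ℂ => (t, u.2)) u.1
    hf.differentiableAt.hasFDerivAt h1

lemma fderiv_snd {f : ℂ × ℂ → ℂ} {u : ℂ × ℂ} (hf : AnalyticAt ℂ f u) :
    HasDerivAt (fun t => f (u.1, t)) (fderiv ℂ f u (0, 1)) u.2 := fderiv_last hf

/-- the phase -/
theorem Loc.exists_T (h : Loc Φ H c J α p s) : ∃ T : ℂ × ℂ → ℂ, AnalyticAt ℂ T (s, 0) ∧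
    T (s, 0) = s ∧ (∀ᶠ z in 𝓝 s, T (z, 0) = z) ∧
    (∀ᶠ v in 𝓝 ((s, 0) : ℂ × ℂ), ps α (T v, v.2) = Φ v.1) ∧
    ∀ᶠ z in 𝓝 (((s, 0), s) : (ℂ × ℂ) × ℂ), ps α (z.2, z.1.2) = Φ z.1.1 → z.2 = T z.1 := by
  have h0 := h.α0.self_of_nhds
  let f : (ℂ × ℂ) × ℂ → ℂ := fun z => ps α (z.2, z.1.2) - Φ z.1.1
  have hf : AnalyticAt ℂ f ((s, 0), s) := by
    have h1 : AnalyticAt ℂ (fun z : (ℂ × ℂ) × ℂ => (z.2, z.1.2)) ((s, 0), s) :=
      analyticAt_snd.prod (AnalyticAt.comp (g := fun u : ℂ × ℂ => u.2)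
        (f := fun z : (ℂ × ℂ) × ℂ => z.1) analyticAt_snd analyticAt_fst)
    have h2 : AnalyticAt ℂ (fun z : (ℂ × ℂ) × ℂ => z.1.1) ((s, 0), s) :=
      AnalyticAt.comp (g := fun u : ℂ × ℂ => u.1) (f := fun z : (ℂ × ℂ) × ℂ => z.1)
        analyticAt_fst analyticAt_fst
    exact (AnalyticAt.comp (g := ps α) (f := fun z : (ℂ × ℂ) × ℂ => (z.2, z.1.2))
      (ps_an h.aα) h1).sub (AnalyticAt.comp (g := Φ) (f := fun z : (ℂ × ℂ) × ℂ => z.1.1) h.aΦ h2)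
  have hf0 : f ((s, 0), s) = 0 := by
    simp only [f]
    rw [ps_zero, h0, sub_self]
  have hd : fderiv ℂ f ((s, 0), s) (0, 1) ≠ 0 := by
    have h1 := fderiv_last hf
    have h2 : HasDerivAt (fun t => f ((s, 0), t)) (deriv Φ s) s := by
      have h3 : (fun t => f ((s, 0), t)) =ᶠ[𝓝 s] fun t => Φ t - Φ s := by
        filter_upwards [h.α0] with t ht
        simp only [f]
        rw [ps_zero, ht]
      exact (h.aΦ.differentiableAt.hasDerivAt.sub_const _).congr_of_eventuallyEq h3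
    rw [h1.unique h2]
    exact h.Φ0
  obtain ⟨T, hT, hT0, hT1, hT2⟩ := exists_implicit hf hf0 hd
  refine ⟨T, hT, hT0, ?_, ?_, ?_⟩
  · have h1 : Tendsto (fun z : ℂ => (((z, 0), z) : (ℂ × ℂ) × ℂ)) (𝓝 s) (𝓝 ((s, 0), s)) := by
      have : Continuous fun z : ℂ => (((z, 0), z) : (ℂ × ℂ) × ℂ) := by fun_prop
      exact this.tendsto _
    filter_upwards [h1.eventually hT2, h.α0] with z k1 k2
    refine (k1 ?_).symm
    simp only [f]
    rw [ps_zero, k2, sub_self]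
  · filter_upwards [hT1] with v hv
    exact sub_eq_zero.1 hv
  · filter_upwards [hT2] with z hz h1
    exact hz (sub_eq_zero.2 h1)

/-- the position of the vertex -/
theorem Loc.exists_V (h : Loc Φ H c J α p s) : ∃ V : ℂ × ℂ → ℂ, AnalyticAt ℂ V (s, 0) ∧
    V (s, 0) = s ∧ (∀ᶠ u in 𝓝 ((s, 0) : ℂ × ℂ), Φ (V u) = ps α u) ∧
    ∀ᶠ z in 𝓝 (((s, 0), s) : (ℂ × ℂ) × ℂ), Φ z.2 = ps α z.1 → z.2 = V z.1 := by
  have h0 := h.α0.self_of_nhds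
  let f : (ℂ × ℂ) × ℂ → ℂ := fun z => Φ z.2 - ps α z.1
  have hf : AnalyticAt ℂ f ((s, 0), s) := by
    exact (AnalyticAt.comp (g := Φ) (f := fun z : (ℂ × ℂ) × ℂ => z.2) h.aΦ analyticAt_snd).sub
      (AnalyticAt.comp (g := ps α) (f := fun z : (ℂ × ℂ) × ℂ => z.1) (ps_an h.aα) analyticAt_fst)
  have hf0 : f ((s, 0), s) = 0 := by
    simp only [f]
    rw [ps_zero, h0, sub_self]
  have hd : fderiv ℂ f ((s, 0), s) (0, 1) ≠ 0 := by
    have h1 := fderiv_last hf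
    have h2 : HasDerivAt (fun t => f ((s, 0), t)) (deriv Φ s) s :=
      h.aΦ.differentiableAt.hasDerivAt.sub_const (ps α (s, 0))
    rw [h1.unique h2]
    exact h.Φ0
  obtain ⟨V, hV, hV0, hV1, hV2⟩ := exists_implicit hf hf0 hd
  refine ⟨V, hV, hV0, ?_, ?_⟩
  · filter_upwards [hV1] with v hv
    exact sub_eq_zero.1 hv
  · filter_upwards [hV2] with z hz h1
    exact hz (sub_eq_zero.2 h1)

/-- `η` -/
def NN (Φ : ℂ → ℂ) (α T : ℂ × ℂ → ℂ) (v : ℂ × ℂ) : ℂ := dl α (T v, v.2) / deriv Φ v.1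

section
variable {T : ℂ × ℂ → ℂ}

lemma TT_an (hT : AnalyticAt ℂ T (s, 0)) (hT0 : T (s, 0) = s) :
    AnalyticAt ℂ (fun v : ℂ × ℂ => (T v, v.2)) (s, 0) ∧
    Tendsto (fun v : ℂ × ℂ => (T v, v.2)) (𝓝 (s, 0)) (𝓝 (s, 0)) := by
  have h1 : AnalyticAt ℂ (fun v : ℂ × ℂ => (T v, v.2)) (s, 0) := hT.prod analyticAt_snd
  refine ⟨h1, ?_⟩
  have h2 := h1.continuousAt.tendsto
  simp only at h2
  rwa [hT0] at h2

lemma Loc.N_an (h : Loc Φ H c J α p s) (hT : AnalyticAt ℂ T (s, 0)) (hT0 : T (s, 0) = s) :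
    AnalyticAt ℂ (NN Φ α T) (s, 0) := by
  have h1 := (TT_an hT hT0).1
  have h2 : AnalyticAt ℂ (fun v : ℂ × ℂ => dl α (T v, v.2)) (s, 0) := by
    refine AnalyticAt.comp (g := dl α) (f := fun v : ℂ × ℂ => (T v, v.2)) ?_ h1
    simp only
    rw [hT0]
    exact dl_an h.aα
  have h3 : AnalyticAt ℂ (fun v : ℂ × ℂ => deriv Φ v.1) (s, 0) :=
    AnalyticAt.comp (g := deriv Φ) (f := fun v : ℂ × ℂ => v.1) h.aΦ.deriv analyticAt_fst
  exact h2.div h3 h.Φ0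

lemma Loc.N_deriv (h : Loc Φ H c J α p s) (hT : AnalyticAt ℂ T (s, 0))
    (hTz : ∀ᶠ z in 𝓝 s, T (z, 0) = z) :
    ∀ᶠ z in 𝓝 s, NN Φ α T (z, 0) = 0 ∧ HasDerivAt (fun w => NN Φ α T (z, w)) (1 / 2) 0 := by
  have hp := tendsto_pair s
  filter_upwards [hTz, hp.eventually hT.eventually_analyticAt,
    hp.eventually h.aα.eventually_analyticAt, h.α0.eventually_nhds,
    h.aΦ.deriv.continuousAt.eventually_ne h.Φ0, h.aΦ.eventually_analyticAt] with z k1 k2 k3 k4 k5 k6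
  refine ⟨by simp only [NN]; rw [dl_zero, zero_div], ?_⟩
  have hA := k3.differentiableAt.hasFDerivAt
  set A := fderiv ℂ α (z, 0) with hAdef
  have h1 := fderiv_snd k2
  simp only at h1
  set τ := fderiv ℂ T (z, 0) (0, 1) with hτ
  have h10 : A (1, 0) = deriv Φ z := by
    have h2 := fderiv_fst k3
    simp only at h2
    have h3 : (fun t => α (t, 0)) =ᶠ[𝓝 z] Φ := k4
    rw [← h3.deriv_eq]
    exact h2.deriv.symm
  have hplus : HasDerivAt (fun w => α (T (z, w) + w / 2, w)) (A (τ + 1 / 2, 1)) 0 := by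
    have h2 : HasDerivAt (fun w : ℂ => (T (z, w) + w / 2, w)) (τ + 1 / 2, (1 : ℂ)) 0 :=
      (h1.add ((hasDerivAt_id (0 : ℂ)).div_const 2)).prodMk (hasDerivAt_id _)
    have h3 : HasFDerivAt α A (T (z, 0) + 0 / 2, 0) := by
      rw [k1, zero_div, add_zero]
      exact hA
    exact HasFDerivAt.comp_hasDerivAt (f := fun w : ℂ => (T (z, w) + w / 2, w)) (0 : ℂ) h3 h2
  have hminus : HasDerivAt (fun w => α (T (z, w) - w / 2, w)) (A (τ - 1 / 2, 1)) 0 := by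
    have h2 : HasDerivAt (fun w : ℂ => (T (z, w) - w / 2, w)) (τ - 1 / 2, (1 : ℂ)) 0 :=
      (h1.sub ((hasDerivAt_id (0 : ℂ)).div_const 2)).prodMk (hasDerivAt_id _)
    have h3 : HasFDerivAt α A (T (z, 0) - 0 / 2, 0) := by
      rw [k1, zero_div, sub_zero]
      exact hA
    exact HasFDerivAt.comp_hasDerivAt (f := fun w : ℂ => (T (z, w) - w / 2, w)) (0 : ℂ) h3 h2
  have h5 := ((hplus.sub hminus).div_const 2).div_const (deriv Φ z)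
  refine h5.congr_deriv ?_
  rw [← map_sub]
  have h6 : ((τ + 1 / 2, (1 : ℂ)) - (τ - 1 / 2, (1 : ℂ)) : ℂ × ℂ) = (1, 0) := by
    ext
    · simp
      ring
    · simp
  rw [h6, h10]
  field_simp

/-- the label -/
theorem Loc.exists_F (h : Loc Φ H c J α p s) (hT : AnalyticAt ℂ T (s, 0)) (hT0 : T (s, 0) = s)
    (hTz : ∀ᶠ z in 𝓝 s, T (z, 0) = z) :
    ∃ F : ℂ × ℂ → ℂ, AnalyticAt ℂ F (s, 0) ∧ F (s, 0) = 0 ∧
    (∀ᶠ v in 𝓝 ((s, 0) : ℂ × ℂ), NN Φ α T (v.1, F v) = v.2) ∧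
    ∀ᶠ z in 𝓝 (((s, 0), 0) : (ℂ × ℂ) × ℂ), NN Φ α T (z.1.1, z.2) = z.1.2 → z.2 = F z.1 := by
  obtain ⟨hN0, hN1⟩ := (h.N_deriv hT hTz).self_of_nhds
  let f : (ℂ × ℂ) × ℂ → ℂ := fun z => NN Φ α T (z.1.1, z.2) - z.1.2
  have hf : AnalyticAt ℂ f ((s, 0), 0) := by
    have h2 : AnalyticAt ℂ (fun z : (ℂ × ℂ) × ℂ => z.1.1) ((s, 0), 0) :=
      AnalyticAt.comp (g := fun u : ℂ × ℂ => u.1) (f := fun z : (ℂ × ℂ) × ℂ => z.1)
        analyticAt_fst analyticAt_fst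
    have h3 : AnalyticAt ℂ (fun z : (ℂ × ℂ) × ℂ => z.1.2) ((s, 0), 0) :=
      AnalyticAt.comp (g := fun u : ℂ × ℂ => u.2) (f := fun z : (ℂ × ℂ) × ℂ => z.1)
        analyticAt_snd analyticAt_fst
    exact (AnalyticAt.comp (g := NN Φ α T) (f := fun z : (ℂ × ℂ) × ℂ => (z.1.1, z.2))
      (h.N_an hT hT0) (h2.prod analyticAt_snd)).sub h3
  have hf0 : f ((s, 0), 0) = 0 := by
    simp only [f]
    rw [hN0, sub_self]
  have hd : fderiv ℂ f ((s, 0), 0) (0, 1) ≠ 0 := by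
    have h1 := fderiv_last hf
    have h2 : HasDerivAt (fun t => f ((s, 0), t)) (1 / 2) 0 := hN1.sub_const _
    rw [h1.unique h2]
    norm_num
  obtain ⟨F, hF, hF0, hF1, hF2⟩ := exists_implicit hf hf0 hd
  refine ⟨F, hF, hF0, ?_, ?_⟩
  · filter_upwards [hF1] with v hv
    exact sub_eq_zero.1 hv
  · filter_upwards [hF2] with z hz h1
    exact hz (sub_eq_zero.2 h1)

end

/-- chain rule for the support number -/
lemma Loc.dq (h : Loc Φ H c J α p s) :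
    ∀ᶠ z in 𝓝 s, deriv (fun z => H (Φ z)) z = deriv H (Φ z) * deriv Φ z := by
  have hc : Tendsto Φ (𝓝 s) (𝓝 (Φ s)) := h.aΦ.continuousAt.tendsto
  filter_upwards [h.aΦ.eventually_analyticAt, hc.eventually h.aH.eventually_analyticAt]
    with z k1 k2
  exact (HasDerivAt.comp z k2.differentiableAt.hasDerivAt k1.differentiableAt.hasDerivAt).deriv

lemma Loc.qL_eq (h : Loc Φ H c J α p s) : ∀ᶠ z in 𝓝 s, ∀ σ η : ℂ,
    SC.qL Φ (fun z => H (Φ z)) σ (z, η) = H (Φ z) * Complex.cos (deriv Φ z * η) +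
      σ * (deriv H (Φ z) * Complex.sin (deriv Φ z * η)) := by
  filter_upwards [h.dq] with z hz σ η
  simp only [SC.qL]
  rw [hz, ← NZ.mul_snc (deriv Φ z * η)]
  ring

/-- the curve -/
theorem Loc.crv (h : Loc Φ H c J α p s) : SC.Crv Φ (fun z => H (Φ z)) c s := by
  refine ⟨h.aΦ, AnalyticAt.comp (g := H) (f := Φ) h.aH h.aΦ, ?_⟩
  have hc : Tendsto Φ (𝓝 s) (𝓝 (Φ s)) := h.aΦ.continuousAt.tendsto
  filter_upwards [h.aΦ.eventually_analyticAt, hc.eventually h.aH.eventually_analyticAt, h.dq,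
    h.dq.eventually_nhds, h.rho] with z k1 k2 k3 k4 k5
  have h1 : deriv (deriv (fun z => H (Φ z))) z =
      deriv (deriv H) (Φ z) * deriv Φ z * deriv Φ z + deriv H (Φ z) * deriv (deriv Φ) z := by
    have h2 : deriv (fun z => H (Φ z)) =ᶠ[𝓝 z] fun z => deriv H (Φ z) * deriv Φ z := k4
    rw [h2.deriv_eq]
    have h3 : HasDerivAt (fun z => deriv H (Φ z)) (deriv (deriv H) (Φ z) * deriv Φ z) z :=
      HasDerivAt.comp z k2.deriv.differentiableAt.hasDerivAt k1.differentiableAt.hasDerivAt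
    exact (h3.mul k1.deriv.differentiableAt.hasDerivAt).deriv
  simp only [SC.Wr]
  rw [h1, k3, ← k5]
  ring

end

end Vale.Agent.P097.H845.RD
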