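import Vale.Agent.P097.H845.RegD1

/-!
# P097, row RegD: the equations of the leaves
-/

open Set Filter Topology

namespace Vale.Agent.P097.H845.RD

noncomputable section

attribute [local fun_prop] analyticAt_fst analyticAt_snd

variable {Φ H : ℂ → ℂ} {c : ℂ} {J : ℂ → ℂ} {α p : ℂ × ℂ → ℂ} {s : ℂ} {T F : ℂ × ℂ → ℂ}

/-- the incoming and the outgoing line at the vertex of `u` -/
lemma Loc.lines (h : Loc Φ H c J α p s) : ∀ᶠ u in 𝓝 ((s, 0) : ℂ × ℂ),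
    α (u.1 + u.2 / 2, u.2) = ps α u + dl α u ∧ α (u.1 - u.2 / 2, u.2) = ps α u - dl α u ∧
    p (u.1 + u.2 / 2, u.2) = H (ps α u) * Complex.cos (dl α u) +
      deriv H (ps α u) * Complex.sin (dl α u) ∧
    p (u.1 - u.2 / 2, u.2) = H (ps α u) * Complex.cos (dl α u) -
      deriv H (ps α u) * Complex.sin (dl α u) := by
  filter_upwards [h.sum, h.dif] with u k1 k2
  refine ⟨by unfold ps dl; ring, by unfold ps dl; ring, ?_, ?_⟩
  · linear_combination (k1 + k2) / 2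
  · linear_combination (k1 - k2) / 2

lemma Loc.NNmul (h : Loc Φ H c J α p s) : ∀ᶠ v in 𝓝 ((s, 0) : ℂ × ℂ),
    deriv Φ v.1 ≠ 0 ∧ deriv Φ v.1 * NN Φ α T v = dl α (T v, v.2) := by
  have h1 : Tendsto (fun v : ℂ × ℂ => v.1) (𝓝 (s, 0)) (𝓝 s) := continuous_fst.tendsto _
  filter_upwards [h1.eventually (h.aΦ.deriv.continuousAt.eventually_ne h.Φ0)] with v hv
  refine ⟨hv, ?_⟩
  unfold NN
  rw [mul_div_cancel₀ _ hv]

/-- the outgoing line -/
theorem Loc.eap (h : Loc Φ H c J α p s) (hT : AnalyticAt ℂ T (s, 0)) (hT0 : T (s, 0) = s)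
    (hT1 : ∀ᶠ v in 𝓝 ((s, 0) : ℂ × ℂ), ps α (T v, v.2) = Φ v.1) :
    ∀ᶠ v in 𝓝 ((s, 0) : ℂ × ℂ),
      α (T v + v.2 / 2, v.2) = Φ v.1 + deriv Φ v.1 * NN Φ α T v ∧
      p (T v + v.2 / 2, v.2) = H (Φ v.1) * Complex.cos (deriv Φ v.1 * NN Φ α T v) +
        deriv H (Φ v.1) * Complex.sin (deriv Φ v.1 * NN Φ α T v) := by
  filter_upwards [hT1, h.NNmul (T := T), (TT_an hT hT0).2.eventually h.lines] with v k1 k2 k3
  rw [k1] at k3
  rw [k2.2]
  exact ⟨k3.1, k3.2.2.1⟩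

/-- the area form -/
theorem Loc.dT (h : Loc Φ H c J α p s) (hT : AnalyticAt ℂ T (s, 0)) (hT0 : T (s, 0) = s)
    (hT1 : ∀ᶠ v in 𝓝 ((s, 0) : ℂ × ℂ), ps α (T v, v.2) = Φ v.1) :
    ∀ᶠ v in 𝓝 ((s, 0) : ℂ × ℂ), J v.2 * deriv (fun θ => T (θ, v.2)) v.1 =
      -c * (NN Φ α T v * NZ.snc (deriv Φ v.1 * NN Φ α T v)) *
        deriv (fun w => NN Φ α T (v.1, w)) v.2 := by
  have hfst : Tendsto (fun v : ℂ × ℂ => v.1) (𝓝 (s, 0)) (𝓝 s) := continuous_fst.tendsto _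
  have hpl : Tendsto (fun v : ℂ × ℂ => (T v + v.2 / 2, v.2)) (𝓝 (s, 0)) (𝓝 (s, 0)) := by
    have h1 : ContinuousAt (fun v : ℂ × ℂ => (T v + v.2 / 2, v.2)) (s, 0) := by
      have := hT.continuousAt
      fun_prop
    have h2 := h1.tendsto
    simp only [zero_div, add_zero] at h2
    rwa [hT0] at h2
  have hΦt : Tendsto (fun v : ℂ × ℂ => Φ v.1) (𝓝 (s, 0)) (𝓝 (Φ s)) :=
    h.aΦ.continuousAt.tendsto.comp hfst
  filter_upwards [hT.eventually_analyticAt, (h.N_an hT hT0).eventually_analyticAt,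
    hpl.eventually h.aα.eventually_analyticAt, hpl.eventually h.ap.eventually_analyticAt,
    hpl.eventually h.brk, hfst.eventually h.aΦ.eventually_analyticAt,
    hΦt.eventually h.aH.eventually_analyticAt, (h.eap hT hT0 hT1).eventually_nhds,
    hfst.eventually h.rho] with v kT kN kα kp kb kΦ kH ke kρ
  set N := NN Φ α T with hN
  set A := fderiv ℂ α (T v + v.2 / 2, v.2) with hA
  set B := fderiv ℂ p (T v + v.2 / 2, v.2) with hB
  have hAd : HasFDerivAt α A (T v + v.2 / 2, v.2) := kα.differentiableAt.hasFDerivAt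
  have hBd : HasFDerivAt p B (T v + v.2 / 2, v.2) := kp.differentiableAt.hasFDerivAt
  have hTθ := fderiv_fst kT
  have hTw := fderiv_snd kT
  have hNθ := fderiv_fst kN
  have hNw := fderiv_snd kN
  rw [hTθ.deriv, hNw.deriv]
  set Tθ := fderiv ℂ T v (1, 0) with hTθ'
  set Tw := fderiv ℂ T v (0, 1) with hTw'
  set Nθ := fderiv ℂ N v (1, 0) with hNθ'
  set Nw := fderiv ℂ N v (0, 1) with hNw'
  set Φ1 := deriv Φ v.1 with hΦ1
  set Φ2 := deriv (deriv Φ) v.1 with hΦ2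
  set H0 := H (Φ v.1) with hH0
  set H1 := deriv H (Φ v.1) with hH1
  set H2 := deriv (deriv H) (Φ v.1) with hH2
  set n := N v with hn
  set D := Φ1 * n with hD
  have dΦ : HasDerivAt Φ Φ1 v.1 := kΦ.differentiableAt.hasDerivAt
  have dΦ' : HasDerivAt (deriv Φ) Φ2 v.1 := kΦ.deriv.differentiableAt.hasDerivAt
  have dH : HasDerivAt H H1 (Φ v.1) := kH.differentiableAt.hasDerivAt
  have dH' : HasDerivAt (deriv H) H2 (Φ v.1) := kH.deriv.differentiableAt.hasDerivAt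
  -- θ direction
  have tl : Tendsto (fun θ : ℂ => (θ, v.2)) (𝓝 v.1) (𝓝 v) := by
    have : Continuous fun θ : ℂ => (θ, v.2) := by fun_prop
    exact this.tendsto _
  have tr : Tendsto (fun w : ℂ => (v.1, w)) (𝓝 v.2) (𝓝 v) := by
    have : Continuous fun w : ℂ => (v.1, w) := by fun_prop
    exact this.tendsto _
  have p1 : HasDerivAt (fun θ => (T (θ, v.2) + v.2 / 2, v.2)) (Tθ, (0 : ℂ)) v.1 :=
    (hTθ.add_const _).prodMk (hasDerivAt_const _ _)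
  have p2 : HasDerivAt (fun w => (T (v.1, w) + w / 2, w)) (Tw + 1 / 2, (1 : ℂ)) v.2 :=
    (hTw.add ((hasDerivAt_id v.2).div_const 2)).prodMk (hasDerivAt_id _)
  have a1 := HasFDerivAt.comp_hasDerivAt (f := fun θ => (T (θ, v.2) + v.2 / 2, v.2)) v.1 hAd p1
  have b1 := HasFDerivAt.comp_hasDerivAt (f := fun θ => (T (θ, v.2) + v.2 / 2, v.2)) v.1 hBd p1
  have a2 := HasFDerivAt.comp_hasDerivAt (f := fun w => (T (v.1, w) + w / 2, w)) v.2 hAd p2
  have b2 := HasFDerivAt.comp_hasDerivAt (f := fun w => (T (v.1, w) + w / 2, w)) v.2 hBd p2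
  have dD1 : HasDerivAt (fun θ => deriv Φ θ * N (θ, v.2)) (Φ2 * n + Φ1 * Nθ) v.1 :=
    dΦ'.mul hNθ
  have dD2 : HasDerivAt (fun w => Φ1 * N (v.1, w)) (Φ1 * Nw) v.2 := hNw.const_mul _
  have dHΦ : HasDerivAt (fun θ => H (Φ θ)) (H1 * Φ1) v.1 := HasDerivAt.comp v.1 dH dΦ
  have dHΦ' : HasDerivAt (fun θ => deriv H (Φ θ)) (H2 * Φ1) v.1 := HasDerivAt.comp v.1 dH' dΦ
  have c1 : HasDerivAt (fun θ => Complex.cos (deriv Φ θ * N (θ, v.2)))
      (-Complex.sin D * (Φ2 * n + Φ1 * Nθ)) v.1 := dD1.ccos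
  have s1 : HasDerivAt (fun θ => Complex.sin (deriv Φ θ * N (θ, v.2)))
      (Complex.cos D * (Φ2 * n + Φ1 * Nθ)) v.1 := dD1.csin
  have c2 : HasDerivAt (fun w => Complex.cos (Φ1 * N (v.1, w)))
      (-Complex.sin D * (Φ1 * Nw)) v.2 := dD2.ccos
  have s2 : HasDerivAt (fun w => Complex.sin (Φ1 * N (v.1, w)))
      (Complex.cos D * (Φ1 * Nw)) v.2 := dD2.csin
  have e1 : A (Tθ, 0) = Φ1 + (Φ2 * n + Φ1 * Nθ) := by
    have g1 := dΦ.add dD1
    refine a1.unique (g1.congr_of_eventuallyEq ?_)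
    filter_upwards [tl.eventually ke] with θ hθ
    exact hθ.1
  have e2 : A (Tw + 1 / 2, 1) = Φ1 * Nw := by
    have g1 := dD2.const_add (Φ v.1)
    refine a2.unique (g1.congr_of_eventuallyEq ?_)
    filter_upwards [tr.eventually ke] with w hw
    exact hw.1
  have e3 : B (Tθ, 0) = (H1 * Φ1) * Complex.cos D + H0 * (-Complex.sin D * (Φ2 * n + Φ1 * Nθ)) +
      ((H2 * Φ1) * Complex.sin D + H1 * (Complex.cos D * (Φ2 * n + Φ1 * Nθ))) := by
    have g1 := (dHΦ.mul c1).add (dHΦ'.mul s1)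
    refine b1.unique (g1.congr_of_eventuallyEq ?_)
    filter_upwards [tl.eventually ke] with θ hθ
    exact hθ.2
  have e4 : B (Tw + 1 / 2, 1) = H0 * (-Complex.sin D * (Φ1 * Nw)) +
      H1 * (Complex.cos D * (Φ1 * Nw)) := by
    have g1 := (c2.const_mul H0).add (s2.const_mul H1)
    refine b2.unique (g1.congr_of_eventuallyEq ?_)
    filter_upwards [tr.eventually ke] with w hw
    exact hw.2
  have l1 : ∀ (C : ℂ × ℂ →L[ℂ] ℂ) (x y : ℂ), C (x, y) = x * C (1, 0) + y * C (0, 1) := by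
    intro C x y
    have : ((x, y) : ℂ × ℂ) = x • ((1 : ℂ), (0 : ℂ)) + y • ((0 : ℂ), (1 : ℂ)) := by
      ext <;> simp
    rw [this, map_add, map_smul, map_smul, smul_eq_mul, smul_eq_mul]
  rw [l1 A] at e1 e2
  rw [l1 B] at e3 e4
  simp only [zero_mul, add_zero, one_mul] at e1 e2 e3 e4
  have hsn : Complex.sin D = D * NZ.snc D := (NZ.mul_snc D).symm
  have kb' : J v.2 = A (1, 0) * B (0, 1) - A (0, 1) * B (1, 0) := kb.symm
  have key : J v.2 * Tθ = -(H0 + H2) * Φ1 * (Φ1 * Nw) * Complex.sin D := by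
    rw [kb']
    linear_combination (Tw * B (1, 0) + B (1, 0) / 2 + B (0, 1)) * e1 +
      (Φ1 + (Φ2 * n + Φ1 * Nθ)) * e4 - (Tθ * B (1, 0)) * e2 - (Φ1 * Nw) * e3
  rw [key, hsn, ← kρ, hD]
  ring

/-- parity -/
theorem Loc.even (h : Loc Φ H c J α p s) (hT : AnalyticAt ℂ T (s, 0)) (hT0 : T (s, 0) = s)
    (hT1 : ∀ᶠ v in 𝓝 ((s, 0) : ℂ × ℂ), ps α (T v, v.2) = Φ v.1)
    (hT2 : ∀ᶠ z in 𝓝 (((s, 0), s) : (ℂ × ℂ) × ℂ), ps α (z.2, z.1.2) = Φ z.1.1 → z.2 = T z.1) :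
    ∀ᶠ v in 𝓝 ((s, 0) : ℂ × ℂ), NN Φ α T (v.1, -v.2) = -NN Φ α T v := by
  have hneg : Tendsto (fun u : ℂ × ℂ => (u.1, -u.2)) (𝓝 (s, 0)) (𝓝 (s, 0)) := by
    have h1 : Continuous fun u : ℂ × ℂ => (u.1, -u.2) := by fun_prop
    have h2 := h1.tendsto (s, 0)
    simp only [neg_zero] at h2
    exact h2
  have hplus : Tendsto (fun u : ℂ × ℂ => (u.1 + u.2 / 2, u.2)) (𝓝 (s, 0)) (𝓝 (s, 0)) := by
    have h1 : Continuous fun u : ℂ × ℂ => (u.1 + u.2 / 2, u.2) := by fun_prop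
    have h2 := h1.tendsto (s, 0)
    simp only [zero_div, add_zero] at h2
    exact h2
  have hmin : Tendsto (fun u : ℂ × ℂ => (u.1 - u.2 / 2, u.2)) (𝓝 (s, 0)) (𝓝 (s, 0)) := by
    have h1 : Continuous fun u : ℂ × ℂ => (u.1 - u.2 / 2, u.2) := by fun_prop
    have h2 := h1.tendsto (s, 0)
    simp only [zero_div, sub_zero] at h2
    exact h2
  have hpe : ∀ᶠ u in 𝓝 ((s, 0) : ℂ × ℂ), ps α (u.1, -u.2) = ps α u ∧
      dl α (u.1, -u.2) = -dl α u := by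
    filter_upwards [hplus.eventually h.αev, hmin.eventually h.αev] with u k1 k2
    have e1 : u.1 + -u.2 / 2 = u.1 - u.2 / 2 := by ring
    have e2 : u.1 - -u.2 / 2 = u.1 + u.2 / 2 := by ring
    constructor
    · simp only [ps]
      rw [e1, e2, k1, k2]
      ring
    · simp only [dl]
      rw [e1, e2, k1, k2]
      ring
  have ht := (TT_an hT hT0).2
  have hz : Tendsto (fun v : ℂ × ℂ => (((v.1, -v.2), T v) : (ℂ × ℂ) × ℂ)) (𝓝 (s, 0))
      (𝓝 ((s, 0), s)) := by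
    have h1 := hT.continuousAt.tendsto
    rw [hT0] at h1
    exact hneg.prodMk_nhds h1
  filter_upwards [hT1, ht.eventually hpe, hz.eventually hT2] with v k1 k2 k3
  have h4 : T v = T (v.1, -v.2) := k3 (by rw [k2.1, k1])
  simp only [NN]
  rw [← h4, k2.2, neg_div]

end

end Vale.Agent.P097.H845.RD
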