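import Vale.Agent.P097.H845.RegD2

/-!
# P097, row RegD: invariance of the label, `Sol`
-/

open Set Filter Topology

namespace Vale.Agent.P097.H845.RD

noncomputable section

attribute [local fun_prop] analyticAt_fst analyticAt_snd

variable {Φ H : ℂ → ℂ} {c : ℂ} {J : ℂ → ℂ} {α p : ℂ × ℂ → ℂ} {s : ℂ} {T F : ℂ × ℂ → ℂ}

/-- uniqueness of the glancing root -/
theorem two_roots {h : ℂ × ℂ → ℂ} {a₀ D₀ : ℂ} (hh : AnalyticAt ℂ h (a₀, 0))
    (hρ : rho h (a₀, 0) ≠ 0) (hD₀ : D₀ ≠ 0) :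
    ∀ᶠ z in 𝓝 ((0, a₀, D₀, D₀) : ℂ × ℂ × ℂ × ℂ), z.1 ≠ 0 →
      FF h z.2.1 (z.1 * z.2.2.1) 0 = FF h z.2.1 (z.1 * z.2.2.2) 0 → z.2.2.1 = z.2.2.2 := by
  obtain ⟨G, hG⟩ := exists_GQ hh
  obtain ⟨g1, g2, g3⟩ := hG D₀ 0
  have hG0 : G (0, a₀, D₀, 0) = rho h (a₀, 0) / 2 * D₀ ^ 2 := by
    rw [g3.self_of_nhds]
    ring
  obtain ⟨D, -, -, -, -, -, -, hu⟩ := gl_letter hh hρ hD₀ (U₀ := G (0, a₀, D₀, 0)) hG0.symm
  have t1 : Tendsto (fun z : ℂ × ℂ × ℂ × ℂ => ((z.1, z.2.1, z.2.2.1, 0) : ℂ × ℂ × ℂ × ℂ))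
      (𝓝 (0, a₀, D₀, D₀)) (𝓝 (0, a₀, D₀, 0)) := by
    have : Continuous fun z : ℂ × ℂ × ℂ × ℂ => ((z.1, z.2.1, z.2.2.1, 0) : ℂ × ℂ × ℂ × ℂ) := by
      fun_prop
    exact this.tendsto _
  have tG := g1.continuousAt.tendsto.comp t1
  have tz1 : Tendsto (fun z : ℂ × ℂ × ℂ × ℂ => z.1) (𝓝 (0, a₀, D₀, D₀)) (𝓝 0) :=
    continuous_fst.tendsto _
  have tz2 : Tendsto (fun z : ℂ × ℂ × ℂ × ℂ => z.2.1) (𝓝 (0, a₀, D₀, D₀)) (𝓝 a₀) := by
    have : Continuous fun z : ℂ × ℂ × ℂ × ℂ => z.2.1 := by fun_prop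
    exact this.tendsto _
  have tz3 : Tendsto (fun z : ℂ × ℂ × ℂ × ℂ => z.2.2.1) (𝓝 (0, a₀, D₀, D₀)) (𝓝 D₀) := by
    have : Continuous fun z : ℂ × ℂ × ℂ × ℂ => z.2.2.1 := by fun_prop
    exact this.tendsto _
  have tz4 : Tendsto (fun z : ℂ × ℂ × ℂ × ℂ => z.2.2.2) (𝓝 (0, a₀, D₀, D₀)) (𝓝 D₀) := by
    have : Continuous fun z : ℂ × ℂ × ℂ × ℂ => z.2.2.2 := by fun_prop
    exact this.tendsto _
  have k1 : Tendsto (fun z : ℂ × ℂ × ℂ × ℂ =>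
      (((z.1, 0, z.2.1, G (z.1, z.2.1, z.2.2.1, 0)), z.2.2.1) : (ℂ × ℂ × ℂ × ℂ) × ℂ))
      (𝓝 (0, a₀, D₀, D₀)) (𝓝 ((0, 0, a₀, G (0, a₀, D₀, 0)), D₀)) :=
    (tz1.prodMk_nhds (tendsto_const_nhds.prodMk_nhds (tz2.prodMk_nhds tG))).prodMk_nhds tz3
  have k2 : Tendsto (fun z : ℂ × ℂ × ℂ × ℂ =>
      (((z.1, 0, z.2.1, G (z.1, z.2.1, z.2.2.1, 0)), z.2.2.2) : (ℂ × ℂ × ℂ × ℂ) × ℂ))
      (𝓝 (0, a₀, D₀, D₀)) (𝓝 ((0, 0, a₀, G (0, a₀, D₀, 0)), D₀)) :=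
    (tz1.prodMk_nhds (tendsto_const_nhds.prodMk_nhds (tz2.prodMk_nhds tG))).prodMk_nhds tz4
  filter_upwards [t1.eventually g2, k1.eventually hu, k2.eventually hu] with z m1 m2 m3 hz hF
  simp only [zero_mul] at m1 m2 m3
  have e1 : h (z.2.1, 0) - z.1 ^ 2 * G (z.1, z.2.1, z.2.2.1, 0) =
      FF h z.2.1 (z.1 * z.2.2.1) 0 := by linear_combination m1
  rw [m2 hz e1, m3 hz (by rw [e1, hF])]

/-- the turning angle is divisible by `w` -/
theorem Loc.exists_Dd (h : Loc Φ H c J α p s) : ∃ Dd : ℂ × ℂ → ℂ, AnalyticAt ℂ Dd (s, 0) ∧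
    ∀ᶠ u in 𝓝 ((s, 0) : ℂ × ℂ), dl α u = u.2 * Dd u := by
  have hsw : AnalyticAt ℂ (fun x : ℂ × ℂ => (x.2, x.1)) (0, s) := by fun_prop
  have hsw' : AnalyticAt ℂ (fun x : ℂ × ℂ => (x.2, x.1)) (s, 0) := by fun_prop
  have h1 : AnalyticAt ℂ (fun x : ℂ × ℂ => dl α (x.2, x.1)) (0, s) :=
    AnalyticAt.comp (g := dl α) (f := fun x : ℂ × ℂ => (x.2, x.1)) (dl_an h.aα) hsw
  obtain ⟨Q, hQ, hQ1, -⟩ := exists_div h1
  refine ⟨fun u => Q (u.2, u.1),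
    AnalyticAt.comp (g := Q) (f := fun x : ℂ × ℂ => (x.2, x.1)) hQ hsw', ?_⟩
  have ht : Tendsto (fun x : ℂ × ℂ => (x.2, x.1)) (𝓝 (s, 0)) (𝓝 (0, s)) :=
    hsw'.continuousAt.tendsto
  filter_upwards [ht.eventually hQ1] with u hu
  simp only [dl_zero, zero_add, smul_eq_mul] at hu
  exact hu

/-- **invariance of the label** -/
theorem Loc.inv (h : Loc Φ H c J α p s) (hT : AnalyticAt ℂ T (s, 0)) (hT0 : T (s, 0) = s)
    (hTz : ∀ᶠ z in 𝓝 s, T (z, 0) = z)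
    (hT1 : ∀ᶠ v in 𝓝 ((s, 0) : ℂ × ℂ), ps α (T v, v.2) = Φ v.1)
    (hT2 : ∀ᶠ z in 𝓝 (((s, 0), s) : (ℂ × ℂ) × ℂ), ps α (z.2, z.1.2) = Φ z.1.1 → z.2 = T z.1)
    (hF : AnalyticAt ℂ F (s, 0)) (hF0 : F (s, 0) = 0)
    (hF1 : ∀ᶠ v in 𝓝 ((s, 0) : ℂ × ℂ), NN Φ α T (v.1, F v) = v.2)
    (hF2 : ∀ᶠ z in 𝓝 (((s, 0), 0) : (ℂ × ℂ) × ℂ), NN Φ α T (z.1.1, z.2) = z.1.2 → z.2 = F z.1)
    {S : ℂ × ℂ → ℂ × ℂ} (rA : AnalyticAt ℂ S (s, 0))
    (rB : ∃ r > 0, ∃ M : ℝ, ∀ θ η : ℂ, ‖θ - s‖ < r → ‖η‖ < r →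
      ‖(S (θ, η)).1 - (θ + 2 * η)‖ ≤ M * ‖η‖ ^ 2 ∧ ‖(S (θ, η)).2 - η‖ ≤ M * ‖η‖ ^ 2)
    (rC : ∀ᶠ v in 𝓝 ((s, 0) : ℂ × ℂ), SC.aL Φ (-1) (S v) = SC.aL Φ 1 v ∧
      SC.qL Φ (fun z => H (Φ z)) (-1) (S v) = SC.qL Φ (fun z => H (Φ z)) 1 v) :
    ∀ᶠ v in 𝓝 ((s, 0) : ℂ × ℂ), F (S v) = F v := by
  obtain ⟨r, hr, M, rB⟩ := rB
  obtain ⟨Dd, hDd, hDd1⟩ := h.exists_Dd
  have h0 := h.α0.self_of_nhds
  -- the maps
  have tfst : Tendsto (fun v : ℂ × ℂ => v.1) (𝓝 (s, 0)) (𝓝 s) := continuous_fst.tendsto _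
  have tsnd : Tendsto (fun v : ℂ × ℂ => v.2) (𝓝 (s, 0)) (𝓝 0) := continuous_snd.tendsto _
  have tF : Tendsto F (𝓝 (s, 0)) (𝓝 0) := by
    have := hF.continuousAt.tendsto
    rwa [hF0] at this
  have tvF : Tendsto (fun v : ℂ × ℂ => (v.1, F v)) (𝓝 (s, 0)) (𝓝 (s, 0)) := tfst.prodMk_nhds tF
  have tT0 : Tendsto T (𝓝 (s, 0)) (𝓝 s) := by
    have := hT.continuousAt.tendsto
    rwa [hT0] at this
  have tT : Tendsto (fun v : ℂ × ℂ => T (v.1, F v)) (𝓝 (s, 0)) (𝓝 s) := tT0.comp tvF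
  have tTF : Tendsto (fun v : ℂ × ℂ => (T (v.1, F v), F v)) (𝓝 (s, 0)) (𝓝 (s, 0)) :=
    tT.prodMk_nhds tF
  have tu : Tendsto (fun v : ℂ × ℂ => (T (v.1, F v) + F v, F v)) (𝓝 (s, 0)) (𝓝 (s, 0)) := by
    have := (tT.add tF).prodMk_nhds tF
    rwa [add_zero] at this
  have hSs : S (s, 0) = (s, 0) := by
    obtain ⟨k1, k2⟩ := rB s 0 (by simpa using hr) (by simpa using hr)
    simp only [norm_zero, ne_eq, OfNat.ofNat_ne_zero, not_false_eq_true, zero_pow, mul_zero,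
      norm_le_zero_iff, add_zero, sub_eq_zero, sub_zero] at k1 k2
    exact Prod.ext k1 k2
  have tS : Tendsto S (𝓝 (s, 0)) (𝓝 (s, 0)) := by
    have := rA.continuousAt.tendsto
    rwa [hSs] at this
  have tS1 : Tendsto (fun v => (S v).1) (𝓝 (s, 0)) (𝓝 s) := tfst.comp tS
  have tS2 : Tendsto (fun v => (S v).2) (𝓝 (s, 0)) (𝓝 0) := tsnd.comp tS
  set D₀ := Dd (s, 0) with hD₀
  have tDd : Tendsto Dd (𝓝 (s, 0)) (𝓝 D₀) := hDd.continuousAt.tendsto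
  have tΦ1 : Tendsto (fun v : ℂ × ℂ => deriv Φ v.1) (𝓝 (s, 0)) (𝓝 (deriv Φ s)) :=
    h.aΦ.deriv.continuousAt.tendsto.comp tfst
  have tΦS : Tendsto (fun v : ℂ × ℂ => deriv Φ (S v).1) (𝓝 (s, 0)) (𝓝 (deriv Φ s)) :=
    h.aΦ.deriv.continuousAt.tendsto.comp tS1
  -- `D₀ = Φ' / 2`
  have hNmul : ∀ᶠ v in 𝓝 ((s, 0) : ℂ × ℂ), NN Φ α T v = v.2 * (Dd (T v, v.2) / deriv Φ v.1) := by
    filter_upwards [(TT_an hT hT0).2.eventually hDd1] with v hv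
    simp only [NN]
    rw [hv]
    ring
  have hD₀' : D₀ / deriv Φ s = 1 / 2 := by
    obtain ⟨-, hN1⟩ := (h.N_deriv hT hTz).self_of_nhds
    have t1 : ContinuousAt (fun w : ℂ => Dd (T (s, w), w) / deriv Φ s) 0 := by
      have a1 : AnalyticAt ℂ (fun w : ℂ => T (s, w)) 0 :=
        AnalyticAt.comp (g := T) (f := fun w : ℂ => (s, w)) hT (by fun_prop)
      have a2 : AnalyticAt ℂ (fun w : ℂ => Dd (T (s, w), w)) 0 := by
        refine AnalyticAt.comp (g := Dd) (f := fun w : ℂ => (T (s, w), w)) ?_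
          (a1.prod analyticAt_id)
        rw [hT0]
        exact hDd
      exact (a2.div analyticAt_const h.Φ0).continuousAt
    have h1 : HasDerivAt (fun w : ℂ => w * (Dd (T (s, w), w) / deriv Φ s))
        (Dd (T (s, 0), 0) / deriv Φ s) 0 := by
      rw [hasDerivAt_iff_tendsto_slope_zero]
      have t2 := t1.tendsto.mono_left (nhdsWithin_le_nhds (s := {0}ᶜ))
      refine t2.congr' ?_
      filter_upwards [self_mem_nhdsWithin] with w hw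
      have hw' : w ≠ 0 := hw
      simp only [zero_add, zero_mul, sub_zero, smul_eq_mul]
      rw [← mul_assoc, inv_mul_cancel₀ hw', one_mul]
    have h2 : (fun w : ℂ => NN Φ α T (s, w)) =ᶠ[𝓝 0]
        fun w : ℂ => w * (Dd (T (s, w), w) / deriv Φ s) := by
      filter_upwards [(tendsto_pair' s 0).eventually hNmul] with w hw
      exact hw
    have h3 := (h1.congr_of_eventuallyEq h2).unique hN1
    rwa [hT0] at h3
  have hD₀ne : D₀ ≠ 0 := by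
    intro h1
    rw [h1, zero_div] at hD₀'
    norm_num at hD₀'
  -- the two candidates
  have tx1 : Tendsto (fun v : ℂ × ℂ => Dd (T (v.1, F v) + F v, F v)) (𝓝 (s, 0)) (𝓝 D₀) :=
    tDd.comp tu
  set er : ℂ × ℂ → ℂ := fun v => ((S v).2 - v.2) / F v with her
  have hnb : ∀ᶠ v in 𝓝 ((s, 0) : ℂ × ℂ), v.2 = F v * (Dd (T (v.1, F v), F v) / deriv Φ v.1) := by
    filter_upwards [hF1, tvF.eventually hNmul] with v k1 k2
    rw [← k2, k1]
  have ter : Tendsto er (𝓝 (s, 0)) (𝓝 0) := by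
    have tb : Tendsto (fun v : ℂ × ℂ => |M| * (‖v.2‖ * ‖Dd (T (v.1, F v), F v) / deriv Φ v.1‖))
        (𝓝 (s, 0)) (𝓝 0) := by
      have t1 := (tDd.comp tTF).div tΦ1 h.Φ0
      have t2 := (tsnd.norm.mul t1.norm).const_mul |M|
      simpa using t2
    refine squeeze_zero_norm' ?_ tb
    filter_upwards [hnb, tfst.eventually (Metric.ball_mem_nhds s hr),
      tsnd.eventually (Metric.ball_mem_nhds 0 hr)] with v k1 k2 k3
    rw [dist_eq_norm] at k2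
    rw [dist_zero_right] at k3
    have k4 := (rB v.1 v.2 k2 k3).2
    simp only [her]
    rw [norm_div]
    by_cases hw : F v = 0
    · rw [hw, norm_zero, div_zero]
      positivity
    · have hw' : 0 < ‖F v‖ := norm_pos_iff.2 hw
      rw [div_le_iff₀ hw']
      refine k4.trans ?_
      have k5 : ‖v.2‖ = ‖F v‖ * ‖Dd (T (v.1, F v), F v) / deriv Φ v.1‖ := by
        rw [← norm_mul, ← k1]
      calc M * ‖v.2‖ ^ 2 ≤ |M| * ‖v.2‖ ^ 2 :=
            mul_le_mul_of_nonneg_right (le_abs_self M) (by positivity)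
        _ = |M| * (‖v.2‖ * ‖v.2‖) := by ring
        _ = |M| * (‖v.2‖ * (‖F v‖ * ‖Dd (T (v.1, F v), F v) / deriv Φ v.1‖)) := by
            rw [← k5]
        _ = |M| * (‖v.2‖ * ‖Dd (T (v.1, F v), F v) / deriv Φ v.1‖) * ‖F v‖ := by ring
  have tx2 : Tendsto (fun v : ℂ × ℂ => deriv Φ (S v).1 *
      (Dd (T (v.1, F v), F v) / deriv Φ v.1 + er v)) (𝓝 (s, 0)) (𝓝 D₀) := by
    have t1 := (tDd.comp tTF).div tΦ1 h.Φ0
    have t2 := tΦS.mul (t1.add ter)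
    have e1 : deriv Φ s * (D₀ / deriv Φ s + 0) = D₀ := by
      rw [add_zero, mul_div_cancel₀ _ h.Φ0]
    rw [e1] at t2
    exact t2
  have ta : Tendsto (fun v : ℂ × ℂ => α (T (v.1, F v) + F v / 2, F v)) (𝓝 (s, 0)) (𝓝 (Φ s)) := by
    have t1 : Tendsto (fun v : ℂ × ℂ => (T (v.1, F v) + F v / 2, F v)) (𝓝 (s, 0)) (𝓝 (s, 0)) := by
      have := (tT.add (tF.div_const 2)).prodMk_nhds tF
      rwa [zero_div, add_zero] at this
    have t2 := h.aα.continuousAt.tendsto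
    rw [h0] at t2
    exact t2.comp t1
  have hHε : AnalyticAt ℂ (fun x : ℂ × ℂ => H x.1) (Φ s, 0) :=
    AnalyticAt.comp (g := H) (f := fun x : ℂ × ℂ => x.1) h.aH analyticAt_fst
  have hρε : Vale.Agent.P097.H845.rho (fun x : ℂ × ℂ => H x.1) (Φ s, 0) ≠ 0 := by
    have h1 := h.rho.self_of_nhds
    intro h2
    have h3 : H (Φ s) + deriv (deriv H) (Φ s) = 0 := h2
    rw [h3, zero_mul] at h1
    exact h.c0 h1.symm
  have hroots := two_roots hHε hρε hD₀ne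
  have hquad := (tF.prodMk_nhds (ta.prodMk_nhds (tx2.prodMk_nhds tx1))).eventually hroots
  have hz1 : Tendsto (fun v : ℂ × ℂ => ((((S v).1, F v), T (v.1, F v) + F v) : (ℂ × ℂ) × ℂ))
      (𝓝 (s, 0)) (𝓝 ((s, 0), s)) := by
    have := (tS1.prodMk_nhds tF).prodMk_nhds (tT.add tF)
    rwa [add_zero] at this
  have hz2 : Tendsto (fun v : ℂ × ℂ => ((S v, F v) : (ℂ × ℂ) × ℂ)) (𝓝 (s, 0))
      (𝓝 ((s, 0), 0)) := tS.prodMk_nhds tF
  filter_upwards [hquad, rC, hF1, hnb, tvF.eventually (h.eap hT hT0 hT1), tu.eventually h.lines,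
    tu.eventually hDd1, tS1.eventually h.qL_eq, tfst.eventually h.qL_eq,
    tΦS.eventually_ne h.Φ0, hz1.eventually hT2, hz2.eventually hF2,
    tfst.eventually (Metric.ball_mem_nhds s hr),
    tsnd.eventually (Metric.ball_mem_nhds 0 hr)] with v kq kC kF1 knb ke kl kD kqS kqv kne kT2 kF2
      kb1 kb2
  by_cases hw : F v = 0
  · -- on the boundary
    have hv2 : v.2 = 0 := by rw [knb, hw, zero_mul]
    rw [dist_eq_norm] at kb1
    rw [dist_zero_right] at kb2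
    obtain ⟨k1, k2⟩ := rB v.1 v.2 kb1 kb2
    have hvv : (v.1, v.2) = v := rfl
    rw [hvv, hv2] at k1 k2
    simp only [norm_zero, ne_eq, OfNat.ofNat_ne_zero, not_false_eq_true, zero_pow, mul_zero,
      norm_le_zero_iff, add_zero, sub_eq_zero, sub_zero] at k1 k2
    have : S v = v := Prod.ext k1 (by rw [k2, hv2])
    rw [this]
  · set w := F v with hwdef
    set t := T (v.1, w) with ht
    set η' := (S v).2 with hη'
    set θ' := (S v).1 with hθ'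
    -- the product
    have e1 : w * (deriv Φ θ' * (Dd (t, w) / deriv Φ v.1 + er v)) = deriv Φ θ' * η' := by
      have h1 : w * er v = η' - v.2 := by
        simp only [her]
        rw [mul_div_cancel₀ _ hw]
      have h2 : w * (Dd (t, w) / deriv Φ v.1) = v.2 := knb.symm
      linear_combination deriv Φ θ' * (h1 + h2)
    have e2 : w * Dd (t + w, w) = dl α (t + w, w) := kD.symm
    have hvv : NN Φ α T (v.1, w) = v.2 := kF1
    rw [hvv] at ke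
    have e3 : t + w - w / 2 = t + w / 2 := by ring
    rw [e3] at kl
    obtain ⟨kl1, kl2, kl3, kl4⟩ := kl
    -- the equations
    have hθ1 : α (t + w / 2, w) + deriv Φ θ' * η' = Φ θ' := by
      have h1 := kC.1
      simp only [SC.aL] at h1
      rw [ke.1]
      linear_combination -h1
    have f1 : FF (fun x : ℂ × ℂ => H x.1) (α (t + w / 2, w)) (deriv Φ θ' * η') 0 =
        p (t + w / 2, w) := by
      have h1 := kC.2
      have h2 : SC.qL Φ (fun z => H (Φ z)) (-1) (S v) = H (Φ θ') * Complex.cos (deriv Φ θ' * η') +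
          -1 * (deriv H (Φ θ') * Complex.sin (deriv Φ θ' * η')) := kqS (-1) η'
      have h3 : SC.qL Φ (fun z => H (Φ z)) 1 v = H (Φ v.1) * Complex.cos (deriv Φ v.1 * v.2) +
          1 * (deriv H (Φ v.1) * Complex.sin (deriv Φ v.1 * v.2)) := kqv 1 v.2
      rw [h2, h3] at h1
      simp only [FF, dpsi]
      rw [hθ1, ke.2]
      linear_combination h1
    have f2 : FF (fun x : ℂ × ℂ => H x.1) (α (t + w / 2, w)) (dl α (t + w, w)) 0 =
        p (t + w / 2, w) := by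
      simp only [FF, dpsi]
      have h1 : α (t + w / 2, w) + dl α (t + w, w) = ps α (t + w, w) := by
        rw [kl2]
        ring
      rw [h1, kl4]
    have hx := kq hw
    rw [e1, e2] at hx
    have hx' := hx (by rw [f1, f2])
    have e5 : deriv Φ θ' * η' = dl α (t + w, w) := by
      rw [← e1, ← e2, hx']
    have e6 : ps α (t + w, w) = Φ θ' := by
      rw [← hθ1, e5, kl2]
      ring
    have e7 : t + w = T (θ', w) := kT2 e6
    have e8 : NN Φ α T (θ', w) = η' := by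
      simp only [NN]
      rw [← e7, ← e5, mul_div_cancel_left₀ _ kne]
    exact (kF2 e8).symm

/-- **the local form of RegD** -/
theorem Loc.sol (h : Loc Φ H c J α p s) (hA : SC.RegA) :
    ∃ F N T : ℂ × ℂ → ℂ, SC.Sol Φ (fun z => H (Φ z)) c J α p F N T s := by
  obtain ⟨T, hT, hT0, hTz, hT1, hT2⟩ := h.exists_T
  obtain ⟨F, hF, hF0, hF1, hF2⟩ := h.exists_F hT hT0 hTz
  obtain ⟨rA, rB, rC⟩ := hA Φ (fun z => H (Φ z)) c s h.c0 h.crv
  have tfst : Tendsto (fun v : ℂ × ℂ => v.1) (𝓝 (s, 0)) (𝓝 s) := continuous_fst.tendsto _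
  have tsnd : Tendsto (fun v : ℂ × ℂ => v.2) (𝓝 (s, 0)) (𝓝 0) := continuous_snd.tendsto _
  have tF : Tendsto F (𝓝 (s, 0)) (𝓝 0) := by
    have := hF.continuousAt.tendsto
    rwa [hF0] at this
  have hN0 : NN Φ α T (s, 0) = 0 := ((h.N_deriv hT hTz).self_of_nhds).1
  have tN : Tendsto (NN Φ α T) (𝓝 (s, 0)) (𝓝 0) := by
    have := (h.N_an hT hT0).continuousAt.tendsto
    rwa [hN0] at this
  have hFz : ∀ᶠ z in 𝓝 s, F (z, 0) = 0 := by
    have t1 : Tendsto (fun z : ℂ => (((z, 0), 0) : (ℂ × ℂ) × ℂ)) (𝓝 s) (𝓝 ((s, 0), 0)) := by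
      have : Continuous fun z : ℂ => (((z, 0), 0) : (ℂ × ℂ) × ℂ) := by fun_prop
      exact this.tendsto _
    filter_upwards [t1.eventually hF2, h.N_deriv hT hTz] with z k1 k2
    exact (k1 k2.1).symm
  refine ⟨F, NN Φ α T, T, ⟨hF, ?_, h.inv hT hT0 hTz hT1 hT2 hF hF0 hF1 hF2 rA rB rC, ?_⟩,
    h.N_an hT hT0, (h.N_deriv hT hTz).mono fun z hz => hz.1, ?_, hT, hTz, h.dT hT hT0 hT1, h.aα,
    h.ap, ?_, ?_⟩
  · -- parity
    have t1 : Tendsto (fun v : ℂ × ℂ => (v.1, F v)) (𝓝 (s, 0)) (𝓝 (s, 0)) := tfst.prodMk_nhds tF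
    have t2 : Tendsto (fun v : ℂ × ℂ => (((v.1, -v.2), -F v) : (ℂ × ℂ) × ℂ)) (𝓝 (s, 0))
        (𝓝 ((s, 0), 0)) := by
      have := (tfst.prodMk_nhds tsnd.neg).prodMk_nhds tF.neg
      rwa [neg_zero] at this
    filter_upwards [t1.eventually (h.even hT hT0 hT1 hT2), t2.eventually hF2, hF1] with v k1 k2 k3
    refine (k2 ?_).symm
    rw [k1, k3]
  · -- normalisation
    filter_upwards [h.N_deriv hT hTz, hFz, (tendsto_pair s).eventually hF.eventually_analyticAt,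
      (tendsto_pair s).eventually hF1.eventually_nhds] with z k1 k2 k3 k4
    have d1 := fderiv_snd k3
    simp only at d1
    have d2 : HasDerivAt (fun η => NN Φ α T (z, F (z, η))) (1 / 2 * fderiv ℂ F (z, 0) (0, 1)) 0 := by
      refine HasDerivAt.comp (h₂ := fun w => NN Φ α T (z, w)) (h := fun η => F (z, η)) 0 ?_ d1
      rw [k2]
      exact k1.2
    have d3 : HasDerivAt (fun η : ℂ => η) (1 / 2 * fderiv ℂ F (z, 0) (0, 1)) 0 := by
      refine d2.congr_of_eventuallyEq ?_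
      have t1 : Tendsto (fun η : ℂ => (z, η)) (𝓝 0) (𝓝 (z, 0)) := tendsto_pair' z 0
      filter_upwards [t1.eventually k4] with η hη
      exact hη.symm
    have d4 := d3.unique (hasDerivAt_id _)
    rw [d1.deriv]
    linear_combination 2 * d4
  · -- inverse
    have t2 : Tendsto (fun v : ℂ × ℂ => (((v.1, NN Φ α T v), v.2) : (ℂ × ℂ) × ℂ)) (𝓝 (s, 0))
        (𝓝 ((s, 0), 0)) := (tfst.prodMk_nhds tN).prodMk_nhds tsnd
    filter_upwards [t2.eventually hF2] with v k1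
    exact (k1 rfl).symm
  · filter_upwards [h.eap hT hT0 hT1] with v hv
    rw [hv.1]
    simp only [SC.aL]
    ring
  · filter_upwards [h.eap hT hT0 hT1, tfst.eventually h.qL_eq] with v hv hq
    rw [hv.2, hq 1]
    ring

end

end Vale.Agent.P097.H845.RD
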