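import Vale.Agent.P097.H845.Gl7

/-!
# P097: germs of deformed chains, ramified rotation number `w = s ^ N`
-/

open Set Filter Topology

namespace Vale.Agent.P097.H845.R

noncomputable section

attribute [local fun_prop] analyticAt_fst analyticAt_snd

/-- A word: lines `u j (t, w)`, mirrors `H j (ψ, ε)`, glancing letters `gl`. -/
structure Word (t₀ : ℂ) (Ω : Set ℂ) (N n : ℕ) (H : ℕ → ℂ × ℂ → ℂ) (u : ℕ → ℂ × ℂ → ℂ × ℂ)
    (gl : ℕ → Prop) : Prop where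
  an : ∀ w ∈ Ω, ∀ j ≤ n, AnalyticAt ℂ (u j) (t₀, w)
  rl : ∀ w ∈ Ω, ∀ j < n, ∀ᶠ x in 𝓝 (t₀, w), RL (H j) 0 (u j x) (u (j + 1) x)
  hH : ∀ w ∈ Ω, ∀ j < n, AnalyticAt ℂ (H j) (vtx (u j (t₀, w)) (u (j + 1) (t₀, w)), 0)
  hρ : ∀ w ∈ Ω, ∀ j < n, rho (H j) (vtx (u j (t₀, w)) (u (j + 1) (t₀, w)), 0) ≠ 0
  hs : ∀ w ∈ Ω, w ≠ 0 → ∀ j < n, Complex.sin (hta (u j (t₀, w)) (u (j + 1) (t₀, w))) ≠ 0
  g0 : ∀ j < n, gl j → ∀ᶠ t in 𝓝 t₀, (u (j + 1) (t, 0)).1 = (u j (t, 0)).1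
  g1 : ∀ j < n, gl j → ∃ D : ℂ → ℂ, ContinuousAt D 0 ∧ D 0 ≠ 0 ∧
    ∀ᶠ w in 𝓝 (0 : ℂ), hta (u j (t₀, w)) (u (j + 1) (t₀, w)) = w ^ N * D w
  g2 : ∀ j < n, gl j → deriv (fun t => (u j (t, 0)).1) t₀ ≠ 0
  tr : ∀ j < n, ¬ gl j → Complex.sin (hta (u j (t₀, 0)) (u (j + 1) (t₀, 0))) ≠ 0

/-- Germ at `(w₀, 0)` of a deformed chain of length `n`, variables `(s, e)`, `w = s ^ N`, `ε = e w²`. -/
structure GC (t₀ : ℂ) (N : ℕ) (H : ℕ → ℂ × ℂ → ℂ) (u : ℕ → ℂ × ℂ → ℂ × ℂ) (n : ℕ) (w₀ : ℂ)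
    (V : ℕ → ℂ × ℂ → ℂ × ℂ) : Prop where
  an : ∀ j ≤ n, AnalyticAt ℂ (V j) (w₀, 0)
  v0 : ∀ᶠ x : ℂ × ℂ in 𝓝 (w₀, 0), V 0 x = u 0 (t₀, x.1)
  rl : ∀ j < n, ∀ᶠ x : ℂ × ℂ in 𝓝 (w₀, 0), RL (H j) (x.2 * (x.1 ^ N) ^ 2) (V j x) (V (j + 1) x)
  nat : ∀ j ≤ n, ∀ᶠ w in 𝓝 w₀, V j (w, 0) = u j (t₀, w)

variable {t₀ : ℂ} {Ω : Set ℂ} {N n : ℕ} {H : ℕ → ℂ × ℂ → ℂ} {u : ℕ → ℂ × ℂ → ℂ × ℂ}
  {gl : ℕ → Prop} {w₀ w₁ : ℂ} {V V' : ℕ → ℂ × ℂ → ℂ × ℂ}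

/-- truncation -/
lemma GC.mono (h : GC t₀ N H u n w₀ V) {m : ℕ} (hm : m ≤ n) : GC t₀ N H u m w₀ V where
  an := fun j hj => h.an j (hj.trans hm)
  v0 := h.v0
  rl := fun j hj => h.rl j (hj.trans_le hm)
  nat := fun j hj => h.nat j (hj.trans hm)

/-- one more line -/
lemma GC.step (h : GC t₀ N H u n w₀ V) {v : ℂ × ℂ → ℂ × ℂ} (hv : AnalyticAt ℂ v (w₀, 0))
    (hr : ∀ᶠ x : ℂ × ℂ in 𝓝 (w₀, 0), RL (H n) (x.2 * (x.1 ^ N) ^ 2) (V n x) (v x))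
    (hn : ∀ᶠ w in 𝓝 w₀, v (w, 0) = u (n + 1) (t₀, w)) :
    GC t₀ N H u (n + 1) w₀ (Function.update V (n + 1) v) := by
  have hne : ∀ j, j ≤ n → Function.update V (n + 1) v j = V j := by
    intro j hj
    exact Function.update_of_ne (by omega) _ _
  have heq : Function.update V (n + 1) v (n + 1) = v := Function.update_self _ _ _
  refine ⟨?_, ?_, ?_, ?_⟩
  · intro j hj
    rcases Nat.lt_or_ge n j with h1 | h1
    · obtain rfl : j = n + 1 := by omega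
      rw [heq]
      exact hv
    · rw [hne j h1]
      exact h.an j h1
  · rw [hne 0 (Nat.zero_le _)]
    exact h.v0
  · intro j hj
    rcases Nat.lt_or_ge j n with h1 | h1
    · rw [hne j h1.le, hne (j + 1) h1]
      exact h.rl j h1
    · obtain rfl : j = n := by omega
      rw [hne j le_rfl, heq]
      exact hr
  · intro j hj
    rcases Nat.lt_or_ge n j with h1 | h1
    · obtain rfl : j = n + 1 := by omega
      rw [heq]
      exact hn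
    · rw [hne j h1]
      exact h.nat j h1

/-- uniqueness at `w₁ ≠ 0` -/
theorem GC.unique (W : Word t₀ Ω N n H u gl) (hw : w₁ ∈ Ω) (hw0 : w₁ ≠ 0)
    (h : GC t₀ N H u n w₁ V) (h' : GC t₀ N H u n w₁ V') : ∀ j ≤ n, V j =ᶠ[𝓝 (w₁, 0)] V' j := by
  intro j
  induction j with
  | zero =>
    intro _
    filter_upwards [h.v0, h'.v0] with x h1 h2
    rw [h1, h2]
  | succ j ih =>
    intro hj
    have hj' : j < n := hj
    have ih := ih hj'.le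
    have hR : RL (H j) 0 (u j (t₀, w₁)) (u (j + 1) (t₀, w₁)) :=
      (W.rl w₁ hw j hj').self_of_nhds
    obtain ⟨G, -, -, -, hG⟩ := reg_letter (W.hH w₁ hw j hj') hR (W.hρ w₁ hw j hj')
      (W.hs w₁ hw hw0 j hj')
    have key : ∀ V : ℕ → ℂ × ℂ → ℂ × ℂ, GC t₀ N H u n w₁ V →
        ∀ᶠ x : ℂ × ℂ in 𝓝 (w₁, 0), V (j + 1) x = G (V j x, x.2 * (x.1 ^ N) ^ 2) := by
      intro V h
      have c1 := (h.an j hj'.le).continuousAt
      have c2 := (h.an (j + 1) hj).continuousAt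
      have n1 := (h.nat j hj'.le).self_of_nhds
      have n2 := (h.nat (j + 1) hj).self_of_nhds
      have ht : Tendsto (fun x : ℂ × ℂ => ((V j x, x.2 * (x.1 ^ N) ^ 2), V (j + 1) x)) (𝓝 (w₁, 0))
          (𝓝 ((u j (t₀, w₁), 0), u (j + 1) (t₀, w₁))) := by
        have h1 : ContinuousAt (fun x : ℂ × ℂ => ((V j x, x.2 * (x.1 ^ N) ^ 2), V (j + 1) x))
            (w₁, 0) := by fun_prop
        have h2 := h1.tendsto
        simp only [zero_mul] at h2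
        rwa [n1, n2] at h2
      filter_upwards [ht.eventually hG, h.rl j hj'] with x h1 h2
      exact h1 h2
    filter_upwards [key V h, key V' h', ih] with x h1 h2 h3
    rw [h1, h2, h3]

/-- germs propagate to nearby base points -/
theorem GC.near (h : GC t₀ N H u n w₀ V) : ∀ᶠ w₁ in 𝓝 w₀, GC t₀ N H u n w₁ V := by
  have h1 : ∀ᶠ w₁ in 𝓝 w₀, ∀ j ∈ Finset.range (n + 1), AnalyticAt ℂ (V j) (w₁, 0) :=
    (eventually_all_finset _).2 fun j hj =>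
      (tendsto_pair w₀).eventually (h.an j (by simpa [Nat.lt_succ_iff] using hj)).eventually_analyticAt
  have h2 := (tendsto_pair w₀).eventually h.v0.eventually_nhds
  have h3 : ∀ᶠ w₁ in 𝓝 w₀, ∀ j ∈ Finset.range n, ∀ᶠ x : ℂ × ℂ in 𝓝 (w₁, 0),
      RL (H j) (x.2 * (x.1 ^ N) ^ 2) (V j x) (V (j + 1) x) :=
    (eventually_all_finset _).2 fun j hj =>
      (tendsto_pair w₀).eventually (h.rl j (by simpa using hj)).eventually_nhds
  have h4 : ∀ᶠ w₁ in 𝓝 w₀, ∀ j ∈ Finset.range (n + 1), ∀ᶠ w in 𝓝 w₁, V j (w, 0) = u j (t₀, w) :=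
    (eventually_all_finset _).2 fun j hj =>
      (h.nat j (by simpa [Nat.lt_succ_iff] using hj)).eventually_nhds
  filter_upwards [h1, h2, h3, h4] with w₁ k1 k2 k3 k4
  exact ⟨fun j hj => k1 j (by simpa [Nat.lt_succ_iff] using hj), k2,
    fun j hj => k3 j (by simpa using hj), fun j hj => k4 j (by simpa [Nat.lt_succ_iff] using hj)⟩

/-- a regular letter continues a germ -/
theorem GC.reg (W : Word t₀ Ω N n H u gl) (hw : w₀ ∈ Ω) {j : ℕ} (hj : j < n)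
    (hs : Complex.sin (hta (u j (t₀, w₀)) (u (j + 1) (t₀, w₀))) ≠ 0) (h : GC t₀ N H u j w₀ V) :
    ∃ G : (ℂ × ℂ) × ℂ → ℂ × ℂ, AnalyticAt ℂ G (u j (t₀, w₀), 0) ∧
      (∀ᶠ x in 𝓝 (t₀, w₀), G (u j x, 0) = u (j + 1) x) ∧
      GC t₀ N H u (j + 1) w₀ (Function.update V (j + 1) fun x => G (V j x, x.2 * (x.1 ^ N) ^ 2)) := by
  have hR : RL (H j) 0 (u j (t₀, w₀)) (u (j + 1) (t₀, w₀)) := (W.rl w₀ hw j hj).self_of_nhds
  obtain ⟨G, hG, hG0, hG1, hG2⟩ := reg_letter (W.hH w₀ hw j hj) hR (W.hρ w₀ hw j hj) hs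
  have n1 := (h.nat j le_rfl).self_of_nhds
  have hGn : ∀ᶠ x in 𝓝 (t₀, w₀), G (u j x, 0) = u (j + 1) x := by
    have c1 := (W.an w₀ hw j hj.le).continuousAt
    have c2 := (W.an w₀ hw (j + 1) hj).continuousAt
    have ht : Tendsto (fun x : ℂ × ℂ => ((u j x, (0 : ℂ)), u (j + 1) x)) (𝓝 (t₀, w₀))
        (𝓝 ((u j (t₀, w₀), 0), u (j + 1) (t₀, w₀))) := by
      have h1 : ContinuousAt (fun x : ℂ × ℂ => ((u j x, (0 : ℂ)), u (j + 1) x)) (t₀, w₀) := by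
        fun_prop
      exact h1.tendsto
    filter_upwards [ht.eventually hG2, W.rl w₀ hw j hj] with x h1 h2
    exact (h1 h2).symm
  refine ⟨G, hG, hGn, h.step ?_ ?_ ?_⟩
  · have h1 : AnalyticAt ℂ (fun x : ℂ × ℂ => (V j x, x.2 * (x.1 ^ N) ^ 2)) (w₀, 0) := by
      have a1 : AnalyticAt ℂ (fun x : ℂ × ℂ => x.2 * (x.1 ^ N) ^ 2) (w₀, 0) := by fun_prop
      exact (h.an j le_rfl).prod a1
    refine AnalyticAt.comp (g := G) (f := fun x : ℂ × ℂ => (V j x, x.2 * (x.1 ^ N) ^ 2)) ?_ h1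
    simp only [zero_mul]
    rw [n1]
    exact hG
  · have c1 := (h.an j le_rfl).continuousAt
    have ht : Tendsto (fun x : ℂ × ℂ => (V j x, x.2 * (x.1 ^ N) ^ 2)) (𝓝 (w₀, 0))
        (𝓝 (u j (t₀, w₀), 0)) := by
      have h1 : ContinuousAt (fun x : ℂ × ℂ => (V j x, x.2 * (x.1 ^ N) ^ 2)) (w₀, 0) := by fun_prop
      have h2 := h1.tendsto
      simp only [zero_mul] at h2
      rwa [n1] at h2
    filter_upwards [ht.eventually hG1] with x hx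
    exact hx
  · filter_upwards [h.nat j le_rfl, (tendsto_pair' t₀ w₀).eventually hGn] with w h1 h2
    simp only [zero_mul]
    rw [h1, h2]

/-- existence at `w₀ ≠ 0` -/
theorem GC.exists_reg (W : Word t₀ Ω N n H u gl) (hw : w₀ ∈ Ω) (hw0 : w₀ ≠ 0) :
    ∃ V, GC t₀ N H u n w₀ V := by
  have key : ∀ j ≤ n, ∃ V, GC t₀ N H u j w₀ V := by
    intro j
    induction j with
    | zero =>
      intro _
      refine ⟨fun _ x => u 0 (t₀, x.1), ⟨?_, Eventually.of_forall fun _ => rfl, ?_, ?_⟩⟩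
      · intro j hj
        exact AnalyticAt.comp (g := u 0) (f := fun x : ℂ × ℂ => (t₀, x.1))
          (W.an w₀ hw 0 (Nat.zero_le _)) (by fun_prop)
      · intro j hj
        omega
      · intro j hj
        obtain rfl : j = 0 := by omega
        exact Eventually.of_forall fun _ => rfl
    | succ j ih =>
      intro hj
      obtain ⟨V, hV⟩ := ih (by omega)
      obtain ⟨G, -, -, hG⟩ := hV.reg W hw hj (W.hs w₀ hw hw0 j hj)
      exact ⟨_, hG⟩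
  exact key n le_rfl

end

end Vale.Agent.P097.H845.R
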