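import Vale.Agent.P097.H845.Rg1

/-!
# P097: the glancing step, natural chain in the ramified variable
-/

open Set Filter Topology

namespace Vale.Agent.P097.H845.R

noncomputable section

attribute [local fun_prop] analyticAt_fst analyticAt_snd

lemma tendsto_pow {N : ℕ} (hN : N ≠ 0) : Tendsto (fun s : ℂ => s ^ N) (𝓝 0) (𝓝 0) := by
  have h1 : Continuous fun s : ℂ => s ^ N := by fun_prop
  have h2 := h1.tendsto 0
  rwa [zero_pow hN] at h2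

lemma tendsto_pow' {N : ℕ} (hN : N ≠ 0) : Tendsto (fun s : ℂ => s ^ N) (𝓝[≠] 0) (𝓝[≠] 0) := by
  refine tendsto_nhdsWithin_of_tendsto_nhds_of_eventually_within _
    ((tendsto_pow hN).mono_left nhdsWithin_le_nhds) ?_
  filter_upwards [self_mem_nhdsWithin] with s hs
  exact pow_ne_zero N hs

lemma tendsto_powp {N : ℕ} (hN : N ≠ 0) :
    Tendsto (fun s : ℂ => (s ^ N, (0 : ℂ))) (𝓝 0) (𝓝 (0, 0)) :=
  (tendsto_pair 0).comp (tendsto_pow hN)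

lemma tendsto_powe {N : ℕ} (hN : N ≠ 0) :
    Tendsto (fun x : ℂ × ℂ => (x.1 ^ N, x.2)) (𝓝 (0, 0)) (𝓝 (0, 0)) := by
  have h1 : Continuous fun x : ℂ × ℂ => (x.1 ^ N, x.2) := by fun_prop
  have h2 := h1.tendsto (0, 0)
  simp only at h2
  rwa [zero_pow hN] at h2

/-- **Glancing step.** -/
theorem glance {H : ℂ × ℂ → ℂ} {a₀ D₀ : ℂ} {N : ℕ} (hN : N ≠ 0) (hH : AnalyticAt ℂ H (a₀, 0))
    (hρ : rho H (a₀, 0) ≠ 0) (hD₀ : D₀ ≠ 0) {X U : ℂ × ℂ → ℂ} (hX : AnalyticAt ℂ X (0, 0))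
    (hU : AnalyticAt ℂ U (0, 0)) (hX0 : ∀ᶠ e in 𝓝 (0 : ℂ), X (0, e) = a₀)
    (hU0 : rho H (a₀, 0) / 2 * D₀ ^ 2 = U (0, 0)) :
    ∃ D U' : ℂ × ℂ → ℂ, AnalyticAt ℂ D (0, 0) ∧ AnalyticAt ℂ U' (0, 0) ∧ D (0, 0) = D₀ ∧
      (∀ᶠ x : ℂ × ℂ in 𝓝 (0, 0), RL H (x.2 * x.1 ^ 2) (X x, H (X x, 0) - x.1 ^ 2 * U x)
        (X x + 2 * (x.1 * D x), H (X x + 2 * (x.1 * D x), 0) - x.1 ^ 2 * U' x)) ∧
      (∀ᶠ e in 𝓝 (0 : ℂ), rho H (a₀, 0) / 2 * D (0, e) ^ 2 = U (0, e) + e * deps H a₀ ∧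
        U' (0, e) = U (0, e)) ∧
      ∀ Dn : ℂ → ℂ, ContinuousAt Dn 0 → Dn 0 = D₀ →
        (∀ᶠ s in 𝓝 (0 : ℂ), H (X (s ^ N, 0), 0) - (s ^ N) ^ 2 * U (s ^ N, 0) =
          FF H (X (s ^ N, 0)) (s ^ N * Dn s) 0) → ∀ᶠ s in 𝓝 (0 : ℂ), Dn s = D (s ^ N, 0) := by
  have hX00 : X (0, 0) = a₀ := hX0.self_of_nhds
  obtain ⟨D, U', hD, hU', hD0, h1, h2, h3⟩ := gl_letter hH hρ hD₀ hU0
  have hm : AnalyticAt ℂ (fun x : ℂ × ℂ => (x.1, x.2, X x, U x)) (0, 0) := by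
    have a1 : AnalyticAt ℂ (fun x : ℂ × ℂ => x.1) (0, 0) := by fun_prop
    have a2 : AnalyticAt ℂ (fun x : ℂ × ℂ => x.2) (0, 0) := by fun_prop
    exact a1.prod (a2.prod (hX.prod hU))
  have hmt : Tendsto (fun x : ℂ × ℂ => (x.1, x.2, X x, U x)) (𝓝 (0, 0))
      (𝓝 (0, 0, a₀, U (0, 0))) := by
    have := hm.continuousAt.tendsto
    rwa [hX00] at this
  have hDa : AnalyticAt ℂ (fun x : ℂ × ℂ => D (x.1, x.2, X x, U x)) (0, 0) := by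
    refine AnalyticAt.comp (g := D) (f := fun x : ℂ × ℂ => (x.1, x.2, X x, U x)) ?_ hm
    rw [hX00]
    exact hD
  have hUa : AnalyticAt ℂ (fun x : ℂ × ℂ => U' (x.1, x.2, X x, U x)) (0, 0) := by
    refine AnalyticAt.comp (g := U') (f := fun x : ℂ × ℂ => (x.1, x.2, X x, U x)) ?_ hm
    rw [hX00]
    exact hU'
  refine ⟨fun x => D (x.1, x.2, X x, U x), fun x => U' (x.1, x.2, X x, U x), hDa, hUa, ?_, ?_, ?_,
    ?_⟩
  · simp only [hX00]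
    exact hD0
  · exact hmt.eventually h1
  · have hc : Tendsto (fun e : ℂ => ((0 : ℂ), e)) (𝓝 0) (𝓝 (0, 0)) := by
      have : Continuous fun e : ℂ => ((0 : ℂ), e) := by fun_prop
      exact this.tendsto _
    have hUc : ContinuousAt (fun e : ℂ => U (0, e)) 0 :=
      ContinuousAt.comp (g := U) (f := fun e : ℂ => ((0 : ℂ), e)) hU.continuousAt hc
    have ht : Tendsto (fun e : ℂ => (e, a₀, U (0, e))) (𝓝 0) (𝓝 (0, a₀, U (0, 0))) := by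
      have : ContinuousAt (fun e : ℂ => (e, a₀, U (0, e))) 0 := by fun_prop
      exact this.tendsto
    filter_upwards [hX0, ht.eventually h2] with e k1 k2
    rw [k1]
    exact k2
  · intro Dn hDc hDn0 hn
    have hc := tendsto_powp hN
    have h00 : ((0 : ℂ) ^ N, (0 : ℂ)) = (0, 0) := by rw [zero_pow hN]
    have hUc : Tendsto (fun s : ℂ => U (s ^ N, 0)) (𝓝 0) (𝓝 (U (0, 0))) :=
      hU.continuousAt.tendsto.comp hc
    have hXc : Tendsto (fun s : ℂ => X (s ^ N, 0)) (𝓝 0) (𝓝 a₀) := by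
      have := hX.continuousAt.tendsto.comp hc
      rwa [hX00] at this
    have hDc' : Tendsto Dn (𝓝 0) (𝓝 D₀) := by
      have := hDc.tendsto
      rwa [hDn0] at this
    have ht : Tendsto (fun s : ℂ => ((s ^ N, (0 : ℂ), X (s ^ N, 0), U (s ^ N, 0)), Dn s)) (𝓝 0)
        (𝓝 ((0, 0, a₀, U (0, 0)), D₀)) :=
      ((tendsto_pow hN).prodMk_nhds (tendsto_const_nhds.prodMk_nhds
        (hXc.prodMk_nhds hUc))).prodMk_nhds hDc'
    filter_upwards [ht.eventually h3, hn] with s k1 k2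
    by_cases hs : s = 0
    · subst hs
      rw [zero_pow hN, hDn0, hX00]
      exact hD0.symm
    · apply k1 (pow_ne_zero N hs)
      simp only [zero_mul]
      exact k2

/-- the constant `U (0, 0)` from the natural chain -/
lemma nat_U {h : ℂ × ℂ → ℂ} {a₁ : ℂ} {N : ℕ} (hN : N ≠ 0) (hh : AnalyticAt ℂ h (a₁, 0))
    {X U Dn : ℂ → ℂ} (hX : ContinuousAt X 0) (hU : ContinuousAt U 0) (hD : ContinuousAt Dn 0)
    (hX0 : X 0 = a₁)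
    (hn : ∀ᶠ s in 𝓝 (0 : ℂ), h (X s, 0) - (s ^ N) ^ 2 * U s = FF h (X s) (s ^ N * Dn s) 0) :
    rho h (a₁, 0) / 2 * Dn 0 ^ 2 = U 0 := by
  obtain ⟨G, hG⟩ := exists_GQ hh
  obtain ⟨g1, g2, g3⟩ := hG (Dn 0) 0
  have ht : Tendsto (fun s : ℂ => (s ^ N, X s, Dn s, (0 : ℂ))) (𝓝 0) (𝓝 (0, a₁, Dn 0, 0)) := by
    have h1 := hX.tendsto
    rw [hX0] at h1
    exact (tendsto_pow hN).prodMk_nhds (h1.prodMk_nhds (hD.tendsto.prodMk_nhds tendsto_const_nhds))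
  have h1 : ∀ᶠ s in 𝓝[≠] (0 : ℂ), U s = G (s ^ N, X s, Dn s, 0) := by
    rw [eventually_nhdsWithin_iff]
    filter_upwards [ht.eventually g2, hn] with w k1 k2 hw
    simp only [zero_mul] at k1
    rw [← k2] at k1
    have hw2 : (w ^ N) ^ 2 ≠ 0 := pow_ne_zero 2 (pow_ne_zero N hw)
    have h5 : (w ^ N) ^ 2 * (U w - G (w ^ N, X w, Dn w, 0)) = 0 := by linear_combination k1
    exact sub_eq_zero.1 ((mul_eq_zero.1 h5).resolve_left hw2)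
  have h2 : Tendsto (fun w => G (w ^ N, X w, Dn w, 0)) (𝓝 0) (𝓝 (G (0, a₁, Dn 0, 0))) :=
    g1.continuousAt.tendsto.comp ht
  have h3 := tendsto_nhds_unique_of_eventuallyEq (hU.tendsto.mono_left nhdsWithin_le_nhds)
    (h2.mono_left nhdsWithin_le_nhds) h1
  rw [h3, g3.self_of_nhds]
  ring

/-- The glancing letter applied to a scaled line. -/
theorem glance_line {h : ℂ × ℂ → ℂ} {uj uj' : ℂ → ℂ × ℂ} {X U : ℂ × ℂ → ℂ} {a₁ : ℂ} {N : ℕ}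
    (hN : N ≠ 0)
    (hh : AnalyticAt ℂ h (a₁, 0)) (hρ : rho h (a₁, 0) ≠ 0) (hX : AnalyticAt ℂ X (0, 0))
    (hU : AnalyticAt ℂ U (0, 0)) (hX0 : ∀ᶠ e in 𝓝 (0 : ℂ), X (0, e) = a₁)
    {Dn : ℂ → ℂ} (hDn : ContinuousAt Dn 0) (hDn0 : Dn 0 ≠ 0)
    (hDnw : ∀ᶠ s in 𝓝 (0 : ℂ), hta (uj s) (uj' s) = s ^ N * Dn s)
    (hu : ∀ᶠ s in 𝓝 (0 : ℂ), uj s =
      (X (s ^ N, 0), h (X (s ^ N, 0), 0) - (s ^ N) ^ 2 * U (s ^ N, 0)))
    (hr : ∀ᶠ s in 𝓝 (0 : ℂ), RL h 0 (uj s) (uj' s)) :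
    ∃ D U' : ℂ × ℂ → ℂ, AnalyticAt ℂ D (0, 0) ∧ AnalyticAt ℂ U' (0, 0) ∧
      D (0, 0) = Dn 0 ∧
      (∀ᶠ x : ℂ × ℂ in 𝓝 (0, 0), RL h (x.2 * x.1 ^ 2) (X x, h (X x, 0) - x.1 ^ 2 * U x)
        (X x + 2 * (x.1 * D x), h (X x + 2 * (x.1 * D x), 0) - x.1 ^ 2 * U' x)) ∧
      (∀ᶠ e in 𝓝 (0 : ℂ), rho h (a₁, 0) / 2 * D (0, e) ^ 2 = U (0, e) + e * deps h a₁ ∧
        U' (0, e) = U (0, e)) ∧
      ∀ᶠ s in 𝓝 (0 : ℂ), (X (s ^ N, 0) + 2 * (s ^ N * D (s ^ N, 0)),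
        h (X (s ^ N, 0) + 2 * (s ^ N * D (s ^ N, 0)), 0) - (s ^ N) ^ 2 * U' (s ^ N, 0)) =
          uj' s := by
  have hX00 : X (0, 0) = a₁ := hX0.self_of_nhds
  have hp := tendsto_powp hN
  have h00 : ((0 : ℂ) ^ N, (0 : ℂ)) = (0, 0) := by rw [zero_pow hN]
  have cX : ContinuousAt (fun s : ℂ => X (s ^ N, 0)) 0 := by
    have := hX.continuousAt.tendsto.comp hp
    unfold ContinuousAt
    simp only
    rw [h00]
    exact this
  have cU : ContinuousAt (fun s : ℂ => U (s ^ N, 0)) 0 := by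
    have := hU.continuousAt.tendsto.comp hp
    unfold ContinuousAt
    simp only
    rw [h00]
    exact this
  have hn : ∀ᶠ s in 𝓝 (0 : ℂ), h (X (s ^ N, 0), 0) - (s ^ N) ^ 2 * U (s ^ N, 0) =
      FF h (X (s ^ N, 0)) (s ^ N * Dn s) 0 := by
    filter_upwards [hu, hr, hDnw] with w k1 k2 k4
    have k3 := ((RL_iff _ _ _ _).1 k2).1
    unfold hta at k4
    rw [k4, k1] at k3
    exact k3
  have hU0 := nat_U hN hh cX cU hDn (by rw [h00]; exact hX00) hn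
  rw [h00] at hU0
  obtain ⟨D, U', hD, hU', hD0, h1, h2, h3⟩ := glance hN hh hρ hDn0 hX hU hX0 hU0
  refine ⟨D, U', hD, hU', hD0, h1, h2, ?_⟩
  filter_upwards [h3 Dn hDn rfl hn, hp.eventually h1, hu, hr, hDnw] with w k1 k2 k3 k4 k5
  simp only [zero_mul] at k2
  rw [← k3] at k2
  refine RL_second k2 k4 ?_
  unfold hta at k5
  simp only
  rw [← k1, ← k5, k3]
  simp only
  ring

/-- the first line in scaled form -/
theorem init {h : ℂ × ℂ → ℂ} {a p Dn : ℂ → ℂ} {N : ℕ} (hN : N ≠ 0)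
    (hh : AnalyticAt ℂ h (a 0, 0)) (ha : AnalyticAt ℂ a 0) (hp : AnalyticAt ℂ p 0)
    (hD : ContinuousAt Dn 0)
    (hn : ∀ᶠ s in 𝓝 (0 : ℂ), p (s ^ N) = FF h (a (s ^ N)) (s ^ N * Dn s) 0) :
    ∃ U : ℂ → ℂ, AnalyticAt ℂ U 0 ∧ U 0 = rho h (a 0, 0) / 2 * Dn 0 ^ 2 ∧
      ∀ᶠ w in 𝓝 (0 : ℂ), p w = h (a w, 0) - w ^ 2 * U w := by
  obtain ⟨G, hG⟩ := exists_GQ hh
  obtain ⟨g1, g2, g3⟩ := hG (Dn 0) 0
  have ht : Tendsto (fun s : ℂ => (s ^ N, a (s ^ N), Dn s, (0 : ℂ))) (𝓝 0)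
      (𝓝 (0, a 0, Dn 0, 0)) := by
    have h1 := ha.continuousAt.tendsto.comp (tendsto_pow hN)
    exact (tendsto_pow hN).prodMk_nhds (h1.prodMk_nhds (hD.tendsto.prodMk_nhds tendsto_const_nhds))
  have hgt : Tendsto (fun s : ℂ => G (s ^ N, a (s ^ N), Dn s, 0)) (𝓝 0)
      (𝓝 (G (0, a 0, Dn 0, 0))) := g1.continuousAt.tendsto.comp ht
  have hfa : AnalyticAt ℂ (fun w => h (a w, 0) - p w) 0 := by
    have h1 : AnalyticAt ℂ (fun w : ℂ => (a w, (0 : ℂ))) 0 := ha.prod analyticAt_const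
    exact (AnalyticAt.comp (g := h) (f := fun w : ℂ => (a w, (0 : ℂ))) hh h1).sub hp
  have hf : ∀ᶠ s in 𝓝 (0 : ℂ), h (a (s ^ N), 0) - p (s ^ N) =
      (s ^ N) ^ 2 * G (s ^ N, a (s ^ N), Dn s, 0) := by
    filter_upwards [ht.eventually g2, hn] with s k1 k2
    simp only [zero_mul] at k1
    rw [k2]
    exact k1
  have hf0 : h (a 0, 0) - p 0 = 0 := by
    have := hf.self_of_nhds
    rwa [zero_pow hN, zero_pow two_ne_zero, zero_mul] at this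
  obtain ⟨D1, hD1, -, hD1'⟩ := exists_nat hfa hf0
  have hf1 : ∀ᶠ s in 𝓝[≠] (0 : ℂ), D1 (s ^ N) = s ^ N * G (s ^ N, a (s ^ N), Dn s, 0) := by
    rw [eventually_nhdsWithin_iff]
    filter_upwards [hf] with s k1 hs
    have hs' : s ^ N ≠ 0 := pow_ne_zero N hs
    have k2 := hD1' (s ^ N)
    rw [k1] at k2
    have : s ^ N * (D1 (s ^ N) - s ^ N * G (s ^ N, a (s ^ N), Dn s, 0)) = 0 := by
      linear_combination -k2
    exact sub_eq_zero.1 ((mul_eq_zero.1 this).resolve_left hs')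
  have hD10 : D1 0 = 0 := by
    have t1 : Tendsto (fun s : ℂ => D1 (s ^ N)) (𝓝 0) (𝓝 (D1 0)) :=
      hD1.continuousAt.tendsto.comp (tendsto_pow hN)
    have t2 := (tendsto_pow hN).mul hgt
    rw [zero_mul] at t2
    exact tendsto_nhds_unique_of_eventuallyEq (t1.mono_left nhdsWithin_le_nhds)
      (t2.mono_left nhdsWithin_le_nhds) hf1
  obtain ⟨D2, hD2, -, hD2'⟩ := exists_nat hD1 hD10
  refine ⟨D2, hD2, ?_, Eventually.of_forall fun w => ?_⟩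
  · have hf2 : ∀ᶠ s in 𝓝[≠] (0 : ℂ), D2 (s ^ N) = G (s ^ N, a (s ^ N), Dn s, 0) := by
      filter_upwards [hf1, self_mem_nhdsWithin] with s k1 hs
      have hs' : s ^ N ≠ 0 := pow_ne_zero N hs
      rw [hD2' (s ^ N)] at k1
      exact mul_left_cancel₀ hs' k1
    have t1 : Tendsto (fun s : ℂ => D2 (s ^ N)) (𝓝 0) (𝓝 (D2 0)) :=
      hD2.continuousAt.tendsto.comp (tendsto_pow hN)
    rw [tendsto_nhds_unique_of_eventuallyEq (t1.mono_left nhdsWithin_le_nhds)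
      (hgt.mono_left nhdsWithin_le_nhds) hf2, g3.self_of_nhds]
    ring
  · have k1 := hD1' w
    rw [hD2' w] at k1
    linear_combination -k1

end

end Vale.Agent.P097.H845.R
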