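import Vale.Agent.P097.H845.Rg2

/-!
# P097: the states of a deformed chain at `w = 0`, ramified
-/

open Set Filter Topology

namespace Vale.Agent.P097.H845.R

noncomputable section

attribute [local fun_prop] analyticAt_fst analyticAt_snd

variable {t₀ : ℂ} {Ω : Set ℂ} {N n : ℕ} {H : ℕ → ℂ × ℂ → ℂ} {u : ℕ → ℂ × ℂ → ℂ × ℂ}
  {gl : ℕ → Prop} {w₀ w₁ : ℂ} {V V' : ℕ → ℂ × ℂ → ℂ × ℂ}

lemma pow_an (N : ℕ) (x : ℂ × ℂ) : AnalyticAt ℂ (fun x : ℂ × ℂ => (x.1 ^ N, x.2)) x :=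
  (analyticAt_fst.pow N).prod analyticAt_snd

lemma comp_pow {F : Type*} [NormedAddCommGroup F] [NormedSpace ℂ F] (hN : N ≠ 0) {v : ℂ × ℂ → F}
    (hv : AnalyticAt ℂ v (0, 0)) : AnalyticAt ℂ (fun x : ℂ × ℂ => v (x.1 ^ N, x.2)) (0, 0) := by
  refine AnalyticAt.comp (g := v) (f := fun x : ℂ × ℂ => (x.1 ^ N, x.2)) ?_ (pow_an N _)
  simp only
  rw [zero_pow hN]
  exact hv

/-- the line of a state is analytic -/
lemma St_an {a₀ μ ν : ℂ} {uj v : ℂ × ℂ → ℂ × ℂ} {M : ℕ} {k : ℂ → ℂ}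
    {Ψ : (ℂ × ℂ) × ℂ → ℂ × ℂ} {X U : ℂ × ℂ → ℂ} {c : ℂ → ℂ}
    (h : St t₀ a₀ μ ν uj v M k Ψ X U c) : AnalyticAt ℂ v (0, 0) := by
  have hX00 : X (0, 0) = a₀ := h.X0.self_of_nhds
  have hk : AnalyticAt ℂ (fun x => k (X x)) (0, 0) := by
    refine AnalyticAt.comp (g := k) (f := X) ?_ h.hX
    rw [hX00]
    exact h.hk
  have a1 : AnalyticAt ℂ (fun x : ℂ × ℂ => x.1 ^ 2) (0, 0) := by fun_prop
  have a2 : AnalyticAt ℂ (fun x : ℂ × ℂ => x.2 * x.1 ^ 2) (0, 0) := by fun_prop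
  have a3 : AnalyticAt ℂ (fun x : ℂ × ℂ => ((X x, k (X x) - x.1 ^ 2 * U x), x.2 * x.1 ^ 2))
      (0, 0) := (h.hX.prod (hk.sub (a1.mul h.hU))).prod a2
  have a4 : AnalyticAt ℂ (fun x : ℂ × ℂ => Ψ ((X x, k (X x) - x.1 ^ 2 * U x), x.2 * x.1 ^ 2))
      (0, 0) := by
    refine AnalyticAt.comp (g := Ψ)
      (f := fun x : ℂ × ℂ => ((X x, k (X x) - x.1 ^ 2 * U x), x.2 * x.1 ^ 2)) ?_ a3
    simp only [hX00]
    have : (((a₀, k a₀ - (0 : ℂ) ^ 2 * U (0, 0)), (0 : ℂ) * 0 ^ 2) : (ℂ × ℂ) × ℂ) =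
        ((a₀, k a₀), 0) := by simp
    rw [this]
    exact h.hΨ
  exact a4.congr (h.hv.mono fun x hx => hx.symm)

/-- transversal step -/
theorem trans (W : Word t₀ Ω N n H u gl) (hΩ : (0 : ℂ) ∈ Ω) {j : ℕ} (hj : j < n)
    (hg : ¬ gl j) (hV : GC t₀ N H u j 0 V) {v : ℂ × ℂ → ℂ × ℂ}
    (hVv : ∀ᶠ x : ℂ × ℂ in 𝓝 (0, 0), V j x = v (x.1 ^ N, x.2))
    {a₀ μ ν : ℂ} {M : ℕ} {k : ℂ → ℂ} {Ψ : (ℂ × ℂ) × ℂ → ℂ × ℂ}
    {X U : ℂ × ℂ → ℂ} {c : ℂ → ℂ} (h : St t₀ a₀ μ ν (u j) v M k Ψ X U c) :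
    ∃ V' v', GC t₀ N H u (j + 1) 0 V' ∧
      (∀ᶠ x : ℂ × ℂ in 𝓝 (0, 0), V' (j + 1) x = v' (x.1 ^ N, x.2)) ∧
      ∃ Ψ', St t₀ a₀ μ ν (u (j + 1)) v' M k Ψ' X U c := by
  obtain ⟨G, hG, hGn, hGC⟩ := hV.reg W hΩ hj (W.tr j hj hg)
  refine ⟨_, fun x => G (v x, x.2 * x.1 ^ 2), hGC, ?_, fun y => G (Ψ y, y.2), h.hk, ?_, h.hX, h.hU,
    h.X0, h.U0, ?_, h.hc, h.c0, h.c', ?_, h.sq⟩
  · filter_upwards [hVv] with x hx
    rw [Function.update_self, hx]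
  · refine AnalyticAt.comp (g := G) (f := fun y : (ℂ × ℂ) × ℂ => (Ψ y, y.2)) ?_
      (h.hΨ.prod (by fun_prop))
    simp only
    rw [h.base]
    exact hG
  · filter_upwards [h.hv] with x hx
    rw [hx]
  · have h1 : Tendsto (fun t : ℂ => (t, (0 : ℂ))) (𝓝 t₀) (𝓝 (t₀, 0)) := tendsto_pair t₀
    filter_upwards [h.hcu, h1.eventually hGn] with t k1 k2
    rw [k1, k2]

/-- glancing step -/
theorem glan (W : Word t₀ Ω N n H u gl) (hN : N ≠ 0) (hΩ : (0 : ℂ) ∈ Ω) {j : ℕ} (hj : j < n)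
    (hg : gl j) (hV : GC t₀ N H u j 0 V) {v : ℂ × ℂ → ℂ × ℂ}
    (hVv : ∀ᶠ x : ℂ × ℂ in 𝓝 (0, 0), V j x = v (x.1 ^ N, x.2))
    {a₀ μ ν : ℂ} {M : ℕ} {k : ℂ → ℂ} {Ψ : (ℂ × ℂ) × ℂ → ℂ × ℂ}
    {X U : ℂ × ℂ → ℂ} {c : ℂ → ℂ} (h : St t₀ a₀ μ ν (u j) v M k Ψ X U c) :
    ∃ V' v', GC t₀ N H u (j + 1) 0 V' ∧
      (∀ᶠ x : ℂ × ℂ in 𝓝 (0, 0), V' (j + 1) x = v' (x.1 ^ N, x.2)) ∧
      ∃ a₁ μ₁ ν₁ k₁ Ψ₁ X₁ U₁ c₁, St t₀ a₁ μ₁ ν₁ (u (j + 1)) v' (M + 1) k₁ Ψ₁ X₁ U₁ c₁ := by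
  have g0 := W.g0 j hj hg
  have g0' : (u (j + 1) (t₀, 0)).1 = (u j (t₀, 0)).1 := g0.self_of_nhds
  have hvtx : vtx (u j (t₀, 0)) (u (j + 1) (t₀, 0)) = (u j (t₀, 0)).1 := by
    unfold vtx
    rw [g0']
    ring
  have hH := W.hH 0 hΩ j hj
  have hρ := W.hρ 0 hΩ j hj
  rw [hvtx] at hH hρ
  have hpt : Tendsto (fun t : ℂ => (t, (0 : ℂ))) (𝓝 t₀) (𝓝 (t₀, 0)) := tendsto_pair t₀
  have hpw : Tendsto (fun w : ℂ => (t₀, w)) (𝓝 0) (𝓝 (t₀, 0)) := tendsto_pair' t₀ 0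
  have hrl := W.rl 0 hΩ j hj
  have htan : ∀ᶠ t in 𝓝 t₀, (u j (t, 0)).2 = H j ((u j (t, 0)).1, 0) ∧
      (u (j + 1) (t, 0)).2 = H j ((u (j + 1) (t, 0)).1, 0) := by
    filter_upwards [hpt.eventually hrl, g0] with t k1 k2
    have h1 : ((u j (t, 0)).1 + (u (j + 1) (t, 0)).1) / 2 = (u j (t, 0)).1 := by
      rw [k2]
      ring
    have h2 : ((u (j + 1) (t, 0)).1 - (u j (t, 0)).1) / 2 = 0 := by
      rw [k2]
      ring
    have k3 := k1.1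
    have k4 := k1.2
    rw [h1, h2] at k3 k4
    simp only [Complex.cos_zero, mul_one, Complex.sin_zero, mul_zero, sub_zero, add_zero] at k3 k4
    exact ⟨k3, by rw [k4, k2]⟩
  have hk1 : AnalyticAt ℂ (fun a : ℂ => H j (a, 0)) (u j (t₀, 0)).1 :=
    AnalyticAt.comp (g := H j) (f := fun a : ℂ => (a, (0 : ℂ))) hH (by fun_prop)
  obtain ⟨X₁, U₁, μ₁, ν₁, A, hX₁, hU₁, hX₁0, hU₁0, hV₁, hA⟩ :=
    renorm (k' := fun a => H j (a, 0)) h.hk h.hΨ h.hX h.hU h.X0 h.U0 h.hc h.c0 h.c' h.hcu hk1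
      (htan.mono fun t ht => ht.1)
  have hvj : ∀ᶠ x : ℂ × ℂ in 𝓝 (0, 0), v x = (X₁ x, H j (X₁ x, 0) - x.1 ^ 2 * U₁ x) := by
    filter_upwards [h.hv, hV₁] with x k1 k2
    rw [k1, k2]
  have hVj : ∀ᶠ x : ℂ × ℂ in 𝓝 (0, 0), V j x = (X₁ (x.1 ^ N, x.2),
      H j (X₁ (x.1 ^ N, x.2), 0) - (x.1 ^ N) ^ 2 * U₁ (x.1 ^ N, x.2)) := by
    filter_upwards [hVv, (tendsto_powe hN).eventually hvj] with x k1 k2
    rw [k1, k2]
  have hu : ∀ᶠ w in 𝓝 (0 : ℂ), u j (t₀, w) =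
      (X₁ (w ^ N, 0), H j (X₁ (w ^ N, 0), 0) - (w ^ N) ^ 2 * U₁ (w ^ N, 0)) := by
    filter_upwards [(tendsto_pair 0).eventually hVj, hV.nat j le_rfl] with w k1 k2
    rw [← k2, k1]
  obtain ⟨Dn, hDn, hDn0, hDnw⟩ := W.g1 j hj hg
  obtain ⟨D, U', hD, hU', hD0, h1, h2, h3⟩ := glance_line (uj := fun w => u j (t₀, w))
    (uj' := fun w => u (j + 1) (t₀, w)) hN hH hρ hX₁ hU₁ hX₁0 hDn hDn0 hDnw hu
    (hpw.eventually hrl)
  have hXn : AnalyticAt ℂ (fun x : ℂ × ℂ => X₁ x + 2 * (x.1 * D x)) (0, 0) := by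
    have a1 : AnalyticAt ℂ (fun x : ℂ × ℂ => x.1) (0, 0) := by fun_prop
    exact hX₁.add (analyticAt_const.mul (a1.mul hD))
  have hX₁00 : X₁ (0, 0) = (u j (t₀, 0)).1 := hX₁0.self_of_nhds
  set v' : ℂ × ℂ → ℂ × ℂ := fun x =>
    (X₁ x + 2 * (x.1 * D x), H j (X₁ x + 2 * (x.1 * D x), 0) - x.1 ^ 2 * U' x) with hv'
  have hv'a : AnalyticAt ℂ v' (0, 0) := by
    have a2 : AnalyticAt ℂ (fun x : ℂ × ℂ => x.1 ^ 2) (0, 0) := by fun_prop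
    refine hXn.prod (AnalyticAt.sub ?_ (a2.mul hU'))
    refine AnalyticAt.comp (g := fun a : ℂ => H j (a, 0))
      (f := fun x : ℂ × ℂ => X₁ x + 2 * (x.1 * D x)) ?_ hXn
    simp only [zero_mul, mul_zero, add_zero]
    rw [hX₁00]
    exact hk1
  refine ⟨_, v', hV.step (v := fun x : ℂ × ℂ => v' (x.1 ^ N, x.2)) (comp_pow hN hv'a) ?_ h3,
    Eventually.of_forall fun x => by rw [Function.update_self],
    (u j (t₀, 0)).1, μ₁, ν₁, fun a => H j (a, 0), fun y => y.1,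
    fun x => X₁ x + 2 * (x.1 * D x), U', fun t => (u (j + 1) (t, 0)).1, ?_⟩
  · filter_upwards [(tendsto_powe hN).eventually h1, hVj] with x k1 k2
    rw [k2]
    exact k1
  · refine ⟨hk1, by fun_prop, hXn, hU', ?_, ?_, Eventually.of_forall fun x => rfl, ?_, g0', ?_, ?_,
      ?_⟩
    · filter_upwards [hX₁0] with e he
      rw [zero_mul, mul_zero, add_zero, he]
    · filter_upwards [h2, hU₁0] with e k1 k2
      rw [k1.2, k2]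
    · have an2 : AnalyticAt ℂ (fun t => u (j + 1) (t, 0)) t₀ :=
        AnalyticAt.comp (g := u (j + 1)) (f := fun t : ℂ => (t, (0 : ℂ))) (W.an 0 hΩ (j + 1) hj)
          (by fun_prop)
      exact AnalyticAt.comp (g := fun z : ℂ × ℂ => z.1) analyticAt_fst an2
    · have : (fun t => (u (j + 1) (t, 0)).1) =ᶠ[𝓝 t₀] fun t => (u j (t, 0)).1 := g0
      rw [this.deriv_eq]
      exact W.g2 j hj hg
    · filter_upwards [htan] with t ht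
      exact Prod.ext rfl ht.2.symm
    · have hρ2 : rho (H j) ((u j (t₀, 0)).1, 0) / 2 ≠ 0 := div_ne_zero hρ two_ne_zero
      refine (h.sq.smul A hA).add (D₁ := fun e => D (0, e))
        (a₁ := μ₁ / (rho (H j) ((u j (t₀, 0)).1, 0) / 2))
        (b₁ := (ν₁ + deps (H j) (u j (t₀, 0)).1) / (rho (H j) ((u j (t₀, 0)).1, 0) / 2))
        (c₁ := 2) ?_ ?_ ?_ ?_
      · exact AnalyticAt.comp (g := D) (f := fun e : ℂ => ((0 : ℂ), e)) hD (by fun_prop)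
      · rw [hD0]
        exact hDn0
      · filter_upwards [h2, hU₁0] with e k1 k2
        have k3 := k1.1
        rw [k2] at k3
        field_simp
        field_simp at k3
        linear_combination k3
      · filter_upwards [tendsto_e.eventually hX₁.eventually_analyticAt,
          tendsto_e.eventually hD.eventually_analyticAt] with e k1 k2
        have b1 := hasDerivAt_w k1
        have b2 := hasDerivAt_w k2
        have b3 := b1.add (((hasDerivAt_id (0 : ℂ)).mul b2).const_mul 2)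
        have b4 : deriv (fun w => X₁ (w, e) + 2 * (w * D (w, e))) 0 =
            deriv (fun w => X₁ (w, e)) 0 + 2 * D (0, e) := by
          refine HasDerivAt.deriv (b3.congr_deriv ?_)
          simp
        exact b4

end

end Vale.Agent.P097.H845.R
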