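import Vale.Agent.P097.H845.Rg3

/-!
# P097: the two words at the glancing scale, ramified
-/

open Set Filter Topology

namespace Vale.Agent.P097.H845.R

noncomputable section

attribute [local fun_prop] analyticAt_fst analyticAt_snd

variable {t₀ : ℂ} {Ω : Set ℂ} {N n m : ℕ} {H H' : ℕ → ℂ × ℂ → ℂ} {u u' : ℕ → ℂ × ℂ → ℂ × ℂ}
  {gl gl' : ℕ → Prop} {w₀ w₁ : ℂ} {V V' : ℕ → ℂ × ℂ → ℂ × ℂ} {a p : ℂ → ℂ}

/-- the first line in scaled form -/
lemma Word.init (W : Word t₀ Ω N n H u fun _ => True) (hN : N ≠ 0) (hΩ : (0 : ℂ) ∈ Ω) (hn : 0 < n)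
    (ha : AnalyticAt ℂ a 0) (hp : AnalyticAt ℂ p 0)
    (hu : ∀ᶠ s in 𝓝 (0 : ℂ), u 0 (t₀, s) = (a (s ^ N), p (s ^ N))) {D : ℂ → ℂ}
    (hD : ContinuousAt D 0)
    (hDs : ∀ᶠ s in 𝓝 (0 : ℂ), hta (u 0 (t₀, s)) (u 1 (t₀, s)) = s ^ N * D s) :
    AnalyticAt ℂ (H 0) (a 0, 0) ∧
    ∃ U : ℂ → ℂ, AnalyticAt ℂ U 0 ∧ U 0 = rho (H 0) (a 0, 0) / 2 * D 0 ^ 2 ∧
      ∀ᶠ w in 𝓝 (0 : ℂ), p w = H 0 (a w, 0) - w ^ 2 * U w := by
  have g0' : (u 1 (t₀, 0)).1 = (u 0 (t₀, 0)).1 := (W.g0 0 hn trivial).self_of_nhds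
  have hu0 : (u 0 (t₀, 0)).1 = a 0 := by
    rw [hu.self_of_nhds, zero_pow hN]
  have hvtx : vtx (u 0 (t₀, 0)) (u 1 (t₀, 0)) = a 0 := by
    unfold vtx
    rw [g0', hu0]
    ring
  have hH := W.hH 0 hΩ 0 hn
  rw [zero_add, hvtx] at hH
  refine ⟨hH, R.init hN hH ha hp hD ?_⟩
  filter_upwards [hu, hDs, (tendsto_pair' t₀ 0).eventually (W.rl 0 hΩ 0 hn)] with s k1 k2 k3
  have k4 := ((RL_iff _ _ _ _).1 k3).1
  unfold hta at k2
  rw [zero_add, k2, k1] at k4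
  exact k4

/-- the natural word at the glancing scale -/
theorem natural (W : Word t₀ Ω N n H u fun _ => True) (hN : N ≠ 0) (hΩ : (0 : ℂ) ∈ Ω) (hn : 0 < n)
    (hh : ∀ j < n, ∀ᶠ x in 𝓝 (a 0), H j (x, 0) = H 0 (x, 0)) {D₀ : ℂ} (hD₀ : D₀ ≠ 0)
    (hD : ∀ j < n, ∃ D : ℂ → ℂ, ContinuousAt D 0 ∧ D 0 = D₀ ∧
      ∀ᶠ s in 𝓝 (0 : ℂ), hta (u j (t₀, s)) (u (j + 1) (t₀, s)) = s ^ N * D s)
    (ha : AnalyticAt ℂ a 0) (hp : AnalyticAt ℂ p 0)
    (hu : ∀ᶠ s in 𝓝 (0 : ℂ), u 0 (t₀, s) = (a (s ^ N), p (s ^ N))) (hev : deriv a 0 = 0) :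
    ∃ V v, GC t₀ N H u n 0 V ∧ AnalyticAt ℂ v (0, 0) ∧
      (∀ᶠ x : ℂ × ℂ in 𝓝 (0, 0), V n x = v (x.1 ^ N, x.2)) ∧
      ∃ D : Fin n → ℂ → ℂ, (∀ i, AnalyticAt ℂ (D i) 0) ∧
      (∀ i, D i 0 = D₀) ∧
      (∀ i : Fin n, ∀ᶠ e in 𝓝 (0 : ℂ), rho (H 0) (a 0, 0) / 2 * D i e ^ 2 =
        rho (H 0) (a 0, 0) / 2 * D₀ ^ 2 + e * deps (H i) (a 0)) ∧
      ∀ᶠ e in 𝓝 (0 : ℂ), deriv (fun w => (v (w, e)).1) 0 = ∑ i, 2 * D i e := by
  set a₀ : ℂ := a 0 with ha₀
  have hu00 : (u 0 (t₀, 0)).1 = a₀ := by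
    rw [hu.self_of_nhds, zero_pow hN]
  have hu0 : ∀ j ≤ n, (u j (t₀, 0)).1 = a₀ := by
    intro j
    induction j with
    | zero => intro _; exact hu00
    | succ j ih =>
      intro hj
      rw [(W.g0 j hj trivial).self_of_nhds]
      exact ih (by omega)
  have key : ∀ j ≤ n, ∃ V, GC t₀ N H u j 0 V ∧ ∃ (X U : ℂ × ℂ → ℂ) (D : Fin j → ℂ → ℂ),
      AnalyticAt ℂ X (0, 0) ∧ AnalyticAt ℂ U (0, 0) ∧ (∀ᶠ e in 𝓝 (0 : ℂ), X (0, e) = a₀) ∧
      (∀ᶠ e in 𝓝 (0 : ℂ), U (0, e) = rho (H 0) (a₀, 0) / 2 * D₀ ^ 2) ∧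
      (∀ᶠ x : ℂ × ℂ in 𝓝 (0, 0), V j x = (X (x.1 ^ N, x.2),
        H 0 (X (x.1 ^ N, x.2), 0) - (x.1 ^ N) ^ 2 * U (x.1 ^ N, x.2))) ∧
      (∀ i, AnalyticAt ℂ (D i) 0) ∧ (∀ i, D i 0 = D₀) ∧
      (∀ i : Fin j, ∀ᶠ e in 𝓝 (0 : ℂ), rho (H 0) (a₀, 0) / 2 * D i e ^ 2 =
        rho (H 0) (a₀, 0) / 2 * D₀ ^ 2 + e * deps (H i) a₀) ∧
      ∀ᶠ e in 𝓝 (0 : ℂ), deriv (fun w => X (w, e)) 0 = ∑ i, 2 * D i e := by
    intro j
    induction j with
    | zero =>
      intro _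
      obtain ⟨D, hDc, hDD, hDs⟩ := hD 0 hn
      obtain ⟨-, Un, hUn, hUn0, hUnw⟩ := W.init hN hΩ hn ha hp hu hDc hDs
      have an0 : AnalyticAt ℂ (fun x : ℂ × ℂ => u 0 (t₀, x.1)) (0, 0) :=
        AnalyticAt.comp (g := u 0) (f := fun x : ℂ × ℂ => (t₀, x.1)) (W.an 0 hΩ 0 hn.le)
          (by fun_prop)
      have hfst : Tendsto (fun x : ℂ × ℂ => x.1) (𝓝 (0, 0)) (𝓝 0) := continuous_fst.tendsto _
      have hfstN : Tendsto (fun x : ℂ × ℂ => x.1 ^ N) (𝓝 (0, 0)) (𝓝 0) :=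
        (tendsto_pow hN).comp hfst
      refine ⟨fun _ x => u 0 (t₀, x.1), ⟨fun j hj => an0, Eventually.of_forall fun _ => rfl,
        fun j hj => absurd hj (Nat.not_lt_zero _), fun j hj => ?_⟩,
        fun x => a x.1, fun x => Un x.1, fun i => i.elim0,
        AnalyticAt.comp (g := a) (f := fun x : ℂ × ℂ => x.1) ha (by fun_prop),
        AnalyticAt.comp (g := Un) (f := fun x : ℂ × ℂ => x.1) hUn (by fun_prop),
        Eventually.of_forall fun _ => rfl, Eventually.of_forall fun _ => ?_, ?_,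
        fun i => i.elim0, fun i => i.elim0, fun i => i.elim0, Eventually.of_forall fun _ => ?_⟩
      · obtain rfl : j = 0 := by omega
        exact Eventually.of_forall fun _ => rfl
      · simp only
        rw [hUn0, hDD]
      · filter_upwards [hfst.eventually hu, hfstN.eventually hUnw] with x k1 k2
        rw [k1, k2]
      · simp only [Finset.univ_eq_empty, Finset.sum_empty]
        exact hev
    | succ j ih =>
      intro hj
      obtain ⟨V, hV, X, U, D, hX, hU, hX0, hU0, hVj, hDa, hD0, hD2, hXd⟩ := ih (by omega)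
      have hj' : j < n := hj
      have hX00 : X (0, 0) = a₀ := hX0.self_of_nhds
      have g0' : (u (j + 1) (t₀, 0)).1 = (u j (t₀, 0)).1 := (W.g0 j hj' trivial).self_of_nhds
      have hvtx : vtx (u j (t₀, 0)) (u (j + 1) (t₀, 0)) = a₀ := by
        unfold vtx
        rw [g0', hu0 j hj'.le]
        ring
      have hH := W.hH 0 hΩ j hj'
      have hρ := W.hρ 0 hΩ j hj'
      rw [hvtx] at hH hρ
      have hρ0 : rho (H j) (a₀, 0) = rho (H 0) (a₀, 0) := rho_congr (hh j hj')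
      have hXt : Tendsto X (𝓝 (0, 0)) (𝓝 a₀) := by
        have := hX.continuousAt.tendsto
        rwa [hX00] at this
      have hVj' : ∀ᶠ x : ℂ × ℂ in 𝓝 (0, 0), V j x = (X (x.1 ^ N, x.2),
          H j (X (x.1 ^ N, x.2), 0) - (x.1 ^ N) ^ 2 * U (x.1 ^ N, x.2)) := by
        filter_upwards [hVj, (hXt.comp (tendsto_powe hN)).eventually (hh j hj')] with x k1 k2
        simp only [Function.comp_apply] at k2
        rw [k1, k2]
      have hu : ∀ᶠ w in 𝓝 (0 : ℂ), u j (t₀, w) =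
          (X (w ^ N, 0), H j (X (w ^ N, 0), 0) - (w ^ N) ^ 2 * U (w ^ N, 0)) := by
        filter_upwards [(tendsto_pair 0).eventually hVj', hV.nat j le_rfl] with w k1 k2
        rw [← k2, k1]
      obtain ⟨Dn, hDn, hDn0, hDnw⟩ := hD j hj'
      obtain ⟨D', U', hD', hU', hD'0, h1, h2, h3⟩ := glance_line (uj := fun w => u j (t₀, w))
        (uj' := fun w => u (j + 1) (t₀, w)) hN hH hρ hX hU hX0 hDn (by rw [hDn0]; exact hD₀) hDnw hu
        ((tendsto_pair' t₀ 0).eventually (W.rl 0 hΩ j hj'))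
      rw [hDn0] at hD'0
      have hXn : AnalyticAt ℂ (fun x : ℂ × ℂ => X x + 2 * (x.1 * D' x)) (0, 0) := by
        have a1 : AnalyticAt ℂ (fun x : ℂ × ℂ => x.1) (0, 0) := by fun_prop
        exact hX.add (analyticAt_const.mul (a1.mul hD'))
      have hXn0 : Tendsto (fun x : ℂ × ℂ => X x + 2 * (x.1 * D' x)) (𝓝 (0, 0)) (𝓝 a₀) := by
        have := hXn.continuousAt.tendsto
        simp only [zero_mul, mul_zero, add_zero] at this
        rwa [hX00] at this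
      have hk1 : AnalyticAt ℂ (fun a : ℂ => H j (a, 0)) a₀ :=
        AnalyticAt.comp (g := H j) (f := fun a : ℂ => (a, (0 : ℂ))) hH (by fun_prop)
      set v' : ℂ × ℂ → ℂ × ℂ := fun x => (X x + 2 * (x.1 * D' x),
        H j (X x + 2 * (x.1 * D' x), 0) - x.1 ^ 2 * U' x) with hv'
      have hv'a : AnalyticAt ℂ v' (0, 0) := by
        have a2 : AnalyticAt ℂ (fun x : ℂ × ℂ => x.1 ^ 2) (0, 0) := by fun_prop
        refine hXn.prod (AnalyticAt.sub ?_ (a2.mul hU'))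
        refine AnalyticAt.comp (g := fun a : ℂ => H j (a, 0))
          (f := fun x : ℂ × ℂ => X x + 2 * (x.1 * D' x)) ?_ hXn
        simp only [zero_mul, mul_zero, add_zero]
        rw [hX00]
        exact hk1
      refine ⟨_, hV.step (v := fun x : ℂ × ℂ => v' (x.1 ^ N, x.2)) (comp_pow hN hv'a) ?_ h3,
        fun x => X x + 2 * (x.1 * D' x), U', Fin.snoc D fun e => D' (0, e), hXn, hU', ?_, ?_, ?_,
        ?_, ?_, ?_, ?_⟩
      · filter_upwards [(tendsto_powe hN).eventually h1, hVj'] with x k1 k2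
        rw [k2]
        exact k1
      · filter_upwards [hX0] with e he
        rw [zero_mul, mul_zero, add_zero, he]
      · filter_upwards [h2, hU0] with e k1 k2
        rw [k1.2, k2]
      · filter_upwards [(hXn0.comp (tendsto_powe hN)).eventually (hh j hj')] with x k1
        simp only [Function.comp_apply] at k1
        rw [Function.update_self, hv']
        simp only
        rw [k1]
      · intro i
        refine Fin.lastCases ?_ ?_ i
        · simp only [Fin.snoc_last]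
          exact AnalyticAt.comp (g := D') (f := fun e : ℂ => ((0 : ℂ), e)) hD' (by fun_prop)
        · intro i
          simp only [Fin.snoc_castSucc]
          exact hDa i
      · intro i
        refine Fin.lastCases ?_ ?_ i
        · simp only [Fin.snoc_last]
          exact hD'0
        · intro i
          simp only [Fin.snoc_castSucc]
          exact hD0 i
      · intro i
        refine Fin.lastCases ?_ ?_ i
        · simp only [Fin.snoc_last, Fin.val_last]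
          filter_upwards [h2, hU0] with e k1 k2
          rw [← hρ0, k1.1, k2, hρ0]
        · intro i
          simp only [Fin.snoc_castSucc, Fin.val_castSucc]
          exact hD2 i
      · filter_upwards [hXd, tendsto_e.eventually hX.eventually_analyticAt,
          tendsto_e.eventually hD'.eventually_analyticAt] with e k0 k1 k2
        have b1 := hasDerivAt_w k1
        have b2 := hasDerivAt_w k2
        have b3 := b1.add (((hasDerivAt_id (0 : ℂ)).mul b2).const_mul 2)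
        have b4 : deriv (fun w => X (w, e) + 2 * (w * D' (w, e))) 0 =
            deriv (fun w => X (w, e)) 0 + 2 * D' (0, e) := by
          refine HasDerivAt.deriv (b3.congr_deriv ?_)
          simp
        rw [b4, k0, Fin.sum_univ_castSucc]
        simp only [Fin.snoc_last, Fin.snoc_castSucc]
  obtain ⟨V, hV, X, U, D, hX, hU, hX0, hU0, hVj, hDa, hD0, hD2, hXd⟩ := key n le_rfl
  have hX00 : X (0, 0) = a₀ := hX0.self_of_nhds
  have hH0 : AnalyticAt ℂ (fun a : ℂ => H 0 (a, 0)) a₀ := by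
    obtain ⟨D, hDc, hDD, hDs⟩ := hD 0 hn
    obtain ⟨hH, -⟩ := W.init hN hΩ hn ha hp hu hDc hDs
    exact AnalyticAt.comp (g := H 0) (f := fun a : ℂ => (a, (0 : ℂ))) hH (by fun_prop)
  refine ⟨V, fun x => (X x, H 0 (X x, 0) - x.1 ^ 2 * U x), hV, ?_, hVj, D, hDa, hD0, hD2, hXd⟩
  have a2 : AnalyticAt ℂ (fun x : ℂ × ℂ => x.1 ^ 2) (0, 0) := by fun_prop
  refine hX.prod (AnalyticAt.sub ?_ (a2.mul hU))
  refine AnalyticAt.comp (g := fun a : ℂ => H 0 (a, 0)) (f := X) ?_ hX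
  rw [hX00]
  exact hH0

/-- the second word at the glancing scale -/
theorem star [DecidablePred gl'] (W : Word t₀ Ω N n H u fun _ => True)
    (W' : Word t₀ Ω N m H' u' gl') (hN : N ≠ 0) (hΩ : (0 : ℂ) ∈ Ω) (hn : 0 < n) {D : ℂ → ℂ}
    (hD : ContinuousAt D 0)
    (hDs : ∀ᶠ s in 𝓝 (0 : ℂ), hta (u 0 (t₀, s)) (u 1 (t₀, s)) = s ^ N * D s)
    (ha : AnalyticAt ℂ a 0) (hp : AnalyticAt ℂ p 0)
    (hu : ∀ᶠ s in 𝓝 (0 : ℂ), u 0 (t₀, s) = (a (s ^ N), p (s ^ N))) (hev : deriv a 0 = 0)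
    (h00 : ∀ᶠ w in 𝓝 (0 : ℂ), u' 0 (t₀, w) = u 0 (t₀, w))
    (h0t : ∀ᶠ t in 𝓝 t₀, u' 0 (t, 0) = u 0 (t, 0)) :
    ∃ V' v', GC t₀ N H' u' m 0 V' ∧ AnalyticAt ℂ v' (0, 0) ∧
      (∀ᶠ x : ℂ × ℂ in 𝓝 (0, 0), V' m x = v' (x.1 ^ N, x.2)) ∧
      SqS (Nat.count gl' m) fun e => deriv (fun w => (v' (w, e)).1) 0 := by
  have key : ∀ j ≤ m, ∃ V' v', GC t₀ N H' u' j 0 V' ∧
      (∀ᶠ x : ℂ × ℂ in 𝓝 (0, 0), V' j x = v' (x.1 ^ N, x.2)) ∧
      ∃ a₀ μ ν k Ψ X U c, St t₀ a₀ μ ν (u' j) v' (Nat.count gl' j) k Ψ X U c := by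
    intro j
    induction j with
    | zero =>
      intro _
      obtain ⟨hH, Un, hUn, hUn0, hUnw⟩ := W.init hN hΩ hn ha hp hu hD hDs
      have g0 := W.g0 0 hn trivial
      have hu00 : (u 0 (t₀, 0)).1 = a 0 := by
        rw [hu.self_of_nhds, zero_pow hN]
      have an0' : AnalyticAt ℂ (fun x : ℂ × ℂ => u' 0 (t₀, x.1)) (0, 0) :=
        AnalyticAt.comp (g := u' 0) (f := fun x : ℂ × ℂ => (t₀, x.1))
          (W'.an 0 hΩ 0 (Nat.zero_le _)) (by fun_prop)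
      have ant : AnalyticAt ℂ (fun t : ℂ => u 0 (t, 0)) t₀ :=
        AnalyticAt.comp (g := u 0) (f := fun t : ℂ => (t, (0 : ℂ))) (W.an 0 hΩ 0 hn.le)
          (by fun_prop)
      have hfst : Tendsto (fun x : ℂ × ℂ => x.1) (𝓝 (0, 0)) (𝓝 0) := continuous_fst.tendsto _
      refine ⟨fun _ x => u' 0 (t₀, x.1), fun x => (a x.1, p x.1),
        ⟨fun j hj => an0', Eventually.of_forall fun _ => rfl,
        fun j hj => absurd hj (Nat.not_lt_zero _), fun j hj => ?_⟩, ?_,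
        a 0, Un 0, 0, fun a => H 0 (a, 0), fun y => y.1,
        fun x => a x.1, fun x => Un x.1, fun t => (u 0 (t, 0)).1, ?_⟩
      · obtain rfl : j = 0 := by omega
        exact Eventually.of_forall fun _ => rfl
      · filter_upwards [hfst.eventually h00, hfst.eventually hu] with x k1 k2
        rw [k1, k2]
      · refine ⟨AnalyticAt.comp (g := H 0) (f := fun a : ℂ => (a, (0 : ℂ))) hH (by fun_prop),
          by fun_prop, AnalyticAt.comp (g := a) (f := fun x : ℂ × ℂ => x.1) ha (by fun_prop),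
          AnalyticAt.comp (g := Un) (f := fun x : ℂ × ℂ => x.1) hUn (by fun_prop),
          Eventually.of_forall fun _ => rfl, Eventually.of_forall fun _ => ?_, ?_,
          AnalyticAt.comp (g := fun z : ℂ × ℂ => z.1) analyticAt_fst ant, hu00,
          W.g2 0 hn trivial, ?_, ?_⟩
        · simp
        · filter_upwards [hfst.eventually hUnw] with x k1
          rw [k1]
        · filter_upwards [h0t, (tendsto_pair t₀).eventually (W.rl 0 hΩ 0 hn), g0] with t k1 k2 k3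
          rw [zero_add] at k2 k3
          have h1 : ((u 0 (t, 0)).1 + (u 1 (t, 0)).1) / 2 = (u 0 (t, 0)).1 := by
            rw [k3]
            ring
          have h2 : ((u 1 (t, 0)).1 - (u 0 (t, 0)).1) / 2 = 0 := by
            rw [k3]
            ring
          have k4 := k2.1
          rw [h1, h2] at k4
          simp only [Complex.cos_zero, mul_one, Complex.sin_zero, mul_zero, sub_zero] at k4
          rw [k1]
          exact Prod.ext rfl k4.symm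
        · refine ⟨fun i => i.elim0, fun i => i.elim0, fun i => i.elim0, fun i => i.elim0,
            fun i => i.elim0, Eventually.of_forall fun _ => ?_⟩
          exact hev
    | succ j ih =>
      intro hj
      obtain ⟨V', v', hV', hVv', a₀, μ, ν, k, Ψ, X, U, c, hS⟩ := ih (by omega)
      by_cases hg : gl' j
      · obtain ⟨V₁, v₁, hV₁, hVv₁, a₁, μ₁, ν₁, k₁, Ψ₁, X₁, U₁, c₁, hS₁⟩ :=
          glan W' hN hΩ hj hg hV' hVv' hS
        refine ⟨V₁, v₁, hV₁, hVv₁, a₁, μ₁, ν₁, k₁, Ψ₁, X₁, U₁, c₁, ?_⟩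
        rw [Nat.count_succ, if_pos hg]
        exact hS₁
      · obtain ⟨V₁, v₁, hV₁, hVv₁, Ψ₁, hS₁⟩ := trans W' hΩ hj hg hV' hVv' hS
        refine ⟨V₁, v₁, hV₁, hVv₁, a₀, μ, ν, k, Ψ₁, X, U, c, ?_⟩
        rw [Nat.count_succ, if_neg hg, add_zero]
        exact hS₁
  obtain ⟨V', v', hV', hVv', a₀, μ, ν, k, Ψ, X, U, c, hS⟩ := key m le_rfl
  exact ⟨V', v', hV', St_an hS, hVv', hS.deriv_fst⟩

end

end Vale.Agent.P097.H845.R
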