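import Vale.Agent.P097.H845.Rg4

/-!
# P097: a deformed natural word is not a word with fewer glancing letters, ramified
-/

open Set Filter Topology

namespace Vale.Agent.P097.H845.R

noncomputable section

attribute [local fun_prop] analyticAt_fst analyticAt_snd

variable {t₀ : ℂ} {Ω : Set ℂ} {N n m : ℕ} {H H' : ℕ → ℂ × ℂ → ℂ} {u u' : ℕ → ℂ × ℂ → ℂ × ℂ}
  {gl gl' : ℕ → Prop} {w₀ w₁ : ℂ} {V V' : ℕ → ℂ × ℂ → ℂ × ℂ} {a p : ℂ → ℂ}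

/-- **Continuation of the coincidence of two words** from `w₂` to `0`. -/
theorem cont_words {f : (ℕ → ℂ × ℂ → ℂ × ℂ) → (ℕ → ℂ × ℂ → ℂ × ℂ) → ℂ × ℂ → ℂ × ℂ} {m₀ : ℂ}
    (hΩo : IsOpen Ω) (hΩc : IsPreconnected Ω) (h0 : (0 : ℂ) ∈ Ω) {w₂ : ℂ} (h2 : w₂ ∈ Ω)
    (W : Word t₀ Ω N n H u gl) (W' : Word t₀ Ω N m H' u' gl')
    (hf : f = fun V V' x => V' m x - (V n x + (m₀, 0)))
    (hV : GC t₀ N H u n 0 V) (hV' : GC t₀ N H' u' m 0 V')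
    (hw : ∃ V V', GC t₀ N H u n w₂ V ∧ GC t₀ N H' u' m w₂ V' ∧ ∀ᶠ x in 𝓝 (w₂, 0), f V V' x = 0) :
    ∀ᶠ x in 𝓝 ((0 : ℂ), (0 : ℂ)), f V V' x = 0 := by
  have han : ∀ (w : ℂ) V V', GC t₀ N H u n w V → GC t₀ N H' u' m w V' →
      AnalyticAt ℂ (f V V') (w, 0) := by
    intro w V V' h h'
    rw [hf]
    exact (h'.an m le_rfl).sub ((h.an n le_rfl).add analyticAt_const)
  let T : Set ℂ := {w | w ∈ Ω ∧ ∃ V V', GC t₀ N H u n w V ∧ GC t₀ N H' u' m w V' ∧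
    ∀ᶠ x in 𝓝 (w, (0 : ℂ)), f V V' x = 0}
  let F : Set ℂ := {w | w ∈ Ω ∧ ∃ V V', GC t₀ N H u n w V ∧ GC t₀ N H' u' m w V' ∧
    ¬ ∀ᶠ x in 𝓝 (w, (0 : ℂ)), f V V' x = 0}
  have hT : IsOpen T := by
    rw [isOpen_iff_mem_nhds]
    rintro w ⟨hwΩ, V, V', h, h', hx⟩
    filter_upwards [hΩo.mem_nhds hwΩ, h.near, h'.near,
      (tendsto_pair w).eventually hx.eventually_nhds] with w₁ k1 k2 k3 k4
    exact ⟨k1, V, V', k2, k3, k4⟩
  have hF : IsOpen F := by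
    rw [isOpen_iff_mem_nhds]
    rintro w ⟨hwΩ, V, V', h, h', hx⟩
    obtain ⟨ε, hε, hb⟩ := Metric.eventually_nhds_iff_ball.1 (han w V V' h h').eventually_analyticAt
    filter_upwards [hΩo.mem_nhds hwΩ, h.near, h'.near,
      (tendsto_pair w).eventually (Metric.ball_mem_nhds (w, (0 : ℂ)) hε)] with w₁ k1 k2 k3 k4
    refine ⟨k1, V, V', k2, k3, fun k5 => hx ?_⟩
    have h3 : AnalyticOnNhd ℂ (f V V') (Metric.ball (w, (0 : ℂ)) ε) := fun y hy => hb y hy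
    have h4 := h3.eqOn_zero_of_preconnected_of_eventuallyEq_zero
      (convex_ball _ _).isPreconnected k4 k5
    filter_upwards [Metric.ball_mem_nhds (w, (0 : ℂ)) hε] with y hy
    exact h4 hy
  have hne : ∀ w ∈ T ∩ F, w = 0 := by
    rintro w ⟨⟨hwΩ, V, V', h, h', hx⟩, _, V₁, V₁', h₁, h₁', hx₁⟩
    by_contra hw0
    apply hx₁
    filter_upwards [hx, (h.unique W hwΩ hw0 h₁) n le_rfl, (h'.unique W' hwΩ hw0 h₁') m le_rfl]
      with x k1 k2 k3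
    rw [hf] at k1 ⊢
    simp only at k1 ⊢
    rw [← k2, ← k3]
    exact k1
  have hdis : T ∩ F = ∅ := by
    rw [Set.eq_empty_iff_forall_notMem]
    intro w hw
    have h1 := hne w hw
    subst h1
    have h3 : T ∩ F ∈ 𝓝 (0 : ℂ) := (hT.inter hF).mem_nhds hw
    obtain ⟨ε, hε, hb⟩ := Metric.mem_nhds_iff.1 h3
    have h4 : ((ε / 2 : ℝ) : ℂ) ∈ Metric.ball (0 : ℂ) ε := by
      rw [mem_ball_zero_iff, Complex.norm_real, Real.norm_of_nonneg (by positivity)]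
      linarith
    have h5 := hne _ (hb h4)
    have h6 : (ε / 2 : ℝ) ≠ 0 := by positivity
    exact h6 (by exact_mod_cast h5)
  have hcov : Ω ⊆ T ∪ F := by
    intro w hwΩ
    have hex : ∃ V V', GC t₀ N H u n w V ∧ GC t₀ N H' u' m w V' := by
      by_cases hw0 : w = 0
      · subst hw0
        exact ⟨V, V', hV, hV'⟩
      · obtain ⟨V₁, h1⟩ := GC.exists_reg W hwΩ hw0
        obtain ⟨V₁', h1'⟩ := GC.exists_reg W' hwΩ hw0
        exact ⟨V₁, V₁', h1, h1'⟩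
    obtain ⟨V₁, V₁', h1, h1'⟩ := hex
    by_cases hx : ∀ᶠ x in 𝓝 (w, (0 : ℂ)), f V₁ V₁' x = 0
    · exact Or.inl ⟨hwΩ, V₁, V₁', h1, h1', hx⟩
    · exact Or.inr ⟨hwΩ, V₁, V₁', h1, h1', hx⟩
  have hsub : Ω ⊆ T := by
    refine hΩc.subset_left_of_subset_union hT hF ?_ hcov ⟨w₂, h2, h2, ?_⟩
    · exact Set.disjoint_iff_inter_eq_empty.2 hdis
    · exact hw
  by_contra hcon
  have : (0 : ℂ) ∈ T ∩ F := ⟨hsub h0, h0, V, V', hV, hV', hcon⟩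
  rw [hdis] at this
  exact this

/-- identity along `w = s ^ N` -/
lemma pow_ident {N : ℕ} (hN : N ≠ 0) {f : ℂ → ℂ} (hf : AnalyticAt ℂ f 0)
    (h : ∀ᶠ s in 𝓝 (0 : ℂ), f (s ^ N) = 0) : ∀ᶠ w in 𝓝 (0 : ℂ), f w = 0 := by
  rw [← hf.frequently_zero_iff_eventually_zero]
  have h1 : ∃ᶠ s in 𝓝[≠] (0 : ℂ), f (s ^ N) = 0 :=
    (h.filter_mono nhdsWithin_le_nhds).frequently
  exact (tendsto_pow' hN).frequently h1

/-- **Glancing scale.** -/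
theorem scale [DecidablePred gl'] {m₀ s₂ D₀ : ℂ} (hN : N ≠ 0) (hΩo : IsOpen Ω)
    (hΩc : IsPreconnected Ω) (h0 : (0 : ℂ) ∈ Ω) (h2 : s₂ ∈ Ω)
    (W : Word t₀ Ω N n H u fun _ => True) (W' : Word t₀ Ω N m H' u' gl')
    (hh : ∀ j < n, ∀ᶠ x in 𝓝 (a 0), H j (x, 0) = H 0 (x, 0)) (hD₀ : D₀ ≠ 0)
    (hD : ∀ j < n, ∃ D : ℂ → ℂ, ContinuousAt D 0 ∧ D 0 = D₀ ∧
      ∀ᶠ s in 𝓝 (0 : ℂ), hta (u j (t₀, s)) (u (j + 1) (t₀, s)) = s ^ N * D s)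
    (ha : AnalyticAt ℂ a 0) (hp : AnalyticAt ℂ p 0)
    (hu : ∀ᶠ s in 𝓝 (0 : ℂ), u 0 (t₀, s) = (a (s ^ N), p (s ^ N))) (hev : deriv a 0 = 0)
    (h00 : ∀ᶠ w in 𝓝 (0 : ℂ), u' 0 (t₀, w) = u 0 (t₀, w))
    (h0t : ∀ᶠ t in 𝓝 t₀, u' 0 (t, 0) = u 0 (t, 0))
    (hg : ∀ i < n, ∀ j < n, i ≠ j → deps (H i) (a 0) ≠ deps (H j) (a 0))
    (hcn : Nat.count gl' m < n)
    (hw : ∃ V V', GC t₀ N H u n s₂ V ∧ GC t₀ N H' u' m s₂ V' ∧
      ∀ᶠ x in 𝓝 (s₂, (0 : ℂ)), V' m x - (V n x + (m₀, 0)) = 0) : False := by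
  have hn : 0 < n := by omega
  obtain ⟨V, v, hV, hva, hVv, D, hDa, hD0, hD2, hVd⟩ := natural W hN h0 hn hh hD₀ hD ha hp hu hev
  obtain ⟨D', hD'c, hD'D, hD's⟩ := hD 0 hn
  obtain ⟨V', v', hV', hva', hVv', hVd'⟩ := star W W' hN h0 hn hD'c hD's ha hp hu hev h00 h0t
  have hcont := cont_words (m₀ := m₀) hΩo hΩc h0 h2 W W' rfl hV hV' hw
  refine sqs_contra hcn hVd' (κ := rho (H 0) (a 0, 0) / 2) (D₀ := D₀) ?_ hD₀ hDa hD0 hD2
    ?_ ?_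
  · have h3 := W.hρ 0 h0 0 hn
    have g0' : (u 1 (t₀, 0)).1 = (u 0 (t₀, 0)).1 := (W.g0 0 hn trivial).self_of_nhds
    have hu0 : (u 0 (t₀, 0)).1 = a 0 := by
      rw [hu.self_of_nhds, zero_pow hN]
    have hvtx : vtx (u 0 (t₀, 0)) (u 1 (t₀, 0)) = a 0 := by
      unfold vtx
      rw [g0', hu0]
      ring
    rw [zero_add, hvtx] at h3
    exact div_ne_zero h3 two_ne_zero
  · intro i j hij
    by_contra hne
    exact hg i i.2 j j.2 (fun h => hne (Fin.ext h)) hij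
  · have hcv : ∀ᶠ x : ℂ × ℂ in 𝓝 (0, 0), (v' (x.1 ^ N, x.2)).1 = (v (x.1 ^ N, x.2)).1 + m₀ := by
      filter_upwards [hcont, hVv, hVv'] with x k1 k2 k3
      rw [← k2, ← k3, sub_eq_zero.1 k1]
      rfl
    have hva1 : AnalyticAt ℂ (fun x => (v x).1) (0, 0) :=
      AnalyticAt.comp (g := fun z : ℂ × ℂ => z.1) analyticAt_fst hva
    have hva1' : AnalyticAt ℂ (fun x => (v' x).1) (0, 0) :=
      AnalyticAt.comp (g := fun z : ℂ × ℂ => z.1) analyticAt_fst hva'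
    filter_upwards [hVd, tendsto_e.eventually hcv.eventually_nhds,
      tendsto_e.eventually hva1.eventually_analyticAt,
      tendsto_e.eventually hva1'.eventually_analyticAt] with e k1 k2 k3 k4
    rw [← k1]
    have hw' : Tendsto (fun w : ℂ => (w, e)) (𝓝 0) (𝓝 (0, e)) := by
      have : Continuous fun w : ℂ => (w, e) := by fun_prop
      exact this.tendsto _
    have b1 : AnalyticAt ℂ (fun w => (v (w, e)).1) 0 :=
      AnalyticAt.comp (g := fun x => (v x).1) (f := fun w : ℂ => (w, e)) k3 (by fun_prop)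
    have b2 : AnalyticAt ℂ (fun w => (v' (w, e)).1) 0 :=
      AnalyticAt.comp (g := fun x => (v' x).1) (f := fun w : ℂ => (w, e)) k4 (by fun_prop)
    have h3 : ∀ᶠ w in 𝓝 (0 : ℂ), (v' (w, e)).1 - ((v (w, e)).1 + m₀) = 0 := by
      refine pow_ident hN (f := fun w => (v' (w, e)).1 - ((v (w, e)).1 + m₀))
        (b2.sub (b1.add analyticAt_const)) ?_
      filter_upwards [hw'.eventually k2] with s hs
      rw [hs, sub_self]
    have h4 : (fun w => (v' (w, e)).1) =ᶠ[𝓝 0] fun w => (v (w, e)).1 + m₀ := by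
      filter_upwards [h3] with w hw
      exact sub_eq_zero.1 hw
    rw [h4.deriv_eq, deriv_add_const]

end

end Vale.Agent.P097.H845.R
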