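import Vale.Agent.P097.H845.Rg5
import Vale.Agent.P097.H456.Fct.B2

/-!
# P097, row F5b: from scaled words and deformations to words and germs
-/

open Set Filter Topology
open Vale.Agent.P097.H456

namespace Vale.Agent.P097.H845.R

noncomputable section

attribute [local fun_prop] analyticAt_fst analyticAt_snd

/-- partial sums of the shifts -/
def KK (kk : ℕ → ℤ) (j : ℕ) : ℂ := ∑ i ∈ Finset.range j, (kk i : ℂ)

lemma KK_succ (kk : ℕ → ℤ) (j : ℕ) : KK kk (j + 1) = KK kk j + kk j := Finset.sum_range_succ _ _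

/-- sign -/
def sg (k : ℤ) : ℂ := (-1) ^ k

lemma sg_mul (k : ℤ) : sg k * sg k = 1 := by
  unfold sg
  rw [← mul_zpow]
  simp

lemma sg_ne (k : ℤ) : sg k ≠ 0 := zpow_ne_zero _ (by norm_num)

lemma cos_int (k : ℤ) : Complex.cos (k * Real.pi) = sg k := by
  have h := Real.cos_int_mul_pi k
  have h2 : ((Real.cos (k * Real.pi) : ℝ) : ℂ) = (((-1) ^ k : ℝ) : ℂ) := by rw [h]
  push_cast at h2
  exact h2

lemma sin_int (k : ℤ) : Complex.sin (k * Real.pi) = 0 := by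
  have h := Real.sin_int_mul_pi k
  have h2 : ((Real.sin (k * Real.pi) : ℝ) : ℂ) = ((0 : ℝ) : ℂ) := by rw [h]
  push_cast at h2
  exact h2

lemma cos_sh (d : ℂ) (k : ℤ) : Complex.cos (d - k * Real.pi) = sg k * Complex.cos d := by
  rw [Complex.cos_sub, cos_int, sin_int]
  ring

lemma sin_sh (d : ℂ) (k : ℤ) : Complex.sin (d - k * Real.pi) = sg k * Complex.sin d := by
  rw [Complex.sin_sub, cos_int, sin_int]
  ring

/-- shifted mirror -/
def shM (c σ : ℂ) (g : ℂ × ℂ → ℂ) (x : ℂ × ℂ) : ℂ := σ * g (x.1 + c, x.2)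

lemma dpsi_shM (c σ : ℂ) (g : ℂ × ℂ → ℂ) : dpsi (shM c σ g) = shM c σ (dpsi g) := by
  funext x
  unfold dpsi shM
  rw [deriv_const_mul_field, deriv_comp_add_const (f := fun y => g (y, x.2))]

lemma rho_shM (c σ : ℂ) (g : ℂ × ℂ → ℂ) (x : ℂ × ℂ) : rho (shM c σ g) x = shM c σ (rho g) x := by
  unfold rho
  rw [dpsi_shM, dpsi_shM]
  unfold shM
  simp only
  ring

lemma shM_an {c σ : ℂ} {g : ℂ × ℂ → ℂ} {x : ℂ × ℂ} (h : AnalyticAt ℂ g (x.1 + c, x.2)) :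
    AnalyticAt ℂ (shM c σ g) x := by
  unfold shM
  exact analyticAt_const.mul
    (AnalyticAt.comp (g := g) (f := fun x : ℂ × ℂ => (x.1 + c, x.2)) h (by fun_prop))

/-- shifted mirrors -/
def shG (kk : ℕ → ℤ) (G : ℕ → ℂ × ℂ → ℂ) (j : ℕ) : ℂ × ℂ → ℂ :=
  shM (Real.pi * (KK kk j + KK kk (j + 1))) (sg (kk j)) (G j)

/-- shifted lines -/
def shL (kk : ℕ → ℤ) (a q : ℕ → ℂ × ℂ → ℂ) (j : ℕ) (x : ℂ × ℂ) : ℂ × ℂ :=
  (a j x - 2 * Real.pi * KK kk j, q j x)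

lemma mid_sh (kk : ℕ → ℤ) (j : ℕ) (x x' : ℂ) :
    ((x - 2 * Real.pi * KK kk j) + (x' - 2 * Real.pi * KK kk (j + 1))) / 2 +
      Real.pi * (KK kk j + KK kk (j + 1)) = (x + x') / 2 := by ring

lemma hta_sh (kk : ℕ → ℤ) (j : ℕ) (x x' : ℂ) :
    ((x' - 2 * Real.pi * KK kk (j + 1)) - (x - 2 * Real.pi * KK kk j)) / 2 =
      (x' - x) / 2 - kk j * Real.pi := by
  rw [KK_succ]
  ring

lemma RL_sh {kk : ℕ → ℤ} {G : ℕ → ℂ × ℂ → ℂ} {j : ℕ} {ε x y x' y' : ℂ}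
    (h : RL (G j) ε (x, y) (x', y')) :
    RL (shG kk G j) ε (x - 2 * Real.pi * KK kk j, y) (x' - 2 * Real.pi * KK kk (j + 1), y') := by
  unfold RL shG at *
  rw [dpsi_shM]
  simp only [shM] at *
  rw [mid_sh, hta_sh, cos_sh, sin_sh]
  have hs := sg_mul (kk j)
  refine ⟨?_, ?_⟩
  · linear_combination h.1 - (G j ((x + x') / 2, ε) * Complex.cos ((x' - x) / 2) -
      dpsi (G j) ((x + x') / 2, ε) * Complex.sin ((x' - x) / 2)) * hs
  · linear_combination h.2 - (G j ((x + x') / 2, ε) * Complex.cos ((x' - x) / 2) +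
      dpsi (G j) ((x + x') / 2, ε) * Complex.sin ((x' - x) / 2)) * hs

lemma shG_zero (G : ℕ → ℂ × ℂ → ℂ) : shG (fun _ => 0) G = G := by
  funext j x
  simp [shG, shM, sg, KK]

lemma KK_zero (j : ℕ) : KK (fun _ => 0) j = 0 := by simp [KK]

lemma isOpen_Box (t1 : ℂ) (r1 : ℝ) : IsOpen (Fct.Box t1 r1) := Metric.isOpen_ball.prod Metric.isOpen_ball

variable {t1 : ℂ} {r1 : ℝ} {N n : ℕ} {M : ℕ → ℂ → ℂ} {a q : ℕ → ℂ × ℂ → ℂ} {G : ℕ → ℂ × ℂ → ℂ}

/-- the deformed mirror at `ε = 0` -/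
lemma RL_of_Let {m : ℂ → ℂ} {g : ℂ × ℂ → ℂ} {x y x' y' : ℂ}
    (h0 : ∀ᶠ z in 𝓝 ((x + x') / 2), g (z, 0) = m z) (h : Fct.Let m x y x' y') :
    RL g 0 (x, y) (x', y') := by
  have h1 : (fun z => g (z, 0)) =ᶠ[𝓝 ((x + x') / 2)] m := h0
  have h2 : dpsi g ((x + x') / 2, 0) = deriv m ((x + x') / 2) := h1.deriv_eq
  have h3 : g ((x + x') / 2, 0) = m ((x + x') / 2) := h1.self_of_nhds
  unfold RL
  simp only
  rw [h2, h3]
  exact h

lemma rho_of {m : ℂ → ℂ} {g : ℂ × ℂ → ℂ} {z : ℂ} (h0 : ∀ᶠ z in 𝓝 z, g (z, 0) = m z) :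
    rho g (z, 0) = m z + deriv (deriv m) z := by
  have h1 : (fun z => g (z, 0)) =ᶠ[𝓝 z] m := h0
  have h2 : (fun z => dpsi g (z, 0)) =ᶠ[𝓝 z] deriv m := h1.deriv
  have h3 : dpsi (dpsi g) (z, 0) = deriv (deriv m) z := h2.deriv_eq
  unfold rho
  rw [h3, h0.self_of_nhds]

/-- a scaled word gives a word -/
theorem word_of (hN : N ≠ 0) (sw : Fct.SWord (Fct.Box t1 r1) N n M a q)
    (gA : ∀ j < n, ∀ u ∈ Fct.Box t1 r1, AnalyticAt ℂ (G j) (Fct.mid (a j) (a (j + 1)) u, 0))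
    (g0 : ∀ j < n, ∀ u ∈ Fct.Box t1 r1, ∀ᶠ z in 𝓝 (Fct.mid (a j) (a (j + 1)) u), G j (z, 0) = M j z)
    (hr : 0 < r1) {t₀ : ℂ} (ht₀ : t₀ ∈ Metric.ball t1 r1) {gl : ℕ → Prop} {kk : ℕ → ℤ}
    (htv : ∀ j < n, ¬ gl j → Fct.Tv (Fct.Box t1 r1) (a j) (a (j + 1)))
    (hgl : ∀ j < n, gl j → ∃ D : ℂ × ℂ → ℂ, AnalyticOnNhd ℂ D (Fct.Box t1 r1) ∧
      (∀ u ∈ Fct.Box t1 r1, D u ≠ 0) ∧
      ∀ u ∈ Fct.Box t1 r1, a (j + 1) u - a j u = 2 * Real.pi * kk j + 2 * u.2 ^ N * D u) :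
    Word t₀ (Metric.ball 0 r1) N n (shG kk G) (shL kk a q) gl := by
  have hbox : ∀ s ∈ Metric.ball (0 : ℂ) r1, (t₀, s) ∈ Fct.Box t1 r1 := fun s hs => ⟨ht₀, hs⟩
  have h0 : (0 : ℂ) ∈ Metric.ball (0 : ℂ) r1 := Metric.mem_ball_self hr
  have hev : ∀ᶠ t in 𝓝 t₀, (t, (0 : ℂ)) ∈ Fct.Box t1 r1 := by
    filter_upwards [Metric.isOpen_ball.mem_nhds ht₀] with t ht
    exact ⟨ht, h0⟩
  have hvtx : ∀ j x, vtx (shL kk a q j x) (shL kk a q (j + 1) x) +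
      Real.pi * (KK kk j + KK kk (j + 1)) = Fct.mid (a j) (a (j + 1)) x := by
    intro j x
    exact mid_sh kk j _ _
  have hhta : ∀ j x, hta (shL kk a q j x) (shL kk a q (j + 1) x) =
      (a (j + 1) x - a j x) / 2 - kk j * Real.pi := by
    intro j x
    exact hta_sh kk j _ _
  refine ⟨?_, ?_, ?_, ?_, ?_, ?_, ?_, ?_, ?_⟩
  · intro s hs j hj
    exact ((sw.aA j hj _ (hbox s hs)).sub analyticAt_const).prod (sw.qA j hj _ (hbox s hs))
  · intro s hs j hj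
    filter_upwards [(isOpen_Box t1 r1).mem_nhds (hbox s hs)] with x hx
    exact RL_sh (RL_of_Let (g0 j hj x hx) (sw.lt j hj x hx))
  · intro s hs j hj
    refine shM_an ?_
    simp only
    rw [hvtx]
    exact gA j hj _ (hbox s hs)
  · intro s hs j hj
    unfold shG
    rw [rho_shM]
    unfold shM
    simp only
    rw [hvtx, rho_of (g0 j hj _ (hbox s hs))]
    exact mul_ne_zero (sg_ne _) (sw.curv j hj _ (hbox s hs))
  · intro s hs hs0 j hj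
    rw [hhta, sin_sh]
    exact mul_ne_zero (sg_ne _) (sw.sn j hj _ (hbox s hs) hs0)
  · intro j hj hg
    obtain ⟨D, hD, hD0, hDu⟩ := hgl j hj hg
    filter_upwards [hev] with t ht
    have h1 := hDu _ ht
    simp only [zero_pow hN, mul_zero, zero_mul, add_zero] at h1
    simp only [shL, KK_succ]
    linear_combination h1
  · intro j hj hg
    obtain ⟨D, hD, hD0, hDu⟩ := hgl j hj hg
    refine ⟨fun s => D (t₀, s), ?_, hD0 _ (hbox 0 h0), ?_⟩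
    · exact ContinuousAt.comp (g := D) (f := fun s : ℂ => (t₀, s)) (hD _ (hbox 0 h0)).continuousAt
        (tendsto_pair' t₀ 0)
    · filter_upwards [Metric.isOpen_ball.mem_nhds h0] with s hs
      have h1 := hDu _ (hbox s hs)
      simp only at h1
      rw [hhta, h1]
      ring
  · intro j hj hg
    obtain ⟨D, hD, hD0, hDu⟩ := hgl j hj hg
    have h1 := sw.vt j hj _ (hbox 0 h0)
    simp only at h1
    have h2 : (fun t => Fct.mid (a j) (a (j + 1)) (t, 0)) =ᶠ[𝓝 t₀]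
        fun t => (shL kk a q j (t, 0)).1 + (2 * Real.pi * KK kk j + Real.pi * kk j) := by
      filter_upwards [hev] with t ht
      have h3 := hDu _ ht
      simp only [zero_pow hN, mul_zero, zero_mul, add_zero] at h3
      simp only [shL, Fct.mid]
      linear_combination h3 / 2
    rw [h2.deriv_eq, deriv_add_const] at h1
    exact h1
  · intro j hj hg
    rw [hhta, sin_sh]
    exact mul_ne_zero (sg_ne _) (htv j hj hg _ (hbox 0 h0))

/-- the undeformed chain -/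
theorem def_zero {u2 : ℂ × ℂ} {A Q : ℕ → (ℂ × ℂ) × ℂ → ℂ}
    (sw : Fct.SWord (Fct.Box t1 r1) N n M a q)
    (D : Fct.Def (Fct.Box t1 r1) n M a q G u2 A Q) :
    ∀ j ≤ n, ∀ᶠ u in 𝓝 u2, A j (u, 0) = a j u ∧ Q j (u, 0) = q j u := by
  have hpt : Tendsto (fun u : ℂ × ℂ => (u, (0 : ℂ))) (𝓝 u2) (𝓝 (u2, 0)) := by
    have : Continuous fun u : ℂ × ℂ => (u, (0 : ℂ)) := by fun_prop
    exact this.tendsto _
  have hRa : ∀ j < n, ∀ u ∈ Fct.Box t1 r1, RL (G j) 0 (a j u, q j u) (a (j + 1) u, q (j + 1) u) :=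
    fun j hj u hu => RL_of_Let (D.g0 j hj u hu) (sw.lt j hj u hu)
  have hRA : ∀ j < n, ∀ᶠ v : (ℂ × ℂ) × ℂ in 𝓝 (u2, (0 : ℂ)),
      RL (G j) v.2 (A j v, Q j v) (A (j + 1) v, Q (j + 1) v) := fun j hj => D.lt j hj
  have hQ0 : ∀ j ≤ n, Q j (u2, 0) = q j u2 := by
    intro j hj
    rcases j with _ | j
    · exact D.bs.self_of_nhds.2
    · have h1 := (hRA j hj).self_of_nhds.2
      have h2 := (hRa j hj _ D.mem).2
      simp only at h1 h2
      rw [h1, h2, D.A0 j (by omega), D.A0 (j + 1) hj]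
  intro j
  induction j with
  | zero =>
    intro _
    filter_upwards [hpt.eventually D.bs] with u hu
    exact hu
  | succ j ih =>
    intro hj
    have ih := ih (by omega)
    have hj' : j < n := hj
    have hb := hRa j hj' _ D.mem
    have hHa : AnalyticAt ℂ (G j) ((a j u2 + a (j + 1) u2) / 2, 0) := D.gA j hj' _ D.mem
    have hρ : rho (G j) ((a j u2 + a (j + 1) u2) / 2, 0) ≠ 0 := by
      have h1 : ∀ᶠ z in 𝓝 ((a j u2 + a (j + 1) u2) / 2), G j (z, 0) = M j z := D.g0 j hj' _ D.mem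
      rw [rho_of h1]
      exact sw.curv j hj' _ D.mem
    obtain ⟨F, -, -, -, hF⟩ := reg_letter (l₀ := (a j u2, q j u2))
      (l₁ := (a (j + 1) u2, q (j + 1) u2)) hHa hb hρ (sw.sn j hj' _ D.mem D.w0)
    have cA : ∀ i ≤ n, Tendsto (fun u : ℂ × ℂ => (A i (u, 0), Q i (u, 0))) (𝓝 u2)
        (𝓝 (a i u2, q i u2)) := by
      intro i hi
      have h1 := (D.AA i hi).continuousAt.tendsto.comp hpt
      have h2 := (D.QA i hi).continuousAt.tendsto.comp hpt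
      rw [D.A0 i hi] at h1
      rw [hQ0 i hi] at h2
      exact h1.prodMk_nhds h2
    have ca : ∀ i ≤ n, Tendsto (fun u : ℂ × ℂ => (a i u, q i u)) (𝓝 u2)
        (𝓝 (a i u2, q i u2)) := fun i hi =>
      (sw.aA i hi _ D.mem).continuousAt.tendsto.prodMk_nhds
        (sw.qA i hi _ D.mem).continuousAt.tendsto
    have t1' : Tendsto (fun u : ℂ × ℂ => (((A j (u, 0), Q j (u, 0)), (0 : ℂ)),
        (A (j + 1) (u, 0), Q (j + 1) (u, 0)))) (𝓝 u2)
        (𝓝 (((a j u2, q j u2), 0), (a (j + 1) u2, q (j + 1) u2))) :=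
      ((cA j hj'.le).prodMk_nhds tendsto_const_nhds).prodMk_nhds (cA (j + 1) hj)
    have t2' : Tendsto (fun u : ℂ × ℂ => (((a j u, q j u), (0 : ℂ)),
        (a (j + 1) u, q (j + 1) u))) (𝓝 u2)
        (𝓝 (((a j u2, q j u2), 0), (a (j + 1) u2, q (j + 1) u2))) :=
      ((ca j hj'.le).prodMk_nhds tendsto_const_nhds).prodMk_nhds (ca (j + 1) hj)
    filter_upwards [t1'.eventually hF, t2'.eventually hF, hpt.eventually (hRA j hj'),
      (isOpen_Box t1 r1).mem_nhds D.mem, ih] with u k1 k2 k3 k4 k5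
    have e1 := k1 k3
    have e2 := k2 (hRa j hj' u k4)
    rw [k5.1, k5.2, ← e2] at e1
    exact ⟨congrArg Prod.fst e1, congrArg Prod.snd e1⟩

/-- the germ of a deformation -/
def gm (kk : ℕ → ℤ) (N : ℕ) (A Q : ℕ → (ℂ × ℂ) × ℂ → ℂ) (t : ℂ) (j : ℕ) (x : ℂ × ℂ) : ℂ × ℂ :=
  (A j ((t, x.1), x.2 * (x.1 ^ N) ^ 2) - 2 * Real.pi * KK kk j,
    Q j ((t, x.1), x.2 * (x.1 ^ N) ^ 2))

lemma gm_tendsto (N : ℕ) (t s : ℂ) : Tendsto
    (fun x : ℂ × ℂ => (((t, x.1), x.2 * (x.1 ^ N) ^ 2) : (ℂ × ℂ) × ℂ)) (𝓝 (s, 0))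
    (𝓝 ((t, s), 0)) := by
  have h1 : Continuous fun x : ℂ × ℂ => (((t, x.1), x.2 * (x.1 ^ N) ^ 2) : (ℂ × ℂ) × ℂ) := by
    fun_prop
  have h2 := h1.tendsto (s, 0)
  simp only [zero_mul] at h2
  exact h2

lemma base_tendsto (u2 : ℂ × ℂ) : Tendsto (fun t : ℂ => (((t, u2.2), 0) : (ℂ × ℂ) × ℂ)) (𝓝 u2.1)
    (𝓝 (u2, 0)) := by
  have h1 : Continuous fun t : ℂ => (((t, u2.2), 0) : (ℂ × ℂ) × ℂ) := by fun_prop
  exact h1.tendsto _

lemma base_tendsto' (u2 : ℂ × ℂ) : Tendsto (fun t : ℂ => (t, u2.2)) (𝓝 u2.1) (𝓝 u2) := by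
  have h1 : Continuous fun t : ℂ => (t, u2.2) := by fun_prop
  exact h1.tendsto _

theorem gc_of {u2 : ℂ × ℂ} {A Q : ℕ → (ℂ × ℂ) × ℂ → ℂ}
    (sw : Fct.SWord (Fct.Box t1 r1) N n M a q)
    (D : Fct.Def (Fct.Box t1 r1) n M a q G u2 A Q) (kk : ℕ → ℤ) :
    ∀ᶠ t in 𝓝 u2.1, GC t N (shG kk G) (shL kk a q) n u2.2 (gm kk N A Q t) := by
  have h1 : ∀ᶠ t in 𝓝 u2.1, ∀ j ∈ Finset.range (n + 1),
      AnalyticAt ℂ (A j) ((t, u2.2), 0) ∧ AnalyticAt ℂ (Q j) ((t, u2.2), 0) :=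
    (eventually_all_finset _).2 fun j hj =>
      have hj' : j ≤ n := by simpa [Nat.lt_succ_iff] using hj
      ((base_tendsto u2).eventually (D.AA j hj').eventually_analyticAt).and
        ((base_tendsto u2).eventually (D.QA j hj').eventually_analyticAt)
  have h2 := (base_tendsto u2).eventually D.bs.eventually_nhds
  have h3 : ∀ᶠ t in 𝓝 u2.1, ∀ j ∈ Finset.range n, ∀ᶠ v : (ℂ × ℂ) × ℂ in 𝓝 ((t, u2.2), (0 : ℂ)),
      RL (G j) v.2 (A j v, Q j v) (A (j + 1) v, Q (j + 1) v) :=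
    (eventually_all_finset _).2 fun j hj =>
      (base_tendsto u2).eventually (D.lt j (by simpa using hj)).eventually_nhds
  have h4 : ∀ᶠ t in 𝓝 u2.1, ∀ j ∈ Finset.range (n + 1), ∀ᶠ u in 𝓝 (t, u2.2),
      A j (u, 0) = a j u ∧ Q j (u, 0) = q j u :=
    (eventually_all_finset _).2 fun j hj =>
      (base_tendsto' u2).eventually
        (def_zero sw D j (by simpa [Nat.lt_succ_iff] using hj)).eventually_nhds
  filter_upwards [h1, h2, h3, h4] with t k1 k2 k3 k4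
  refine ⟨?_, ?_, ?_, ?_⟩
  · intro j hj
    obtain ⟨m1, m2⟩ := k1 j (by simpa [Nat.lt_succ_iff] using hj)
    have h5 : AnalyticAt ℂ (fun x : ℂ × ℂ => (((t, x.1), x.2 * (x.1 ^ N) ^ 2) : (ℂ × ℂ) × ℂ))
        (u2.2, 0) := by fun_prop
    have h6 : AnalyticAt ℂ (fun x : ℂ × ℂ => A j ((t, x.1), x.2 * (x.1 ^ N) ^ 2)) (u2.2, 0) := by
      refine AnalyticAt.comp (g := A j)
        (f := fun x : ℂ × ℂ => (((t, x.1), x.2 * (x.1 ^ N) ^ 2) : (ℂ × ℂ) × ℂ)) ?_ h5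
      simp only [zero_mul]
      exact m1
    have h7 : AnalyticAt ℂ (fun x : ℂ × ℂ => Q j ((t, x.1), x.2 * (x.1 ^ N) ^ 2)) (u2.2, 0) := by
      refine AnalyticAt.comp (g := Q j)
        (f := fun x : ℂ × ℂ => (((t, x.1), x.2 * (x.1 ^ N) ^ 2) : (ℂ × ℂ) × ℂ)) ?_ h5
      simp only [zero_mul]
      exact m2
    exact (h6.sub analyticAt_const).prod h7
  · filter_upwards [(gm_tendsto N t u2.2).eventually k2] with x hx
    unfold gm shL
    rw [hx.1, hx.2]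
  · intro j hj
    filter_upwards [(gm_tendsto N t u2.2).eventually (k3 j (by simpa using hj))] with x hx
    exact RL_sh hx
  · intro j hj
    have h8 : Tendsto (fun s : ℂ => (t, s)) (𝓝 u2.2) (𝓝 (t, u2.2)) := tendsto_pair' t _
    filter_upwards [h8.eventually (k4 j (by simpa [Nat.lt_succ_iff] using hj))] with s hs
    unfold gm shL
    simp only [zero_mul]
    rw [hs.1, hs.2]

end

end Vale.Agent.P097.H845.R
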