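import Mathlib
import Vale.Agent.P097.H286.C.RowLift
import Vale.Agent.P097.H100.Ent
import Vale.Agent.P097.H839.Tan.Area

/-!
# P097 / row A5.T10 (note 16474), the two ends: a tangential limit line which is locally a function
of `κ` is constant (no growth hypothesis)
-/

set_option linter.all false

open Complex Metric Set Filter Topology

namespace Vale.Agent.P097.H845

open Vale.Agent.P097.H100 Vale.Agent.P097.TC Vale.Agent.P097.H839.Tan

/-- **T10, last step**: tangential line `(a', p')` on the wide cone, `∂_w = 0` on an open set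
`⟹` constant. No growth is needed. -/
theorem t10_fin {Λ b : ℝ} {F q Q : ℂ → ℂ} (hB : CC.Bs Λ b F q Q) {d : ℝ} (hd : 0 < d)
    {a' p' th' : ℂ × ℂ → ℂ} (ha : DifferentiableOn ℂ a' (Wc d)) (hp : DifferentiableOn ℂ p' (Wc d))
    (hth : DifferentiableOn ℂ th' {z : ℂ × ℂ | z.1.im < 0 ∧ 0 < z.2.im})
    (hmem : ∀ z : ℂ × ℂ, z.1.im < 0 → 0 < z.2.im → |(th' z).im| < b) {m : ℤ}
    (hta : ∀ z : ℂ × ℂ, z.1.im < 0 → 0 < z.2.im → a' z = F (th' z) + m * Real.pi)
    (htp : ∀ z : ℂ × ℂ, z.1.im < 0 → 0 < z.2.im → p' z = (-1) ^ m * q (th' z))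
    {O : Set (ℂ × ℂ)} (hO : IsOpen O) (hOD : O ⊆ Wc d) (hne : O.Nonempty)
    (h0 : ∀ z ∈ O, fderiv ℂ a' z (0, 1) = 0 ∧ fderiv ℂ p' z (0, 1) = 0) :
    ∃ A P : ℂ, ∀ z ∈ Wc d, a' z = A ∧ p' z = P := by
  obtain ⟨ya, hya, hYa⟩ := wide_entire_open (σ := 0) (s := d) hd ha hO hOD hne
    (fun z hz => by simpa using (h0 z hz).1)
  obtain ⟨yp, hyp, hYp⟩ := wide_entire_open (σ := 0) (s := d) hd hp hO hOD hne
    (fun z hz => by simpa using (h0 z hz).2)
  have hYa' : ∀ z ∈ Wc d, a' z = ya z.1 := fun z hz => by simpa using hYa z hz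
  have hYp' : ∀ z ∈ Wc d, p' z = yp z.1 := fun z hz => by simpa using hYp z hz
  set θ : ℂ → ℂ := fun k => th' (k, I) with hθ
  have hD : ∀ k : ℂ, k.im < 0 → ((k, I) : ℂ × ℂ) ∈ Wc d := fun k hk =>
    ⟨by simp, by simp only [I_im, mul_one]; linarith⟩
  have hθd : DifferentiableOn ℂ θ {k : ℂ | k.im < 0} := by
    refine hth.comp (by fun_prop) ?_
    intro k hk
    exact ⟨hk, by simp⟩
  have hopen : IsOpen {k : ℂ | k.im < 0} := isOpen_lt continuous_im continuous_const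
  have hconv : Convex ℝ {k : ℂ | k.im < 0} := convex_halfSpace_im_lt 0
  have hea : ∀ k : ℂ, k.im < 0 → ya k = F (θ k) + m * Real.pi := fun k hk => by
    rw [← hYa' (k, I) (hD k hk)]
    exact hta (k, I) hk (by simp)
  have hep : ∀ k : ℂ, k.im < 0 → yp k = (-1) ^ m * q (θ k) := fun k hk => by
    rw [← hYp' (k, I) (hD k hk)]
    exact htp (k, I) hk (by simp)
  -- it is enough that `θ` is constant near one point
  suffices hloc : ∃ t₀ : ℂ, t₀.im < 0 ∧ ∀ᶠ t in 𝓝 t₀, θ t = θ t₀ by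
    obtain ⟨t₀, ht₀, hev⟩ := hloc
    have hcon : ∀ {y : ℂ → ℂ}, Differentiable ℂ y → (∀ᶠ t in 𝓝 t₀, y t = y t₀) → ∀ t, y t = y t₀ := by
      intro y hy he t
      have h1 : AnalyticOnNhd ℂ y univ := hy.differentiableOn.analyticOnNhd isOpen_univ
      have h2 : AnalyticOnNhd ℂ (fun _ : ℂ => y t₀) univ := analyticOnNhd_const
      exact h1.eqOn_of_preconnected_of_eventuallyEq h2 isPreconnected_univ (mem_univ t₀) he
        (mem_univ t)
    have hnh : ∀ᶠ t in 𝓝 t₀, t.im < 0 := hopen.mem_nhds ht₀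
    refine ⟨ya t₀, yp t₀, fun z hz => ⟨?_, ?_⟩⟩
    · rw [hYa' z hz]
      refine hcon hya ?_ _
      filter_upwards [hev, hnh] with t h1 h2
      rw [hea t h2, hea t₀ ht₀, h1]
    · rw [hYp' z hz]
      refine hcon hyp ?_ _
      filter_upwards [hev, hnh] with t h1 h2
      rw [hep t h2, hep t₀ ht₀, h1]
  by_contra hcon
  have ht₀ : (-I : ℂ).im < 0 := by simp
  have hnc : ¬ ∀ᶠ t in 𝓝 (-I : ℂ), θ t = θ (-I) := fun h => hcon ⟨-I, ht₀, h⟩
  have hnh : ∀ᶠ t in 𝓝 (-I : ℂ), t.im < 0 := hopen.mem_nhds ht₀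
  have hexp : ∀ n : ℤ, exp (I * ((n : ℂ) * (Real.pi : ℂ))) = (-1) ^ n := by
    intro n
    rw [show I * ((n : ℂ) * (Real.pi : ℂ)) = (n : ℂ) * ((Real.pi : ℂ) * I) by ring, exp_int_mul,
      exp_pi_mul_I]
  have hsq : ((-1 : ℂ) ^ m) * (-1) ^ m = 1 := by
    rw [← zpow_add₀ (by norm_num : (-1 : ℂ) ≠ 0), ← two_mul, zpow_mul]
    norm_num
  have hrel : ∀ᶠ t in 𝓝 (-I : ℂ), exp (2 * I * ya t) = exp (2 * I * F (θ t)) ∧
      yp t * exp (-I * ya t) = q (θ t) * exp (-I * F (θ t)) := by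
    filter_upwards [hnh] with t ht
    rw [hea t ht, hep t ht]
    constructor
    · rw [show 2 * I * (F (θ t) + m * Real.pi) = 2 * I * F (θ t) + (m : ℂ) * (2 * Real.pi * I) by
        ring, exp_add, exp_int_mul_two_pi_mul_I, mul_one]
    · have e1 : exp (-I * (F (θ t) + m * Real.pi)) = exp (-I * F (θ t)) * (-1) ^ m := by
        rw [show -I * (F (θ t) + m * Real.pi) = -I * F (θ t) + I * (((-m : ℤ) : ℂ) * Real.pi) by
          push_cast; ring, exp_add, hexp (-m)]
        congr 1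
        rw [zpow_neg]
        exact (eq_inv_of_mul_eq_one_left hsq).symm
      rw [e1]
      calc (-1) ^ m * q (θ t) * (exp (-I * F (θ t)) * (-1) ^ m)
          = ((-1 : ℂ) ^ m * (-1) ^ m) * (q (θ t) * exp (-I * F (θ t))) := by ring
        _ = _ := by rw [hsq, one_mul]
  have hanal : AnalyticAt ℂ θ (-I) := (hθd.analyticOnNhd hopen) _ ht₀
  have hS : θ (-I) ∈ H202.Str b := hmem (-I, I) ht₀ (by simp)
  have m1 : MeromorphicOn (fun t => exp (2 * I * ya t)) univ := by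
    intro t _
    have : Differentiable ℂ fun t => exp (2 * I * ya t) := by fun_prop
    exact (this.analyticAt t).meromorphicAt
  have m2 : MeromorphicOn (fun t => yp t * exp (-I * ya t)) univ := by
    intro t _
    have : Differentiable ℂ fun t => yp t * exp (-I * ya t) := by fun_prop
    exact (this.analyticAt t).meromorphicAt
  obtain ⟨θ', hθ', hmaps, heq, -⟩ := CC.rowLift hB isOpen_univ convex_univ m1 m2 (mem_univ (-I))
    hanal hS hnc hrel
  have hθ'' : Differentiable ℂ θ' := fun t => (hθ' t (mem_univ t)).differentiableAt univ_mem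
  obtain ⟨c, hc⟩ := entire_strip hθ'' (H := b) (fun k => (hmaps (mem_univ k) : |(θ' k).im| < b).le)
  refine hnc ?_
  filter_upwards [heq] with t ht
  rw [← ht, hc, ← heq.self_of_nhds, hc]

/-- constant in `w` in the chart `⟹` constant in `w` -/
theorem chart_dw {b : ℝ} {F q : ℂ → ℂ} {x0 : ℂ} {ε ε' : ℝ} {T W : ℂ × ℂ → ℂ}
    {U : (ℂ × ℂ) × ℂ → ℂ} {Inv : ℂ × ℂ → ℂ × ℂ} {K : ℝ} (h : TChart b F q x0 ε ε' T W U Inv K)
    {z0 : ℂ × ℂ} {r : ℝ} {a' p' : ℂ × ℂ → ℂ}
    (ha : DifferentiableOn ℂ a' (ball z0 r)) (hp : DifferentiableOn ℂ p' (ball z0 r))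
    (hm : ∀ z ∈ ball z0 r, (a' z, p' z) ∈ ball (F x0, q x0) ε)
    (hW : ∀ z ∈ ball z0 r, W (a' z, p' z) = 0)
    (hT : ∀ z ∈ ball z0 r, fderiv ℂ (fun z => T (a' z, p' z)) z (0, 1) = 0) :
    ∀ z ∈ ball z0 r, fderiv ℂ a' z (0, 1) = 0 ∧ fderiv ℂ p' z (0, 1) = 0 := by
  intro z hz
  have hdT : ∀ z ∈ ball z0 r, DifferentiableAt ℂ (fun z => T (a' z, p' z)) z := by
    intro z hz
    have h1 : DifferentiableAt ℂ T (a' z, p' z) := h.dT.differentiableAt (isOpen_ball.mem_nhds (hm z hz))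
    have h2 : DifferentiableAt ℂ (fun z => (a' z, p' z)) z :=
      (ha.differentiableAt (isOpen_ball.mem_nhds hz)).prodMk
        (hp.differentiableAt (isOpen_ball.mem_nhds hz))
    exact DifferentiableAt.comp (f := fun z => (a' z, p' z)) z h1 h2
  -- the slice
  set S : Set ℂ := {w : ℂ | (z.1, w) ∈ ball z0 r} with hS
  have hSb : S = ball z0.2 r := by
    ext w
    have hz1 : dist z.1 z0.1 < r := by
      have := hz
      rw [mem_ball, Prod.dist_eq] at this
      exact (le_max_left _ _).trans_lt this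
    rw [hS, mem_setOf_eq, mem_ball, Prod.dist_eq, mem_ball]
    exact ⟨fun h => (le_max_right _ _).trans_lt h, fun h => max_lt hz1 h⟩
  have hzS : z.2 ∈ S := by rw [hS]; exact hz
  have hd1 : ∀ {f : ℂ × ℂ → ℂ} {w : ℂ}, DifferentiableAt ℂ f (z.1, w) →
      HasDerivAt (fun w => f (z.1, w)) (fderiv ℂ f (z.1, w) (0, 1)) w := by
    intro f w hf
    have h1 : HasDerivAt (fun w : ℂ => (z.1, w)) ((0 : ℂ), (1 : ℂ)) w :=
      (hasDerivAt_const w z.1).prodMk (hasDerivAt_id w)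
    exact hf.hasFDerivAt.comp_hasDerivAt w h1
  have hconst : ∀ w ∈ S, T (a' (z.1, w), p' (z.1, w)) = T (a' z, p' z) := by
    intro w hw
    have hop : IsOpen S := by rw [hSb]; exact isOpen_ball
    have hcv : Convex ℝ S := by rw [hSb]; exact convex_ball _ _
    have := hop.is_const_of_deriv_eq_zero (f := fun w => T (a' (z.1, w), p' (z.1, w)))
      hcv.isPreconnected (fun v hv => ((hd1 (hdT _ hv)).differentiableAt).differentiableWithinAt)
      (fun v hv => by
        have h1 := (hd1 (hdT _ hv)).deriv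
        rw [h1]; exact hT _ hv) hw hzS
    exact this
  have hLc : ∀ w ∈ S, ((a' (z.1, w), p' (z.1, w)) : ℂ × ℂ) = (a' z, p' z) := by
    intro w hw
    rw [← h.inv _ (hm _ hw), ← h.inv _ (hm _ hz), hconst w hw, hW _ hw, hW _ hz]
  have hnb : ∀ᶠ w in 𝓝 z.2, w ∈ S := by
    rw [hSb] at hzS ⊢
    exact isOpen_ball.mem_nhds hzS
  constructor
  · have h1 := hd1 (f := a') (w := z.2) (ha.differentiableAt (isOpen_ball.mem_nhds hz))
    have h2 : HasDerivAt (fun w => a' (z.1, w)) 0 z.2 := by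
      refine (hasDerivAt_const z.2 (a' z)).congr_of_eventuallyEq ?_
      filter_upwards [hnb] with w hw
      exact congrArg Prod.fst (hLc w hw)
    exact h1.unique h2
  · have h1 := hd1 (f := p') (w := z.2) (hp.differentiableAt (isOpen_ball.mem_nhds hz))
    have h2 : HasDerivAt (fun w => p' (z.1, w)) 0 z.2 := by
      refine (hasDerivAt_const z.2 (p' z)).congr_of_eventuallyEq ?_
      filter_upwards [hnb] with w hw
      exact congrArg Prod.snd (hLc w hw)
    exact h1.unique h2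

end Vale.Agent.P097.H845
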