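import Mathlib
import Vale.Agent.P097.H845.T10a
import Vale.Agent.P097.H839.Tan.Br3

/-!
# P097 / row A5.T10 (beta): at an edge point with an interior limit the tangential limit line does
not depend on `w`
-/

set_option linter.all false

open Complex Metric Set Filter Topology

namespace Vale.Agent.P097.H845

open Vale.Agent.P097.H100 Vale.Agent.P097.TC Vale.Agent.P097.H839.Tan
open Vale.Agent.P097.H920 (ExtM)

section

variable {ι : Type*} {l : Filter ι}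

/-- **the data of T10**: windows with a limit line -/
structure NL10 (l : Filter ι) (b : ℝ) (F q : ℂ → ℂ) (s' : ℝ) (al p th χ : ι → ℂ × ℂ → ℂ)
    (a' p' th' χ0 : ℂ × ℂ → ℂ) (J : ι → ℂ) : Prop where
  J0 : ∀ᶠ n in l, J n ≠ 0
  hd : ∀ K ⊆ Wc s', IsCompact K → ∀ᶠ n in l, ∀ z ∈ K, DifferentiableAt ℂ (al n) z ∧
    DifferentiableAt ℂ (p n) z ∧ jac (al n) (p n) z = J n * χ n z
  χl : TendstoLocallyUniformlyOn χ χ0 l (Wc s')
  χc : ContinuousOn χ0 (Wc s')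
  χ0 : ∀ z ∈ Wc s', χ0 z ≠ 0
  da : DifferentiableOn ℂ a' (Wc s')
  dp : DifferentiableOn ℂ p' (Wc s')
  la : TendstoLocallyUniformlyOn al a' l (Wc s')
  lp : TendstoLocallyUniformlyOn p p' l (Wc s')
  dt : DifferentiableOn ℂ th' {z | z.1.im < 0 ∧ 0 < z.2.im}
  lt : TendstoLocallyUniformlyOn th th' l {z | z.1.im < 0 ∧ 0 < z.2.im}
  mem : ∀ z : ℂ × ℂ, z.1.im < 0 → 0 < z.2.im → th' z ∈ Sb b
  rt : ∀ K : Set (ℂ × ℂ), IsCompact K → (∀ z ∈ K, z.1.im < 0 ∧ 0 < z.2.im) →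
    ∀ᶠ n in l, ∀ z ∈ K, ContinuousAt (th n) z ∧ Mi F q (al n z) (p n z) (th n z) = 0 ∧
      deriv (Mi F q (al n z) (p n z)) (th n z) ≠ 0
  touch : ∀ (a : ℝ) (w₀ : ℂ), 0 < w₀.im → |w₀.re| ≤ w₀.im / 2 → ∀ δ > 0, ∃ ε > 0,
    ∀ᶠ n in l, ¬ ExtM b F q (al n) (p n) (th n) w₀ a δ ε

variable {Λ b s' : ℝ} {F q : ℂ → ℂ} {al p th χ : ι → ℂ × ℂ → ℂ} {a' p' th' χ0 : ℂ × ℂ → ℂ}
  {J : ι → ℂ}

/-- identity theorem from the slice `Im κ = 0` -/
theorem zero_of_real {g : ℂ × ℂ → ℂ} {z0 : ℂ × ℂ} {r : ℝ} (hg : DifferentiableOn ℂ g (ball z0 r))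
    (h0 : z0.1.im = 0) (hz : ∀ z ∈ ball z0 r, z.1.im = 0 → g z = 0) : ∀ z ∈ ball z0 r, g z = 0 := by
  intro z hz'
  have hz1 : dist z.1 z0.1 < r := by
    have := hz'
    rw [mem_ball, Prod.dist_eq] at this
    exact (le_max_left _ _).trans_lt this
  have hz2 : dist z.2 z0.2 < r := by
    have := hz'
    rw [mem_ball, Prod.dist_eq] at this
    exact (le_max_right _ _).trans_lt this
  have hr : 0 < r := dist_nonneg.trans_lt hz1
  set f : ℂ → ℂ := fun k => g (k, z.2) with hf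
  have hmem : ∀ k ∈ ball z0.1 r, ((k, z.2) : ℂ × ℂ) ∈ ball z0 r := by
    intro k hk
    rw [mem_ball, Prod.dist_eq]
    exact max_lt hk hz2
  have hfd : DifferentiableOn ℂ f (ball z0.1 r) :=
    hg.comp (f := fun k : ℂ => ((k, z.2) : ℂ × ℂ)) (by fun_prop) hmem
  have ha := hfd.analyticOnNhd isOpen_ball
  have hfr : ∃ᶠ k in 𝓝[≠] z0.1, f k = 0 := by
    have ht : Tendsto (fun n : ℕ => z0.1 + (((1 : ℝ) / ((n : ℝ) + 1) : ℝ) : ℂ)) atTop
        (𝓝[≠] z0.1) := by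
      refine tendsto_nhdsWithin_iff.2 ⟨?_, Eventually.of_forall fun n => ?_⟩
      · have h1 := tendsto_one_div_add_atTop_nhds_zero_nat (𝕜 := ℝ)
        have h2 := (Complex.continuous_ofReal.tendsto 0).comp h1
        have h3 := (tendsto_const_nhds (x := z0.1)).add h2
        simpa [Function.comp_def] using h3
      · have h1 : ((1 : ℝ) / ((n : ℝ) + 1)) ≠ 0 := by positivity
        have h2 : (((1 : ℝ) / ((n : ℝ) + 1) : ℝ) : ℂ) ≠ 0 := Complex.ofReal_ne_zero.2 h1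
        intro h3
        exact h2 (by simpa using h3)
    have hev : ∀ᶠ n : ℕ in atTop, f (z0.1 + (((1 : ℝ) / ((n : ℝ) + 1) : ℝ) : ℂ)) = 0 := by
      have hb : ∀ᶠ n : ℕ in atTop, z0.1 + (((1 : ℝ) / ((n : ℝ) + 1) : ℝ) : ℂ) ∈ ball z0.1 r :=
        (ht.mono_right nhdsWithin_le_nhds).eventually_mem (ball_mem_nhds _ hr)
      filter_upwards [hb] with n hn
      refine hz _ (hmem _ hn) ?_
      simp only [add_im, ofReal_im, add_zero, h0]
    exact ht.frequently hev.frequently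
  have h1 := ha.eqOn_zero_of_preconnected_of_frequently_eq_zero (convex_ball _ _).isPreconnected
    (mem_ball_self hr) hfr
  have h2 := h1 hz1
  simpa [hf] using h2

/-- identity theorem from the slices `Im κ < 0` -/
theorem zero_of_lower {g : ℂ × ℂ → ℂ} {z0 : ℂ × ℂ} {r : ℝ} (hg : DifferentiableOn ℂ g (ball z0 r))
    (h0 : z0.1.im = 0) (hz : ∀ z ∈ ball z0 r, z.1.im < 0 → g z = 0) : ∀ z ∈ ball z0 r, g z = 0 := by
  refine zero_of_real hg h0 fun z hz' hz0 => ?_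
  -- continuity
  have hc : ContinuousAt g z := (hg.differentiableAt (isOpen_ball.mem_nhds hz')).continuousAt
  have ht : Tendsto (fun n : ℕ => ((z.1 - (((1 : ℝ) / ((n : ℝ) + 1) : ℝ) : ℂ) * I, z.2) : ℂ × ℂ))
      atTop (𝓝 z) := by
    have h1 := tendsto_one_div_add_atTop_nhds_zero_nat (𝕜 := ℝ)
    have h2 := (Complex.continuous_ofReal.tendsto 0).comp h1
    have h3 := (tendsto_const_nhds (x := z.1)).sub (h2.mul_const I)
    have h4 : Tendsto (fun n : ℕ => z.1 - (((1 : ℝ) / ((n : ℝ) + 1) : ℝ) : ℂ) * I) atTop (𝓝 z.1) := by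
      simpa [Function.comp_def] using h3
    exact h4.prodMk_nhds tendsto_const_nhds
  have h5 := hc.tendsto.comp ht
  have hb : ∀ᶠ n : ℕ in atTop,
      ((z.1 - (((1 : ℝ) / ((n : ℝ) + 1) : ℝ) : ℂ) * I, z.2) : ℂ × ℂ) ∈ ball z0 r :=
    ht.eventually_mem (isOpen_ball.mem_nhds hz')
  refine tendsto_nhds_unique (h5.congr' ?_) tendsto_const_nhds
  filter_upwards [hb] with n hn
  refine hz _ hn ?_
  have : 0 < (1 : ℝ) / ((n : ℝ) + 1) := by positivity
  simp only [sub_im, mul_im, ofReal_re, I_im, mul_one, ofReal_im, I_re, mul_zero, add_zero, hz0]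
  linarith

/-- **(beta)** -/
theorem t10_edge [NeBot l] (hs : 0 < s') (hC : Cv Λ b F q)
    (N : NL10 l b F q s' al p th χ a' p' th' χ0 J) {m : ℤ}
    (tan : ∀ z : ℂ × ℂ, z.1.im < 0 → 0 < z.2.im →
      a' z = F (th' z) + m * Real.pi ∧ p' z = (-1) ^ m * q (th' z))
    {c : ℝ} {w₀ : ℂ} (hw : 0 < w₀.im) (hw' : |w₀.re| < w₀.im / 2) {x0 : ℂ} (hx : x0 ∈ Sb b)
    (edge : Tendsto th' (𝓝[{z : ℂ × ℂ | z.1.im < 0 ∧ 0 < z.2.im}] ((c : ℂ), w₀)) (𝓝 x0)) :
    ∃ O : Set (ℂ × ℂ), IsOpen O ∧ O ⊆ Wc s' ∧ O.Nonempty ∧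
      ∀ z ∈ O, fderiv ℂ a' z (0, 1) = 0 ∧ fderiv ℂ p' z (0, 1) = 0 := by
  classical
  have hWo := isOpen_Wc s'
  set z0 : ℂ × ℂ := ((c : ℂ), w₀) with hz0
  have hz0W : z0 ∈ Wc s' := sig_mem hs c hw
  have hz0im : z0.1.im = 0 := by simp [hz0]
  obtain ⟨ε, ε', T, W, U, Inv, K₀, h, -⟩ := exists_chart hC hx
  set v0 : ℂ × ℂ := (F x0, q x0) with hv0
  have hv0m : v0 ∈ ball v0 ε := mem_ball_self h.ε0
  set G : Set (ℂ × ℂ) := {z : ℂ × ℂ | z.1.im < 0 ∧ 0 < z.2.im} with hG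
  -- the limit line at the edge point
  have hcl : NeBot (𝓝[G] z0) := by
    rw [← mem_closure_iff_nhdsWithin_neBot]
    have ht : Tendsto (fun n : ℕ => ((z0.1 - (((1 : ℝ) / ((n : ℝ) + 1) : ℝ) : ℂ) * I, z0.2) : ℂ × ℂ))
        atTop (𝓝 z0) := by
      have h1 := tendsto_one_div_add_atTop_nhds_zero_nat (𝕜 := ℝ)
      have h2 := (Complex.continuous_ofReal.tendsto 0).comp h1
      have h3 := (tendsto_const_nhds (x := z0.1)).sub (h2.mul_const I)
      have h4 : Tendsto (fun n : ℕ => z0.1 - (((1 : ℝ) / ((n : ℝ) + 1) : ℝ) : ℂ) * I) atTop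
          (𝓝 z0.1) := by
        simpa [Function.comp_def] using h3
      exact h4.prodMk_nhds tendsto_const_nhds
    refine mem_closure_of_tendsto ht (Eventually.of_forall fun n => ⟨?_, hw⟩)
    have : 0 < (1 : ℝ) / ((n : ℝ) + 1) := by positivity
    simp only [sub_im, mul_im, ofReal_re, I_im, mul_one, ofReal_im, I_re, mul_zero, add_zero, hz0im]
    linarith
  have cF : ContinuousAt F x0 := (hC.dF.differentiableAt ((isOpen_Sb b).mem_nhds hx)).continuousAt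
  have cq : ContinuousAt q x0 := (hC.dq.differentiableAt ((isOpen_Sb b).mem_nhds hx)).continuousAt
  have ca : ContinuousAt a' z0 := (N.da.differentiableAt (hWo.mem_nhds hz0W)).continuousAt
  have cp : ContinuousAt p' z0 := (N.dp.differentiableAt (hWo.mem_nhds hz0W)).continuousAt
  have hG1 : ∀ᶠ z in 𝓝[G] z0, z ∈ G := self_mem_nhdsWithin
  have ea : a' z0 = F x0 + m * Real.pi := by
    refine tendsto_nhds_unique (l := 𝓝[G] z0) (ca.tendsto.mono_left nhdsWithin_le_nhds) ?_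
    have t1 : Tendsto (fun z => F (th' z) + m * Real.pi) (𝓝[G] z0) (𝓝 (F x0 + m * Real.pi)) :=
      (cF.tendsto.comp edge).add_const _
    refine t1.congr' ?_
    filter_upwards [hG1] with z hz using ((tan z hz.1 hz.2).1).symm
  have ep : p' z0 = (-1) ^ m * q x0 := by
    refine tendsto_nhds_unique (l := 𝓝[G] z0) (cp.tendsto.mono_left nhdsWithin_le_nhds) ?_
    have t1 : Tendsto (fun z => (-1) ^ m * q (th' z)) (𝓝[G] z0) (𝓝 ((-1) ^ m * q x0)) :=
      (cq.tendsto.comp edge).const_mul _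
    refine t1.congr' ?_
    filter_upwards [hG1] with z hz using ((tan z hz.1 hz.2).2).symm
  set L' : ℂ × ℂ → ℂ × ℂ := ori m a' p' with hL'
  have hLG : ∀ z ∈ G, L' z = (F (th' z), q (th' z)) := by
    intro z hz
    obtain ⟨e1, e2⟩ := tan z hz.1 hz.2
    rw [hL', ori, e1, e2, ← mul_assoc, n1_sq, one_mul, add_sub_cancel_right]
  have hL0 : L' z0 = v0 := by
    rw [hL', ori, ea, ep, ← mul_assoc, n1_sq, one_mul, add_sub_cancel_right]
  have hLd : DifferentiableOn ℂ L' (Wc s') := (N.da.sub_const _).prodMk (N.dp.const_mul _)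
  have cL : ContinuousAt L' z0 := (hLd.differentiableAt (hWo.mem_nhds hz0W)).continuousAt
  -- the radius
  have n1 : ∀ᶠ z in 𝓝 z0, z ∈ Wc s' := hWo.mem_nhds hz0W
  have n2 : ∀ᶠ z in 𝓝 z0, L' z ∈ ball v0 ε :=
    cL.eventually_mem (by rw [hL0]; exact isOpen_ball.mem_nhds hv0m)
  have n3 : ∀ᶠ z : ℂ × ℂ in 𝓝 z0, |z.2.re| < z.2.im / 2 := by
    have c1 : ContinuousAt (fun z : ℂ × ℂ => |z.2.re|) z0 := by fun_prop
    have c2 : ContinuousAt (fun z : ℂ × ℂ => z.2.im / 2) z0 := by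
      have : Continuous fun z : ℂ × ℂ => z.2.im / 2 :=
        (continuous_im.comp continuous_snd).div_const 2
      exact this.continuousAt
    exact c1.eventually_lt c2 hw'
  have n4 : ∀ᶠ z in 𝓝 z0, z ∈ G → th' z ∈ ball x0 ε' :=
    eventually_nhdsWithin_iff.1 (edge.eventually_mem (ball_mem_nhds _ h.ε1))
  obtain ⟨r, hr, hrs⟩ := Metric.mem_nhds_iff.1 (n1.and (n2.and (n3.and n4)))
  set Ω : Set (ℂ × ℂ) := ball z0 r with hΩ
  have hΩo : IsOpen Ω := isOpen_ball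
  have hΩW : Ω ⊆ Wc s' := fun z hz => (hrs hz).1
  have hΩL : MapsTo L' Ω (ball v0 ε) := fun z hz => (hrs hz).2.1
  have hΩre : ∀ z ∈ Ω, |z.2.re| < z.2.im / 2 := fun z hz => (hrs hz).2.2.1
  have hΩth : ∀ z ∈ Ω, z ∈ G → th' z ∈ ball x0 ε' := fun z hz => (hrs hz).2.2.2
  have cLΩ : ContinuousOn L' Ω := (hLd.mono hΩW).continuousOn
  -- convergence of the oriented lines
  have lV : TendstoLocallyUniformlyOn (fun n z => ori m (al n) (p n) z) L' l Ω :=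
    lu_comp hΩo ((lu_pair N.la N.lp).mono hΩW)
      ((N.da.continuousOn.prodMk N.dp.continuousOn).mono hΩW) isOpen_univ (mapsTo_univ _ _)
      (f := fun v : ℂ × ℂ => ((v.1 - m * Real.pi, (-1) ^ m * v.2) : ℂ × ℂ)) (ori_cont m).continuousOn
  have evV : ∀ K ⊆ Ω, IsCompact K → ∀ᶠ n in l, ∀ z ∈ K, ori m (al n) (p n) z ∈ ball v0 ε :=
    fun K hKW hK => lu_mapsTo hΩo lV cLΩ isOpen_ball hΩL hK hKW
  have hdΩ : ∀ K ⊆ Ω, IsCompact K → ∀ᶠ n in l, ∀ z ∈ K, DifferentiableAt ℂ (al n) z ∧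
      DifferentiableAt ℂ (p n) z ∧ jac (al n) (p n) z = J n * χ n z :=
    fun K hKΩ hK => N.hd K (hKΩ.trans hΩW) hK
  have evt : ∀ K ⊆ Ω, IsCompact K → (∀ z ∈ K, z.1.im < 0 ∧ 0 < z.2.im) → ∀ᶠ n in l, ∀ z ∈ K,
      th n z ∈ ball x0 ε' := by
    intro K hKΩ hK hKG
    have hGo : IsOpen G := isOpen_G
    exact lu_mapsTo (Ω := G ∩ Ω) (hGo.inter hΩo) (N.lt.mono inter_subset_left)
      (N.dt.continuousOn.mono inter_subset_left) isOpen_ball (fun z hz => hΩth z hz.2 hz.1) hK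
      (fun z hz => ⟨hKG z hz, hKΩ hz⟩)
  have Hd := tc_d (m := m) h hdΩ evV
  have Ht := tc_touch (m := m) h hΩo (fun z hz => (hΩW hz).1) hdΩ evV evt
    (fun K _ hK hKG => N.rt K hK hKG) (fun a w₁ hm' hw1 => N.touch a w₁ (hΩW hm').1 hw1)
  have Hfree : ∀ K ⊆ Ω, IsCompact K → (∀ z ∈ K, z.1.im < 0) →
      ∀ᶠ n in l, ∀ z ∈ K, W (ori m (al n) (p n) z) ≠ 0 := by
    intro K hKΩ hK hK0
    have hKG : ∀ z ∈ K, z.1.im < 0 ∧ 0 < z.2.im := fun z hz => ⟨hK0 z hz, (hΩW (hKΩ hz)).1⟩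
    filter_upwards [evV K hKΩ hK, evt K hKΩ hK hKG, N.rt K hK hKG] with n k1 k2 k3 z hz
    exact h.free (k1 z hz) (k2 z hz) (k3 z hz).2.1 (k3 z hz).2.2
  have cJ : ContinuousOn (Jac T W) (ball v0 ε) := (Jac_diff isOpen_ball h.dT h.dW).continuousOn
  have Hχ : TendstoLocallyUniformlyOn
      (fun n z => (-1) ^ m * Jac T W (ori m (al n) (p n) z) * χ n z)
      (fun z => (-1) ^ m * Jac T W (L' z) * χ0 z) l Ω := by
    have hop : IsOpen (ball v0 ε ×ˢ (univ : Set ℂ)) := isOpen_ball.prod isOpen_univ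
    exact lu_comp hΩo (lu_pair lV (N.χl.mono hΩW)) (cLΩ.prodMk (N.χc.mono hΩW)) hop
      (fun z hz => ⟨hΩL hz, mem_univ _⟩)
      (f := fun w : (ℂ × ℂ) × ℂ => (-1) ^ m * Jac T W w.1 * w.2)
      ((continuousOn_const.mul (cJ.comp continuousOn_fst fun w hw => hw.1)).mul
        continuousOn_snd)
  have Hχc : ContinuousOn (fun z => (-1) ^ m * Jac T W (L' z) * χ0 z) Ω :=
    (continuousOn_const.mul (cJ.comp cLΩ hΩL)).mul (N.χc.mono hΩW)
  have Hχ0 : ∀ z ∈ Ω, (-1) ^ m * Jac T W (L' z) * χ0 z ≠ 0 := fun z hz =>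
    mul_ne_zero (mul_ne_zero (neg_one_zpow_ne m) (h.jac _ (hΩL hz))) (N.χ0 z (hΩW hz))
  -- the limits in the chart
  set X0 : ℂ × ℂ → ℂ := fun z => T (L' z) with hX0
  have dX0 : DifferentiableOn ℂ X0 Ω := h.dT.comp (hLd.mono hΩW) hΩL
  have lX : TendstoLocallyUniformlyOn (fun n z => T (ori m (al n) (p n) z)) X0 l Ω :=
    lu_comp hΩo lV cLΩ isOpen_ball hΩL h.dT.continuousOn
  have dW0 : DifferentiableOn ℂ (fun z => W (L' z)) Ω := h.dW.comp (hLd.mono hΩW) hΩL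
  have hW0 : ∀ z ∈ Ω, W (L' z) = 0 := by
    refine zero_of_lower dW0 hz0im fun z hz hz1 => ?_
    have hzG : z ∈ G := ⟨hz1, (hΩW hz).1⟩
    have hxb := hΩth z hz hzG
    have hxS : th' z ∈ Sb b := h.sb hxb
    have e1 := hLG z hzG
    have hv : L' z ∈ ball v0 ε := hΩL hz
    by_contra hne
    have e2 : Mi F q (L' z).1 (L' z).2 (th' z) = 0 := by rw [e1]; exact Mi_base F q _
    have e3 := (h.simple_iff hv hxb e2).2 hne
    apply e3
    rw [deriv_Mi hC hxS, e1]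
    exact Mx_base F q _
  -- the smaller ball
  set K : Set (ℂ × ℂ) := closedBall z0 (r / 2) with hK
  have cK : IsCompact K := isCompact_closedBall _ _
  have hKΩ : K ⊆ Ω := closedBall_subset_ball (by linarith)
  set Ω' : Set (ℂ × ℂ) := ball z0 (r / 2) with hΩ'
  have hΩ'K : Ω' ⊆ K := ball_subset_closedBall
  have hΩ'Ω : Ω' ⊆ Ω := hΩ'K.trans hKΩ
  have evK := Hd K hKΩ cK
  have hreal : ∀ z ∈ Ω', z.1.im = 0 → fderiv ℂ X0 z (0, 1) = 0 := by
    intro z hz hz1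
    by_contra htr
    refine leafK (l := l) (Ω := Ω') isOpen_ball hz hz1
      (X := fun n z => T (ori m (al n) (p n) z)) (m := fun n z => W (ori m (al n) (p n) z))
      (χ := fun n z => (-1) ^ m * Jac T W (ori m (al n) (p n) z) * χ n z) (X0 := X0)
      (χ0 := fun z => (-1) ^ m * Jac T W (L' z) * χ0 z) (J := J) ?_ ?_ (dX0.mono hΩ'Ω)
      (lX.mono hΩ'Ω) N.J0 (Hχ.mono hΩ'Ω) ?_ (Hχ0 z (hΩ'Ω hz)) ?_ htr ?_ ?_
    · filter_upwards [evK] with n hn y hy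
      exact (hn y (hΩ'K hy)).1.differentiableWithinAt
    · filter_upwards [evK] with n hn y hy
      exact (hn y (hΩ'K hy)).2.1.differentiableWithinAt
    · exact Hχc.continuousAt (hΩo.mem_nhds (hΩ'Ω hz))
    · filter_upwards [evK] with n hn y hy
      exact (hn y (hΩ'K hy)).2.2
    · exact fun K1 hK1 cK1 hK0 => Hfree K1 (hK1.trans hΩ'Ω) cK1 hK0
    · intro y hy hy0 δ hδ
      exact Ht y (hΩ'Ω hy) hy0 (hΩre y (hΩ'Ω hy)).le δ hδ
  have dD : DifferentiableOn ℂ (fun z => fderiv ℂ X0 z (0, 1)) Ω' := by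
    have h1 : DifferentiableOn ℂ (fderiv ℂ X0) Ω := by
      have := (P268.contDiffOn_of_differentiableOn hΩo dX0 2)
      intro z hz
      have h2 : ContDiffAt ℂ 2 X0 z := by
        have := this.contDiffAt (hΩo.mem_nhds hz)
        simpa using this
      have h3 : ContDiffAt ℂ 1 (fderiv ℂ X0) z := h2.fderiv_right (by norm_num)
      exact (h3.differentiableAt one_ne_zero).differentiableWithinAt
    exact (h1.mono hΩ'Ω).clm_apply (differentiableOn_const _)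
  have hall : ∀ z ∈ Ω', fderiv ℂ X0 z (0, 1) = 0 := zero_of_real dD hz0im hreal
  have hfin := chart_dw h (z0 := z0) (r := r / 2) (a' := fun z => a' z - m * Real.pi)
    (p' := fun z => (-1) ^ m * p' z) ((N.da.mono (hΩ'Ω.trans hΩW)).sub_const _)
    ((N.dp.mono (hΩ'Ω.trans hΩW)).const_mul _) (fun z hz => hΩL (hΩ'Ω hz))
    (fun z hz => hW0 z (hΩ'Ω hz)) hall
  refine ⟨Ω', isOpen_ball, hΩ'Ω.trans hΩW, ⟨z0, mem_ball_self (by linarith)⟩, fun z hz => ?_⟩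
  obtain ⟨e1, e2⟩ := hfin z hz
  have hzW := hΩW (hΩ'Ω hz)
  constructor
  · rw [fderiv_sub_const] at e1
    exact e1
  · rw [fderiv_const_mul (N.dp.differentiableAt (hWo.mem_nhds hzW))] at e2
    simp only [ContinuousLinearMap.smul_apply, smul_eq_mul] at e2
    exact (mul_eq_zero.1 e2).resolve_left (neg_one_zpow_ne m)

end

end Vale.Agent.P097.H845
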